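import Crest.Agent.R6.Defs2

/-! Andréief's identity as a bound, used twice.
`n! det(∫ f_i g_j) = ∑_{σ,τ} sgn σ sgn τ ∏_k ∫ f_{σ k} g_{τ k} = ∫ det f_i(x_k) det g_j(x_k)`
(`MeasureTheory.integral_fintype_prod_eq_prod`, `Integrable.fintype_prod`).
For `double_bound`: `Psi N d` is bounded and measurable on `(-1,1)` (`|d| ≤ 42N`; `|tt x| ≤ 2|x|`),
`|Ker x s * colR N j s| ≤ 2` on `(-1,1)×(0,1)` as `1 + x² - 2xs ≥ 1 - s`; non-injective `x`, `s` give
zero determinants; `x i ∈ {0, 1/3}` is a null set; `∫_{-1}^1 |x-1/3|^(-1/2) ≤ 4`. -/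

set_option autoImplicit false

namespace Crest.Agent.R6
open MeasureTheory Finset

theorem andreief_bound {X : Type} [MeasurableSpace X] (μ : Measure X) [SigmaFinite μ] {n : ℕ}
    (f g : Fin n → X → ℝ) (hint : ∀ i j, Integrable (fun x => f i x * g j x) μ)
    (B : (Fin n → X) → ℝ) (hB : Integrable B (Measure.pi fun _ => μ))
    (hle : ∀ᵐ x ∂(Measure.pi fun _ : Fin n => μ),
      |(Matrix.of fun i k => f i (x k)).det| * |(Matrix.of fun j k => g j (x k)).det| ≤ B x) :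
    |(Matrix.of fun i j => ∫ x, f i x * g j x ∂μ).det| ≤ ∫ x, B x ∂(Measure.pi fun _ => μ) := by
  set T : Matrix (Fin n) (Fin n) ℝ := Matrix.of fun i j => ∫ x, f i x * g j x ∂μ with hT
  have e : ∀ x : Fin n → X,
      (Matrix.of fun i k => f i (x k)).det * (Matrix.of fun j k => g j (x k)).det =
      ∑ σ : Equiv.Perm (Fin n), ∑ τ : Equiv.Perm (Fin n),
        ((Equiv.Perm.sign σ : ℤ) : ℝ) * ((Equiv.Perm.sign τ : ℤ) : ℝ) *
          ∏ k, (f (σ k) (x k) * g (τ k) (x k)) := fun x => by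
    rw [Matrix.det_apply', Matrix.det_apply', Finset.sum_mul_sum]
    refine Finset.sum_congr rfl fun σ _ => Finset.sum_congr rfl fun τ _ => ?_
    simp only [Finset.prod_mul_distrib, Matrix.of_apply]
    ring
  have hI : ∀ σ τ : Equiv.Perm (Fin n), Integrable (fun x : Fin n → X =>
      ((Equiv.Perm.sign σ : ℤ) : ℝ) * ((Equiv.Perm.sign τ : ℤ) : ℝ) *
        ∏ k, (f (σ k) (x k) * g (τ k) (x k))) (Measure.pi fun _ => μ) :=
    fun σ τ => (Integrable.fintype_prod
      (f := fun k y => f (σ k) y * g (τ k) y) fun k => hint _ _).const_mul _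
  have h2 : ∫ x : Fin n → X,
      (Matrix.of fun i k => f i (x k)).det * (Matrix.of fun j k => g j (x k)).det
      ∂(Measure.pi fun _ => μ) = n.factorial * T.det := by
    simp only [e]
    rw [integral_finset_sum _ fun σ _ => integrable_finset_sum _ fun τ _ => hI σ τ]
    simp only [fun σ => integral_finset_sum _ fun τ (_ : τ ∈ Finset.univ) => hI σ τ,
      integral_const_mul]
    have h3 : ∀ σ τ : Equiv.Perm (Fin n), ∫ x : Fin n → X,
        ∏ k, (f (σ k) (x k) * g (τ k) (x k)) ∂(Measure.pi fun _ => μ) =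
        ∏ k, T (σ k) (τ k) := fun σ τ =>
      integral_fintype_prod_eq_prod (fun k y => f (σ k) y * g (τ k) y)
    simp only [h3]
    rw [Finset.sum_comm]
    have h4 : ∀ τ : Equiv.Perm (Fin n), ∑ σ : Equiv.Perm (Fin n),
        ((Equiv.Perm.sign σ : ℤ) : ℝ) * ((Equiv.Perm.sign τ : ℤ) : ℝ) * ∏ k, T (σ k) (τ k) =
        T.det := fun τ => by
      have h5 := Matrix.det_permute' τ T
      rw [Matrix.det_apply'] at h5
      simp only [Matrix.submatrix_apply, id] at h5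
      have h6 : ((Equiv.Perm.sign τ : ℤ) : ℝ) * ((Equiv.Perm.sign τ : ℤ) : ℝ) = 1 := by
        rcases Int.units_eq_one_or (Equiv.Perm.sign τ) with h | h <;> simp [h]
      calc _ = ((Equiv.Perm.sign τ : ℤ) : ℝ) * ∑ σ : Equiv.Perm (Fin n),
            ((Equiv.Perm.sign σ : ℤ) : ℝ) * ∏ k, T (σ k) (τ k) := by
            rw [Finset.mul_sum]
            exact Finset.sum_congr rfl fun σ _ => by ring
        _ = _ := by rw [h5, ← mul_assoc, h6, one_mul]
    simp only [h4, Finset.sum_const, Finset.card_univ, Fintype.card_perm, Fintype.card_fin,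
      nsmul_eq_mul]
  have h7 := norm_integral_le_of_norm_le hB (f := fun x : Fin n → X =>
      (Matrix.of fun i k => f i (x k)).det * (Matrix.of fun j k => g j (x k)).det)
    (by filter_upwards [hle] with x hx; rwa [Real.norm_eq_abs, abs_mul])
  rw [h2, Real.norm_eq_abs, abs_mul, Nat.abs_cast] at h7
  have h8 : (1 : ℝ) ≤ n.factorial := by exact_mod_cast n.factorial_pos
  nlinarith [abs_nonneg T.det]

theorem And.ii0 {a : ℝ} (ha : 0 ≤ a) :
    IntervalIntegrable (fun x : ℝ => |x| ^ (-(1 / 2) : ℝ)) volume 0 a ∧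
      ∫ x in (0 : ℝ)..a, |x| ^ (-(1 / 2) : ℝ) = 2 * a ^ (1 / 2 : ℝ) := by
  have hc : Set.EqOn (fun x : ℝ => x ^ (-(1 / 2) : ℝ)) (fun x : ℝ => |x| ^ (-(1 / 2) : ℝ))
      (Set.uIcc 0 a) := by
    intro x hx
    rw [Set.uIcc_of_le ha] at hx
    simp only [abs_of_nonneg hx.1]
  refine ⟨(intervalIntegral.intervalIntegrable_rpow' (by norm_num)).congr
    (fun x hx => hc (Set.uIoc_subset_uIcc hx)), ?_⟩
  rw [← intervalIntegral.integral_congr hc, integral_rpow (Or.inl (by norm_num))]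
  norm_num
  ring

theorem And.ii : IntegrableOn (fun x : ℝ => |x - 1 / 3| ^ (-(1 / 2) : ℝ)) (Set.Ioo (-1) 1) ∧
    ∫ x in Set.Ioo (-1 : ℝ) 1, |x - 1 / 3| ^ (-(1 / 2) : ℝ) ≤ 4 := by
  obtain ⟨a1, a2⟩ := And.ii0 (a := 4 / 3) (by norm_num)
  obtain ⟨b1, b2⟩ := And.ii0 (a := 2 / 3) (by norm_num)
  have a3 : IntervalIntegrable (fun x : ℝ => |x| ^ (-(1 / 2) : ℝ)) volume (-(4 / 3)) 0 := by
    have := ((IntervalIntegrable.iff_comp_neg (by simp)).1 a1).symm
    simpa using this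
  have a4 : ∫ x in (-(4 / 3) : ℝ)..0, |x| ^ (-(1 / 2) : ℝ) = 2 * (4 / 3 : ℝ) ^ (1 / 2 : ℝ) := by
    rw [← a2]
    have := intervalIntegral.integral_comp_neg (a := 0) (b := 4 / 3)
      (fun x : ℝ => |x| ^ (-(1 / 2) : ℝ))
    simp only [abs_neg, neg_zero] at this
    exact this.symm
  have c1 := (a3.trans b1).comp_sub_right (1 / 3)
  norm_num only at c1
  refine ⟨(intervalIntegrable_iff_integrableOn_Ioo_of_le (by norm_num)).1 c1, ?_⟩
  rw [← integral_Ioc_eq_integral_Ioo, ← intervalIntegral.integral_of_le (by norm_num),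
    intervalIntegral.integral_comp_sub_right (fun x : ℝ => |x| ^ (-(1 / 2) : ℝ))]
  rw [show (-1 - 1 / 3 : ℝ) = -(4 / 3) by norm_num, show (1 - 1 / 3 : ℝ) = 2 / 3 by norm_num,
    ← intervalIntegral.integral_add_adjacent_intervals a3 b1, a4, b2, ← Real.sqrt_eq_rpow,
    ← Real.sqrt_eq_rpow]
  have h1 : √(4 / 3 : ℝ) ≤ 1.16 := Real.sqrt_le_iff.2 ⟨by norm_num, by norm_num⟩
  have h2 : √(2 / 3 : ℝ) ≤ 0.82 := Real.sqrt_le_iff.2 ⟨by norm_num, by norm_num⟩
  linarith

theorem And.kc {N : ℕ} (hN : 1 ≤ N) (j : ℕ) {x s : ℝ} (hs : s ∈ Set.Ioo (0 : ℝ) 1) :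
    |Ker x s * colR N j s| ≤ 2 := by
  obtain ⟨h0, h1⟩ := hs
  have h2 : 1 - s ≤ 1 + x ^ 2 - 2 * x * s := by nlinarith [sq_nonneg (x - s)]
  have h3 : 0 < 1 - s := by linarith
  have h4 : colR N j s ≤ 1 - s := by
    unfold colR
    calc s ^ (5 * N + j) * (1 - s) ^ (2 * N) ≤ 1 * (1 - s) ^ 1 := by
          apply mul_le_mul (pow_le_one₀ h0.le h1.le)
            (pow_le_pow_of_le_one h3.le (by linarith) (by omega)) (by positivity) zero_le_one
      _ = _ := by ring
  have h5 : 0 ≤ colR N j s := by unfold colR; positivity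
  have h6 : 0 < 1 + x ^ 2 - 2 * x * s := by linarith
  unfold Ker
  rw [abs_of_nonneg (by positivity), div_mul_eq_mul_div, div_le_iff₀ h6]
  linarith

theorem And.meas_kc (N j : ℕ) : Measurable fun q : ℝ × ℝ => Ker q.1 q.2 * colR N j q.2 := by
  unfold Ker colR
  fun_prop

theorem And.meas_Psi (N : ℕ) (d : ℤ) : Measurable (Psi N d) := by
  have h : Measurable (psi d) := by
    unfold psi
    refine Measurable.ite measurableSet_Iio ?_ ?_ <;> fun_prop
  unfold Psi tt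
  fun_prop

theorem And.Psi_le {N : ℕ} {d : ℤ} (hd : d.natAbs ≤ 42 * N) {x : ℝ} (hx : x ∈ Set.Ioo (-1 : ℝ) 1)
    (h0 : x ≠ 0) : |Psi N d x| ≤ 3 ^ (2 * N) * (2 ^ (42 * N) * 2) := by
  have ha : |x| ≤ 1 := abs_le.2 ⟨hx.1.le, hx.2.le⟩
  have hp : 0 < |x| := abs_pos.2 h0
  have h1 : |tt x| ≤ 2 * |x| := by
    unfold tt
    rw [abs_div, abs_mul, abs_two, abs_of_pos (by positivity : (0 : ℝ) < 1 + x ^ 2)]
    exact div_le_self (by positivity) (by nlinarith [sq_nonneg x])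
  have h2 : |1 - tt x| ≤ 3 := (abs_sub _ _).trans (by rw [abs_one]; linarith)
  have h3 : ∀ e : ℤ, e.natAbs ≤ 42 * N → |x| ^ (42 * N) * |x ^ e| ≤ 1 := by
    intro e he
    rw [abs_zpow, ← zpow_natCast, ← zpow_add₀ hp.ne']
    exact zpow_le_one₀ hp ha (by omega)
  have h4 : |psi d x| ≤ 5 / 4 * |x ^ d| + 1 / 2 * |x ^ (-d)| := by
    unfold psi
    split_ifs
    · rw [abs_mul, abs_neg, abs_of_pos (by norm_num : (0 : ℝ) < 1 / 2)]
      nlinarith [abs_add_le (x ^ d) (x ^ (-d)), abs_nonneg (x ^ d)]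
    · refine (abs_sub _ _).trans ?_
      rw [abs_mul, abs_mul, abs_of_pos (by norm_num : (0 : ℝ) < 5 / 4),
        abs_of_pos (by norm_num : (0 : ℝ) < 1 / 4)]
      nlinarith [abs_nonneg (x ^ (-d))]
  have h5 := h3 d hd
  have h6 := h3 (-d) (by omega)
  unfold Psi
  rw [abs_mul, abs_mul, abs_pow, abs_pow, mul_assoc]
  gcongr ?_ * ?_
  · gcongr
  · calc |tt x| ^ (42 * N) * |psi d x|
        ≤ (2 * |x|) ^ (42 * N) * (5 / 4 * |x ^ d| + 1 / 2 * |x ^ (-d)|) := by gcongr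
      _ = 2 ^ (42 * N) * (5 / 4 * (|x| ^ (42 * N) * |x ^ d|) +
            1 / 2 * (|x| ^ (42 * N) * |x ^ (-d)|)) := by rw [mul_pow]; ring
      _ ≤ _ := by gcongr; linarith

theorem And.ae_pi {n : ℕ} (μ : Measure ℝ) [SigmaFinite μ] {p : ℝ → Prop} (h : ∀ᵐ x ∂μ, p x) :
    ∀ᵐ x ∂(Measure.pi fun _ : Fin n => μ), ∀ i, p (x i) :=
  ae_all_iff.2 fun i => (Measure.quasiMeasurePreserving_eval (fun _ : Fin n => μ) i).ae h

theorem And.det_zero {n : ℕ} (f : Fin n → ℝ → ℝ) {x : Fin n → ℝ} (h : ¬ Function.Injective x) :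
    (Matrix.of fun i k => f i (x k)).det = 0 := by
  simp only [Function.Injective, not_forall] at h
  obtain ⟨a, b, hab, hne⟩ := h
  exact Matrix.det_zero_of_column_eq hne fun k => by simp [hab]

theorem double_bound {N : ℕ} (hN : 1 ≤ N) {B : ℝ} (hB : 0 ≤ B)
    (h : ∀ x s : Fin (32 * N) → ℝ, GoodX x → GoodS s →
      |detPsi N x| * |detKer x s| * |detCol N s| ≤ B * ∏ i, |x i - 1 / 3| ^ (-(1 / 2) : ℝ)) :
    |(EmatR N).det| ≤ B * 4 ^ (32 * N) := by
  have hx0 : ∀ᵐ x ∂(volume.restrict (Set.Ioo (-1 : ℝ) 1)),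
      x ∈ Set.Ioo (-1 : ℝ) 1 ∧ x ≠ 0 ∧ x ≠ 1 / 3 := by
    have h1 : ∀ c : ℝ, ∀ᵐ x ∂(volume.restrict (Set.Ioo (-1 : ℝ) 1)), x ≠ c := fun c =>
      ae_restrict_of_ae (by simp [ae_iff])
    filter_upwards [ae_restrict_mem measurableSet_Ioo, h1 0, h1 (1 / 3)] with x a b c
    exact ⟨a, b, c⟩
  have hs0 : ∀ᵐ s ∂(volume.restrict (Set.Ioo (0 : ℝ) 1)), s ∈ Set.Ioo (0 : ℝ) 1 :=
    ae_restrict_mem measurableSet_Ioo
  have : IsProbabilityMeasure (volume.restrict (Set.Ioo (0 : ℝ) 1)) := ⟨by simp⟩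
  have hin : ∀ (x : ℝ) (j : ℕ), Integrable (fun s => Ker x s * colR N j s)
      (volume.restrict (Set.Ioo (0 : ℝ) 1)) := by
    intro x j
    refine Integrable.of_bound ((And.meas_kc N j).comp
      (measurable_const.prodMk measurable_id)).aestronglyMeasurable 2 ?_
    filter_upwards [hs0] with s hs
    exact And.kc hN j hs
  have key := andreief_bound (volume.restrict (Set.Ioo (-1 : ℝ) 1)) (n := 32 * N)
    (fun r x => Psi N (((r : ℕ) : ℤ) - 3 * N) x)
    (fun j x => ∫ s in Set.Ioo (0 : ℝ) 1, Ker x s * colR N j s) ?_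
    (fun x => B * ∏ i, |x i - 1 / 3| ^ (-(1 / 2) : ℝ))
    ((Integrable.fintype_prod (f := fun _ x => |x - 1 / 3| ^ (-(1 / 2) : ℝ))
      fun _ => And.ii.1).const_mul B) ?_
  · refine key.trans ?_
    rw [integral_const_mul,
      integral_fintype_prod_eq_pow (fun x : ℝ => |x - 1 / 3| ^ (-(1 / 2) : ℝ)), Fintype.card_fin]
    gcongr
    exact And.ii.2
  · intro i j
    refine Integrable.of_bound ((And.meas_Psi N _).aestronglyMeasurable.mul
      ((And.meas_kc N j).stronglyMeasurable.integral_prod_right'.aestronglyMeasurable))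
      (3 ^ (2 * N) * (2 ^ (42 * N) * 2) * 2) ?_
    filter_upwards [hx0] with x hx
    rw [norm_mul]
    have hi := i.2
    gcongr
    · exact And.Psi_le (by omega) hx.1 hx.2.1
    · have := norm_integral_le_of_norm_le_const (μ := volume.restrict (Set.Ioo (0 : ℝ) 1))
        (f := fun s => Ker x s * colR N j s) (C := 2)
        (by filter_upwards [hs0] with s hs; exact And.kc hN j hs)
      simpa using this
  · filter_upwards [And.ae_pi (n := 32 * N) _ hx0] with x hx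
    have hB' : 0 ≤ B * ∏ i, |x i - 1 / 3| ^ (-(1 / 2) : ℝ) := by positivity
    change |detPsi N x| * _ ≤ _
    by_cases hz : detPsi N x = 0
    · rw [hz]; simpa using hB'
    have hinj : Function.Injective x := by
      by_contra hn
      exact hz (And.det_zero (fun r x => Psi N (((r : ℕ) : ℤ) - 3 * N) x) hn)
    have hG : GoodX x := ⟨hinj, fun i => ⟨(hx i).1.1, (hx i).1.2, (hx i).2⟩⟩
    have hp : 0 < |detPsi N x| := abs_pos.2 hz
    have key2 := andreief_bound (volume.restrict (Set.Ioo (0 : ℝ) 1)) (n := 32 * N)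
      (fun i s => Ker (x i) s) (fun j s => colR N j s) (fun i j => hin _ _)
      (fun _ => (B * ∏ i, |x i - 1 / 3| ^ (-(1 / 2) : ℝ)) / |detPsi N x|) (integrable_const _) ?_
    · rw [← Matrix.det_transpose] at key2
      simp only [integral_const, probReal_univ, one_smul] at key2
      rw [le_div_iff₀' hp] at key2
      exact key2
    · filter_upwards [And.ae_pi (n := 32 * N) _ hs0] with s hs
      by_cases hsi : Function.Injective s
      · rw [le_div_iff₀' hp, ← mul_assoc]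
        exact h x s hG ⟨hsi, fun k => hs k⟩
      · rw [And.det_zero (fun j s => colR N j s) hsi]
        simp only [abs_zero, mul_zero]
        positivity

end Crest.Agent.R6
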