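import Crest.Agent.R6.Frob
import Crest.Agent.R6.NonvanNum

/-! Non-vanishing for prime `N = p` large.  Row `r = k + p r1` has `d = k + p (r1 - 3)`, column
`l + p j`.  By `Ent_frob`, `p² E ≡ (I ⊗ M0 + J ⊗ M1)(A ⊗ I)` mod `p`, with `A k l = coeff (Acal p k) l`
upper triangular with unit diagonal, `J k k' = [1 ≤ k ∧ k' = p - k]` (`Acal p p = 0`).
Reduce to `ZMod p` (all entries are `p`-integral); a left kernel vector `(v_k)` of `I⊗M0 + J⊗M1`
satisfies `v_0 M0 = 0`, `(v_k ± v_{p-k})(M0 ± M1) = 0`.  For `p` larger than numerators and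
denominators of the three determinants these are units mod `p`. -/

set_option autoImplicit false

namespace Crest.Agent.R6
open Filter

namespace NonvanX
open Finset Matrix

theorem ev_norm_le (q : ℚ) : ∀ᶠ p : ℕ in atTop, p.Prime → padicNorm p q ≤ 1 := by
  filter_upwards [eventually_gt_atTop q.den] with p hp hpp
  haveI : Fact p.Prime := ⟨hpp⟩
  have h1 : padicNorm p (q.den : ℚ) = 1 := by
    rw [padicNorm.nat_eq_one_iff]
    intro h
    exact absurd (Nat.le_of_dvd q.den_pos h) (by omega)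
  have h2 : padicNorm p (q.num : ℚ) ≤ 1 := padicNorm.of_int _
  have h3 : q = (q.num : ℚ) / (q.den : ℚ) := (Rat.num_div_den q).symm
  rw [h3, padicNorm.div, h1, div_one]
  exact h2

theorem cg_sum_zero {p : ℕ} [Fact p.Prime] {ι : Type*} (t : Finset ι) {f : ι → ℚ}
    (h : ∀ i ∈ t, Cg p (f i) 0) : Cg p (∑ i ∈ t, f i) 0 := by
  have := Cg.sum (p := p) t (f := f) (g := fun _ => 0) h
  simpa using this

theorem cg_mul_zero {p : ℕ} [Fact p.Prime] {c x : ℚ} (hc : padicNorm p c ≤ 1) (h : Cg p x 0) :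
    Cg p (c * x) 0 := by
  have := Cg.mul_left c hc h
  simpa using this

theorem ev_inj {n : ℕ} (M : Matrix (Fin n) (Fin n) ℚ) (hM : M.det ≠ 0) :
    ∀ᶠ p : ℕ in atTop, p.Prime → ∀ x : Fin n → ℚ, (∀ j, Cg p (∑ i, x i * M i j) 0) →
      ∀ i, Cg p (x i) 0 := by
  have h : ∀ᶠ p : ℕ in atTop, ∀ ij : Fin n × Fin n, p.Prime → padicNorm p (M⁻¹ ij.1 ij.2) ≤ 1 :=
    eventually_all.2 fun ij => ev_norm_le _
  filter_upwards [h] with p hp hpp x hx i
  haveI : Fact p.Prime := ⟨hpp⟩
  have h1 : x = (x ᵥ* M) ᵥ* M⁻¹ := by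
    rw [Matrix.vecMul_vecMul, Matrix.mul_nonsing_inv _ (isUnit_iff_ne_zero.2 hM), Matrix.vecMul_one]
  have h2 : x i = ∑ j, M⁻¹ j i * ∑ k, x k * M k j := by
    conv_lhs => rw [h1]
    simp only [Matrix.vecMul, dotProduct]
    exact Finset.sum_congr rfl fun j _ => mul_comm _ _
  rw [h2]
  exact cg_sum_zero _ fun j _ => cg_mul_zero (hp (j, i) hpp) (hx j)

theorem norm_two_pow_inv {p : ℕ} [Fact p.Prime] (hp : 2 < p) (e : ℕ) :
    padicNorm p (((2 : ℚ) ^ e)⁻¹) ≤ 1 := by
  have h1 : padicNorm p (((2 ^ e : ℕ) : ℚ)) = 1 := by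
    rw [padicNorm.nat_eq_one_iff]
    intro h
    have := (Fact.out : p.Prime).dvd_of_dvd_pow h
    exact absurd (Nat.le_of_dvd (by norm_num) this) (by omega)
  have h2 : ((2 : ℚ) ^ e)⁻¹ = 1 / ((2 ^ e : ℕ) : ℚ) := by push_cast; rw [one_div]
  rw [h2, padicNorm.div, h1, padicNorm.one]
  norm_num

/-- triangular solve. -/
theorem tri {p : ℕ} [Fact p.Prime] (hp : 2 < p) (u : ℕ → ℚ)
    (h : ∀ l, l < p → Cg p (∑ k ∈ range p, ((Acal p k).coeff l : ℚ) * u k) 0) :
    ∀ l, l < p → Cg p (u l) 0 := by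
  intro l
  induction l using Nat.strong_induction_on with
  | _ l ih =>
    intro hl
    have h1 := h l hl
    have hmem : l ∈ range p := mem_range.2 hl
    rw [← Finset.add_sum_erase _ _ hmem] at h1
    have h2 : Cg p (∑ k ∈ (range p).erase l, ((Acal p k).coeff l : ℚ) * u k) 0 := by
      refine cg_sum_zero _ fun k hk => ?_
      have hk1 := (mem_erase.1 hk).1
      have hk2 := mem_range.1 (mem_erase.1 hk).2
      rcases lt_or_gt_of_ne hk1 with hlt | hgt
      · exact cg_mul_zero (padicNorm.of_int _) (ih k hlt hk2)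
      · rw [coeff_Acal_lt hk2.le hgt hl]
        simpa using Cg.refl (p := p) 0
    have h3 := Cg.sub h1 h2
    rw [add_sub_cancel_right, sub_zero, coeff_Acal_self hl] at h3
    have h4 := cg_mul_zero (norm_two_pow_inv hp (p - 1 - l)) h3
    push_cast at h4
    rwa [← mul_assoc, inv_mul_cancel₀ (by positivity), one_mul] at h4

end NonvanX

open NonvanX Finset in
theorem det_ne_zero (γ : ℚ) : ∀ᶠ N : ℕ in atTop, N.Prime → (Emat γ N).det ≠ 0 := by
  filter_upwards [eventually_gt_atTop 47, ev_norm_le γ, ev_inj M0 det_M0_ne,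
    ev_inj (M0 + M1) det_M0_add_ne, ev_inj (M0 - M1) det_M0_sub_ne] with p hp47 hγ h0 hadd hsub hpp
  haveI : Fact p.Prime := ⟨hpp⟩
  intro hdet
  obtain ⟨v0, hv0, hker0⟩ := Matrix.exists_vecMul_eq_zero_iff.2 hdet
  obtain ⟨i1, hi1⟩ := Function.ne_iff.1 hv0
  obtain ⟨i0, -, hi0⟩ := Finset.exists_max_image (univ : Finset (Fin (32 * p)))
    (fun i => padicNorm p (v0 i)) ⟨i1, mem_univ _⟩
  have hpos : 0 < padicNorm p (v0 i0) :=
    lt_of_lt_of_le (lt_of_le_of_ne (padicNorm.nonneg _) (padicNorm.nonzero hi1).symm)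
      (hi0 i1 (mem_univ _))
  have hne : v0 i0 ≠ 0 := by
    intro h; rw [h, padicNorm.zero] at hpos; exact lt_irrefl _ hpos
  set v : Fin (32 * p) → ℚ := fun i => v0 i / v0 i0 with hv
  have hvn : ∀ i, padicNorm p (v i) ≤ 1 := fun i => by
    simp only [hv]
    rw [padicNorm.div, div_le_one hpos]
    exact hi0 i (mem_univ _)
  have hv1 : v i0 = 1 := div_self hne
  have hker : ∀ c, ∑ r, v r * Emat γ p r c = 0 := fun c => by
    have h1 := congrFun hker0 c
    simp only [Matrix.vecMul, dotProduct, Pi.zero_apply] at h1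
    have : ∑ r, v r * Emat γ p r c = (∑ r, v0 r * Emat γ p r c) / v0 i0 := by
      rw [Finset.sum_div]
      exact Finset.sum_congr rfl fun r _ => by simp only [hv]; ring
    rw [this, h1, zero_div]
  set W : ℕ → Fin 32 → ℚ := fun k a =>
    if h : k < p then v (finProdFinEquiv (a, (⟨k, h⟩ : Fin p))) else 0 with hW
  have hWp : ∀ a, W p a = 0 := fun a => by simp [hW]
  have hWn : ∀ k a, padicNorm p (W k a) ≤ 1 := fun k a => by
    simp only [hW]
    split_ifs
    · exact hvn _
    · simp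
  have hu : ∀ j : Fin 32, ∀ k, k < p →
      Cg p (∑ a, W k a * M0 a j + ∑ a, W (p - k) a * M1 a j) 0 := by
    intro j
    refine tri (by omega) _ fun l hl => ?_
    have h1 := hker (finProdFinEquiv (j, (⟨l, hl⟩ : Fin p)))
    have h2 : ∑ k ∈ range p, ∑ a : Fin 32,
        W k a * ((p : ℚ) ^ 2 * Ent γ p (k + p * (((a : ℕ) : ℤ) - 3)) (l + p * j)) = 0 := by
      have h3 : (p : ℚ) ^ 2 * ∑ r, v r * Emat γ p r (finProdFinEquiv (j, (⟨l, hl⟩ : Fin p))) = 0 := by
        rw [h1, mul_zero]
      rw [← h3, ← finProdFinEquiv.sum_comp, Fintype.sum_prod_type, Finset.sum_comm,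
        Finset.mul_sum]
      refine Finset.sum_congr rfl fun a _ => ?_
      rw [Finset.mul_sum, ← Fin.sum_univ_eq_sum_range (fun k => W k a *
        ((p : ℚ) ^ 2 * Ent γ p (k + p * (((a : ℕ) : ℤ) - 3)) (l + p * j)))]
      refine Finset.sum_congr rfl fun k _ => ?_
      simp only [hW, k.2, dif_pos, Fin.eta, Emat, Matrix.of_apply, finProdFinEquiv_apply_val]
      have : (((k : ℕ) + p * (a : ℕ) : ℕ) : ℤ) - 3 * (p : ℤ) = (k : ℕ) + p * (((a : ℕ) : ℤ) - 3) := by
        push_cast; ring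
      rw [this]; ring
    have h4 : Cg p (∑ k ∈ range p, ∑ a : Fin 32,
        W k a * ((p : ℚ) ^ 2 * Ent γ p (k + p * (((a : ℕ) : ℤ) - 3)) (l + p * j)))
        (∑ k ∈ range p, ∑ a : Fin 32, W k a * (((Acal p k).coeff l : ℚ) * M0 a j +
          ((Acal p (p - k)).coeff l : ℚ) * M1 a j)) := by
      refine Cg.sum _ fun k hk => Cg.sum _ fun a _ => Cg.mul_left _ (hWn _ _) ?_
      have ha := a.2
      have := Ent_frob (p := p) hp47 (hγ hpp) (mem_range.1 hk) hl (d := ((a : ℕ) : ℤ) - 3)
        (by omega) (by omega) j.2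
      have e : ((a : ℕ) : ℤ) - 3 + 1 = ((a : ℕ) : ℤ) - 2 := by ring
      rw [e] at this
      simpa only [M0, M1, Matrix.of_apply] using this
    rw [h2] at h4
    have h5 : ∑ k ∈ range p, ((Acal p (p - k)).coeff l : ℚ) * ∑ a, W k a * M1 a j =
        ∑ k ∈ range p, ((Acal p k).coeff l : ℚ) * ∑ a, W (p - k) a * M1 a j := by
      have e1 := Finset.sum_flip (n := p)
        (fun k => ((Acal p (p - k)).coeff l : ℚ) * ∑ a, W k a * M1 a j)
      rw [Finset.sum_range_succ, Finset.sum_range_succ] at e1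
      simp only [hWp, zero_mul, Finset.sum_const_zero, mul_zero, add_zero, Nat.sub_self,
        Nat.sub_zero] at e1
      rw [coeff_Acal_lt le_rfl hl hl] at e1
      simp only [Int.cast_zero, zero_mul, add_zero] at e1
      rw [← e1]
      refine Finset.sum_congr rfl fun k hk => ?_
      rw [Nat.sub_sub_self (mem_range.1 hk).le]
    have h6 : ∑ k ∈ range p, ((Acal p k).coeff l : ℚ) *
          (∑ a, W k a * M0 a j + ∑ a, W (p - k) a * M1 a j) =
        ∑ k ∈ range p, ∑ a : Fin 32, W k a * (((Acal p k).coeff l : ℚ) * M0 a j +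
          ((Acal p (p - k)).coeff l : ℚ) * M1 a j) := by
      simp only [mul_add, Finset.sum_add_distrib]
      rw [← h5]
      congr 1
      · refine Finset.sum_congr rfl fun k _ => ?_
        rw [Finset.mul_sum]
        exact Finset.sum_congr rfl fun a _ => by ring
      · refine Finset.sum_congr rfl fun k _ => ?_
        rw [Finset.mul_sum]
        exact Finset.sum_congr rfl fun a _ => by ring
    rw [h6]
    exact h4.symm
  have hall : ∀ k, k < p → ∀ a, Cg p (W k a) 0 := by
    intro k hk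
    rcases Nat.eq_zero_or_pos k with rfl | hk0
    · refine h0 hpp (W 0) fun j => ?_
      have := hu j 0 hk
      simpa only [Nat.sub_zero, hWp, zero_mul, Finset.sum_const_zero, add_zero] using this
    · intro a
      have hA : ∀ a, Cg p (W k a + W (p - k) a) 0 := by
        refine hadd hpp (fun a => W k a + W (p - k) a) fun j => ?_
        have h1 := Cg.add (hu j k hk) (hu j (p - k) (by omega))
        rw [Nat.sub_sub_self hk.le, add_zero] at h1
        convert h1 using 1
        simp only [← Finset.sum_add_distrib, Matrix.add_apply]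
        exact Finset.sum_congr rfl fun a _ => by ring
      have hS : ∀ a, Cg p (W k a - W (p - k) a) 0 := by
        refine hsub hpp (fun a => W k a - W (p - k) a) fun j => ?_
        have h1 := Cg.sub (hu j k hk) (hu j (p - k) (by omega))
        rw [Nat.sub_sub_self hk.le, sub_zero] at h1
        convert h1 using 1
        simp only [← Finset.sum_add_distrib, ← Finset.sum_sub_distrib, Matrix.sub_apply]
        exact Finset.sum_congr rfl fun a _ => by ring
      have h1 := Cg.add (hA a) (hS a)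
      rw [add_zero] at h1
      have h2 := cg_mul_zero (norm_two_pow_inv (p := p) (by omega) 1) h1
      convert h2 using 1
      ring
  obtain ⟨⟨a, k⟩, hak⟩ := finProdFinEquiv.surjective i0
  have h1 := hall k k.2 a
  simp only [hW, k.2, dif_pos, Fin.eta] at h1
  rw [hak, hv1, cg_zero_iff, padicNorm.one] at h1
  exact lt_irrefl _ h1

end Crest.Agent.R6
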