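import Crest.Agent.R6.Defs
import Crest.Agent.Lib.PNT

/-! Summing the exponents with the prime number theorem (`Crest.Agent.PNT.theta_tendsto`).
As integers, `eN N p = (44N-p)₊ + 2(39N-p)₊ + (26N-p)₊ - 2(23N-p)₊ - 2(22N-p)₊ + 2(39N/2-p)₊
- 2(33N/2-p)₊` and `∑_{p ≤ x} (x-p) log p = ∫_0^x θ ~ x²/2`;
`(44² + 2·39² + 26² - 2·23² - 2·22² + 2·19.5² - 2·16.5²)/2 = 1922`. -/

set_option autoImplicit false

namespace Crest.Agent.R6
open Finset Filter Topology

namespace PrimeSumAux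
open MeasureTheory

theorem eN_int (N p : ℕ) : (eN N p : ℤ) =
    max (44 * N - p : ℤ) 0 + 2 * max (39 * N - p : ℤ) 0 + max (26 * N - p : ℤ) 0
      - 2 * max (23 * N - p : ℤ) 0 - 2 * max (22 * N - p : ℤ) 0
      + max (39 * N - 2 * p : ℤ) 0 - max (33 * N - 2 * p : ℤ) 0 := by
  unfold eN
  split_ifs with h1 h2 <;> omega

theorem integral_ind {p x c : ℝ} (hp : 0 < p) (hx : 0 ≤ x) :
    ∫ t in (0 : ℝ)..x, (Set.Ici p).indicator (fun _ => c) t = max (x - p) 0 * c := by
  rw [intervalIntegral.integral_of_le hx, integral_indicator measurableSet_Ici,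
    Measure.restrict_restrict measurableSet_Ici, setIntegral_const]
  have : Set.Ici p ∩ Set.Ioc 0 x = Set.Icc p x := by
    ext t
    simp only [Set.mem_inter_iff, Set.mem_Ici, Set.mem_Ioc, Set.mem_Icc]
    constructor
    · rintro ⟨h1, _, h3⟩; exact ⟨h1, h3⟩
    · rintro ⟨h1, h2⟩; exact ⟨h1, hp.trans_le h1, h2⟩
  rw [this, Real.volume_real_Icc, smul_eq_mul]

theorem theta_eq_sum {M : ℕ} {t : ℝ} (ht : 0 ≤ t) (htM : t ≤ M) :
    Chebyshev.theta t = ∑ p ∈ (range (M + 1)).filter Nat.Prime,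
      (Set.Ici (p : ℝ)).indicator (fun _ => Real.log p) t := by
  rw [Chebyshev.theta_eq_sum_Icc]
  simp only [Set.indicator_apply, Set.mem_Ici]
  rw [← sum_filter]
  refine sum_congr ?_ fun _ _ => rfl
  ext p
  simp only [mem_filter, mem_Icc, mem_range, Nat.le_floor_iff ht]
  constructor
  · rintro ⟨⟨_, h1⟩, h2⟩
    refine ⟨⟨?_, h2⟩, h1⟩
    have : (p : ℝ) ≤ M := h1.trans htM
    have : p ≤ M := by exact_mod_cast this
    omega
  · rintro ⟨⟨_, h2⟩, h1⟩
    exact ⟨⟨Nat.zero_le _, h1⟩, h2⟩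

theorem ramp_eq {M : ℕ} {x : ℝ} (hx : 0 ≤ x) (hxM : x ≤ M) :
    ∑ p ∈ (range (M + 1)).filter Nat.Prime, max (x - p : ℝ) 0 * Real.log p
      = ∫ t in (0 : ℝ)..x, Chebyshev.theta t := by
  have h1 : ∫ t in (0 : ℝ)..x, Chebyshev.theta t = ∫ t in (0 : ℝ)..x,
      ∑ p ∈ (range (M + 1)).filter Nat.Prime,
        (Set.Ici (p : ℝ)).indicator (fun _ => Real.log p) t := by
    refine intervalIntegral.integral_congr fun t ht => ?_
    rw [Set.uIcc_of_le hx] at ht
    exact theta_eq_sum ht.1 (ht.2.trans hxM)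
  rw [h1, intervalIntegral.integral_finsetSum]
  · refine sum_congr rfl fun p hp => ?_
    rw [integral_ind (by exact_mod_cast (mem_filter.1 hp).2.pos) hx]
  · intro p _
    exact (intervalIntegrable_iff.2
      ((integrableOn_const (by simp [Set.uIoc])).indicator measurableSet_Ici))

theorem theta_bound {ε : ℝ} (hε : 0 < ε) :
    ∃ K : ℝ, 0 ≤ K ∧ ∀ t : ℝ, 0 ≤ t → |Chebyshev.theta t - t| ≤ K + ε * t := by
  have h := Crest.Agent.PNT.theta_tendsto
  rw [Metric.tendsto_atTop] at h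
  obtain ⟨T, hT⟩ := h ε hε
  refine ⟨Chebyshev.theta (max T 1) + max T 1, by
    have := Chebyshev.theta_nonneg (max T 1)
    have := le_max_right T 1
    linarith, fun t ht => ?_⟩
  have h0 := Chebyshev.theta_nonneg (max T 1)
  have h1 := le_max_right T 1
  rcases le_total t (max T 1) with h2 | h2
  · have h3 := Chebyshev.theta_mono h2
    have h4 := Chebyshev.theta_nonneg t
    have h5 : 0 ≤ ε * t := by positivity
    rw [abs_le]; constructor <;> linarith
  · have ht0 : 0 < t := by linarith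
    have h3 := hT t ((le_max_left _ _).trans h2)
    rw [Real.dist_eq] at h3
    have h4 : Chebyshev.theta t - t = (Chebyshev.theta t / t - 1) * t := by field_simp
    rw [h4, abs_mul, abs_of_pos ht0]
    have := mul_le_mul_of_nonneg_right h3.le ht0.le
    linarith

theorem int_bound {ε K x : ℝ} (hx : 0 ≤ x)
    (hK : ∀ t : ℝ, 0 ≤ t → |Chebyshev.theta t - t| ≤ K + ε * t) (hε : 0 ≤ ε) :
    |(∫ t in (0 : ℝ)..x, Chebyshev.theta t) - x ^ 2 / 2| ≤ (K + ε * x) * x := by
  have h1 : (∫ t in (0 : ℝ)..x, Chebyshev.theta t) - x ^ 2 / 2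
      = ∫ t in (0 : ℝ)..x, (Chebyshev.theta t - t) := by
    rw [intervalIntegral.integral_sub Chebyshev.theta_mono.intervalIntegrable
      (continuous_id'.intervalIntegrable _ _), integral_id]
    ring
  rw [h1]
  have h2 := intervalIntegral.norm_integral_le_of_norm_le_const (a := 0) (b := x)
    (f := fun t => Chebyshev.theta t - t) (C := K + ε * x) (fun t ht => by
      rw [Set.uIoc_of_le hx] at ht
      rw [Real.norm_eq_abs]
      refine (hK t ht.1.le).trans ?_
      have := mul_le_mul_of_nonneg_left ht.2 hε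
      linarith)
  rwa [Real.norm_eq_abs, sub_zero, abs_of_nonneg hx] at h2

end PrimeSumAux

theorem eN_eq (N p : ℕ) : (eN N p : ℝ) =
    max (44 * N - p : ℝ) 0 + 2 * max (39 * N - p : ℝ) 0 + max (26 * N - p : ℝ) 0
      - 2 * max (23 * N - p : ℝ) 0 - 2 * max (22 * N - p : ℝ) 0
      + 2 * max (39 / 2 * N - p : ℝ) 0 - 2 * max (33 / 2 * N - p : ℝ) 0 := by
  have h := congrArg (Int.cast : ℤ → ℝ) (PrimeSumAux.eN_int N p)
  push_cast at h
  have h1 : max (39 * N - 2 * p : ℝ) 0 = 2 * max (39 / 2 * N - p : ℝ) 0 := by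
    rw [mul_max_of_nonneg _ _ (by norm_num : (0 : ℝ) ≤ 2)]
    congr 1 <;> ring
  have h2 : max (33 * N - 2 * p : ℝ) 0 = 2 * max (33 / 2 * N - p : ℝ) 0 := by
    rw [mul_max_of_nonneg _ _ (by norm_num : (0 : ℝ) ≤ 2)]
    congr 1 <;> ring
  rw [h, h1, h2]

theorem ramp_tendsto {a : ℝ} (ha : 0 < a) (ha' : a ≤ 44) :
    Tendsto (fun N : ℕ => (∑ p ∈ (range (44 * N + 1)).filter Nat.Prime,
      max (a * N - p : ℝ) 0 * Real.log p) / (N : ℝ) ^ 2) atTop (𝓝 (a ^ 2 / 2)) := by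
  rw [Metric.tendsto_atTop]
  intro ε hε
  have hε' : 0 < ε / (2 * a ^ 2 + 2) := by positivity
  obtain ⟨K, hK0, hK⟩ := PrimeSumAux.theta_bound hε'
  obtain ⟨N0, hN0⟩ := exists_nat_gt (2 * K * a / ε)
  refine ⟨N0 + 1, fun N hN => ?_⟩
  have hN1 : (N0 : ℝ) + 1 ≤ N := by exact_mod_cast hN
  have hN00 : (0 : ℝ) ≤ N0 := Nat.cast_nonneg _
  have hNpos : (0 : ℝ) < N := by linarith
  have hx : 0 ≤ a * N := by positivity
  have hxM : a * N ≤ ((44 * N : ℕ) : ℝ) := by push_cast; nlinarith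
  rw [PrimeSumAux.ramp_eq hx hxM, Real.dist_eq]
  have h1 := PrimeSumAux.int_bound hx hK hε'.le
  have h2 : (∫ t in (0 : ℝ)..a * N, Chebyshev.theta t) / (N : ℝ) ^ 2 - a ^ 2 / 2
      = ((∫ t in (0 : ℝ)..a * N, Chebyshev.theta t) - (a * N) ^ 2 / 2) / (N : ℝ) ^ 2 := by
    field_simp
  rw [h2, abs_div, abs_of_pos (by positivity : (0 : ℝ) < (N : ℝ) ^ 2), div_lt_iff₀ (by positivity)]
  refine h1.trans_lt ?_
  have h3 : 2 * K * a < ε * N := by
    rw [div_lt_iff₀ hε] at hN0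
    nlinarith
  have h4 : ε / (2 * a ^ 2 + 2) * a ^ 2 ≤ ε / 2 := by
    rw [div_mul_eq_mul_div, div_le_div_iff₀ (by positivity) (by positivity)]
    nlinarith
  have h5 : (K + ε / (2 * a ^ 2 + 2) * (a * N)) * (a * N)
      = K * a * N + (ε / (2 * a ^ 2 + 2) * a ^ 2) * N ^ 2 := by ring
  rw [h5]
  have h6 := mul_le_mul_of_nonneg_right h4 (by positivity : (0 : ℝ) ≤ (N : ℝ) ^ 2)
  have h7 := mul_lt_mul_of_pos_right h3 hNpos
  nlinarith

theorem eN_sum {ε : ℝ} (hε : 0 < ε) : ∀ᶠ N : ℕ in atTop,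
    ∑ p ∈ (range (44 * N + 1)).filter Nat.Prime, (eN N p : ℝ) * Real.log p
      ≤ (1922 + ε) * (N : ℝ) ^ 2 := by
  have r := fun (a : ℝ) (h : 0 < a) (h' : a ≤ 44) => ramp_tendsto h h'
  have h := ((((((r 44 (by norm_num) (by norm_num)).add
    ((r 39 (by norm_num) (by norm_num)).const_mul 2)).add
    (r 26 (by norm_num) (by norm_num))).sub
    ((r 23 (by norm_num) (by norm_num)).const_mul 2)).sub
    ((r 22 (by norm_num) (by norm_num)).const_mul 2)).add
    ((r (39 / 2) (by norm_num) (by norm_num)).const_mul 2)).sub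
    ((r (33 / 2) (by norm_num) (by norm_num)).const_mul 2)
  have h' : Tendsto (fun N : ℕ => (∑ p ∈ (range (44 * N + 1)).filter Nat.Prime,
      (eN N p : ℝ) * Real.log p) / (N : ℝ) ^ 2) atTop (𝓝 1922) := by
    convert h using 2 with N
    · simp only [eN_eq, add_mul, sub_mul, sum_add_distrib, sum_sub_distrib, mul_assoc,
        ← mul_sum]
      ring
    · norm_num
  filter_upwards [h'.eventually (gt_mem_nhds (by linarith : (1922 : ℝ) < 1922 + ε)),
    eventually_gt_atTop 0] with N h1 h2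
  have : (0 : ℝ) < (N : ℝ) ^ 2 := by positivity
  rw [div_lt_iff₀ this] at h1
  exact h1.le

/-- primes with `p² ≤ 44 N` or `p ≤ D` cost `o(N²)`: each term is at most
`32N (2 log (44N) + v log p)`, and there are at most `√(44N) + D + 1` of them. -/
theorem small_sum {ε : ℝ} (hε : 0 < ε) (D v : ℕ) : ∀ᶠ N : ℕ in atTop,
    ∑ p ∈ (range (44 * N + 1)).filter (fun p => p.Prime ∧ (p * p ≤ 44 * N ∨ p ≤ D)),
      ((32 * N * (2 * Nat.log p (44 * N) + (if p ≤ D then v else 0)) : ℕ) : ℝ) * Real.log p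
      ≤ ε * (N : ℝ) ^ 2 := by
  set c : ℝ := v * Real.log (D + 1) with hc
  have hc0 : 0 ≤ c := mul_nonneg (Nat.cast_nonneg _) (Real.log_nonneg (by
    have : (0 : ℝ) ≤ D := Nat.cast_nonneg _
    linarith))
  have hs : Tendsto (fun N : ℕ => Real.sqrt (Real.sqrt ((44 * N : ℕ) : ℝ))) atTop atTop :=
    Real.tendsto_sqrt_atTop.comp (Real.tendsto_sqrt_atTop.comp
      (tendsto_natCast_atTop_atTop.comp (tendsto_id.const_mul_atTop' (by norm_num))))
  filter_upwards [hs.eventually_ge_atTop 1, hs.eventually_ge_atTop c,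
    hs.eventually_ge_atTop (D + 2), hs.eventually_ge_atTop (32 * 18 * 44 / ε),
    eventually_ge_atTop 1] with N h1 h2 h3 h4 hN
  set s := Real.sqrt (Real.sqrt ((44 * N : ℕ) : ℝ)) with hsdef
  have hs2 : s ^ 2 = Real.sqrt ((44 * N : ℕ) : ℝ) := Real.sq_sqrt (Real.sqrt_nonneg _)
  have hs4 : s ^ 4 = 44 * N := by
    have : s ^ 4 = (s ^ 2) ^ 2 := by ring
    rw [this, hs2, Real.sq_sqrt (Nat.cast_nonneg _)]
    push_cast; ring
  have hlog : Real.log (44 * N) ≤ 4 * s := by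
    rw [← hs4, Real.log_pow]
    have := Real.log_le_sub_one_of_pos (by linarith : 0 < s)
    push_cast; linarith
  set S := (range (44 * N + 1)).filter (fun p => p.Prime ∧ (p * p ≤ 44 * N ∨ p ≤ D)) with hS
  have hcard : (S.card : ℝ) ≤ 2 * s ^ 2 := by
    have hsub : S ⊆ range (Nat.sqrt (44 * N) + 1) ∪ range (D + 1) := by
      intro p hp
      rcases (mem_filter.1 hp).2.2 with h | h
      · exact mem_union_left _ (mem_range.2 (Nat.lt_succ_of_le (Nat.le_sqrt.2 h)))
      · exact mem_union_right _ (mem_range.2 (Nat.lt_succ_of_le h))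
    have h5 := (card_le_card hsub).trans (card_union_le _ _)
    rw [card_range, card_range] at h5
    have h6 : (S.card : ℝ) ≤ Nat.sqrt (44 * N) + 1 + (D + 1) := by exact_mod_cast h5
    have h7 : (Nat.sqrt (44 * N) : ℝ) ≤ s ^ 2 := by
      rw [hs2]; exact Real.nat_sqrt_le_real_sqrt
    nlinarith
  have hterm : ∀ p ∈ S,
      ((32 * N * (2 * Nat.log p (44 * N) + (if p ≤ D then v else 0)) : ℕ) : ℝ) * Real.log p
        ≤ 32 * N * (9 * s) := by
    intro p hp
    have hpp : p.Prime := (mem_filter.1 hp).2.1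
    have hp0 : (0 : ℝ) < p := by exact_mod_cast hpp.pos
    have ha : (Nat.log p (44 * N) : ℝ) * Real.log p ≤ Real.log (44 * N) := by
      rw [← Real.log_pow]
      refine Real.log_le_log (by positivity) ?_
      exact_mod_cast Nat.pow_log_le_self p (by omega : 44 * N ≠ 0)
    have hb : ((if p ≤ D then v else 0 : ℕ) : ℝ) * Real.log p ≤ c := by
      split_ifs with h
      · refine mul_le_mul_of_nonneg_left (Real.log_le_log hp0 ?_) (Nat.cast_nonneg _)
        have : (p : ℝ) ≤ D := by exact_mod_cast h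
        linarith
      · simpa using hc0
    have : ((32 * N * (2 * Nat.log p (44 * N) + (if p ≤ D then v else 0)) : ℕ) : ℝ) * Real.log p
        = 32 * N * (2 * ((Nat.log p (44 * N) : ℝ) * Real.log p)
          + ((if p ≤ D then v else 0 : ℕ) : ℝ) * Real.log p) := by
      rw [Nat.cast_mul, Nat.cast_add]; push_cast; ring
    rw [this]
    exact mul_le_mul_of_nonneg_left (by linarith) (by positivity)
  refine (sum_le_card_nsmul _ _ _ hterm).trans ?_
  rw [nsmul_eq_mul]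
  have hNpos : (0 : ℝ) < N := by exact_mod_cast hN
  have h8 : (S.card : ℝ) * (32 * N * (9 * s)) ≤ 2 * s ^ 2 * (32 * N * (9 * s)) :=
    mul_le_mul_of_nonneg_right hcard (by positivity)
  refine h8.trans ?_
  rw [div_le_iff₀ hε] at h4
  have h9 : ε * (N : ℝ) ^ 2 = N * s ^ 3 * (s * ε) / 44 := by
    have : (N : ℝ) = s ^ 4 / 44 := by rw [hs4]; ring
    calc ε * (N : ℝ) ^ 2 = ε * N * N := by ring
      _ = ε * N * (s ^ 4 / 44) := by rw [← this]
      _ = _ := by ring
  rw [h9]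
  have h10 : 0 ≤ N * s ^ 3 := by positivity
  have := mul_le_mul_of_nonneg_left h4 h10
  nlinarith

end Crest.Agent.R6
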