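import Crest.Agent.R6.Val

/-! The prime 2.  `Prow = ∑_i C_{d,i} 2^i t^(42N-i) W`, `Drow = ∑_i S_{d-1,i} 2^(i+1) t^(42N-1-i) W`,
`W = (1-t)^(2N)`.  With `Y = ∑_{l<E0} V l/(2l+2)`, `E0 = 44N`, replace `s m k` by
`st m k = s m k - Y·be m k` and `-(3/4) z m k` by `-(3/4) z m k + Y·[m=k]`: by `taylor` this does not
change `Phi γ (Prow) (Drow) k` for `k < 39 N`.  Then `Emat = R T Q` (`detval_fact`), rows of `T` indexed
by `Fin (29N+1) ⊕ Fin (29N+1)` (the `i` of the C-part / S-part), columns by `k < 39N`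
(`Q k j = coeff (col N j) k`, vanishing for `k < 5N`; or index `k = 5N + j'`, `j' < 34 N`),
`‖T(inl i,k)‖ ≤ 2^(-i + (44N-i-k)₊ + λ)`, `‖T(inr i,k)‖ ≤ 2^(-i+λ)`, `λ = O(log N) + v`.
Split `(44N-i-k)₊ ≤ (39N-θ-i)₊ + (θ+5N-k)₊`, `θ = ⌈71N/4⌉`; for injective choices
`∑σ ≤ θ(θ+1)/2`, `∑ρ ≤ ∑_a (ρ a + μ)₊ - 32Nμ`, `μ = ⌈57N/4⌉`:
`(71/4)²/2 + (142/4)²/4 + (57/4)²/2 - 32·57/4 = 945/8`. -/

set_option autoImplicit false

namespace Crest.Agent.R6
open Polynomial Finset Filter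

namespace TwoAux

/-- `‖x‖₂ ≤ 2^a`. -/
def B2 (x : ℚ) (a : ℤ) : Prop := padicNorm 2 x ≤ (2 : ℚ) ^ a

theorem B2.mono {x : ℚ} {a b : ℤ} (h : B2 x a) (hab : a ≤ b) : B2 x b :=
  le_trans h (zpow_le_zpow_right₀ (by norm_num) hab)

theorem B2.mul {x y : ℚ} {a b : ℤ} (h : B2 x a) (h' : B2 y b) : B2 (x * y) (a + b) := by
  unfold B2 at *
  rw [padicNorm.mul, zpow_add₀ (by norm_num)]
  exact mul_le_mul h h' (padicNorm.nonneg _) (by positivity)

theorem B2.add {x y : ℚ} {a : ℤ} (h : B2 x a) (h' : B2 y a) : B2 (x + y) a :=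
  le_trans padicNorm.nonarchimedean (max_le h h')

theorem B2.sub {x y : ℚ} {a : ℤ} (h : B2 x a) (h' : B2 y a) : B2 (x - y) a :=
  le_trans padicNorm.sub (max_le h h')

theorem B2.neg {x : ℚ} {a : ℤ} (h : B2 x a) : B2 (-x) a := by
  unfold B2 at *
  rwa [padicNorm.neg]

theorem B2.zero (a : ℤ) : B2 0 a := by
  unfold B2
  rw [padicNorm.zero]; positivity

theorem B2.sum {α : Type*} {F : α → ℚ} {a : ℤ} {t : Finset α} (h : ∀ i ∈ t, B2 (F i) a) :
    B2 (∑ i ∈ t, F i) a :=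
  padicNorm.sum_le' h (by positivity)

theorem B2.int (z : ℤ) : B2 z 0 := by
  unfold B2
  rw [zpow_zero]; exact padicNorm.of_int z

theorem B2.nat (z : ℕ) : B2 z 0 := by
  unfold B2
  rw [zpow_zero]; exact padicNorm.of_nat z

theorem B2.of_pow {x : ℚ} {n : ℕ} (h : padicNorm 2 x ≤ (2 : ℚ) ^ n) : B2 x n := by
  unfold B2; rwa [zpow_natCast]

theorem B2.to_pow {x : ℚ} {n : ℕ} (h : B2 x n) : padicNorm 2 x ≤ (2 : ℚ) ^ n := by
  unfold B2 at h; rwa [zpow_natCast] at h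

theorem norm_two_pow (n : ℕ) : padicNorm 2 ((2 : ℚ) ^ n) = (2 : ℚ) ^ (-(n : ℤ)) := by
  induction n with
  | zero => simp
  | succ n ih =>
    have h2 : padicNorm 2 (2 : ℚ) = (2 : ℚ)⁻¹ := by
      simpa using padicNorm.padicNorm_p_of_prime (p := 2)
    rw [pow_succ, padicNorm.mul, ih, h2]
    push_cast
    rw [neg_add, zpow_add₀ (by norm_num), zpow_neg_one]

theorem B2.two_pow (n : ℕ) : B2 ((2 : ℚ) ^ n) (-(n : ℤ)) := (norm_two_pow n).le

theorem B2.inv_two_pow (n : ℕ) : B2 (1 / (2 : ℚ) ^ n) n := by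
  unfold B2
  rw [padicNorm.div, padicNorm.one, norm_two_pow, zpow_neg, one_div, inv_inv]

theorem B2.inv {k B : ℕ} (hk : k ≤ B) : B2 (1 / (k : ℚ)) (Nat.log 2 B) := by
  have := norm_inv_le (p := 2) hk
  exact B2.of_pow (by simpa using this)

theorem B2.inv_fact {k : ℕ} (hk : k ≠ 0) : B2 (1 / (k : ℚ)) (k.factorization 2) := by
  unfold B2
  rw [padicNorm.div, padicNorm.one, padicNorm.eq_zpow_of_nonzero (by exact_mod_cast hk),
    zpow_neg, one_div, inv_inv, padicValRat.of_nat, Nat.factorization_def _ Nat.prime_two]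
  simp

theorem B2.inv_odd (k : ℕ) : B2 (1 / (2 * (k : ℚ) + 1)) 0 := by
  unfold B2
  have h : padicNorm 2 ((2 * k + 1 : ℕ) : ℚ) = 1 := (padicNorm.nat_eq_one_iff _).2 (by omega)
  push_cast at h
  rw [padicNorm.div, padicNorm.one, h]; simp

theorem B2.w (e : ℕ) : B2 (w e) (2 * e) := by
  have h : R6.w e = (e.centralBinom : ℚ) * (1 / (2 : ℚ) ^ (2 * e)) := by
    unfold R6.w; rw [pow_mul]; norm_num; ring
  rw [h]
  exact ((B2.nat _).mul (B2.inv_two_pow _)).mono (by push_cast; omega)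

theorem B2.V (l : ℕ) : B2 (V l) ((Nat.log 2 l + 1 : ℤ) - 2 * l) := by
  have hc : (l.centralBinom : ℚ) ≠ 0 := by exact_mod_cast l.centralBinom_ne_zero
  have h : R6.V l = (2 : ℚ) ^ (2 * l) * (1 / (2 * (l : ℚ) + 1)) * (1 / (l.centralBinom : ℚ)) := by
    unfold R6.V R6.w; rw [pow_mul]; norm_num; field_simp
  rw [h]
  refine (((B2.two_pow _).mul (B2.inv_odd l)).mul (B2.inv_fact l.centralBinom_ne_zero)).mono ?_
  have h1 : l.centralBinom.factorization 2 ≤ Nat.log 2 (2 * l) := by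
    rw [Nat.centralBinom_eq_two_mul_choose]; exact Nat.factorization_choose_le_log
  have h2 : Nat.log 2 (2 * l) ≤ Nat.log 2 l + 1 := by
    rcases eq_or_ne l 0 with rfl | hl
    · simp
    · rw [mul_comm, Nat.log_mul_base (by norm_num) hl]
  push_cast; omega

theorem B2.Vdiv {l B : ℕ} (hl : l < B) :
    B2 (R6.V l / (2 * l + 2)) (2 * Nat.log 2 (2 * B) + 1 - 2 * l) := by
  have h : R6.V l / (2 * l + 2) = R6.V l * (1 / ((2 * l + 2 : ℕ) : ℚ)) := by
    push_cast; ring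
  rw [h]
  refine ((B2.V l).mul (B2.inv (B := 2 * B) (by omega))).mono ?_
  have := Nat.log_mono_right (b := 2) (by omega : l ≤ 2 * B)
  omega

theorem B2.pair {f : ℕ → ℚ} {P : ℤ[X]} {a : ℤ} (h : ∀ m, P.coeff m ≠ 0 → B2 (f m) a) :
    B2 (pair f P) a :=
  padicNorm_pair_le 2 f P _ (by positivity) h

end TwoAux
open TwoAux

/-- `v₂(C(2e,e)) = s₂(e) ∈ [0, log₂ e + 1]`. -/
theorem norm2_w_le (e : ℕ) : padicNorm 2 (w e) ≤ (2 : ℚ) ^ (2 * e) := by
  exact B2.to_pow (n := 2 * e) (by simpa using B2.w e)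

theorem norm2_V_le (l : ℕ) :
    padicNorm 2 (V l) ≤ (2 : ℚ) ^ ((Nat.log 2 l + 1 : ℤ) - 2 * l) := by
  exact B2.V l

def Ytwo (E0 : ℕ) : ℚ := ∑ l ∈ range E0, V l / (2 * l + 2)

theorem norm2_Y_le (E0 : ℕ) : padicNorm 2 (Ytwo E0) ≤ (2 : ℚ) ^ (2 * Nat.log 2 (2 * E0) + 2) := by
  refine B2.to_pow (B2.sum fun l hl => (B2.Vdiv (mem_range.1 hl)).mono ?_)
  push_cast; omega

/-- the modified `s`: for `k - m = 2e ≥ 0`, `s 0 (2e) - Y w e = - w e ∑_{e ≤ l < E0} V l/(2l+2)`. -/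
theorem norm2_st_le {m k B : ℕ} (hm : m ≤ B) (hk : k ≤ B) :
    padicNorm 2 (s m k - Ytwo B * be m k) ≤ (2 : ℚ) ^ ((m - k) + 2 * Nat.log 2 (2 * B) + 2) := by
  refine B2.to_pow ?_
  induction m generalizing k with
  | zero =>
    have hs : s 0 k = s0 k := by cases k <;> rfl
    rw [hs]
    unfold s0 be
    by_cases h : k % 2 = 0
    · rw [if_pos h, if_pos ⟨Nat.zero_le _, by simpa using h⟩, Nat.sub_zero]
      have h1 : w (k / 2) * ∑ l ∈ range (k / 2), V l / (2 * l + 2) - Ytwo B * w (k / 2)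
          = -(w (k / 2) * ∑ l ∈ Ico (k / 2) B, V l / (2 * l + 2)) := by
        unfold Ytwo
        rw [← sum_range_add_sum_Ico _ (by omega : k / 2 ≤ B)]
        ring
      rw [h1]
      refine ((B2.w _).mul (B2.sum (a := 2 * Nat.log 2 (2 * B) + 1 - 2 * ((k / 2 : ℕ) : ℤ))
        fun l hl => (B2.Vdiv (mem_Ico.1 hl).2).mono ?_)).neg.mono ?_
      · have := (mem_Ico.1 hl).1
        omega
      · omega
    · rw [if_neg h, if_neg (by simpa using h), mul_zero, sub_zero]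
      refine ((B2.V _).mul (B2.sum (a := 2 * ((k / 2 : ℕ) : ℤ)) fun l hl => ?_)).mono ?_
      · rw [div_eq_mul_one_div]
        refine ((B2.w l).mul (B2.inv_odd l)).mono ?_
        have := mem_range.1 hl
        omega
      · have := Nat.log_mono_right (b := 2) (by omega : k / 2 ≤ 2 * B)
        omega
  | succ m ih =>
    cases k with
    | zero =>
      have hs : s (m + 1) 0 = s1 m := rfl
      rw [hs]
      unfold s1 be
      rw [if_neg (by omega : ¬(m + 1 ≤ 0 ∧ (0 - (m + 1)) % 2 = 0)), mul_zero, sub_zero]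
      have hlog := Nat.log_mono_right (b := 2) (by omega : m / 2 ≤ 2 * B)
      split_ifs with h
      · refine ((B2.w _).mul (B2.sum (a := 2 * Nat.log 2 (2 * B) + 2) fun l hl => ?_)).mono ?_
        · rw [sq]
          refine ((B2.V l).mul (B2.V l)).mono ?_
          have := mem_range.1 hl
          have := Nat.log_mono_right (b := 2) (by omega : l ≤ 2 * B)
          omega
        · omega
      · refine ((B2.V _).mul (B2.sum (a := 0) fun l _ => B2.inv_odd l)).mono ?_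
        omega
    | succ k =>
      have hs : s (m + 1) (k + 1) = s m k - Wp m / (k + 1) := rfl
      have hb : be (m + 1) (k + 1) = be m k := by
        unfold be
        simp only [Nat.add_sub_add_right, Nat.add_le_add_iff_right]
      have h1 : s (m + 1) (k + 1) - Ytwo B * be (m + 1) (k + 1)
          = (s m k - Ytwo B * be m k) - Wp m * (1 / ((k + 1 : ℕ) : ℚ)) := by
        rw [hs, hb]; push_cast; ring
      rw [h1, Nat.add_sub_add_right]
      refine (ih (by omega) (by omega)).sub ?_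
      unfold Wp
      split_ifs with h
      · refine ((B2.V _).mul (B2.inv (B := 2 * B) (by omega))).mono ?_
        have := Nat.log_mono_right (b := 2) (by omega : m / 2 ≤ 2 * B)
        omega
      · rw [zero_mul]; exact B2.zero _

theorem norm2_al_le (m k : ℕ) : padicNorm 2 (al m k) ≤ (2 : ℚ) ^ (m - k) := by
  refine B2.to_pow ?_
  unfold al
  split_ifs with h
  · refine ((B2.nat 2).mul (B2.w _)).mono ?_
    omega
  · exact B2.zero _

namespace TwoAux

theorem pair_mul_rev (g : ℕ → ℚ) (W : ℤ[X]) {M : ℕ} {f : ℤ[X]} (h : f.natDegree ≤ M) :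
    pair g (W * rev M f) =
      ∑ i : Fin (M + 1), (f.coeff i : ℚ) * (2 ^ (i : ℕ) * pair g (W * X ^ (M - i))) := by
  rw [rev_eq_sum h, mul_sum, pair_sum,
    Fin.sum_univ_eq_sum_range (fun i => (f.coeff i : ℚ) * (2 ^ i * pair g (W * X ^ (M - i))))]
  refine sum_congr rfl fun i _ => ?_
  rw [← C_mul_X_pow_eq_monomial, mul_left_comm, pair_C_mul]
  push_cast; ring

theorem pair_ite (k : ℕ) (P : ℤ[X]) :
    pair (fun m => if m = k then 1 else 0) P = P.coeff k := by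
  rw [pair_eq_range _ P (n := max P.natDegree k + 1) (by omega), sum_eq_single k]
  · simp
  · intro b _ hb; simp [hb]
  · intro h; exact absurd (mem_range.2 (by omega)) h

/-- the `C`-part functional. -/
def FF (γ : ℚ) (N k m : ℕ) : ℚ := (s m k - Ytwo (44 * N) * be m k) + γ * al m k

/-- the `S`-part functional. -/
def GG (N k m : ℕ) : ℚ := -(3 / 4) * z m k + Ytwo (44 * N) * (if m = k then 1 else 0)

theorem Phi_eq (γ : ℚ) {N : ℕ} (hN : 1 ≤ N) {d : ℤ} (hd : d.natAbs ≤ 42 * N) {k : ℕ}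
    (hk : (k : ℤ) < 42 * N + d) :
    Phi γ (Prow N d) (Drow N d) k = pair (FF γ N k) (Prow N d) + pair (GG N k) (Drow N d) := by
  have h1 : FF γ N k = fun m => (s m k + γ * al m k) + (-Ytwo (44 * N)) * be m k := by
    funext m; unfold FF; ring
  have h2 : GG N k = fun m => -(3 / 4) * z m k
      + Ytwo (44 * N) * (if m = k then 1 else 0) := rfl
  rw [h1, h2, pair_fun_add (fun m => s m k + γ * al m k), pair_fun_mul,
    pair_fun_add (fun m => -(3 / 4) * z m k), pair_fun_mul, pair_fun_mul, pair_ite,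
    ← taylor hN hd hk]
  unfold Phi; ring

noncomputable def Rm (N : ℕ) :
    Matrix (Fin (32 * N)) (Fin (42 * N + 1) ⊕ Fin (42 * N - 1 + 1)) ℚ :=
  Matrix.of fun r a => Sum.elim
    (fun i : Fin (42 * N + 1) => ((Chebyshev.C ℤ (((r : ℕ) : ℤ) - 3 * N)).coeff i : ℚ))
    (fun i : Fin (42 * N - 1 + 1) => ((Chebyshev.S ℤ (((r : ℕ) : ℤ) - 3 * N - 1)).coeff i : ℚ)) a

noncomputable def Tm (γ : ℚ) (N : ℕ) :
    Matrix (Fin (42 * N + 1) ⊕ Fin (42 * N - 1 + 1)) (Fin (34 * N)) ℚ :=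
  Matrix.of fun a b => Sum.elim
    (fun i : Fin (42 * N + 1) =>
      2 ^ (i : ℕ) * pair (FF γ N (5 * N + b)) ((1 - X) ^ (2 * N) * X ^ (42 * N - i)))
    (fun i : Fin (42 * N - 1 + 1) =>
      2 ^ (i : ℕ) * pair (GG N (5 * N + b)) (2 * (1 - X) ^ (2 * N) * X ^ (42 * N - 1 - i))) a

noncomputable def Qm (N : ℕ) : Matrix (Fin (34 * N)) (Fin (32 * N)) ℚ :=
  Matrix.of fun b j => ((col N j).coeff (5 * N + b) : ℚ)

theorem pair_col (g : ℕ → ℚ) {N j : ℕ} (hj : j < 32 * N) :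
    pair g (col N j) = ∑ b : Fin (34 * N), g (5 * N + b) * ((col N j).coeff (5 * N + b) : ℚ) := by
  have hdeg : (col N j).natDegree < 5 * N + 34 * N := by
    have : (col N j).natDegree ≤ 7 * N + j := by
      rw [natDegree_le_iff_coeff_eq_zero]
      intro k hk
      by_contra h
      have := coeff_col_ne_zero h
      omega
    omega
  rw [pair_eq_range g _ hdeg, sum_range_add, sum_eq_zero, zero_add,
    Fin.sum_univ_eq_sum_range (fun b => g (5 * N + b) * ((col N j).coeff (5 * N + b) : ℚ))]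
  · exact sum_congr rfl fun b _ => mul_comm _ _
  · intro k hk
    have : (col N j).coeff k = 0 := by
      by_contra h
      have := coeff_col_ne_zero h
      have := mem_range.1 hk
      omega
    simp [this]

theorem Emat_eq (γ : ℚ) {N : ℕ} (hN : 1 ≤ N) : Emat γ N = Rm N * Tm γ N * Qm N := by
  ext r j
  rw [Matrix.mul_apply]
  simp only [Emat, Ent, Matrix.of_apply]
  rw [pair_col _ j.2]
  refine sum_congr rfl fun b _ => ?_
  have hr := r.2
  have hb := b.2
  have hd : (((r : ℕ) : ℤ) - 3 * N).natAbs ≤ 42 * N := by omega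
  congr 1
  rw [Phi_eq γ hN hd (by push_cast; omega), Matrix.mul_apply, Fintype.sum_sum_type]
  unfold Prow Drow
  rw [pair_mul_rev _ _ ((natDegree_C_le _).trans hd),
    pair_mul_rev _ _ ((natDegree_S_le _).trans (by omega : _ ≤ 42 * N - 1))]
  rfl

theorem natDegree_W (n : ℕ) : ((1 - X : ℤ[X]) ^ n).natDegree ≤ n := by
  refine natDegree_pow_le.trans ?_
  have : (1 - X : ℤ[X]).natDegree ≤ 1 := by compute_degree
  calc n * (1 - X : ℤ[X]).natDegree ≤ n * 1 := Nat.mul_le_mul_left _ this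
    _ = n := mul_one n

theorem B2.FF {γ : ℚ} {v : ℕ} (hγ : B2 γ v) {N k m : ℕ} (hm : m ≤ 44 * N) (hk : k ≤ 44 * N) :
    B2 (FF γ N k m) (((m - k : ℕ) : ℤ) + (2 * Nat.log 2 (88 * N) + 2 + v)) := by
  have h1 := B2.of_pow (norm2_st_le hm hk)
  have h2 := hγ.mul (B2.of_pow (norm2_al_le m k))
  rw [show 2 * (44 * N) = 88 * N by ring] at h1
  exact (h1.mono (by push_cast; omega)).add (h2.mono (by omega))

theorem B2.GG {N k m : ℕ} (hm : m ≤ 44 * N) (hk : k ≤ 44 * N) :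
    B2 (GG N k m) (2 * Nat.log 2 (88 * N) + 2) := by
  have h1 : B2 (z m k) ((2 * Nat.log 2 (44 * N) : ℕ) : ℤ) :=
    B2.of_pow (by simpa using norm_z_le (p := 2) hm hk)
  have h2 := B2.of_pow (norm2_Y_le (44 * N))
  rw [show 2 * (44 * N) = 88 * N by ring] at h2
  have h3 : B2 (-(3 / 4)) 2 := by
    have := ((B2.nat 3).mul (B2.inv_two_pow 2)).neg
    norm_num at this ⊢
    exact this
  have h4 : B2 (if m = k then 1 else 0) 0 := by
    split_ifs
    · simpa using B2.nat 1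
    · exact B2.zero _
  have h5 := Nat.log_mono_right (b := 2) (by omega : 44 * N ≤ 88 * N)
  exact ((h3.mul h1).mono (by push_cast; omega)).add ((h2.mul h4).mono (by push_cast; omega))

theorem sum_inj_le {n : ℕ} {α : Type} [Fintype α] (h : α → ℤ) {f : Fin n → α}
    (hf : Function.Injective f) : ∑ i, h (f i) ≤ ∑ a, max (h a) 0 := by
  classical
  calc ∑ i, h (f i) ≤ ∑ i, max (h (f i)) 0 := sum_le_sum fun i _ => le_max_left _ _
    _ = ∑ a ∈ univ.map ⟨f, hf⟩, max (h a) 0 := by rw [sum_map]; rfl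
    _ ≤ _ := sum_le_sum_of_subset_of_nonneg (subset_univ _) fun a _ _ => le_max_right _ _

theorem sumA (n : ℕ) (θ : ℤ) : 2 * ∑ j ∈ range n, max (θ - j) 0 ≤ θ * (θ + 1) := by
  induction n generalizing θ with
  | zero =>
    simp only [range_zero, sum_empty, mul_zero]
    rcases le_or_gt 0 θ with h | h <;> nlinarith
  | succ n ih =>
    rcases le_or_gt 0 θ with h | h
    · rw [sum_range_succ']
      have h1 := ih (θ - 1)
      have h2 : ∑ j ∈ range n, max (θ - ((j + 1 : ℕ) : ℤ)) 0 = ∑ j ∈ range n, max (θ - 1 - j) 0 :=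
        sum_congr rfl fun j _ => by push_cast; congr 1; ring
      rw [h2]
      have h3 : max (θ - ((0 : ℕ) : ℤ)) 0 = θ := by simp [h]
      rw [h3]
      nlinarith
    · rw [sum_eq_zero fun j _ => max_eq_right (by omega)]
      nlinarith

theorem sumB (n : ℕ) (A : ℤ) : 4 * ∑ j ∈ range n, max (A - 2 * j) 0 ≤ (A + 1) ^ 2 := by
  induction n generalizing A with
  | zero =>
    simp only [range_zero, sum_empty, mul_zero]
    positivity
  | succ n ih =>
    rcases le_or_gt 0 A with h | h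
    · rw [sum_range_succ']
      have h1 := ih (A - 2)
      have h2 : ∑ j ∈ range n, max (A - 2 * ((j + 1 : ℕ) : ℤ)) 0
          = ∑ j ∈ range n, max (A - 2 - 2 * j) 0 :=
        sum_congr rfl fun j _ => by push_cast; congr 1; ring
      rw [h2]
      have h3 : max (A - 2 * ((0 : ℕ) : ℤ)) 0 = A := by simp [h]
      rw [h3]
      nlinarith
    · rw [sum_eq_zero fun j _ => max_eq_right (by omega)]
      positivity

end TwoAux

theorem det_two_explicit {γ : ℚ} {v : ℕ} (hγ : padicNorm 2 γ ≤ (2 : ℚ) ^ v) {N : ℕ} (hN : 1 ≤ N) :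
    ∃ e : ℕ, padicNorm 2 (Emat γ N).det ≤ (2 : ℚ) ^ e ∧
      (e : ℝ) ≤ 945 / 8 * (N : ℝ) ^ 2 + 32 * N * (2 * Nat.log 2 (88 * N) + v + 10) := by
  have hγ' := B2.of_pow hγ
  set L : ℤ := 2 * Nat.log 2 (88 * N) + 2 + v with hL
  set θ : ℤ := ((71 * N / 4 : ℕ) : ℤ) with hθ
  set μ : ℤ := ((57 * N / 4 : ℕ) : ℤ) with hμ
  let ρ0 : Fin (42 * N + 1) ⊕ Fin (42 * N - 1 + 1) → ℤ :=
    Sum.elim (fun i => -((i : ℕ) : ℤ) + max (39 * N - θ - (i : ℕ)) 0) (fun i => -((i : ℕ) : ℤ))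
  let σ : Fin (34 * N) → ℤ := fun b => max (θ - (b : ℕ)) 0
  have key := detval_fact 2 (Rm N) (Tm γ N) (Qm N)
    (by
      rintro r (i | i) <;> exact padicNorm.of_int _)
    (fun b j => padicNorm.of_int _) (fun a => ρ0 a + L) σ
    (by
      rintro (i | i) b
      · have hi := i.2
        have hb := b.2
        refine B2.mono (b := (-((i : ℕ) : ℤ) + max (39 * N - θ - (i : ℕ)) 0) + L + max (θ - (b : ℕ)) 0)
          ((B2.two_pow i).mul (B2.pair (a := ((44 * N - i - (5 * N + b) : ℕ) : ℤ) + L)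
            fun m hm => ?_)) (by omega)
        have h1 := le_natDegree_of_ne_zero hm
        have h2 : ((1 - X : ℤ[X]) ^ (2 * N) * X ^ (42 * N - i)).natDegree
            ≤ 2 * N + (42 * N - i) :=
          natDegree_mul_le.trans (add_le_add (natDegree_W _) (natDegree_X_pow_le _))
        exact (B2.FF hγ' (by omega) (by omega)).mono (by omega)
      · have hi := i.2
        have hb := b.2
        refine B2.mono (b := -((i : ℕ) : ℤ) + L + max (θ - (b : ℕ)) 0)
          ((B2.two_pow i).mul (B2.pair (a := L) fun m hm => ?_)) (by omega)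
        have h1 := le_natDegree_of_ne_zero hm
        have h2 : (2 * (1 - X : ℤ[X]) ^ (2 * N) * X ^ (42 * N - 1 - i)).natDegree
            ≤ (0 + 2 * N) + (42 * N - 1 - i) :=
          natDegree_mul_le.trans (add_le_add (natDegree_mul_le.trans
            (add_le_add (by simp) (natDegree_W _))) (natDegree_X_pow_le _))
        exact (B2.GG (by omega) (by omega)).mono (by omega))
    ((∑ a, max (ρ0 a + μ) 0) + 32 * N * (L - μ)) (∑ b, max (σ b) 0)
    (by
      intro f hf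
      have h1 := sum_inj_le (fun a => ρ0 a + μ) hf
      have h2 : ∑ i, (ρ0 (f i) + L) = ∑ i, (ρ0 (f i) + μ) + 32 * N * (L - μ) := by
        simp only [sum_add_distrib, sum_const, card_univ, Fintype.card_fin, nsmul_eq_mul]
        push_cast; ring
      rw [h2]; linarith)
    (fun g hg => sum_inj_le σ hg)
  rw [← Emat_eq γ hN] at key
  have hA : 2 * ∑ b, max (σ b) 0 ≤ θ * (θ + 1) := by
    have : ∑ b, max (σ b) 0 = ∑ j ∈ range (34 * N), max (θ - j) 0 := by
      rw [← Fin.sum_univ_eq_sum_range (fun j => max (θ - j) 0)]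
      exact sum_congr rfl fun b _ => max_eq_left (le_max_right _ _)
    rw [this]; exact sumA _ _
  have hB : 4 * ∑ a, max (ρ0 a + μ) 0 ≤ (39 * N - θ + μ + 1) ^ 2 + 2 * (μ * (μ + 1)) := by
    rw [Fintype.sum_sum_type]
    have h1 : ∑ i : Fin (42 * N + 1), max (ρ0 (Sum.inl i) + μ) 0
        = ∑ j ∈ range (42 * N + 1), max (39 * N - θ + μ - 2 * j) 0 := by
      rw [← Fin.sum_univ_eq_sum_range (fun j => max (39 * N - θ + μ - 2 * j) 0)]
      refine sum_congr rfl fun i _ => ?_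
      simp only [ρ0, Sum.elim_inl]
      omega
    have h2 : ∑ i : Fin (42 * N - 1 + 1), max (ρ0 (Sum.inr i) + μ) 0
        = ∑ j ∈ range (42 * N - 1 + 1), max (μ - j) 0 := by
      rw [← Fin.sum_univ_eq_sum_range (fun j => max (μ - j) 0)]
      refine sum_congr rfl fun i _ => ?_
      simp only [ρ0, Sum.elim_inr]
      omega
    rw [h1, h2]
    have := sumB (42 * N + 1) (39 * N - θ + μ)
    have := sumA (42 * N - 1 + 1) μ
    linarith
  generalize (∑ a, max (ρ0 a + μ) 0) = SA at key hB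
  generalize (∑ b, max (σ b) 0) = SB at key hA
  have hbound : 8 * (SA + 32 * N * (L - μ) + SB) ≤ 945 * N ^ 2 + 8 * (32 * N * (L + 8)) := by
    obtain ⟨a, ha0, ha3, ha⟩ : ∃ a : ℤ, 0 ≤ a ∧ a ≤ 3 ∧ 4 * θ = 71 * N - a :=
      ⟨71 * N - 4 * θ, by omega, by omega, by ring⟩
    obtain ⟨b, hb0, hb3, hb⟩ : ∃ b : ℤ, 0 ≤ b ∧ b ≤ 3 ∧ 4 * μ = 57 * N - b :=
      ⟨57 * N - 4 * μ, by omega, by omega, by ring⟩
    have hN' : (1 : ℤ) ≤ N := by exact_mod_cast hN
    have e1 : 16 * (θ * (θ + 1)) = (71 * N - a) * (71 * N - a + 4) := by rw [← ha]; ring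
    have e2 : 16 * (μ * (μ + 1)) = (57 * N - b) * (57 * N - b + 4) := by rw [← hb]; ring
    have e3 : 16 * (39 * N - θ + μ + 1) ^ 2 = (142 * N + a - b + 4) ^ 2 := by
      have : 142 * N + a - b + 4 = 4 * (39 * N - θ + μ + 1) := by linarith
      rw [this]; ring
    have e4 : 4 * (N * μ) = N * (57 * N - b) := by rw [← hb]; ring
    have e5 : a * a ≤ 9 := by nlinarith
    have e6 : b * b ≤ 9 := by nlinarith
    have e7 : 0 ≤ a * b := by positivity
    nlinarith
  refine ⟨(SA + 32 * N * (L - μ) + SB).toNat, B2.to_pow (B2.mono key (Int.self_le_toNat _)), ?_⟩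
  have hL' : (L : ℝ) = 2 * Nat.log 2 (88 * N) + 2 + v := by rw [hL]; push_cast; ring
  rcases le_or_gt 0 (SA + 32 * N * (L - μ) + SB) with h | h
  · have h1 : (((SA + 32 * N * (L - μ) + SB).toNat : ℕ) : ℝ)
        = ((SA + 32 * N * (L - μ) + SB : ℤ) : ℝ) := by
      rw [← Int.cast_natCast, Int.toNat_of_nonneg h]
    have h2 : 8 * ((SA + 32 * N * (L - μ) + SB : ℤ) : ℝ)
        ≤ 945 * (N : ℝ) ^ 2 + 8 * (32 * N * (L + 8)) := by exact_mod_cast hbound
    rw [h1]
    rw [hL'] at h2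
    linarith
  · rw [Int.toNat_of_nonpos h.le]
    push_cast
    positivity

theorem det_two (γ : ℚ) {ε : ℝ} (hε : 0 < ε) : ∀ᶠ N : ℕ in atTop,
    ∃ e : ℕ, padicNorm 2 (Emat γ N).det ≤ (2 : ℚ) ^ e ∧ (e : ℝ) ≤ (945 / 8 + ε) * (N : ℝ) ^ 2 := by
  obtain ⟨v, hv⟩ := pow_unbounded_of_one_lt (padicNorm 2 γ) (by norm_num : (1 : ℚ) < 2)
  have hs : Tendsto (fun N : ℕ => Real.sqrt ((88 * N : ℕ) : ℝ)) atTop atTop :=
    Real.tendsto_sqrt_atTop.comp
      (tendsto_natCast_atTop_atTop.comp (tendsto_id.const_mul_atTop' (by norm_num)))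
  filter_upwards [hs.eventually_ge_atTop (v + 10), hs.eventually_ge_atTop (32 * 9 * 88 / ε),
    eventually_ge_atTop 1] with N h1 h2 hN
  obtain ⟨e, he, he'⟩ := det_two_explicit hv.le hN
  refine ⟨e, he, he'.trans ?_⟩
  set t := Real.sqrt ((88 * N : ℕ) : ℝ) with ht
  have hv0 : (0 : ℝ) ≤ v := Nat.cast_nonneg _
  have ht2 : t ^ 2 = 88 * N := by
    rw [ht, Real.sq_sqrt (Nat.cast_nonneg _)]; push_cast; ring
  have hlog : (Nat.log 2 (88 * N) : ℝ) ≤ 4 * t := by
    have h3 : (2 : ℝ) ^ Nat.log 2 (88 * N) ≤ t ^ 2 := by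
      rw [ht2]; exact_mod_cast Nat.pow_log_le_self 2 (by omega : 88 * N ≠ 0)
    have h4 := Real.log_le_log (by positivity) h3
    rw [Real.log_pow, Real.log_pow] at h4
    have h5 := Real.log_le_sub_one_of_pos (by linarith : 0 < t)
    have h6 := Real.log_two_gt_d9
    have h7 : (0 : ℝ) ≤ Nat.log 2 (88 * N) := Nat.cast_nonneg _
    push_cast at h4
    nlinarith
  have hNpos : (0 : ℝ) < N := by exact_mod_cast hN
  have h8 : 32 * (N : ℝ) * (2 * Nat.log 2 (88 * N) + v + 10) ≤ 32 * N * (9 * t) :=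
    mul_le_mul_of_nonneg_left (by linarith) (by positivity)
  rw [div_le_iff₀ hε] at h2
  have h9 : ε * (N : ℝ) ^ 2 = N * t * (t * ε) / 88 := by
    have : (N : ℝ) = t ^ 2 / 88 := by rw [ht2]; ring
    calc ε * (N : ℝ) ^ 2 = ε * N * N := by ring
      _ = ε * N * (t ^ 2 / 88) := by rw [← this]
      _ = _ := by ring
  have h10 : 0 ≤ N * t := by positivity
  have := mul_le_mul_of_nonneg_left h2 h10
  nlinarith

end Crest.Agent.R6
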