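import Crest.Agent.R6.OddMid
import Crest.Agent.R6.PrimeSum
import Crest.Agent.R6.Two
import Crest.Agent.R6.Nonvan

/-! The arithmetic lower bound: `log_abs_ge` with `e 2` from `det_two`, `e p` from `det_crude`
for odd `p` with `p² ≤ 44N` or `p ≤ D := γ.den` (`v := γ.den`), and `e p = eN N p` otherwise
(`eN N p = 0` for `p > 44N`; take `N ≥ D`). -/

set_option autoImplicit false

namespace Crest.Agent.R6
open Filter

theorem arith_norm_le (p : ℕ) [Fact p.Prime] (γ : ℚ) : padicNorm p γ ≤ (p : ℚ) ^ Nat.log p γ.den := by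
  have h1 : γ = (γ.num : ℚ) * (1 / (γ.den : ℚ)) := by
    rw [mul_one_div, Rat.num_div_den]
  calc padicNorm p γ = padicNorm p (γ.num : ℚ) * padicNorm p (1 / (γ.den : ℚ)) := by
        rw [← padicNorm.mul, ← h1]
    _ ≤ 1 * (p : ℚ) ^ Nat.log p γ.den :=
        mul_le_mul (padicNorm.of_int _) (norm_inv_le le_rfl) (padicNorm.nonneg _) zero_le_one
    _ = _ := one_mul _

theorem arith_lower (γ : ℚ) {ε : ℝ} (hε : 0 < ε) : ∀ᶠ N : ℕ in atTop, (Emat γ N).det ≠ 0 →
    -((1922 + 945 / 8 * Real.log 2 + ε) * (N : ℝ) ^ 2) ≤ Real.log |(((Emat γ N).det : ℚ) : ℝ)| := by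
  classical
  have hε3 : 0 < ε / 3 := by positivity
  filter_upwards [det_two γ hε3, eN_sum hε3, small_sum hε3 γ.den γ.den, eventually_ge_atTop γ.den,
    eventually_ge_atTop 1] with N h2 hE hS hD hN hne
  obtain ⟨e2, h2a, h2b⟩ := h2
  set cr : ℕ → ℕ := fun p => 32 * N * (2 * Nat.log p (44 * N) + (if p ≤ γ.den then γ.den else 0)) with hcr
  set e : ℕ → ℕ := fun p => if p = 2 then e2 else if 44 * N < p then 0 else
    if p * p ≤ 44 * N ∨ p ≤ γ.den then cr p else eN N p with he
  have h1 : ∀ p : ℕ, p.Prime → padicNorm p (Emat γ N).det ≤ (p : ℚ) ^ e p := fun p hp => by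
    have := Fact.mk hp
    have hγ := arith_norm_le p γ
    have hγ1 : γ.den < p → padicNorm p γ ≤ 1 := fun h => by
      rwa [Nat.log_of_lt h, pow_zero] at hγ
    simp only [he]
    split_ifs with c1 c2 c3
    · subst c1
      exact_mod_cast h2a
    · have h3 := det_odd c1 (hγ1 (by omega)) hN (c2.trans_le (Nat.le_mul_self p))
      have h4 : eN N p = 0 := by
        unfold eN
        rw [if_pos (by omega)]
        omega
      rwa [h4] at h3
    · refine det_crude c1 ?_ hN
      split_ifs with c4
      · exact hγ.trans (pow_le_pow_right₀ (by exact_mod_cast hp.one_le) (Nat.log_le_self _ _))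
      · rw [pow_zero]
        exact hγ1 (by omega)
    · push Not at c3
      exact det_odd c1 (hγ1 c3.2) hN c3.1
  have h3 := log_abs_ge hne e (44 * N) h1 fun p hp => by
    simp only [he]
    rw [if_neg (by omega), if_pos hp]
  refine le_trans (neg_le_neg ?_) h3
  have h4 : ∀ p ∈ (Finset.range (44 * N + 1)).filter Nat.Prime, (e p : ℝ) * Real.log p ≤
      (if p = 2 then (e2 : ℝ) * Real.log 2 else 0) +
        (if p * p ≤ 44 * N ∨ p ≤ γ.den then (cr p : ℝ) * Real.log p else 0) + (eN N p : ℝ) * Real.log p :=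
    fun p _ => by
      have hl : 0 ≤ Real.log p := Real.log_natCast_nonneg p
      have h5 : 0 ≤ (cr p : ℝ) * Real.log p := by positivity
      have h6 : 0 ≤ (eN N p : ℝ) * Real.log p := by positivity
      simp only [he]
      split_ifs with c1 c2 c3 c4
      · subst c1
        simp only [Nat.cast_ofNat] at h5 h6 ⊢
        linarith
      · subst c1
        simp only [Nat.cast_ofNat] at h5 h6 ⊢
        linarith
      · simp only [Nat.cast_zero, zero_mul]
        linarith
      · simp only [Nat.cast_zero, zero_mul]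
        linarith
      · linarith
      · linarith
  refine (Finset.sum_le_sum h4).trans ?_
  rw [Finset.sum_add_distrib, Finset.sum_add_distrib, ← Finset.sum_filter, ← Finset.sum_filter,
    Finset.filter_filter _ (fun p => p * p ≤ 44 * N ∨ p ≤ γ.den)]
  have hl2 : 0 ≤ Real.log 2 := Real.log_nonneg one_le_two
  have hl2' : Real.log 2 ≤ 1 := (Real.log_le_sub_one_of_pos two_pos).trans (by norm_num)
  have h5 : ∑ p ∈ ((Finset.range (44 * N + 1)).filter Nat.Prime).filter (fun p => p = 2), (e2 : ℝ) * Real.log 2 ≤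
      (e2 : ℝ) * Real.log 2 := by
    rw [Finset.sum_const, nsmul_eq_mul]
    refine mul_le_of_le_one_left (by positivity) ?_
    have h6 : (((Finset.range (44 * N + 1)).filter Nat.Prime).filter (fun p => p = 2)).card ≤ 1 :=
      Finset.card_le_one.2 fun a ha b hb => (Finset.mem_filter.1 ha).2.trans (Finset.mem_filter.1 hb).2.symm
    exact_mod_cast h6
  have h6 := mul_le_mul_of_nonneg_right h2b hl2
  have h7 := mul_le_mul_of_nonneg_left hl2' (show 0 ≤ ε / 3 * (N : ℝ) ^ 2 by positivity)
  simp only [hcr]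
  linarith

end Crest.Agent.R6
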