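import Crest.Agent.R6.Defs

/-! API for `pair`, `rev`, `sec`, `Cg`, degrees/orders of the rows. -/

set_option autoImplicit false

namespace Crest.Agent.R6
open Polynomial Finset

theorem pair_add (f : ℕ → ℚ) (P Q : ℤ[X]) : pair f (P + Q) = pair f P + pair f Q := by
  unfold pair
  exact sum_add_index P Q _ (by simp) (by intro m a b; push_cast; ring)

theorem pair_sub (f : ℕ → ℚ) (P Q : ℤ[X]) : pair f (P - Q) = pair f P - pair f Q := by
  have := pair_add f (P - Q) Q
  rw [sub_add_cancel] at this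
  linarith

theorem pair_C_mul (f : ℕ → ℚ) (a : ℤ) (P : ℤ[X]) : pair f (C a * P) = a * pair f P := by
  unfold pair
  rw [sum_over_range' (C a * P) (by simp) (P.natDegree + 1)
    (Nat.lt_succ_of_le (natDegree_C_mul_le a P)), sum_over_range P (by simp), Finset.mul_sum]
  refine Finset.sum_congr rfl fun m _ => ?_
  rw [coeff_C_mul]
  push_cast
  ring

theorem pair_monomial (f : ℕ → ℚ) (m : ℕ) (a : ℤ) : pair f (monomial m a) = a * f m := by
  unfold pair
  exact sum_monomial_index a _ (by simp)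

theorem pair_sum {ι : Type*} (f : ℕ → ℚ) (t : Finset ι) (P : ι → ℤ[X]) :
    pair f (∑ i ∈ t, P i) = ∑ i ∈ t, pair f (P i) := by
  classical
  induction t using Finset.induction_on with
  | empty => simp [pair]
  | insert i t hi ih => rw [Finset.sum_insert hi, Finset.sum_insert hi, pair_add, ih]

theorem pair_eq_range (f : ℕ → ℚ) (P : ℤ[X]) {n : ℕ} (h : P.natDegree < n) :
    pair f P = ∑ m ∈ range n, (P.coeff m : ℚ) * f m := by
  unfold pair
  exact sum_over_range' P (by simp) n h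

theorem pair_congr {f g : ℕ → ℚ} {P : ℤ[X]} (h : ∀ m, P.coeff m ≠ 0 → f m = g m) :
    pair f P = pair g P := by
  unfold pair Polynomial.sum
  exact Finset.sum_congr rfl fun m hm => by simp only [h m (mem_support_iff.1 hm)]

theorem pair_fun_add (f g : ℕ → ℚ) (P : ℤ[X]) :
    pair (fun m => f m + g m) P = pair f P + pair g P := by
  unfold pair Polynomial.sum
  simp only [mul_add, Finset.sum_add_distrib]

theorem pair_fun_mul (c : ℚ) (f : ℕ → ℚ) (P : ℤ[X]) :
    pair (fun m => c * f m) P = c * pair f P := by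
  unfold pair Polynomial.sum
  rw [Finset.mul_sum]
  exact Finset.sum_congr rfl fun m _ => by ring

theorem pair_fun_sum {ι : Type*} (t : Finset ι) (f : ι → ℕ → ℚ) (P : ℤ[X]) :
    pair (fun m => ∑ i ∈ t, f i m) P = ∑ i ∈ t, pair (f i) P := by
  unfold pair Polynomial.sum
  simp only [Finset.mul_sum]
  exact Finset.sum_comm

/-- nonarchimedean bound: integer coefficients. -/
theorem padicNorm_pair_le (p : ℕ) [Fact p.Prime] (f : ℕ → ℚ) (P : ℤ[X]) (B : ℚ) (hB : 0 ≤ B)
    (h : ∀ m, P.coeff m ≠ 0 → padicNorm p (f m) ≤ B) : padicNorm p (pair f P) ≤ B := by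
  unfold pair Polynomial.sum
  refine padicNorm.sum_le' (fun m hm => ?_) hB
  rw [padicNorm.mul]
  exact (mul_le_of_le_one_left (padicNorm.nonneg _) (padicNorm.of_int _)).trans (h m (mem_support_iff.1 hm))

theorem Phi_add (γ : ℚ) (P D P' D' : ℤ[X]) (k : ℕ) :
    Phi γ (P + P') (D + D') k = Phi γ P D k + Phi γ P' D' k := by
  simp only [Phi, pair_add]
  ring

theorem Phi_sum {ι : Type*} (γ : ℚ) (t : Finset ι) (u : ι → ℤ) (P D : ι → ℤ[X]) (k : ℕ) :
    Phi γ (∑ i ∈ t, C (u i) * P i) (∑ i ∈ t, C (u i) * D i) k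
      = ∑ i ∈ t, (u i : ℚ) * Phi γ (P i) (D i) k := by
  simp only [Phi, pair_sum, pair_C_mul, Finset.mul_sum, ← Finset.sum_sub_distrib]
  exact Finset.sum_congr rfl fun i _ => by ring

theorem natDegree_comp_two_le (f : ℤ[X]) : (f.comp (C 2 * X)).natDegree ≤ f.natDegree := by
  refine natDegree_le_iff_coeff_eq_zero.2 fun i hi => ?_
  rw [comp_C_mul_X_coeff, coeff_eq_zero_of_natDegree_lt hi, zero_mul]

theorem natDegree_one_sub_X_pow_le (n : ℕ) : ((1 - X : ℤ[X]) ^ n).natDegree ≤ n := by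
  refine natDegree_pow_le.trans ?_
  have : (1 - X : ℤ[X]).natDegree ≤ 1 := by compute_degree
  simpa using Nat.mul_le_mul_left n this

theorem coeff_rev {M : ℕ} (f : ℤ[X]) {i : ℕ} (hi : i ≤ M) :
    (rev M f).coeff (M - i) = f.coeff i * 2 ^ i := by
  rw [rev, coeff_reflect, revAt_le (Nat.sub_le _ _), Nat.sub_sub_self hi, comp_C_mul_X_coeff]

theorem natDegree_rev_le {M : ℕ} {f : ℤ[X]} (h : f.natDegree ≤ M) : (rev M f).natDegree ≤ M := by
  exact natDegree_reflect_le.trans (max_le le_rfl ((natDegree_comp_two_le f).trans h))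

theorem rev_eq_sum {M : ℕ} {f : ℤ[X]} (h : f.natDegree ≤ M) :
    rev M f = ∑ i ∈ range (M + 1), monomial (M - i) (f.coeff i * 2 ^ i) := by
  ext n
  rw [finset_sum_coeff]
  by_cases hn : n ≤ M
  · rw [Finset.sum_eq_single (M - n)]
    · have h1 := coeff_rev f (Nat.sub_le M n)
      rw [Nat.sub_sub_self hn] at h1 ⊢
      rw [h1, coeff_monomial, if_pos rfl]
    · intro i hi hne
      rw [coeff_monomial, if_neg]
      have := Finset.mem_range.1 hi
      omega
    · intro h1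
      exact absurd (Finset.mem_range.2 (by omega)) h1
  · rw [coeff_eq_zero_of_natDegree_lt (lt_of_le_of_lt (natDegree_rev_le h) (not_le.1 hn))]
    refine (Finset.sum_eq_zero fun i _ => ?_).symm
    rw [coeff_monomial, if_neg (by omega)]

theorem rev_mul {M M' : ℕ} {f g : ℤ[X]} (hf : f.natDegree ≤ M) (hg : g.natDegree ≤ M') :
    rev (M + M') (f * g) = rev M f * rev M' g := by
  rw [rev, mul_comp, reflect_mul _ _ ((natDegree_comp_two_le f).trans hf) ((natDegree_comp_two_le g).trans hg)]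
  rfl

theorem rev_add (M : ℕ) (f g : ℤ[X]) : rev M (f + g) = rev M f + rev M g := by
  rw [rev, add_comp, reflect_add]
  rfl

theorem rev_shift {M : ℕ} (k : ℕ) {f : ℤ[X]} (h : f.natDegree ≤ M) :
    rev (M + k) f = X ^ k * rev M f := by
  have h1 := rev_mul (M' := k) (g := 1) h (by simp)
  rw [mul_one] at h1
  rw [h1, mul_comm]
  simp [rev]

theorem aeval_rev {K : Type*} [Field K] [CharZero K] {M : ℕ} {f : ℤ[X]} (h : f.natDegree ≤ M)
    {t : K} (ht : t ≠ 0) : aeval t (rev M f) = t ^ M * aeval (2 / t) f := by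
  have : Invertible t⁻¹ := invertibleOfNonzero (inv_ne_zero ht)
  have h1 := eval₂_reflect_mul_pow (algebraMap ℤ K) t⁻¹ M _ ((natDegree_comp_two_le f).trans h)
  rw [invOf_eq_inv, inv_inv, ← aeval_def, ← aeval_def, aeval_comp] at h1
  have h2 : aeval t⁻¹ (C 2 * X : ℤ[X]) = 2 / t := by
    rw [map_mul, aeval_C, aeval_X, div_eq_mul_inv]
    simp
  rw [h2] at h1
  rw [← h1, rev, inv_pow]
  field_simp

theorem natDegree_C_le (d : ℤ) : (Chebyshev.C ℤ d).natDegree ≤ d.natAbs := by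
  induction d using Polynomial.Chebyshev.induct' with
  | zero => simp
  | one => simp
  | add_two n ih1 ih2 =>
    rw [Chebyshev.C_add_two]
    refine (natDegree_sub_le _ _).trans (max_le (natDegree_mul_le.trans ?_) (ih2.trans (by omega)))
    have := natDegree_X_le (R := ℤ)
    omega
  | neg n ih => simpa using ih

/-- `S (d-1)` has degree `|d| - 1` (and vanishes for `d = 0`). -/
theorem natDegree_S_le (d : ℤ) : (Chebyshev.S ℤ (d - 1)).natDegree ≤ d.natAbs - 1 := by
  induction d using Polynomial.Chebyshev.induct' with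
  | zero => simp
  | one => simp
  | add_two n ih1 ih2 =>
    rw [show (n : ℤ) + 2 - 1 = (n - 1) + 2 by ring, Chebyshev.S_add_two, show (n : ℤ) - 1 + 1 = n + 1 - 1 by ring]
    refine (natDegree_sub_le _ _).trans (max_le (natDegree_mul_le.trans ?_) (ih2.trans (by omega)))
    have := natDegree_X_le (R := ℤ)
    omega
  | neg n ih => rwa [Chebyshev.S_neg_sub_one, natDegree_neg, Int.natAbs_neg]

theorem natDegree_Prow_le {N : ℕ} {d : ℤ} (hd : d.natAbs ≤ 42 * N) :
    (Prow N d).natDegree ≤ 44 * N := by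
  refine natDegree_mul_le.trans ?_
  have h1 := natDegree_one_sub_X_pow_le (2 * N)
  have h2 := natDegree_rev_le ((natDegree_C_le d).trans hd)
  omega

theorem natDegree_Drow_le {N : ℕ} (hN : 1 ≤ N) {d : ℤ} (hd : d.natAbs ≤ 42 * N) :
    (Drow N d).natDegree ≤ 44 * N - 1 := by
  refine natDegree_mul_le.trans ?_
  have h0 : (2 * (1 - X : ℤ[X]) ^ (2 * N)).natDegree ≤ 2 * N :=
    (natDegree_C_mul_le 2 _).trans (natDegree_one_sub_X_pow_le (2 * N))
  have h2 := natDegree_rev_le ((natDegree_S_le d).trans (Nat.sub_le_sub_right hd 1))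
  omega

theorem coeff_Prow_eq_zero {N : ℕ} {d : ℤ} {k : ℕ} (hk : k + d.natAbs < 42 * N) :
    (Prow N d).coeff k = 0 := by
  have h1 : rev (42 * N) (Chebyshev.C ℤ d) = X ^ (42 * N - d.natAbs) * rev d.natAbs (Chebyshev.C ℤ d) := by
    rw [← rev_shift _ (natDegree_C_le d)]
    congr 1
    omega
  rw [Prow, h1, mul_left_comm, coeff_X_pow_mul', if_neg (by omega)]

theorem coeff_Drow_eq_zero {N : ℕ} {d : ℤ} {k : ℕ} (hk : k + d.natAbs < 42 * N) :
    (Drow N d).coeff k = 0 := by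
  rcases eq_or_ne d 0 with rfl | hd
  · simp [Drow, rev]
  have h0 := Int.natAbs_pos.2 hd
  have h1 : rev (42 * N - 1) (Chebyshev.S ℤ (d - 1)) =
      X ^ (42 * N - d.natAbs) * rev (d.natAbs - 1) (Chebyshev.S ℤ (d - 1)) := by
    rw [← rev_shift _ (natDegree_S_le d)]
    congr 1
    omega
  rw [Drow, h1, mul_left_comm, coeff_X_pow_mul', if_neg (by omega)]

/-- the columns live in degrees `[5N, 39N)` for `j < 32N`. -/
theorem coeff_col_ne_zero {N j k : ℕ} (h : (col N j).coeff k ≠ 0) :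
    5 * N + j ≤ k ∧ k ≤ 7 * N + j := by
  rw [col, coeff_X_pow_mul'] at h
  split_ifs at h with h1
  · have := (le_natDegree_of_ne_zero h).trans (natDegree_one_sub_X_pow_le (2 * N))
    omega
  · exact absurd rfl h

theorem coeff_sec {p : ℕ} (hp : 0 < p) (l : ℕ) (F : ℤ[X]) (i : ℕ) :
    (sec p l F).coeff i = F.coeff (l + p * i) := by
  rw [sec, finset_sum_coeff]
  simp only [coeff_monomial, Finset.sum_ite_eq', Finset.mem_range]
  split_ifs with h
  · rfl
  · refine (coeff_eq_zero_of_natDegree_lt ?_).symm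
    have := Nat.le_mul_of_pos_left i hp
    omega

/-! ### congruences -/

section
variable {p : ℕ} [Fact p.Prime]

theorem Cg.refl (x : ℚ) : Cg p x x := by
  simp [Cg]

theorem Cg.symm {x y : ℚ} (h : Cg p x y) : Cg p y x := by
  unfold Cg at *
  rwa [← padicNorm.neg, neg_sub]

theorem Cg.trans {x y u : ℚ} (h : Cg p x y) (h' : Cg p y u) : Cg p x u := by
  unfold Cg at *
  rw [← sub_add_sub_cancel x y u]
  exact lt_of_le_of_lt padicNorm.nonarchimedean (max_lt h h')

theorem Cg.add {x y x' y' : ℚ} (h : Cg p x y) (h' : Cg p x' y') : Cg p (x + x') (y + y') := by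
  unfold Cg at *
  rw [add_sub_add_comm]
  exact lt_of_le_of_lt padicNorm.nonarchimedean (max_lt h h')

theorem Cg.sub {x y x' y' : ℚ} (h : Cg p x y) (h' : Cg p x' y') : Cg p (x - x') (y - y') := by
  unfold Cg at *
  rw [sub_sub_sub_comm]
  exact lt_of_le_of_lt padicNorm.sub (max_lt h h')

theorem Cg.neg {x y : ℚ} (h : Cg p x y) : Cg p (-x) (-y) := by
  unfold Cg at *
  rwa [← neg_sub', padicNorm.neg]

theorem Cg.mul_left {x y : ℚ} (c : ℚ) (hc : padicNorm p c ≤ 1) (h : Cg p x y) :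
    Cg p (c * x) (c * y) := by
  unfold Cg at *
  rw [← mul_sub, padicNorm.mul]
  exact lt_of_le_of_lt (mul_le_of_le_one_left (padicNorm.nonneg _) hc) h

theorem Cg.norm_le {x y : ℚ} (h : Cg p x y) (hy : padicNorm p y ≤ 1) : padicNorm p x ≤ 1 := by
  rw [← sub_add_cancel x y]
  exact padicNorm.nonarchimedean.trans (max_le (le_of_lt h) hy)

theorem Cg.mul {x y x' y' : ℚ} (h : Cg p x y) (h' : Cg p x' y') (hy : padicNorm p y ≤ 1)
    (hy' : padicNorm p y' ≤ 1) : Cg p (x * x') (y * y') := by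
  have h1 := h'.mul_left x (h.norm_le hy)
  have h2 := h.mul_left y' hy'
  rw [mul_comm y', mul_comm y'] at h2
  exact h1.trans h2

theorem Cg.sum {ι : Type*} (t : Finset ι) {f g : ι → ℚ} (h : ∀ i ∈ t, Cg p (f i) (g i)) :
    Cg p (∑ i ∈ t, f i) (∑ i ∈ t, g i) := by
  unfold Cg at *
  rw [← Finset.sum_sub_distrib]
  exact padicNorm.sum_lt' h one_pos

theorem Cg.of_int {a b : ℤ} (h : a ≡ b [ZMOD p]) : Cg p a b := by
  unfold Cg
  rw [← Int.cast_sub, padicNorm.int_lt_one_iff]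
  exact h.symm.dvd

theorem Cg.int_iff {a b : ℤ} : Cg p a b ↔ a ≡ b [ZMOD p] := by
  unfold Cg
  rw [← Int.cast_sub, padicNorm.int_lt_one_iff, Int.modEq_comm, Int.modEq_iff_dvd]

theorem cg_zero_iff {x : ℚ} : Cg p x 0 ↔ padicNorm p x < 1 := by
  rw [Cg, sub_zero]

/-- `‖x‖ < 1 ↔ ‖x‖ ≤ 1/p`. -/
theorem cg_zero_iff' {x : ℚ} : Cg p x 0 ↔ padicNorm p x ≤ (p : ℚ)⁻¹ := by
  have hp : (1 : ℚ) < p := by exact_mod_cast (Fact.out : p.Prime).one_lt
  rw [cg_zero_iff]
  rcases eq_or_ne x 0 with rfl | hx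
  · simp
  obtain ⟨z, hz⟩ := padicNorm.values_discrete (p := p) hx
  rw [hz, ← zpow_neg_one, zpow_le_zpow_iff_right₀ hp, zpow_lt_one_iff_right₀ hp]
  omega

theorem cg_p_mul {x : ℚ} (hx : padicNorm p x ≤ 1) : Cg p (p * x) 0 := by
  rw [cg_zero_iff, padicNorm.mul]
  exact lt_of_le_of_lt (mul_le_of_le_one_right (padicNorm.nonneg _) hx) padicNorm.padicNorm_p_lt_one_of_prime

/-- `pair` of integer polynomials congruent mod `p`. -/
theorem Cg.pair {f : ℕ → ℚ} {P Q : ℤ[X]} (h : ∀ m, P.coeff m ≡ Q.coeff m [ZMOD p])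
    (hf : ∀ m, P.coeff m ≠ 0 ∨ Q.coeff m ≠ 0 → padicNorm p (f m) ≤ 1) :
    Cg p (R6.pair f P) (R6.pair f Q) := by
  rw [pair_eq_range f P (Nat.lt_succ_of_le (le_max_left _ Q.natDegree)),
    pair_eq_range f Q (Nat.lt_succ_of_le (le_max_right P.natDegree _))]
  refine Cg.sum _ fun m _ => ?_
  by_cases h0 : P.coeff m ≠ 0 ∨ Q.coeff m ≠ 0
  · rw [mul_comm, mul_comm _ (f m)]
    exact (Cg.of_int (h m)).mul_left _ (hf m h0)
  · push Not at h0
    rw [h0.1, h0.2]
    exact Cg.refl _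

end

end Crest.Agent.R6
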