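import Crest.Agent.R6.CertData

set_option autoImplicit false
set_option maxRecDepth 100000

namespace Crest.Agent.R6.Chk

theorem enA : negE pairCross LA ≤ (-6009824802697681271039431882) := by decide +kernel

end Crest.Agent.R6.Chk
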