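import Crest.Agent.R6.CertData

set_option autoImplicit false
set_option maxRecDepth 100000

namespace Crest.Agent.R6.Chk

theorem enC : negE pairLine LC ≤ (11855673020712384990516631378) := by decide +kernel

end Crest.Agent.R6.Chk
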