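import Crest.Agent.R6.ChkLog

/-! Soundness of `cell` and `run`.  On a cell, `q = Q0 (1 + a v + b v²)`, `a = Q1/Q0`, `b = Q2/Q0`,
`a² ≤ 4b` (from `wf`), so `1 + a v + b v² = |1 + w v|²` with `w = a/2 + i √(b - a²/4)`, `|w|² = b ≤ 1/16`,
and `log(1+av+bv²) = 2 Re log(1+wv) = a v + (b - a²/2) v² + (a³/3 - ab) v³ + R`,
`|R| ≤ 2|w|⁴/(4(1-|w|)) ≤ (2/3) b²` (`Complex.norm_log_sub_logTaylor_le 3`, `Complex.log_re`).
Every floor division loses less than `1` (that is the `+4`).  Crude branch (`0 ≤ c`):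
`0 < q ≤ Q0 + |Q1| + Q2`.  Invariant for `cell` (induction on `T`, generalising the accumulators):
`t0 + t1 v + t2 v² + t3 v³ + one · F T (X + R v) ≤ U`. -/

set_option autoImplicit false

namespace Crest.Agent.R6.Chk

theorem log_quad {a b v : ℝ} (hab : a ^ 2 ≤ 4 * b) (hb : b ≤ 1 / 16) (hv : |v| ≤ 1) :
    |Real.log (1 + a * v + b * v ^ 2) - (a * v + (b - a ^ 2 / 2) * v ^ 2 + (a ^ 3 / 3 - a * b) * v ^ 3)|
      ≤ 2 / 3 * b ^ 2 := by
  obtain ⟨s, hs⟩ : ∃ s : ℝ, s ^ 2 = b - a ^ 2 / 4 := ⟨_, Real.sq_sqrt (by linarith)⟩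
  obtain rfl : b = s ^ 2 + a ^ 2 / 4 := by linarith
  set z : ℂ := ⟨a / 2 * v, s * v⟩ with hz
  have hv2 : v ^ 2 ≤ 1 := by rwa [sq_le_one_iff_abs_le_one]
  have h1 : ‖z‖ ^ 2 ≤ s ^ 2 + a ^ 2 / 4 := by
    rw [Complex.sq_norm, Complex.normSq_mk]
    nlinarith [mul_le_mul_of_nonneg_left hv2 (show 0 ≤ s ^ 2 + a ^ 2 / 4 by positivity)]
  have h0 := norm_nonneg z
  have h2 : ‖z‖ ≤ 1 / 4 := by nlinarith
  have h3 := (Complex.abs_re_le_norm _).trans (Complex.norm_log_sub_logTaylor_le 3 (z := z) (by linarith))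
  have h4 : Real.log (1 + a * v + (s ^ 2 + a ^ 2 / 4) * v ^ 2) = 2 * (Complex.log (1 + z)).re := by
    rw [Complex.log_re, show (2 : ℝ) * Real.log ‖1 + z‖ = Real.log (‖1 + z‖ ^ 2) by simp, Complex.sq_norm,
      Complex.normSq_apply]
    congr 1
    simp [hz]
    ring
  have h5 : 2 * (Complex.logTaylor (3 + 1) z).re = a * v + (s ^ 2 + a ^ 2 / 4 - a ^ 2 / 2) * v ^ 2 +
      (a ^ 3 / 3 - a * (s ^ 2 + a ^ 2 / 4)) * v ^ 3 := by
    simp [Complex.logTaylor, Finset.sum_range_succ, pow_succ, hz]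
    ring
  rw [h4, ← h5, ← mul_sub, abs_mul, ← Complex.sub_re, abs_two]
  have h6 : (1 - ‖z‖)⁻¹ ≤ 4 / 3 := by
    rw [inv_le_comm₀ (by linarith) (by norm_num)]
    linarith
  have h7 : ‖z‖ ^ (3 + 1) ≤ (s ^ 2 + a ^ 2 / 4) ^ 2 := by
    rw [show ‖z‖ ^ (3 + 1) = (‖z‖ ^ 2) ^ 2 by ring]
    gcongr
  have h8 := mul_le_mul h7 h6 (inv_nonneg.2 (by linarith)) (by positivity)
  push_cast at h3
  linarith

theorem ediv_bd (n : ℤ) {d : ℤ} (hd : 0 < d) : |(n : ℝ) / d - ((n / d : ℤ) : ℝ)| ≤ 1 := by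
  have h0 : (0 : ℝ) < d := by exact_mod_cast hd
  have h1 : ((n / d : ℤ) : ℝ) * d ≤ n := by exact_mod_cast Int.ediv_mul_le n hd.ne'
  have h2 : (n : ℝ) < ((n / d : ℤ) + 1) * d := by exact_mod_cast Int.lt_ediv_add_one_mul_self n hd
  have h3 := (le_div_iff₀ h0).2 h1
  have h4 := (div_lt_iff₀ h0).2 h2
  rw [abs_le]
  constructor <;> linarith

theorem abs_mul_le {x y : ℝ} (hx : |x| ≤ 1) (hy : |y| ≤ 1) : x * y ≤ 1 :=
  (le_abs_self _).trans ((abs_mul x y).trans_le (mul_le_one₀ hx (abs_nonneg _) hy))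

theorem step_sound {c Q0 Q1 Q2 : ℤ} (h2 : 0 ≤ Q2) (h1 : Q1 ^ 2 ≤ 4 * Q2 * Q0) {k : ℤ → ℤ → ℤ → ℤ → Bool}
    {t0 t1 t2 t3 : ℤ} (h : step c Q0 Q1 Q2 k t0 t1 t2 t3 = true) {v : ℝ} (hv : |v| ≤ 1)
    (hq : 0 < (Q0 : ℝ) + Q1 * v + Q2 * v ^ 2) :
    ∃ s0 s1 s2 s3 : ℤ, k s0 s1 s2 s3 = true ∧ (t0 : ℝ) + t1 * v + t2 * v ^ 2 + t3 * v ^ 3 +
      (one : ℝ) * (c * Real.log (Q0 + Q1 * v + Q2 * v ^ 2)) ≤ s0 + s1 * v + s2 * v ^ 2 + s3 * v ^ 3 := by
  have hv2 : |v ^ 2| ≤ 1 := by rw [abs_pow]; exact pow_le_one₀ (abs_nonneg _) hv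
  have hv3 : |v ^ 3| ≤ 1 := by rw [abs_pow]; exact pow_le_one₀ (abs_nonneg _) hv
  have h2' : (0 : ℝ) ≤ Q2 := by exact_mod_cast h2
  have ho : (one : ℝ) = 847288609443 := by norm_num [one]
  unfold step at h
  cases hb : Nat.blt (Nat.mul 16 (Int.toNat Q2)) (Int.toNat Q0) with
  | false =>
    rw [hb] at h
    cases hc : decide (0 ≤ c) with
    | false => rw [hc] at h; exact absurd h (by simp)
    | true =>
      rw [hc] at h
      refine ⟨_, _, _, _, h, ?_⟩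
      have hc' : (0 : ℝ) ≤ c := by exact_mod_cast of_decide_eq_true hc
      have a1 : (Q0 : ℝ) + Q1 * v + Q2 * v ^ 2 ≤ ((Q0 + |Q1| + Q2 : ℤ) : ℝ) := by
        push_cast
        have b1 : (Q1 : ℝ) * v ≤ |(Q1 : ℝ)| :=
          (le_abs_self _).trans ((abs_mul _ _).trans_le (mul_le_of_le_one_right (abs_nonneg _) hv))
        have b2 := mul_le_of_le_one_right h2' ((le_abs_self _).trans hv2)
        linarith
      have a2 : 0 < Q0 + |Q1| + Q2 := by exact_mod_cast hq.trans_le a1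
      have a3 : Int.add (Int.add Q0 (Int.ofNat (Int.natAbs Q1))) Q2 = Q0 + |Q1| + Q2 := by
        rw [← Int.natCast_natAbs Q1]
        rfl
      have a4 := clogUp_sound c (n := (Q0 + |Q1| + Q2).toNat) (by omega)
      rw [← Int.cast_natCast, Int.toNat_of_nonneg a2.le] at a4
      have a5 := mul_le_mul_of_nonneg_left (mul_le_mul_of_nonneg_left (Real.log_le_log hq a1) hc')
        (show (0 : ℝ) ≤ one by rw [ho]; norm_num)
      rw [a3, show ∀ x y : ℤ, Int.add x y = x + y from fun _ _ => rfl, Int.cast_add]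
      linarith
  | true =>
    rw [hb] at h
    refine ⟨_, _, _, _, h, ?_⟩
    have a0 : 16 * Q2 < Q0 := by
      have : 16 * Int.toNat Q2 < Int.toNat Q0 := Nat.blt_eq.mp hb
      omega
    have a1 : 0 < Q0 := by omega
    have a0' : 16 * (Q2 : ℝ) < Q0 := by exact_mod_cast a0
    have a1' : (0 : ℝ) < Q0 := by exact_mod_cast a1
    have h1' : (Q1 : ℝ) ^ 2 ≤ 4 * Q2 * Q0 := by exact_mod_cast h1
    have a4 := clogUp_sound c (n := Q0.toNat) (by omega)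
    rw [← Int.cast_natCast, Int.toNat_of_nonneg a1.le] at a4
    have a5 := log_quad (a := Q1 / Q0) (b := Q2 / Q0) (v := v)
      (by rw [div_pow, ← mul_div_assoc, div_le_div_iff₀ (by positivity) a1']; nlinarith)
      (by rw [div_le_iff₀ a1']; linarith) hv
    have e : (Q0 : ℝ) + Q1 * v + Q2 * v ^ 2 = Q0 * (1 + Q1 / Q0 * v + Q2 / Q0 * v ^ 2) := by field_simp
    have a6 : 0 < 1 + (Q1 : ℝ) / Q0 * v + Q2 / Q0 * v ^ 2 := (mul_pos_iff_of_pos_left a1').1 (e ▸ hq)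
    have a7 := (le_abs_self _).trans ((abs_mul ((c * 847288609443 : ℤ) : ℝ) _).trans_le
      (mul_le_mul_of_nonneg_left a5 (abs_nonneg _)))
    have d0 := abs_mul_le (ediv_bd (2 * |c * 847288609443| * (Q2 * Q2)) (d := 3 * (Q0 * Q0)) (by positivity))
      abs_one.le
    have d1 := abs_mul_le (ediv_bd (c * 847288609443 * Q1) a1) hv
    have d2 := abs_mul_le (ediv_bd (c * 847288609443 * (2 * (Q2 * Q0) - Q1 * Q1)) (d := 2 * (Q0 * Q0))
      (by positivity)) hv2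
    have d3 := abs_mul_le (ediv_bd (c * 847288609443 * Q1 * (Q1 * Q1 - 3 * (Q2 * Q0))) (d := 3 * (Q0 * Q0 * Q0))
      (by positivity)) hv3
    have e0 : Int.ofNat (Nat.mul 2 (Int.natAbs (Int.mul c 847288609443))) = 2 * |c * 847288609443| := by
      rw [← Int.natCast_natAbs]
      rfl
    rw [e0, e, Real.log_mul a1'.ne' a6.ne', ho] at *
    simp only [show ∀ x y : ℤ, Int.add x y = x + y from fun _ _ => rfl,
      show ∀ x y : ℤ, Int.mul x y = x * y from fun _ _ => rfl, show ∀ x y : ℤ, Int.sub x y = x - y from fun _ _ => rfl,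
      show ∀ x y : ℤ, Int.ediv x y = x / y from fun _ _ => rfl, Int.cast_add]
    generalize ((2 * |c * 847288609443| * (Q2 * Q2) / (3 * (Q0 * Q0)) : ℤ) : ℝ) = f0 at *
    generalize ((c * 847288609443 * Q1 / Q0 : ℤ) : ℝ) = f1 at *
    generalize ((c * 847288609443 * (2 * (Q2 * Q0) - Q1 * Q1) / (2 * (Q0 * Q0)) : ℤ) : ℝ) = f2 at *
    generalize ((c * 847288609443 * Q1 * (Q1 * Q1 - 3 * (Q2 * Q0)) / (3 * (Q0 * Q0 * Q0)) : ℤ) : ℝ) = f3 at *
    push_cast at d0 d1 d2 d3 a7 ⊢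
    have g0 : 2 * |(c : ℝ) * 847288609443| * (Q2 * Q2) / (3 * (Q0 * Q0)) =
        |(c : ℝ) * 847288609443| * (2 / 3 * (Q2 / Q0) ^ 2) := by field_simp
    have g1 : (c : ℝ) * 847288609443 * Q1 / Q0 = c * 847288609443 * (Q1 / Q0) := by ring
    have g2 : (c : ℝ) * 847288609443 * (2 * (Q2 * Q0) - Q1 * Q1) / (2 * (Q0 * Q0)) =
        c * 847288609443 * (Q2 / Q0 - (Q1 / Q0) ^ 2 / 2) := by field_simp
    have g3 : (c : ℝ) * 847288609443 * Q1 * (Q1 * Q1 - 3 * (Q2 * Q0)) / (3 * (Q0 * Q0 * Q0)) =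
        c * 847288609443 * ((Q1 / Q0) ^ 3 / 3 - Q1 / Q0 * (Q2 / Q0)) := by field_simp
    rw [g0] at d0
    rw [g1] at d1
    rw [g2] at d2
    rw [g3] at d3
    linarith

theorem cell_sound (X R U : ℤ) (hR : 0 ≤ R) (T : List Tm) (hT : wf T = true) (t0 t1 t2 t3 : ℤ)
    (h : cell X R U T t0 t1 t2 t3 = true) (v : ℝ) (hv : |v| ≤ 1)
    (hq : ∀ t ∈ T, 0 < t.q (X + R * v)) :
    (t0 : ℝ) + t1 * v + t2 * v ^ 2 + t3 * v ^ 3 + (one : ℝ) * F T (X + R * v) ≤ U := by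
  induction T generalizing t0 t1 t2 t3 with
  | nil =>
    have h1 : t0 + t1.natAbs + max t2 0 + t3.natAbs ≤ U := of_decide_eq_true h
    rw [Int.natCast_natAbs, Int.natCast_natAbs] at h1
    have h2 : (t0 : ℝ) + |(t1 : ℝ)| + max (t2 : ℝ) 0 + |(t3 : ℝ)| ≤ U := by exact_mod_cast h1
    have b : ∀ x y : ℝ, |y| ≤ 1 → x * y ≤ |x| := fun x y hy =>
      (le_abs_self _).trans ((abs_mul _ _).trans_le (mul_le_of_le_one_right (abs_nonneg _) hy))
    have b1 := b t1 v hv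
    have b3 := b t3 (v ^ 3) (by rw [abs_pow]; exact pow_le_one₀ (abs_nonneg _) hv)
    have b2 : (t2 : ℝ) * v ^ 2 ≤ max (t2 : ℝ) 0 := (mul_le_mul_of_nonneg_right (le_max_left _ 0) (sq_nonneg v)).trans
      (mul_le_of_le_one_right (le_max_right _ _) (by rwa [sq_le_one_iff_abs_le_one]))
    simp only [F, List.map_nil, List.sum_nil, mul_zero, add_zero]
    linarith
  | cons t T ih =>
    simp only [wf, List.all_cons, Bool.and_eq_true, decide_eq_true_eq] at hT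
    have e : t.q (X + R * v) = (((t.A * X + t.B) * X + t.C : ℤ) : ℝ) + (((t.A * X + t.A * X + t.B) * R : ℤ) : ℝ) * v +
        ((t.A * (R * R) : ℤ) : ℝ) * v ^ 2 := by
      unfold Tm.q
      push_cast
      ring
    obtain ⟨s0, s1, s2, s3, h1, h2⟩ := step_sound (c := t.c) (Q0 := (t.A * X + t.B) * X + t.C)
      (Q1 := (t.A * X + t.A * X + t.B) * R) (Q2 := t.A * (R * R)) (k := cell X R U T)
      (mul_nonneg hT.1.1 (mul_self_nonneg R)) (by nlinarith [mul_le_mul_of_nonneg_left hT.1.2 (mul_self_nonneg R)])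
      h hv (e ▸ hq t List.mem_cons_self)
    have h3 := ih (by simpa [wf] using hT.2) s0 s1 s2 s3 h1 fun t' ht' => hq t' (List.mem_cons_of_mem _ ht')
    rw [← e] at h2
    simp only [F, List.map_cons, List.sum_cons, mul_add] at h3 ⊢
    linarith

theorem run_sound {T : List Tm} (hT : wf T = true) {U hi lo : ℤ} {cs : List (ℤ × ℤ)}
    (h : run T U hi cs lo = true) : Bnd T U lo hi := by
  induction cs generalizing lo with
  | nil =>
    intro u h1 h2 _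
    have h3 : (hi : ℝ) ≤ lo := by exact_mod_cast (of_decide_eq_true h : hi ≤ lo)
    linarith
  | cons c cs ih =>
    have h' : (decide (c.1 - c.2 ≤ lo) && decide (0 ≤ c.2) && cell c.1 c.2 U T 0 0 0 0 &&
      run T U hi cs (c.1 + c.2)) = true := h
    simp only [Bool.and_eq_true, decide_eq_true_eq] at h'
    obtain ⟨⟨⟨a1, a2⟩, a3⟩, a4⟩ := h'
    intro u h1 h2 hq
    rcases lt_or_ge ((c.1 + c.2 : ℤ) : ℝ) u with h3 | h3
    · exact ih a4 u h3 h2 hq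
    have a1' : (c.1 : ℝ) - c.2 ≤ lo := by exact_mod_cast a1
    push_cast at h3
    have b : (0 : ℝ) < c.2 := by linarith
    have e : u = c.1 + c.2 * ((u - c.1) / c.2) := by field_simp; ring
    have := cell_sound c.1 c.2 U a2 T hT 0 0 0 0 a3 ((u - c.1) / c.2)
      (by rw [abs_div, abs_of_pos b, div_le_one b, abs_le]; constructor <;> linarith) (e ▸ hq)
    rw [← e] at this
    simpa using this

theorem Bnd.trans {T : List Tm} {U a b c : ℤ} (h1 : Bnd T U a b) (h2 : Bnd T U b c) :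
    Bnd T U a c := fun u a1 a2 hq => (le_or_gt u b).elim (fun h => h1 u a1 h hq) fun h => h2 u h a2 hq

end Crest.Agent.R6.Chk
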