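import Crest.Agent.R6.CertData
import Crest.Agent.R6.ChkCell

set_option autoImplicit false
set_option maxRecDepth 100000

namespace Crest.Agent.R6.Chk

theorem wfP : wf (TY (LB ++ LC)) = true := by decide +kernel

theorem bP0 : Bnd (TY (LB ++ LC)) (-76868893262477752884) (0) (280120901620) :=
  run_sound wfP (cs := [
  (24081390717, 24081390717), (63574871492, 15412090058), (88850699186, 9863737636),
  (106605426930, 7890990108), (122387407146, 7890990108), (136591189340, 6312792086),
  (149216773512, 6312792086), (163420555706, 7890990108), (181175283450, 9863737636),
  (200902758722, 9863737636), (226178586416, 15412090058), (260855789047, 19265112573)]) (by decide +kernel)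

theorem bP1 : Bnd (TY (LB ++ LC)) (-76868893262477752884) (280120901620) (485744669270) :=
  run_sound wfP (cs := [
  (304202292337, 24081390717), (343695773112, 15412090058), (371437535216, 12329672046),
  (396096879308, 12329672046), (418290288990, 9863737636), (436045016734, 7890990108),
  (450248798928, 6312792086), (461611824682, 5050233668), (469894207897, 3232149547),
  (475712077081, 2585719637), (480366372427, 2068575709), (484089808703, 1654860567)]) (by decide +kernel)

theorem bP2 : Bnd (TY (LB ++ LC)) (-76868893262477752884) (485744669270) (507109568398) :=
  run_sound wfP (cs := [
  (486803780032, 1059110762), (488710179403, 847288609), (490404756621, 847288609),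
  (492099333839, 847288609), (494270510901, 1323888453), (497249259921, 1654860567),
  (500228008941, 1323888453), (502399186003, 847288609), (503924305499, 677830887),
  (505144401095, 542264709), (506120477571, 433811767), (506831928868, 277639530)]) (by decide +kernel)

theorem bP3 : Bnd (TY (LB ++ LC)) (-76868893262477752884) (507109568398) (514166312404) :=
  run_sound wfP (cs := [
  (507331680022, 222111624), (507695943085, 142151439), (507951815675, 113721151),
  (508179257977, 113721151), (508406700279, 113721151), (508662572869, 142151439),
  (509026835932, 222111624), (509471059180, 222111624), (509970810335, 277639531),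
  (510682261634, 433811768), (511793904291, 677830889), (513319023792, 847288612)]) (by decide +kernel)

theorem bP4 : Bnd (TY (LB ++ LC)) (-76868893262477752884) (514166312404) (731615642478) :=
  run_sound wfP (cs := [
  (515490200862, 1323888458), (518468949893, 1654860573), (522709530113, 2585719647),
  (528527399319, 3232149559), (535799735827, 4040186949), (546152714885, 6312792109),
  (560356497131, 7890990137), (580577159359, 12329672091), (608318921564, 15412090114),
  (642996124321, 19265112643), (681526349607, 19265112643), (716203552364, 15412090114)]) (by decide +kernel)

theorem bP5 : Bnd (TY (LB ++ LC)) (-76868893262477752884) (731615642478) (842623699692) :=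
  run_sound wfP (cs := [
  (743945314569, 12329672091), (766138724332, 9863737672), (783893452141, 7890990137),
  (798097234387, 6312792109), (809460260183, 5050233687), (818550680819, 4040186949),
  (825823017327, 3232149559), (831123742603, 2068575717), (834847178893, 1654860573),
  (837825927924, 1323888458), (840208927148, 1059110766), (841945868803, 677830889)]) (by decide +kernel)

theorem bP6 : Bnd (TY (LB ++ LC)) (-76868893262477752884) (842623699692) (847169754604) :=
  run_sound wfP (cs := [
  (843165964403, 542264711), (844142040882, 433811768), (844922902064, 347049414),
  (845547591009, 277639531), (846002919839, 177689299), (846322760577, 142151439),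
  (846578633167, 113721151), (846765135854, 72781536), (846896142618, 58225228),
  (847000948028, 46580182), (847084792355, 37264145), (847145905552, 23849052)]) (by decide +kernel)

theorem bP7 : Bnd (TY (LB ++ LC)) (-76868893262477752884) (847169754604) (847288609443) :=
  run_sound wfP (cs := [
  (847188833845, 19079241), (847223176478, 15263392), (847248208440, 9768570),
  (847262978517, 5001507), (847271981229, 4001205), (847283797290, 7814856)]) (by decide +kernel)

theorem bndP : Bnd (TY (LB ++ LC)) (-76868893262477752884) (0) (847288609443) :=
  (((((((bP0.trans bP1).trans bP2).trans bP3).trans bP4).trans bP5).trans bP6).trans bP7)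

end Crest.Agent.R6.Chk
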