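import Crest.Agent.R6.CertData
import Crest.Agent.R6.ChkCell

set_option autoImplicit false
set_option maxRecDepth 100000

namespace Crest.Agent.R6.Chk

theorem wfSg : wf (TS (LD ++ neg LC)) = true := by decide +kernel

theorem bSg0 : Bnd (TS (LD ++ neg LC)) (-223380324695215800252) (0) (51689133054) :=
  run_sound wfSg (cs := [
  (2711323549, 2711323549), (7591705937, 2169058839), (11496011847, 1735247071),
  (14619456574, 1388197656), (16896100729, 888446499), (18672993727, 888446499),
  (20671998350, 1110558124), (23170754130, 1388197656), (26728010625, 2169058839),
  (31608393013, 2711323549), (37708870999, 3389154437), (46393579245, 5295553809)]) (by decide +kernel)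

theorem bSg1 : Bnd (TS (LD ++ neg LC)) (-223380324695215800252) (51689133054) (1113818011442) :=
  run_sound wfSg (cs := [
  (58308575316, 6619442262), (73202320406, 8274302828), (91819501770, 10342878536),
  (118323128020, 16160747714), (154684810377, 20200934643), (200136913324, 25251168304),
  (264843032105, 39454950477), (353616670679, 49318688097), (464583718898, 61648360122),
  (603292529173, 77060450153), (776678542018, 96325562692), (993411058076, 120406953366)]) (by decide +kernel)

theorem bSg2 : Bnd (TS (LD ++ neg LC)) (-223380324695215800252) (1113818011442) (3277494205574) :=
  run_sound wfSg (cs := [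
  (1264326703150, 150508691708), (1565344086566, 150508691708), (1866361469982, 150508691708),
  (2167378853398, 150508691708), (2438294498472, 120406953366), (2655027014530, 96325562692),
  (2828413027375, 77060450153), (2967121837650, 61648360122), (3068225148249, 39454950477),
  (3147135049203, 39454950477), (3211841167984, 25251168304), (3257293270931, 20200934643)]) (by decide +kernel)

theorem bSg3 : Bnd (TS (LD ++ neg LC)) (-223380324695215800252) (3277494205574) (3385351046070) :=
  run_sound wfSg (cs := [
  (3290422803745, 12928598171), (3313694280452, 10342878536), (3332311461816, 8274302828),
  (3345881318453, 5295553809), (3356472426071, 5295553809), (3365157134317, 3389154437),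
  (3371257612303, 2711323549), (3375704182923, 1735247071), (3378827627650, 1388197656),
  (3381326383430, 1110558124), (3383325388053, 888446499), (3384782440311, 568605759)]) (by decide +kernel)

theorem bSg4 : Bnd (TS (LD ++ neg LC)) (-223380324695215800252) (3385351046070) (3389154437772) :=
  run_sound wfSg (cs := [
  (3385805930677, 454884607), (3386624722969, 363907685), (3387279756802, 291126148),
  (3387803783868, 232900918), (3388185741373, 149056587), (3388454043229, 119245269),
  (3388668684713, 95396215), (3388840397900, 76316972), (3388955789160, 39074288),
  (3389033937736, 39074288), (3389104271454, 31259430), (3389144984329, 9453445)]) (by decide +kernel)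

theorem bndSg : Bnd (TS (LD ++ neg LC)) (-223380324695215800252) (0) (3389154437772) :=
  ((((bSg0.trans bSg1).trans bSg2).trans bSg3).trans bSg4)

end Crest.Agent.R6.Chk
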