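import Crest.Agent.R6.CertData
import Crest.Agent.R6.ChkCell

set_option autoImplicit false
set_option maxRecDepth 100000

namespace Crest.Agent.R6.Chk

theorem wfW1 : wf (TL (LA ++ neg LB)) = true := by decide +kernel

theorem bW10 : Bnd (TL (LA ++ neg LB)) (66418784636514881400) (-3389154437773) (-3141859115997) :=
  run_sound wfW1 (cs := [
  (-3387377544772, 1776893001), (-3383823758770, 1776893001), (-3379825749517, 2221116252),
  (-3374828237949, 2776395316), (-3367713724950, 4338117683), (-3357952960163, 5422647104),
  (-3345752004178, 6778308881), (-3328382587669, 10591107628), (-3304552595505, 13238884536),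
  (-3274765105298, 16548605671), (-3232359303265, 25857196362), (-3174180611450, 32321495453)]) (by decide +kernel)

theorem bW11 : Bnd (TL (LA ++ neg LB)) (66418784636514881400) (-3141859115997) (-1366859802633) :=
  run_sound wfW1 (cs := [
  (-3101457246680, 40401869317), (-3010553040716, 50502336647), (-2881140803057, 78909901012),
  (-2703593525779, 98637376266), (-2481659429180, 123296720333), (-2235065988514, 123296720333),
  (-2032859367169, 78909901012), (-1875039565145, 78909901012), (-1745627327486, 50502336647),
  (-1644622654192, 50502336647), (-1543617980898, 50502336647), (-1429987723442, 63127920809)]) (by decide +kernel)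

theorem bW12 : Bnd (TL (LA ++ neg LB)) (66418784636514881400) (-1366859802633) (2492490911963) :=
  run_sound wfW1 (cs := [
  (-1268222426367, 98637376266), (-1046288329768, 123296720333), (-768870709018, 154120900417),
  (-373935901698, 240813906903), (167895388834, 301017383629), (769930156092, 301017383629),
  (1311761446624, 240813906903), (1706696253944, 154120900417), (1984113874694, 123296720333),
  (2186320496039, 78909901012), (2328358317860, 63127920809), (2441988575316, 50502336647)]) (by decide +kernel)

theorem bW13 : Bnd (TL (LA ++ neg LB)) (66418784636514881400) (2492490911963) (3258348746723) :=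
  run_sound wfW1 (cs := [
  (2542993248610, 50502336647), (2625817080710, 32321495453), (2678824333252, 20685757089),
  (2720195847430, 20685757089), (2761567361608, 20685757089), (2808110315059, 25857196362),
  (2866289006874, 32321495453), (2949112838974, 50502336647), (3050117512268, 50502336647),
  (3132941344368, 32321495453), (3191120036183, 25857196362), (3237662989634, 20685757089)]) (by decide +kernel)

theorem bW14 : Bnd (TL (LA ++ neg LB)) (66418784636514881400) (3258348746723) (3385310800957) :=
  run_sound wfW1 (cs := [
  (3274897352394, 16548605671), (3304684842601, 13238884536), (3326396613239, 8472886102),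
  (3341647808222, 6778308881), (3353848764207, 5422647104), (3362741905457, 3470494146),
  (3368988794919, 2776395316), (3373986306487, 2221116252), (3377984315740, 1776893001),
  (3380898420261, 1137211520), (3382945400997, 909769216), (3384582985585, 727815372)]) (by decide +kernel)

theorem bW15 : Bnd (TL (LA ++ neg LB)) (66418784636514881400) (3385310800957) (3389154437772) :=
  run_sound wfW1 (cs := [
  (3385776602794, 465801837), (3386615046100, 372641469), (3387285800744, 298113175),
  (3387774706351, 190792432), (3388118132728, 152633945), (3388392873829, 122107156),
  (3388612666709, 97685724), (3388788501012, 78148579), (3388916664681, 50015090),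
  (3389029198634, 62518863), (3389123077636, 31360139)]) (by decide +kernel)

theorem bndW1 : Bnd (TL (LA ++ neg LB)) (66418784636514881400) (-3389154437773) (3389154437772) :=
  (((((bW10.trans bW11).trans bW12).trans bW13).trans bW14).trans bW15)

end Crest.Agent.R6.Chk
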