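import Crest.Agent.R6.CertData
import Crest.Agent.R6.ChkCell

set_option autoImplicit false
set_option maxRecDepth 100000

namespace Crest.Agent.R6.Chk

theorem wfW2 : wf (TC (LA ++ neg LB)) = true := by decide +kernel

theorem bW20 : Bnd (TC (LA ++ neg LB)) (132837569273029762800) (-1694577218887) (-1667297542937) :=
  run_sound wfW2 (cs := [
  (-1694008613128, 568605759), (-1693076099684, 363907685), (-1692421065851, 291126148),
  (-1691897038785, 232900918), (-1691373011719, 291126148), (-1690717977885, 363907686),
  (-1689785464438, 568605761), (-1688328412174, 888446503), (-1686051768009, 1388197662),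
  (-1682928323269, 1735247078), (-1678481752630, 2711323561), (-1671533986003, 4236443066)]) (by decide +kernel)

theorem bW21 : Bnd (TC (LA ++ neg LB)) (132837569273029762800) (-1667297542937) (-342373132461) :=
  run_sound wfW2 (cs := [
  (-1660678100645, 6619442292), (-1643715779770, 10342878583), (-1617212153400, 16160747787),
  (-1580850470879, 20200934734), (-1535398367727, 25251168418), (-1470692248655, 39454950654),
  (-1381918609683, 49318688318), (-1270951560967, 61648360398), (-1112977637446, 96325563123),
  (-920326511200, 96325563123), (-703593994173, 120406953904), (-462780086365, 120406953904)]) (by decide +kernel)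

theorem bW22 : Bnd (TC (LA ++ neg LB)) (132837569273029762800) (-342373132461) (1594111170199) :=
  run_sound wfW2 (cs := [
  (-191864440080, 150508692381), (109152944682, 150508692381), (380068590967, 120406953904),
  (620882498775, 120406953904), (837615015802, 96325563123), (1030266142048, 96325563123),
  (1203652155669, 77060450498), (1330031294485, 49318688318), (1418804933457, 39454950654),
  (1489823844634, 31563960523), (1541588739891, 20200934734), (1577950422412, 16160747787)]) (by decide +kernel)

theorem bW23 : Bnd (TC (LA ++ neg LB)) (132837569273029762800) (1594111170199) (1693072833129) :=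
  run_sound wfW2 (cs := [
  (1607039768428, 12928598229), (1630311245240, 10342878583), (1647273566115, 6619442292),
  (1659188562240, 5295553833), (1668720559139, 4236443066), (1675668325766, 2711323561),
  (1680548708175, 2169058848), (1684105964685, 1388197662), (1687229409425, 1735247078),
  (1689853103006, 888446503), (1691452306711, 710757202), (1692617948521, 454884608)]) (by decide +kernel)

theorem bW24 : Bnd (TC (LA ++ neg LB)) (132837569273029762800) (1693072833129) (1694540681269) :=
  run_sound wfW2 (cs := [
  (1693305734047, 232900918), (1693724955699, 186320734), (1694006672648, 95396215),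
  (1694178385835, 76316972), (1694293777095, 39074288), (1694364110813, 31259430),
  (1694415376278, 20006035), (1694448186175, 12803862), (1694471233126, 10243089),
  (1694491719304, 10243089), (1694514766255, 12803862), (1694534125693, 6555576)]) (by decide +kernel)

theorem bW25 : Bnd (TC (LA ++ neg LB)) (132837569273029762800) (1694540681269) (1694577218886) :=
  run_sound wfW2 (cs := [
  (1694545925729, 5244460), (1694555365757, 4195568), (1694562917779, 3356454),
  (1694569630687, 3356454), (1694575103015, 2115874)]) (by decide +kernel)

theorem bndW2 : Bnd (TC (LA ++ neg LB)) (132837569273029762800) (-1694577218887) (1694577218886) :=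
  (((((bW20.trans bW21).trans bW22).trans bW23).trans bW24).trans bW25)

end Crest.Agent.R6.Chk
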