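import Crest.Agent.R6.ChkLog

/-! Soundness of the energy lower bounds.  All logarithm arguments are positive integers:
`b + b' > 0`; on opposite sides `Y ≠ Y'`; on the same side (off the circle)
`|(Y-c0)(Y'-c0)| ≠ r0²`.  `‖Y - conj Y'‖² = ss/K²`; `‖r0² - (Y-c0)(Y'-c0)‖² = nrm/(15K)⁴`
(the scales cancel in the difference); `∑∑ n n' = msum²`. -/

set_option autoImplicit false

namespace Crest.Agent.R6.Chk

namespace En

theorem lsum_eq {α : Type} (f : α → ℤ) (L : List α) : lsum f L = ∑ j : Fin L.length, f (L.get j) := by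
  have : lsum f L = (L.map f).sum := by
    induction L with
    | nil => rfl
    | cons a L ih =>
      rw [List.map_cons, List.sum_cons, ← ih]
      rfl
  rw [this, ← Fin.sum_univ_fun_getElem]
  rfl

theorem msum_eq (L : Pl) : (msum L : ℝ) = ∑ j : Fin L.length, ((L.get j).1 : ℝ) := by
  rw [msum, ← Fin.sum_univ_fun_getElem]
  push_cast
  rfl

theorem K_pos : (0 : ℝ) < K := by norm_num [K]

theorem gen (L : Pl) (f : ℤ × ℤ × ℤ → ℤ × ℤ × ℤ → ℤ) (κ : Fin L.length → Fin L.length → ℝ)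
    (h : ∀ j k, -((one : ℝ) * (4 * ((L.get j).1 * (L.get k).1) * (κ j k + Real.log K))) ≤ f (L.get j) (L.get k)) :
    -((one : ℝ) * (4 * (Dc : ℝ) ^ 2) * ∑ j, ∑ k, ((L.get j).1 : ℝ) / Dc * (((L.get k).1 : ℝ) / Dc) * κ j k) ≤
      (negE f L : ℝ) := by
  have h1 := clogUp_sound (4 * (msum L * msum L)) (n := K.toNat) (by decide)
  have hK : ((K.toNat : ℕ) : ℝ) = K := by rw [← Int.cast_natCast, Int.toNat_of_nonneg (by decide)]
  have hD : (Dc : ℝ) ≠ 0 := by norm_num [Dc]
  have h2 := Finset.sum_le_sum (s := Finset.univ) fun j _ => Finset.sum_le_sum (s := Finset.univ) fun k _ => h j k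
  rw [hK] at h1
  rw [negE, lsum_eq]
  simp only [lsum_eq]
  push_cast at h1 ⊢
  rw [msum_eq, Finset.sum_mul_sum] at h1
  refine le_trans (le_of_eq ?_) (add_le_add h2 h1)
  simp only [Finset.mul_sum, Finset.sum_mul, ← Finset.sum_neg_distrib, ← Finset.sum_add_distrib]
  refine Finset.sum_congr rfl fun j _ => Finset.sum_congr rfl fun k _ => ?_
  field_simp
  ring

theorem ss_cast (x y : ℤ) : (ss x y : ℝ) = (x : ℝ) ^ 2 + (y : ℝ) ^ 2 := by
  change ((x.natAbs * x.natAbs + y.natAbs * y.natAbs : ℕ) : ℝ) = _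
  push_cast
  simp only [Nat.cast_natAbs, Int.cast_abs, abs_mul_abs_self, sq]

theorem log_ss (c : ℤ) {z : ℂ} (hz : z ≠ 0) {s : ℝ} (hs : 0 < s) {x y : ℤ}
    (h : (z.re * s) ^ 2 + (z.im * s) ^ 2 = (x : ℝ) ^ 2 + (y : ℝ) ^ 2) :
    (one : ℝ) * (c * (2 * (Real.log ‖z‖ + Real.log s))) ≤ (clogUp c (ss x y) : ℝ) := by
  have h0 := norm_pos_iff.2 hz
  have h1 : (ss x y : ℝ) = (‖z‖ * s) ^ 2 := by
    rw [ss_cast, ← h, mul_pow ‖z‖, Complex.sq_norm, Complex.normSq_apply]
    ring
  have h2 : 0 < ss x y := by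
    have : (0 : ℝ) < ss x y := by
      rw [h1]
      positivity
    exact_mod_cast this
  have := clogUp_sound c h2
  rwa [h1, Real.log_pow, Real.log_mul h0.ne' hs.ne', Nat.cast_ofNat] at this

/-- the pole -/
noncomputable def Yp (p : ℤ × ℤ × ℤ) : ℂ := ⟨(p.2.1 : ℝ) / K, (p.2.2 : ℝ) / K⟩

theorem nsq (p : ℤ × ℤ × ℤ) :
    (‖Yp p - c0‖ * (15 * K)) ^ 2 = (((15 * p.2.1 - 37 * K) ^ 2 + (15 * p.2.2) ^ 2 : ℤ) : ℝ) := by
  have := K_pos
  rw [mul_pow, Complex.sq_norm, Complex.normSq_apply]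
  simp only [Yp, c0, Complex.sub_re, Complex.sub_im, Complex.ofReal_re, Complex.ofReal_im]
  push_cast
  field_simp
  ring

theorem rsq : (r0 * (15 * K)) ^ 2 = (((13 * K) ^ 2 : ℤ) : ℝ) := by
  rw [r0]
  push_cast
  ring

theorem r0_pos : 0 < r0 := by norm_num [r0]

theorem inside_iff (p : ℤ × ℤ × ℤ) : inside p = true ↔ ‖Yp p - c0‖ < r0 := by
  have := K_pos
  have := r0_pos
  rw [inside, decide_eq_true_iff, ← Int.cast_lt (R := ℝ), ← nsq, ← rsq,
    sq_lt_sq₀ (by positivity) (by positivity), mul_lt_mul_iff_left₀ (by positivity)]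

theorem off {L : Pl} (h' : offOK L = true) {p : ℤ × ℤ × ℤ} (hp : p ∈ L) : ‖Yp p - c0‖ ≠ r0 := by
  intro e
  refine of_decide_eq_true (List.all_eq_true.1 h' p hp) (Int.cast_injective (α := ℝ) ?_)
  rw [← nsq, ← rsq, e]

theorem im {L : Pl} (h : imOK L = true) {p : ℤ × ℤ × ℤ} (hp : p ∈ L) : (0 : ℝ) < p.2.2 := by
  exact_mod_cast of_decide_eq_true (List.all_eq_true.1 h p hp)

theorem line (c : ℤ) {p p' : ℤ × ℤ × ℤ} (h : (0 : ℝ) < p.2.2) (h' : (0 : ℝ) < p'.2.2) :
    (one : ℝ) * (c * (2 * (Real.log ‖Yp p - (starRingEnd ℂ) (Yp p')‖ + Real.log K))) ≤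
      (clogUp c (ss (Int.sub p.2.1 p'.2.1) (Int.add p.2.2 p'.2.2)) : ℝ) := by
  have hK := K_pos
  refine log_ss c (fun e => ?_) hK (x := p.2.1 - p'.2.1) (y := p.2.2 + p'.2.2) ?_
  · have := congrArg Complex.im e
    simp only [Yp, Complex.sub_im, Complex.conj_im, Complex.zero_im] at this
    have h1 := div_pos h hK
    have h2 := div_pos h' hK
    linarith
  · simp only [Yp, Complex.sub_im, Complex.conj_im, Complex.sub_re, Complex.conj_re]
    push_cast
    field_simp
    ring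

theorem pairLine_sound {p p' : ℤ × ℤ × ℤ} (h : (0 : ℝ) < p.2.2) (h' : (0 : ℝ) < p'.2.2) :
    -((one : ℝ) * (4 * (p.1 * p'.1) * (Real.log ‖Yp p - (starRingEnd ℂ) (Yp p')‖ + Real.log K))) ≤
      pairLine p p' := by
  refine le_trans (le_of_eq ?_) (line (-2 * (p.1 * p'.1)) h h')
  push_cast
  ring

theorem ne_sq {u v : ℂ} (hu : ‖u‖ ≠ r0) (hv : ‖v‖ ≠ r0) (h : ‖u‖ < r0 ↔ ‖v‖ < r0) : (r0 : ℂ) ^ 2 - u * v ≠ 0 := by
  intro e
  have h1 := congrArg norm (sub_eq_zero.1 e)
  have h0 := r0_pos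
  rw [norm_pow, norm_mul, Complex.norm_real, Real.norm_of_nonneg h0.le] at h1
  have := norm_nonneg u
  have := norm_nonneg v
  by_cases c : ‖u‖ < r0
  · have := h.1 c
    nlinarith
  · have a1 : r0 < ‖u‖ := lt_of_le_of_ne (not_lt.1 c) hu.symm
    have a2 : r0 < ‖v‖ := lt_of_le_of_ne (not_lt.1 fun c' => c (h.2 c')) hv.symm
    nlinarith

theorem pairCross_sound {p p' : ℤ × ℤ × ℤ} (h : (0 : ℝ) < p.2.2) (h' : (0 : ℝ) < p'.2.2)
    (o : ‖Yp p - c0‖ ≠ r0) (o' : ‖Yp p' - c0‖ ≠ r0) :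
    -((one : ℝ) * (4 * (p.1 * p'.1) * (Kx (Yp p) (Yp p') + Real.log K))) ≤ pairCross p p' := by
  have hK := K_pos
  by_cases c : ‖Yp p - c0‖ < r0 ↔ ‖Yp p' - c0‖ < r0
  · have e : (inside p == inside p') = true := by
      rw [beq_iff_eq, Bool.eq_iff_iff, inside_iff, inside_iff]
      exact c
    have hc : ‖(starRingEnd ℂ) (Yp p') - c0‖ = ‖Yp p' - c0‖ := by
      rw [← Complex.norm_conj, map_sub, Complex.conj_conj, Complex.conj_ofReal]
    have a1 := pairLine_sound h h'
    have a2 := log_ss (-(p.1 * p'.1)) (ne_sq o (hc ▸ o') (hc ▸ c)) (s := (15 * K) ^ 2) (by positivity)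
      (x := 2054645462580620967369 - (cal p * cal p' - cbe p * -cbe p')) (y := cal p * -cbe p' + cbe p * cal p') (by
        simp only [Yp, c0, r0, cal, cbe, Int.sub_eq_add_neg, Int.mul_def, sq, Complex.sub_re, Complex.sub_im,
          Complex.mul_re, Complex.mul_im, Complex.ofReal_re, Complex.ofReal_im, Complex.conj_re, Complex.conj_im, K,
          Int.sub, Int.add_def]
        push_cast
        ring)
    have a3 := log_ss (p.1 * p'.1) (ne_sq o o' c) (s := (15 * K) ^ 2) (by positivity)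
      (x := 2054645462580620967369 - (cal p * cal p' - cbe p * cbe p')) (y := cal p * cbe p' + cbe p * cal p') (by
        simp only [Yp, c0, r0, cal, cbe, Int.sub_eq_add_neg, Int.mul_def, sq, Complex.sub_re, Complex.sub_im,
          Complex.mul_re, Complex.mul_im, Complex.ofReal_re, Complex.ofReal_im, K, Int.sub, Int.add_def]
        push_cast
        ring)
    rw [pairCross, e, Kx, if_pos c]
    refine le_trans (le_of_eq ?_) ((add_le_add (add_le_add a1 a2) a3).trans_eq ?_)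
    · push_cast
      ring
    · rw [← Int.cast_add, ← Int.cast_add]
      rfl
  · have e : (inside p == inside p') = false := by
      rw [beq_eq_false_iff_ne, Ne, Bool.eq_iff_iff, inside_iff, inside_iff]
      exact c
    have a1 := line (-(p.1 * p'.1)) h h'
    have a2 := log_ss (-(p.1 * p'.1)) (z := Yp p - Yp p') (fun e => c (by rw [sub_eq_zero.1 e])) hK
      (x := p.2.1 - p'.2.1) (y := p.2.2 - p'.2.2) (by
        simp only [Yp, Complex.sub_im, Complex.sub_re]
        push_cast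
        field_simp)
    rw [pairCross, e, Kx, if_neg c]
    refine le_trans (le_of_eq ?_) ((add_le_add a1 a2).trans_eq ?_)
    · push_cast
      ring
    · rw [← Int.cast_add]
      rfl

end En

open En

theorem mass_toPol (L : Pl) (h : imOK L = true) : (toPol L h).mass = (msum L : ℝ) / Dc := by
  rw [msum_eq, Finset.sum_div]
  rfl

theorem off_toPol (L : Pl) (h : imOK L = true) (h' : offOK L = true) : (toPol L h).OffCircle := by
  exact fun j => off h' (List.get_mem L j)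

theorem negE_line (L : Pl) (h : imOK L = true) :
    -((one : ℝ) * (4 * (Dc : ℝ) ^ 2) * (toPol L h).ELine) ≤ (negE pairLine L : ℝ) := by
  exact gen L pairLine (fun j k => Real.log ‖Yp (L.get j) - (starRingEnd ℂ) (Yp (L.get k))‖) fun j k =>
    pairLine_sound (im h (List.get_mem L j)) (im h (List.get_mem L k))

theorem negE_cross (L : Pl) (h : imOK L = true) (h' : offOK L = true) :
    -((one : ℝ) * (4 * (Dc : ℝ) ^ 2) * (toPol L h).ECross) ≤ (negE pairCross L : ℝ) := by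
  exact gen L pairCross (fun j k => Kx (Yp (L.get j)) (Yp (L.get k))) fun j k =>
    pairCross_sound (im h (List.get_mem L j)) (im h (List.get_mem L k)) (off h' (List.get_mem L j))
      (off h' (List.get_mem L k))

end Crest.Agent.R6.Chk
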