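import Crest.Agent.R6.ChkCell
import Crest.Agent.R6.ChkEn

/-! From the checked inequalities to a `Cert`.
`U` of a list is `∑ (n/Dc) log ‖y - Y‖` for real `y` (`conj y = y`), additive under `++`, odd under `neg`.
* `u = S/y`: `‖y-Y‖² = ((SK - a u)² + b²u²)/(K²u²)`, `|y| = S/|u|`, `|y-2| = |S-2u|/|u|`
  (`y ≤ -2` gives `-S/2 ≤ u < 0`; `y ≥ 10/3 - 1/1000` gives `0 < u ≤ 3000 S/9997 ≤ 508525723384`;
  `y > 2` gives `0 < u < S/2 = 847288609443`);
* `u = S y`: `‖y-Y‖² = ((K u - aS)² + b²S²)/(K S)²`;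
* circle: `η - c0 = r0(μ + iν)`, `μ² + ν² = 1`, `u = Sμ`,
  `‖η-Y‖²‖conj η-Y‖² = q(u)/(S² (15K)⁴)`, positive since the pole is off the circle. -/

set_option autoImplicit false

namespace Crest.Agent.R6.Chk

/-- potential of a list. -/
noncomputable def UL (L : Pl) (z : ℂ) : ℝ :=
  (L.map fun p => ((p.1 : ℝ) / Dc) *
    ((Real.log ‖z - ⟨(p.2.1 : ℝ) / K, (p.2.2 : ℝ) / K⟩‖ +
      Real.log ‖(starRingEnd ℂ) z - ⟨(p.2.1 : ℝ) / K, (p.2.2 : ℝ) / K⟩‖) / 2)).sum

theorem U_toPol (L : Pl) (h : imOK L = true) (z : ℂ) : (toPol L h).U z = UL L z := by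
  rw [UL, ← Fin.sum_univ_fun_getElem]
  rfl

theorem UL_append (L L' : Pl) (z : ℂ) : UL (L ++ L') z = UL L z + UL L' z := by
  simp only [UL, List.map_append, List.sum_append]

theorem UL_neg (L : Pl) (z : ℂ) : UL (neg L) z = -UL L z := by
  induction L with
  | nil => simp [UL, neg]
  | cons a L ih =>
    have e : neg (a :: L) = (-a.1, a.2) :: neg L := rfl
    rw [e]
    simp only [UL, List.map_cons, List.sum_cons] at ih ⊢
    rw [ih]
    push_cast
    ring

namespace Br
open En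

theorem F_cons (t : Tm) (T : List Tm) (u : ℝ) :
    F (t :: T) u = (t.c : ℝ) * Real.log (t.q u) + F T u := by
  simp only [F, List.map_cons, List.sum_cons]

theorem F_map (L : Pl) (g : ℤ × ℤ × ℤ → Tm) (u m κ : ℝ) (z : ℂ) (hc : ∀ p, (g p).c = p.1)
    (h : ∀ p ∈ L, Real.log ((g p).q u) =
      m * ((Real.log ‖z - Yp p‖ + Real.log ‖(starRingEnd ℂ) z - Yp p‖) / 2) + κ) :
    F (L.map g) u = m * Dc * UL L z + msum L * κ := by
  have hD : (Dc : ℝ) ≠ 0 := by norm_num [Dc]
  induction L with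
  | nil => simp [F, UL, msum]
  | cons a L ih =>
    have h1 := ih fun p hp => h p (List.mem_cons_of_mem _ hp)
    have h2 := h a List.mem_cons_self
    rw [List.map_cons, F_cons, h1, h2, hc]
    simp only [UL, msum, List.map_cons, List.sum_cons, Yp]
    push_cast
    field_simp
    ring

theorem S_pos : (0 : ℝ) < S := by norm_num [S]

theorem Dc_pos : (0 : ℝ) < Dc := by norm_num [Dc]

theorem one_pos' : (0 : ℝ) < one := by norm_num [one]

theorem real_ne {p : ℤ × ℤ × ℤ} (hp : (0 : ℝ) < p.2.2) (y : ℝ) : 0 < ‖(y : ℂ) - Yp p‖ := by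
  refine norm_pos_iff.2 fun e => ?_
  have := congrArg Complex.im e
  simp only [Yp, Complex.sub_im, Complex.ofReal_im, Complex.zero_im] at this
  have h1 := div_pos hp K_pos
  linarith

theorem real_sq (p : ℤ × ℤ × ℤ) (y : ℝ) :
    (‖(y : ℂ) - Yp p‖ * K) ^ 2 = (K * y - p.2.1) ^ 2 + (p.2.2 : ℝ) ^ 2 := by
  have := K_pos
  rw [mul_pow, Complex.sq_norm, Complex.normSq_apply]
  simp only [Yp, Complex.sub_re, Complex.sub_im, Complex.ofReal_re, Complex.ofReal_im]
  field_simp
  ring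

theorem imOK_append {L L' : Pl} (h : imOK L = true) (h' : imOK L' = true) :
    imOK (L ++ L') = true := by
  simp only [imOK, List.all_append, Bool.and_eq_true] at h h' ⊢
  exact ⟨h, h'⟩

theorem offOK_append {L L' : Pl} (h : offOK L = true) (h' : offOK L' = true) :
    offOK (L ++ L') = true := by
  simp only [offOK, List.all_append, Bool.and_eq_true] at h h' ⊢
  exact ⟨h, h'⟩

theorem imOK_neg {L : Pl} (h : imOK L = true) : imOK (neg L) = true := by
  rw [imOK, neg, List.all_map]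
  exact h

theorem offOK_neg {L : Pl} (h : offOK L = true) : offOK (neg L) = true := by
  rw [offOK, neg, List.all_map]
  exact h

end Br

open En Br

theorem TY_eq (L : Pl) (h : imOK L = true) {y : ℝ} (h0 : y ≠ 0) (h2 : y ≠ 2) :
    (∀ t ∈ TY L, 0 < t.q (S / y)) ∧ F (TY L) (S / y) = 2 * Dc * (UL L y + V1 y) := by
  have hK := K_pos
  have hS := S_pos
  have hy : 0 < |y| := abs_pos.2 h0
  have hy2 : 0 < |y - 2| := abs_pos.2 (sub_ne_zero.2 h2)
  have q1 : (⟨42 * Dc - msum L, 1, 0, 0⟩ : Tm).q (S / y) = (S / |y|) ^ 2 := by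
    simp only [Tm.q, div_pow, sq_abs]
    push_cast
    ring
  have q2 : (⟨2 * Dc, 4, -4 * S, S * S⟩ : Tm).q (S / y) = (S * |y - 2| / |y|) ^ 2 := by
    simp only [Tm.q, div_pow, mul_pow, sq_abs]
    push_cast
    field_simp
    ring
  have q3 : (⟨84 * Dc, 0, 0, 2⟩ : Tm).q (S / y) = 2 := by simp [Tm.q]
  have q4 : (⟨-88 * Dc, 0, 0, S⟩ : Tm).q (S / y) = S := by simp [Tm.q]
  have q5 : (⟨-2 * msum L, 0, 0, K⟩ : Tm).q (S / y) = K := by simp [Tm.q]
  have q6 : ∀ p : ℤ × ℤ × ℤ, (⟨p.1, p.2.1 * p.2.1 + p.2.2 * p.2.2, -2 * p.2.1 * K * S,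
      K * K * (S * S)⟩ : Tm).q (S / y) = (‖(y : ℂ) - Yp p‖ * K * (S / |y|)) ^ 2 := by
    intro p
    rw [mul_pow, real_sq]
    simp only [Tm.q, div_pow, sq_abs]
    push_cast
    field_simp
    ring
  refine ⟨?_, ?_⟩
  · intro t ht
    simp only [TY, List.mem_cons, List.mem_map] at ht
    rcases ht with rfl | rfl | rfl | rfl | rfl | ⟨p, hp, rfl⟩
    · rw [q1]; positivity
    · rw [q2]; positivity
    · rw [q3]; positivity
    · rw [q4]; positivity
    · rw [q5]; positivity
    · have := real_ne (im h hp) y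
      rw [q6]; positivity
  · rw [TY, F_cons, F_cons, F_cons, F_cons, F_cons, q1, q2, q3, q4, q5,
      F_map L _ _ 2 (2 * (Real.log K + (Real.log S - Real.log |y|))) y (fun _ => rfl)]
    · rw [Real.log_pow, Real.log_pow, Real.log_div hS.ne' hy.ne',
        Real.log_div (by positivity) hy.ne', Real.log_mul hS.ne' hy2.ne', V1]
      push_cast
      ring
    · intro p hp
      have := real_ne (im h hp) y
      rw [q6, Real.log_pow, Real.log_mul (by positivity) (by positivity),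
        Real.log_mul this.ne' hK.ne', Real.log_div hS.ne' hy.ne', Complex.conj_ofReal]
      push_cast
      ring

theorem TL_eq (L : Pl) (h : imOK L = true) (y : ℝ) :
    (∀ t ∈ TL L, 0 < t.q (S * y)) ∧ F (TL L) (S * y) = 2 * Dc * UL L y := by
  have hK := K_pos
  have hS := S_pos
  have q1 : (⟨-2 * msum L, 0, 0, K * S⟩ : Tm).q (S * y) = K * S := by simp [Tm.q]
  have q6 : ∀ p : ℤ × ℤ × ℤ, (⟨p.1, K * K, -2 * p.2.1 * K * S,
      (p.2.1 * p.2.1 + p.2.2 * p.2.2) * (S * S)⟩ : Tm).q (S * y) =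
        (‖(y : ℂ) - Yp p‖ * K * S) ^ 2 := by
    intro p
    rw [mul_pow, real_sq]
    simp only [Tm.q]
    push_cast
    ring
  refine ⟨?_, ?_⟩
  · intro t ht
    simp only [TL, List.mem_cons, List.mem_map] at ht
    rcases ht with rfl | ⟨p, hp, rfl⟩
    · rw [q1]; positivity
    · have := real_ne (im h hp) y
      rw [q6]; positivity
  · rw [TL, F_cons, q1, F_map L _ _ 2 (2 * (Real.log K + Real.log S)) y (fun _ => rfl)]
    · rw [Real.log_mul hK.ne' hS.ne']
      push_cast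
      ring
    · intro p hp
      have := real_ne (im h hp) y
      rw [q6, Real.log_pow, Real.log_mul (by positivity) (by positivity),
        Real.log_mul this.ne' hK.ne', Complex.conj_ofReal]
      push_cast
      ring

theorem TS_eq (L : Pl) (h : imOK L = true) {σ : ℝ} (h0 : 0 < σ) (h2 : σ < 2) :
    (∀ t ∈ TS L, 0 < t.q (S * σ)) ∧ F (TS L) (S * σ) = 2 * Dc * (UL L σ + V2 σ) := by
  have hS := S_pos
  have h3 : 0 < 1 - σ / 2 := by linarith
  have q1 : (⟨5 * Dc, 1, 0, 0⟩ : Tm).q (S * σ) = (2 * S * (σ / 2)) ^ 2 := by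
    simp only [Tm.q]
    push_cast
    ring
  have q2 : (⟨2 * Dc, 1, -4 * S, 4 * (S * S)⟩ : Tm).q (S * σ) = (2 * S * (1 - σ / 2)) ^ 2 := by
    simp only [Tm.q]
    push_cast
    ring
  have q3 : (⟨-14 * Dc, 0, 0, 2 * S⟩ : Tm).q (S * σ) = 2 * S := by simp [Tm.q]
  have q4 : (⟨-32 * Dc, 0, 0, 2⟩ : Tm).q (S * σ) = 2 := by simp [Tm.q]
  obtain ⟨a1, a2⟩ := TL_eq L h σ
  refine ⟨?_, ?_⟩
  · intro t ht
    simp only [TS, List.mem_cons] at ht
    rcases ht with rfl | rfl | rfl | rfl | ht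
    · rw [q1]; positivity
    · rw [q2]; positivity
    · rw [q3]; positivity
    · rw [q4]; positivity
    · exact a1 t ht
  · rw [TS, F_cons, F_cons, F_cons, F_cons, q1, q2, q3, q4, a2, Real.log_pow, Real.log_pow,
      Real.log_mul (x := 2 * S) (by positivity) (by positivity),
      Real.log_mul (x := 2 * S) (by positivity) h3.ne', V2]
    push_cast
    ring

theorem TC_eq (L : Pl) (h : imOK L = true) (h' : offOK L = true) {η : ℂ} (hη : ‖η - c0‖ = r0) :
    (∀ t ∈ TC L, 0 < t.q (S * ((η.re - c0) / r0))) ∧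
      F (TC L) (S * ((η.re - c0) / r0)) = 4 * Dc * UL L η := by
  have _ := h
  have hK := K_pos
  have hS := S_pos
  have hη' : ‖(starRingEnd ℂ) η - c0‖ = r0 := by
    rw [← hη, ← Complex.norm_conj (η - c0), map_sub, Complex.conj_ofReal]
  have hc : (η.re - 37 / 15) ^ 2 + η.im ^ 2 = (13 / 15) ^ 2 := by
    have : ‖η - c0‖ ^ 2 = r0 ^ 2 := by rw [hη]
    rw [Complex.sq_norm, Complex.normSq_apply] at this
    simp only [c0, r0, Complex.sub_re, Complex.sub_im, Complex.ofReal_re, Complex.ofReal_im] at this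
    linarith
  have n1 : ∀ p ∈ L, 0 < ‖η - Yp p‖ := fun p hp =>
    norm_pos_iff.2 fun e => off h' hp (by rw [← sub_eq_zero.1 e, hη])
  have n2 : ∀ p ∈ L, 0 < ‖(starRingEnd ℂ) η - Yp p‖ := fun p hp =>
    norm_pos_iff.2 fun e => off h' hp (by rw [← sub_eq_zero.1 e, hη'])
  have q1 : (⟨-2 * msum L, 0, 0, S⟩ : Tm).q (S * ((η.re - c0) / r0)) = S := by simp [Tm.q]
  have q2 : (⟨-4 * msum L, 0, 0, 15 * K⟩ : Tm).q (S * ((η.re - c0) / r0)) = 15 * K := by
    simp [Tm.q]
  have q6 : ∀ p : ℤ × ℤ × ℤ,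
      (circTm p.1 (15 * p.2.1 - 37 * K) (15 * p.2.2) (13 * K)).q (S * ((η.re - c0) / r0)) =
        (‖η - Yp p‖ * ‖(starRingEnd ℂ) η - Yp p‖ * (S * (15 * K) ^ 2)) ^ 2 := by
    intro p
    have e1 : (‖η - Yp p‖ * K) ^ 2 = (K * η.re - p.2.1) ^ 2 + (K * η.im - p.2.2) ^ 2 := by
      rw [mul_pow, Complex.sq_norm, Complex.normSq_apply]
      simp only [Yp, Complex.sub_re, Complex.sub_im]
      field_simp
    have e2 : (‖(starRingEnd ℂ) η - Yp p‖ * K) ^ 2 =
        (K * η.re - p.2.1) ^ 2 + (K * η.im + p.2.2) ^ 2 := by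
      rw [mul_pow, Complex.sq_norm, Complex.normSq_apply]
      simp only [Yp, Complex.sub_re, Complex.sub_im, Complex.conj_re, Complex.conj_im]
      field_simp
      ring
    have e3 : (‖η - Yp p‖ * ‖(starRingEnd ℂ) η - Yp p‖ * (S * (15 * K) ^ 2)) ^ 2 =
        (‖η - Yp p‖ * K) ^ 2 * (‖(starRingEnd ℂ) η - Yp p‖ * K) ^ 2 * (S ^ 2 * 15 ^ 4) := by ring
    obtain ⟨μ, hμ⟩ : ∃ μ : ℝ, η.re = 37 / 15 + 13 / 15 * μ := ⟨(η.re - 37 / 15) / (13 / 15), by ring⟩
    have e4 : (η.re - c0) / r0 = μ := by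
      rw [hμ, c0, r0]
      ring
    have e5 : η.im ^ 2 = (13 / 15) ^ 2 * (1 - μ ^ 2) := by
      rw [hμ] at hc
      linarith
    rw [e3, e1, e2, e4, hμ]
    simp only [Tm.q, circTm]
    push_cast
    generalize (K : ℝ) = k
    generalize (S : ℝ) = s
    generalize (p.2.1 : ℝ) = a
    generalize (p.2.2 : ℝ) = b
    have e6 : ((k * (37 / 15 + 13 / 15 * μ) - a) ^ 2 + (k * η.im - b) ^ 2) *
        ((k * (37 / 15 + 13 / 15 * μ) - a) ^ 2 + (k * η.im + b) ^ 2) =
        ((k * (37 / 15 + 13 / 15 * μ) - a) ^ 2 + k ^ 2 * η.im ^ 2 + b ^ 2) ^ 2 -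
          4 * k ^ 2 * b ^ 2 * η.im ^ 2 := by ring
    rw [e6, e5]
    ring
  refine ⟨?_, ?_⟩
  · intro t ht
    simp only [TC, List.mem_cons, List.mem_map] at ht
    rcases ht with rfl | rfl | ⟨p, hp, rfl⟩
    · rw [q1]; positivity
    · rw [q2]; positivity
    · have := n1 p hp
      have := n2 p hp
      rw [q6]; positivity
  · rw [TC, F_cons, F_cons, q1, q2,
      F_map L _ _ 4 (2 * (Real.log S + 2 * Real.log (15 * K))) η (fun _ => rfl)]
    · push_cast
      ring
    · intro p hp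
      have a1 := n1 p hp
      have a2 := n2 p hp
      rw [q6, Real.log_pow, Real.log_mul (by positivity) (by positivity),
        Real.log_mul a1.ne' a2.ne', Real.log_mul hS.ne' (by positivity), Real.log_pow]
      push_cast
      ring

theorem Br.use {T : List Tm} {U lo hi : ℤ} (hB : Bnd T U lo hi) {u m x : ℝ} {l : ℤ} (hm : 0 < m)
    (h1 : (lo : ℝ) < u) (h2 : u ≤ hi) (hU : (U : ℝ) = m * l * one)
    (h : (∀ t ∈ T, 0 < t.q u) ∧ F T u = m * Dc * x) : x ≤ (l : ℝ) / Dc := by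
  have h3 := hB u h1 h2 h.1
  have hD := Dc_pos
  have ho := one_pos'
  rw [h.2, hU] at h3
  rw [le_div_iff₀ hD]
  have h4 : (one * m) * (x * Dc) ≤ (one * m) * (l : ℝ) := by linarith
  exact le_of_mul_le_mul_left h4 (by positivity)

theorem cert_of_checks (LA LB LC LD : Pl) (l lw ls eA eB eC eD : ℤ)
    (iA : imOK LA = true) (iB : imOK LB = true) (iC : imOK LC = true) (iD : imOK LD = true)
    (oA : offOK LA = true) (oB : offOK LB = true)
    (mA : msum LA = 29 * Dc) (mB : msum LB = 3 * Dc) (mC : msum LC = 0) (mD : msum LD = 32 * Dc)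
    (hS : Bnd (TY (LA ++ LC)) (2 * l * one) (-847288609444) 508525723384)
    (hP : Bnd (TY (LB ++ LC)) (2 * (l - lw) * one) 0 847288609443)
    (hW1 : Bnd (TL (LA ++ neg LB)) (2 * lw * one) (-2 * S - 1) (2 * S))
    (hW2 : Bnd (TC (LA ++ neg LB)) (4 * lw * one) (-S - 1) S)
    (hs : Bnd (TS (LD ++ neg LC)) (2 * ls * one) 0 (2 * S))
    (hA : negE pairCross LA ≤ eA) (hB : negE pairCross LB ≤ eB)
    (hC : negE pairLine LC ≤ eC) (hD : negE pairLine LD ≤ eD)
    (htot : 8 * Dc * one * (32 * l - 3 * lw + 32 * ls) + (eA + eB + eC + eD)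
      ≤ -2004 * (8 * Dc * Dc * one)) :
    Nonempty Cert := by
  have hD0 := Dc_pos
  have ho := one_pos'
  have hS0 := S_pos
  have hSv : (S : ℝ) = 1694577218886 := by norm_num [S]
  refine ⟨⟨toPol LA iA, toPol LB iB, toPol LC iC, toPol LD iD, (l : ℝ) / Dc, (lw : ℝ) / Dc,
    (ls : ℝ) / Dc, off_toPol LA iA oA, off_toPol LB iB oB, ?_, ?_, ?_, ?_, ?_, ?_, ?_, ?_, ?_⟩⟩
  · rw [mass_toPol, mA]
    push_cast
    field_simp
  · rw [mass_toPol, mB]
    push_cast
    field_simp
  · rw [mass_toPol, mC]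
    simp
  · rw [mass_toPol, mD]
    push_cast
    field_simp
  · intro y hy
    rw [U_toPol, U_toPol, ← UL_append]
    have h0 : y ≠ 0 := by rcases hy with hy | hy <;> intro e <;> rw [e] at hy <;> norm_num at hy
    have h2 : y ≠ 2 := by rcases hy with hy | hy <;> intro e <;> rw [e] at hy <;> norm_num at hy
    refine Br.use hS (m := 2) (by norm_num) ?_ ?_ (by push_cast; ring)
      (TY_eq _ (imOK_append iA iC) h0 h2)
    · push_cast
      rcases hy with hy | hy
      · rw [lt_div_iff_of_neg (by linarith), hSv]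
        linarith
      · have : 0 < (S : ℝ) / y := div_pos hS0 (by linarith)
        linarith
    · push_cast
      rcases hy with hy | hy
      · have : (S : ℝ) / y < 0 := div_neg_of_pos_of_neg hS0 (by linarith)
        linarith
      · rw [div_le_iff₀ (by linarith), hSv]
        linarith
  · intro y hy
    rw [U_toPol, U_toPol, ← UL_append, ← sub_div, ← Int.cast_sub]
    refine Br.use hP (m := 2) (by norm_num) ?_ ?_ (by push_cast; ring)
      (TY_eq _ (imOK_append iB iC) (by linarith) (by linarith))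
    · push_cast
      exact div_pos hS0 (by linarith)
    · push_cast
      rw [div_le_iff₀ (by linarith), hSv]
      linarith
  · intro η hη
    rw [U_toPol, U_toPol, sub_eq_add_neg, ← UL_neg, ← UL_append]
    rcases hη with ⟨h1, h2⟩ | h1
    · have e : η = (η.re : ℂ) := Complex.ext (by simp) (by simpa using h1)
      obtain ⟨h3, h4⟩ := abs_le.1 h2
      rw [e]
      refine Br.use hW1 (m := 2) (by norm_num) ?_ ?_ (by push_cast; ring)
        (TL_eq _ (imOK_append iA (imOK_neg iB)) η.re)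
      · push_cast
        rw [hSv]
        linarith
      · push_cast
        rw [hSv]
        linarith
    · have h2 : |(η - c0).re| ≤ r0 := h1 ▸ Complex.abs_re_le_norm _
      rw [Complex.sub_re, Complex.ofReal_re] at h2
      obtain ⟨h3, h4⟩ := abs_le.1 h2
      have h5 : -1 ≤ (η.re - c0) / r0 := by
        rw [le_div_iff₀ r0_pos]
        linarith
      have h6 : (η.re - c0) / r0 ≤ 1 := by
        rw [div_le_iff₀ r0_pos]
        linarith
      refine Br.use hW2 (m := 4) (by norm_num) ?_ ?_ (by push_cast; ring)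
        (TC_eq _ (imOK_append iA (imOK_neg iB)) (offOK_append oA (offOK_neg oB)) h1)
      · push_cast
        rw [hSv]
        linarith
      · rw [hSv]
        linarith
  · intro σ h0 h2
    rw [U_toPol, U_toPol, sub_eq_add_neg, ← UL_neg, ← UL_append]
    refine Br.use hs (m := 2) (by norm_num) ?_ ?_ (by push_cast; ring)
      (TS_eq _ (imOK_append iD (imOK_neg iC)) h0 h2)
    · push_cast
      positivity
    · push_cast
      rw [hSv]
      linarith
  · have a1 := negE_cross LA iA oA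
    have a2 := negE_cross LB iB oB
    have a3 := negE_line LC iC
    have a4 := negE_line LD iD
    have b1 : (negE pairCross LA : ℝ) ≤ eA := by exact_mod_cast hA
    have b2 : (negE pairCross LB : ℝ) ≤ eB := by exact_mod_cast hB
    have b3 : (negE pairLine LC : ℝ) ≤ eC := by exact_mod_cast hC
    have b4 : (negE pairLine LD : ℝ) ≤ eD := by exact_mod_cast hD
    have b5 : (8 * Dc * one * (32 * l - 3 * lw + 32 * ls) + (eA + eB + eC + eD) : ℝ)
      ≤ -2004 * (8 * Dc * Dc * one) := by exact_mod_cast htot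
    generalize (toPol LA iA).ECross = EA at *
    generalize (toPol LB iB).ECross = EB at *
    generalize (toPol LC iC).ELine = EC at *
    generalize (toPol LD iD).ELine = ED at *
    have hpos : (0 : ℝ) < 8 * Dc * Dc * one := by positivity
    refine le_of_mul_le_mul_right ?_ hpos
    have e : (32 * ((l : ℝ) / Dc) - 3 * (lw / Dc) + 32 * (ls / Dc) - (EA + EB + EC + ED) / 2) *
        (8 * Dc * Dc * one) = 8 * Dc * one * (32 * l - 3 * lw + 32 * ls) -
          (one * (4 * (Dc : ℝ) ^ 2) * EA + one * (4 * (Dc : ℝ) ^ 2) * EB +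
            one * (4 * (Dc : ℝ) ^ 2) * EC + one * (4 * (Dc : ℝ) ^ 2) * ED) := by
      field_simp
      ring
    rw [e]
    linarith

end Crest.Agent.R6.Chk
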