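import Crest.Agent.R6.CertS
import Crest.Agent.R6.CertP
import Crest.Agent.R6.CertW1
import Crest.Agent.R6.CertW2
import Crest.Agent.R6.CertSg
import Crest.Agent.R6.CertEA
import Crest.Agent.R6.CertEB
import Crest.Agent.R6.CertEC
import Crest.Agent.R6.CertED
import Crest.Agent.R6.ChkBridge

/-! The numerical certificate. -/

set_option autoImplicit false
set_option maxRecDepth 100000

namespace Crest.Agent.R6
open Chk

theorem cert_exists : Nonempty Cert :=
  cert_of_checks LA LB LC LD (-6166794) (39194900) (-131820682) _ _ _ _
    (by decide +kernel) (by decide +kernel) (by decide +kernel) (by decide +kernel)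
    (by decide +kernel) (by decide +kernel)
    (by decide +kernel) (by decide +kernel) (by decide +kernel) (by decide +kernel)
    (by convert bndS using 1 <;> decide +kernel) (by convert bndP using 1 <;> decide +kernel) (by convert bndW1 using 1 <;> decide +kernel)
    (by convert bndW2 using 1 <;> decide +kernel) (by convert bndSg using 1 <;> decide +kernel) enA enB enC enD (by decide +kernel)

end Crest.Agent.R6
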