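import Crest.Agent.R6.CertData
import Crest.Agent.R6.ChkCell

set_option autoImplicit false
set_option maxRecDepth 100000

namespace Crest.Agent.R6.Chk

theorem wfS : wf (TY (LA ++ LC)) = true := by decide +kernel

theorem bS0 : Bnd (TY (LA ++ LC)) (-10450108625962871484) (-847288609444) (-799134911420) :=
  run_sound wfS (cs := [
  (-847004274572, 284334872), (-846364521109, 355418591), (-845453760969, 555341549),
  (-844343077871, 555341549), (-842920015150, 867721172), (-840967642512, 1084651466),
  (-838188223129, 1694767917), (-834374995315, 2118459897), (-829608460546, 2648074872),
  (-823650292083, 3310093591), (-816202581503, 4137616989), (-805599937967, 6465026547)]) (by decide +kernel)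

theorem bS1 : Bnd (TY (LA ++ LC)) (-10450108625962871484) (-799134911420) (-259563259014) :=
  run_sound wfS (cs := [
  (-791053628236, 8081283184), (-772870741071, 10101603981), (-750142132113, 12627004977),
  (-721731370914, 15783756222), (-686217919414, 19729695278), (-641826105038, 24662119098),
  (-586336337067, 30827648873), (-524681039321, 30827648873), (-463025741575, 30827648873),
  (-401370443829, 30827648873), (-339715146083, 30827648873), (-284225378112, 24662119098)]) (by decide +kernel)

theorem bS2 : Bnd (TY (LA ++ LC)) (-10450108625962871484) (-259563259014) (-8429176492) :=
  run_sound wfS (cs := [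
  (-243779502792, 15783756222), (-217894142589, 10101603981), (-199711255424, 8081283184),
  (-183548689056, 8081283184), (-170295384635, 5172021237), (-159951342161, 5172021237),
  (-148314294377, 6465026547), (-133767984646, 8081283184), (-117605418278, 8081283184),
  (-99422531113, 10101603981), (-73537170910, 15783756222), (-33091295590, 24662119098)]) (by decide +kernel)

theorem bS3 : Bnd (TY (LA ++ LC)) (-10450108625962871484) (-8429176492) (225885735398) :=
  run_sound wfS (cs := [
  (16232942606, 24662119098), (56678817926, 15783756222), (82564178129, 10101603981),
  (100747065294, 8081283184), (116909631662, 8081283184), (131455941393, 6465026547),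
  (144385994487, 6465026547), (156023042271, 5172021237), (166367084745, 5172021237),
  (178004132529, 6465026547), (192550442260, 8081283184), (213258730421, 12627004977)]) (by decide +kernel)

theorem bS4 : Bnd (TY (LA ++ LC)) (-10450108625962871484) (225885735398) (480500890254) :=
  run_sound wfS (cs := [
  (241669491620, 15783756222), (277182943120, 19729695278), (316642333676, 19729695278),
  (352155785176, 15783756222), (380566546375, 12627004977), (403295155333, 10101603981),
  (423498363295, 10101603981), (441681250460, 8081283184), (456227560191, 6465026547),
  (466830203727, 4137616989), (473615895588, 2648074872), (478382430357, 2118459897)]) (by decide +kernel)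

theorem bS5 : Bnd (TY (LA ++ LC)) (-10450108625962871484) (480500890254) (505804724298) :=
  run_sound wfS (cs := [
  (482195658171, 1694767917), (485246240421, 1355814333), (487469775926, 867721172),
  (489205218270, 867721172), (490940660614, 867721172), (492893033252, 1084651466),
  (495333499051, 1355814333), (498045127717, 1355814333), (500485593516, 1084651466),
  (502437966154, 867721172), (503999864263, 694176937), (505249382749, 555341549)]) (by decide +kernel)

theorem bS6 : Bnd (TY (LA ++ LC)) (-10450108625962871484) (505804724298) (508525723384) :=
  run_sound wfS (cs := [
  (506160142889, 355418591), (506799896352, 284334872), (507311699121, 227467897),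
  (507684746471, 145579453), (507946789486, 116463562), (508179716610, 116463562),
  (508410951779, 114771607)]) (by decide +kernel)

theorem bndS : Bnd (TY (LA ++ LC)) (-10450108625962871484) (-847288609444) (508525723384) :=
  ((((((bS0.trans bS1).trans bS2).trans bS3).trans bS4).trans bS5).trans bS6)

end Crest.Agent.R6.Chk
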