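import Crest.Agent.R6.Defs

/-! Kernel-computable checker for the certificate (fixed point, scale `one = 3^25`). -/

set_option autoImplicit false

namespace Crest.Agent.R6.Chk

def one : ℤ := 847288609443

/-! The functions below are written with raw `Nat.*`/`Int.*`/`Bool.rec`/`List.rec` for speed in the
kernel, and all scales are odd (powers of two collide in the kernel's hash tables). -/

def lgs (k p n e : ℕ) (f : ℕ → ℕ → ℕ) : ℕ :=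
  Bool.rec (f n e) (f (Nat.shiftRight n k) (Nat.add e k)) (Nat.ble p n)

/-- a guess `t` with `2^t ≈ n` (no property of it is needed: `clog2` checks the range). -/
def lg (n : ℕ) : ℕ :=
  lgs 256 (2 ^ 256) (Nat.div (Nat.mul n 4) 3) 0 fun n e => lgs 128 (2 ^ 128) n e fun n e =>
  lgs 64 (2 ^ 64) n e fun n e => lgs 32 4294967296 n e fun n e => lgs 16 65536 n e fun n e =>
  lgs 8 256 n e fun n e => lgs 4 16 n e fun n e => lgs 2 4 n e fun n e => lgs 1 2 n e fun _ e => e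

def ath2 (u v u2 v2 v4 : ℕ) : ℕ :=
  Nat.div (Nat.mul (Nat.mul 1694577218886 u)
    (Nat.add (Nat.mul (Nat.add (Nat.mul (Nat.add (Nat.mul (Nat.add (Nat.mul 35 u2) (Nat.mul 45 v2))
      u2) (Nat.mul 63 v4)) u2) (Nat.mul 105 (Nat.mul v4 v2))) u2) (Nat.mul 315 (Nat.mul v4 v4))))
    (Nat.mul 315 (Nat.mul (Nat.mul v4 v4) v))

def ath1 (u v v2 : ℕ) : ℕ := ath2 u v (Nat.mul u u) v2 (Nat.mul v2 v2)

/-- floor of `3^25 · 2 (z + z³/3 + … + z⁹/9)`, `z = u/v`. -/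
def ath (u v : ℕ) : ℕ := ath1 u v (Nat.mul v v)

/-- approximation of `3^25 log n` (`p = 2^t`, `2p ≤ 3n`, `2n ≤ 3p`) with error at most `3300 + t`;
`3^25 log 2 = 587295710755.972…`. -/
def logA (n t p : ℕ) : ℤ :=
  Bool.rec (Int.subNatNat (Nat.mul t 587295710756) (ath (Nat.sub p n) (Nat.add n p)))
    (Int.ofNat (Nat.add (Nat.mul t 587295710756) (ath (Nat.sub n p) (Nat.add n p)))) (Nat.ble p n)

def clog2 (c : ℤ) (n t p : ℕ) : ℤ :=
  Bool.rec (Int.ofNat (Nat.mul (Nat.mul (Int.natAbs c) n) 847288609443))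
    (Int.add (Int.mul c (logA n t p)) (Int.ofNat (Nat.mul (Int.natAbs c) (Nat.add 3300 t))))
    (Bool.and (Nat.ble (Nat.mul 2 p) (Nat.mul 3 n)) (Nat.ble (Nat.mul 2 n) (Nat.mul 3 p)))

def clog1 (c : ℤ) (n t : ℕ) : ℤ := clog2 c n t (Nat.pow 2 t)

/-- upper bound of `3^25 · c log n`. -/
def clogUp (c : ℤ) (n : ℕ) : ℤ := clog1 c n (lg n)

/-- a term `c log (A u² + B u + C)`. -/
structure Tm where
  c : ℤ
  A : ℤ
  B : ℤ
  C : ℤ

def Tm.q (t : Tm) (u : ℝ) : ℝ := t.A * u ^ 2 + t.B * u + t.C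

noncomputable def F (T : List Tm) (u : ℝ) : ℝ := (T.map fun t => (t.c : ℝ) * Real.log (t.q u)).sum

def wf (T : List Tm) : Bool := T.all fun t => decide (0 ≤ t.A) && decide (t.B * t.B ≤ 4 * t.A * t.C)

/-- one term on the cell `u = X + R v`, `|v| ≤ 1`: `q = Q0 + Q1 v + Q2 v²`
(`cw = c · one`, `Q11 = Q1²`, `Q20 = Q2 Q0`, `Q00 = Q0²`); adds the contributions to the constant,
`v`, `v²`, `v³` coefficients. -/
def step2 (c cw Q0 Q1 Q2 Q11 Q20 Q00 : ℤ) (k : ℤ → ℤ → ℤ → ℤ → Bool) (t0 t1 t2 t3 : ℤ) : Bool :=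
  k (Int.add t0 (Int.add (clogUp c (Int.toNat Q0))
      (Int.add (Int.ediv (Int.mul (Int.ofNat (Nat.mul 2 (Int.natAbs cw))) (Int.mul Q2 Q2))
        (Int.mul 3 Q00)) 4)))
    (Int.add t1 (Int.ediv (Int.mul cw Q1) Q0))
    (Int.add t2 (Int.ediv (Int.mul cw (Int.sub (Int.mul 2 Q20) Q11)) (Int.mul 2 Q00)))
    (Int.add t3 (Int.ediv (Int.mul (Int.mul cw Q1) (Int.sub Q11 (Int.mul 3 Q20)))
      (Int.mul 3 (Int.mul Q00 Q0))))

def step (c Q0 Q1 Q2 : ℤ) (k : ℤ → ℤ → ℤ → ℤ → Bool) (t0 t1 t2 t3 : ℤ) : Bool :=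
  Bool.rec
    (Bool.rec false
      (k (Int.add t0 (clogUp c (Int.toNat (Int.add (Int.add Q0 (Int.ofNat (Int.natAbs Q1))) Q2))))
        t1 t2 t3)
      (decide (0 ≤ c)))
    (step2 c (Int.mul c 847288609443) Q0 Q1 Q2 (Int.mul Q1 Q1) (Int.mul Q2 Q0) (Int.mul Q0 Q0)
      k t0 t1 t2 t3)
    (Nat.blt (Nat.mul 16 (Int.toNat Q2)) (Int.toNat Q0))

def step0 (X R : ℤ) (c B C AX A : ℤ) (k : ℤ → ℤ → ℤ → ℤ → Bool) : ℤ → ℤ → ℤ → ℤ → Bool :=
  step c (Int.add (Int.mul (Int.add AX B) X) C) (Int.mul (Int.add (Int.add AX AX) B) R)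
    (Int.mul A (Int.mul R R)) k

noncomputable def cell (X R U : ℤ) (T : List Tm) : ℤ → ℤ → ℤ → ℤ → Bool :=
  List.rec (fun t0 t1 t2 t3 => decide (t0 + t1.natAbs + max t2 0 + t3.natAbs ≤ U))
    (fun t _ ih => step0 X R t.c t.B t.C (Int.mul t.A X) t.A ih) T

/-- cells `(X, R)` cover `(lo, hi]`. -/
noncomputable def run (T : List Tm) (U hi : ℤ) (cs : List (ℤ × ℤ)) : ℤ → Bool :=
  List.rec (fun lo => decide (hi ≤ lo))
    (fun c _ ih lo => decide (c.1 - c.2 ≤ lo) && decide (0 ≤ c.2) && cell c.1 c.2 U T 0 0 0 0 &&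
      ih (c.1 + c.2)) cs

/-- `3^25 F ≤ U` on `(lo, hi]`. -/
def Bnd (T : List Tm) (U lo hi : ℤ) : Prop :=
  ∀ u : ℝ, (lo : ℝ) < u → u ≤ hi → (∀ t ∈ T, 0 < t.q u) → (one : ℝ) * F T u ≤ U

/-! ### poles: `(n, a, b)` is the pole `(a + b i)/K` with weight `n/Dc` -/

def K : ℤ := 3486784401
def S : ℤ := 1694577218886
def Dc : ℤ := 1594323

abbrev Pl := List (ℤ × ℤ × ℤ)

def msum (L : Pl) : ℤ := (L.map fun p => p.1).sum

def neg (L : Pl) : Pl := L.map fun p => (-p.1, p.2)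

def imOK (L : Pl) : Bool := L.all fun p => decide (0 < p.2.2)

def offOK (L : Pl) : Bool :=
  L.all fun p => decide ((15 * p.2.1 - 37 * K) ^ 2 + (15 * p.2.2) ^ 2 ≠ (13 * K) ^ 2)

/-- `2 Dc (U_L(y) + V1 y)` in the variable `u = S/y`. -/
def TY (L : Pl) : List Tm :=
  ⟨42 * Dc - msum L, 1, 0, 0⟩ :: ⟨2 * Dc, 4, -4 * S, S * S⟩ :: ⟨84 * Dc, 0, 0, 2⟩ ::
    ⟨-88 * Dc, 0, 0, S⟩ :: ⟨-2 * msum L, 0, 0, K⟩ ::
    L.map fun p => ⟨p.1, p.2.1 * p.2.1 + p.2.2 * p.2.2, -2 * p.2.1 * K * S, K * K * (S * S)⟩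

/-- `2 Dc U_L(y)` in the variable `u = S y`. -/
def TL (L : Pl) : List Tm :=
  ⟨-2 * msum L, 0, 0, K * S⟩ ::
    L.map fun p => ⟨p.1, K * K, -2 * p.2.1 * K * S, (p.2.1 * p.2.1 + p.2.2 * p.2.2) * (S * S)⟩

/-- `2 Dc (U_L(σ) + V2 σ)` in the variable `u = S σ`. -/
def TS (L : Pl) : List Tm :=
  ⟨5 * Dc, 1, 0, 0⟩ :: ⟨2 * Dc, 1, -4 * S, 4 * (S * S)⟩ :: ⟨-14 * Dc, 0, 0, 2 * S⟩ ::
    ⟨-32 * Dc, 0, 0, 2⟩ :: TL L

/-- quadratic for `|η-Y|²|conj η-Y|²` on the circle; `al + be i = 15K(Y - c0)`, `r = 15 K r0`. -/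
def circTm (n al be r : ℤ) : Tm :=
  ⟨n, 4 * (r * r) * (al * al + be * be), -4 * r * al * (r * r + al * al + be * be) * S,
    ((r * r + al * al + be * be) ^ 2 - 4 * (r * r) * (be * be)) * (S * S)⟩

/-- `4 Dc U_L(η)` on the circle in the variable `u = S (Re η - c0)/r0`. -/
def TC (L : Pl) : List Tm :=
  ⟨-2 * msum L, 0, 0, S⟩ :: ⟨-4 * msum L, 0, 0, 15 * K⟩ ::
    L.map fun p => circTm p.1 (15 * p.2.1 - 37 * K) (15 * p.2.2) (13 * K)

def ss (x y : ℤ) : ℕ := Nat.add (Nat.mul x.natAbs x.natAbs) (Nat.mul y.natAbs y.natAbs)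

/-- upper bound of `-3^25 · 4 · n n' (log ‖Y - conj Y'‖ + log K)`. -/
def pairLine (p p' : ℤ × ℤ × ℤ) : ℤ :=
  clogUp (Int.mul (-2) (Int.mul p.1 p'.1)) (ss (Int.sub p.2.1 p'.2.1) (Int.add p.2.2 p'.2.2))

def inside (p : ℤ × ℤ × ℤ) : Bool :=
  decide ((15 * p.2.1 - 37 * K) ^ 2 + (15 * p.2.2) ^ 2 < (13 * K) ^ 2)

/-- `|r² - (al + be i)(al' + be' i)|²` with `r = 13 K`, `r² = 2054645462580620967369`. -/
def nrm (al be al' be' : ℤ) : ℕ :=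
  ss (Int.sub 2054645462580620967369 (Int.sub (Int.mul al al') (Int.mul be be')))
    (Int.add (Int.mul al be') (Int.mul be al'))

/-- `15 K (Re Y - c0)`; `37 K = 129011022837`. -/
def cal (p : ℤ × ℤ × ℤ) : ℤ := Int.sub (Int.mul 15 p.2.1) 129011022837

def cbe (p : ℤ × ℤ × ℤ) : ℤ := Int.mul 15 p.2.2

/-- upper bound of `-3^25 · 4 · n n' (Kx Y Y' + log K)`. -/
def pairCross (p p' : ℤ × ℤ × ℤ) : ℤ :=
  Bool.rec
    (Int.add (clogUp (Int.neg (Int.mul p.1 p'.1)) (ss (Int.sub p.2.1 p'.2.1) (Int.add p.2.2 p'.2.2)))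
      (clogUp (Int.neg (Int.mul p.1 p'.1)) (ss (Int.sub p.2.1 p'.2.1) (Int.sub p.2.2 p'.2.2))))
    (Int.add (Int.add (pairLine p p')
      (clogUp (Int.neg (Int.mul p.1 p'.1)) (nrm (cal p) (cbe p) (cal p') (Int.neg (cbe p')))))
      (clogUp (Int.mul p.1 p'.1) (nrm (cal p) (cbe p) (cal p') (cbe p'))))
    (inside p == inside p')

noncomputable def lsum {α : Type} (f : α → ℤ) (L : List α) : ℤ :=
  List.rec 0 (fun a _ ih => Int.add (f a) ih) L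

/-- upper bound of `-3^25 · 4 Dc² · E`. -/
noncomputable def negE (f : ℤ × ℤ × ℤ → ℤ × ℤ × ℤ → ℤ) (L : Pl) : ℤ :=
  lsum (fun p => lsum (fun p' => f p p') L) L + clogUp (4 * (msum L * msum L)) K.toNat

/-- the family of poles described by a list. -/
noncomputable def toPol (L : Pl) (h : imOK L = true) : Pol where
  m := L.length
  Y j := ⟨((L.get j).2.1 : ℝ) / K, ((L.get j).2.2 : ℝ) / K⟩
  β j := ((L.get j).1 : ℝ) / Dc
  im_pos j := by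
    have := List.all_eq_true.1 h (L.get j) (List.get_mem L j)
    have h1 : (0 : ℝ) < ((L.get j).2.2 : ℝ) := by exact_mod_cast of_decide_eq_true this
    exact div_pos h1 (by norm_num [K])

end Crest.Agent.R6.Chk
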