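import Crest.Agent.R6.ChkDefs

set_option autoImplicit false

namespace Crest.Agent.R6.Chk
open Finset

theorem ath_tail {z : ℝ} (h0 : 0 ≤ z) (h1 : z < 1) (m : ℕ) :
    ∑ k ∈ range m, 2 * (1 / (2 * (k : ℝ) + 1)) * z ^ (2 * k + 1) ≤ Real.log (1 + z) - Real.log (1 - z) ∧
    Real.log (1 + z) - Real.log (1 - z) ≤ ∑ k ∈ range m, 2 * (1 / (2 * (k : ℝ) + 1)) * z ^ (2 * k + 1)
      + 2 / (2 * m + 1) * z ^ (2 * m + 1) * (1 - z ^ 2)⁻¹ := by
  have hs := Real.hasSum_log_sub_log_of_abs_lt_one (x := z) (by rwa [abs_of_nonneg h0])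
  refine ⟨sum_le_hasSum _ (fun k _ => by positivity) hs, ?_⟩
  have hs' := (hasSum_nat_add_iff' m).2 hs
  have hz : z ^ 2 < 1 := by nlinarith
  have hg := (hasSum_geometric_of_lt_one (sq_nonneg z) hz).mul_left (2 / (2 * m + 1) * z ^ (2 * m + 1))
  have := hasSum_le (fun k => ?_) hs' hg
  · linarith
  · have e : z ^ (2 * (k + m) + 1) = z ^ (2 * m + 1) * (z ^ 2) ^ k := by ring
    rw [e, ← mul_assoc]
    have : 2 * (1 / (2 * ((k + m : ℕ) : ℝ) + 1)) ≤ 2 / (2 * m + 1) := by
      rw [mul_one_div]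
      apply div_le_div_of_nonneg_left (by norm_num) (by positivity)
      push_cast; have : (0 : ℝ) ≤ k := by positivity
      linarith
    gcongr

theorem log_two_bd : |(587295710756 : ℝ) - (one : ℝ) * Real.log 2| ≤ 1 := by
  obtain ⟨a, b⟩ := ath_tail (z := 1 / 3) (by norm_num) (by norm_num) 14
  have e : Real.log (1 + 1 / 3) - Real.log (1 - 1 / 3) = Real.log 2 := by
    rw [← Real.log_div (by norm_num) (by norm_num)]; norm_num
  rw [e] at a b
  simp only [sum_range_succ, sum_range_zero] at a b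
  norm_num at a b
  simp only [one]
  rw [abs_le]; constructor <;> push_cast <;> linarith

theorem ath_sound {u v : ℕ} (hv : 0 < v) (h : 5 * u ≤ v) :
    |(ath u v : ℝ) - (one : ℝ) * (Real.log (1 + (u : ℝ) / v) - Real.log (1 - (u : ℝ) / v))| ≤ 3300 := by
  have hv' : (0 : ℝ) < v := by exact_mod_cast hv
  set z : ℝ := u / v with hz
  have z0 : 0 ≤ z := by positivity
  have z1 : z ≤ 1 / 5 := by
    rw [hz, div_le_iff₀ hv']
    have : (5 : ℝ) * u ≤ v := by exact_mod_cast h
    linarith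
  obtain ⟨a, b⟩ := ath_tail z0 (by linarith) 5
  set P : ℝ := ∑ k ∈ range 5, 2 * (1 / (2 * (k : ℝ) + 1)) * z ^ (2 * k + 1) with hP
  have hN : ∃ A B : ℕ, 0 < B ∧ ath u v = A / B ∧ (A : ℝ) / B = 847288609443 * P := by
    refine ⟨1694577218886 * u * ((((35 * (u * u) + 45 * (v * v)) * (u * u) + 63 * (v * v * (v * v))) * (u * u)
      + 105 * (v * v * (v * v) * (v * v))) * (u * u) + 315 * (v * v * (v * v) * (v * v * (v * v)))),
      315 * (v * v * (v * v) * (v * v * (v * v)) * v), by positivity, rfl, ?_⟩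
    simp only [hP, hz, sum_range_succ, sum_range_zero]
    push_cast
    field_simp
    ring
  obtain ⟨A, B, hB, e1, e2⟩ := hN
  have f1 : ((A / B : ℕ) : ℝ) ≤ (A : ℝ) / B := Nat.cast_div_le
  have f2 : (A : ℝ) / B < ((A / B : ℕ) : ℝ) + 1 := by
    have hB' : (0 : ℝ) < B := by exact_mod_cast hB
    rw [div_lt_iff₀ hB']
    have h2 : A < (A / B + 1) * B := by
      have := Nat.div_add_mod A B
      have := Nat.mod_lt A hB
      nlinarith
    exact_mod_cast h2
  have r : 2 / (2 * (5 : ℕ) + 1 : ℝ) * z ^ (2 * 5 + 1) * (1 - z ^ 2)⁻¹ ≤ 2 / 11 * (1 / 5) ^ 11 * (25 / 24) := by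
    have h1 : (1 - z ^ 2)⁻¹ ≤ 25 / 24 := by
      rw [inv_le_comm₀ (by nlinarith) (by norm_num)]; nlinarith
    have h2 : z ^ 11 ≤ (1 / 5) ^ 11 := pow_le_pow_left₀ z0 z1 11
    have h3 : 0 ≤ (1 - z ^ 2)⁻¹ := inv_nonneg.2 (by nlinarith)
    norm_num at h2 ⊢
    nlinarith [pow_nonneg z0 11]
  rw [e1]; simp only [one]
  norm_num at r b
  rw [abs_le]; constructor <;> push_cast <;> nlinarith

theorem logA_sound {n t : ℕ} (h1 : 2 * 2 ^ t ≤ 3 * n) (h2 : 2 * n ≤ 3 * 2 ^ t) :
    |(logA n t (2 ^ t) : ℝ) - (one : ℝ) * Real.log n| ≤ 3300 + t := by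
  set p := 2 ^ t with hp
  have p0 : 0 < p := by positivity
  have n0 : 0 < n := by omega
  have p0' : (0 : ℝ) < p := by exact_mod_cast p0
  have n0' : (0 : ℝ) < n := by exact_mod_cast n0
  have lp : Real.log p = t * Real.log 2 := by rw [hp]; push_cast; rw [Real.log_pow]
  have l2 := abs_le.1 log_two_bd
  have t0 : (0 : ℝ) ≤ t := by positivity
  have l3 : |(t : ℝ) * 587295710756 - one * Real.log p| ≤ t := by
    rw [lp, abs_le]; constructor <;> nlinarith [l2.1, l2.2]
  unfold logA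
  cases hb : Nat.ble p n
  · have hlt : n ≤ p := by
      have := (Nat.ble_eq (x := p) (y := n)); rw [hb] at this
      simp at this; omega
    have hs := ath_sound (u := p - n) (v := n + p) (by omega) (by omega)
    have e : Real.log (1 + ((p - n : ℕ) : ℝ) / ((n + p : ℕ) : ℝ)) - Real.log (1 - ((p - n : ℕ) : ℝ) / ((n + p : ℕ) : ℝ))
        = Real.log p - Real.log n := by
      rw [Nat.cast_sub hlt]; push_cast
      have a1 : (1 : ℝ) + (p - n) / (n + p) = 2 * p / (n + p) := by field_simp; ring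
      have a2 : (1 : ℝ) - (p - n) / (n + p) = 2 * n / (n + p) := by field_simp; ring
      rw [a1, a2, ← Real.log_div (by positivity) (by positivity), ← Real.log_div (by positivity) (by positivity)]
      congr 1; field_simp
    rw [e] at hs
    show |((Int.subNatNat (t * 587295710756) (ath (p - n) (n + p)) : ℤ) : ℝ) - _| ≤ _
    rw [Int.subNatNat_eq_coe]
    push_cast
    rw [abs_le] at hs l3 ⊢
    constructor <;> nlinarith [hs.1, hs.2, l3.1, l3.2]
  · have hlt : p ≤ n := Nat.le_of_ble_eq_true hb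
    have hs := ath_sound (u := n - p) (v := n + p) (by omega) (by omega)
    have e : Real.log (1 + ((n - p : ℕ) : ℝ) / ((n + p : ℕ) : ℝ)) - Real.log (1 - ((n - p : ℕ) : ℝ) / ((n + p : ℕ) : ℝ))
        = Real.log n - Real.log p := by
      rw [Nat.cast_sub hlt]; push_cast
      have a1 : (1 : ℝ) + (n - p) / (n + p) = 2 * n / (n + p) := by field_simp; ring
      have a2 : (1 : ℝ) - (n - p) / (n + p) = 2 * p / (n + p) := by field_simp; ring
      rw [a1, a2, ← Real.log_div (by positivity) (by positivity), ← Real.log_div (by positivity) (by positivity)]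
      congr 1; field_simp
    rw [e] at hs
    show |(((t * 587295710756 + ath (n - p) (n + p) : ℕ) : ℤ) : ℝ) - _| ≤ _
    push_cast
    rw [abs_le] at hs l3 ⊢
    constructor <;> nlinarith [hs.1, hs.2, l3.1, l3.2]

theorem clogUp_sound (c : ℤ) {n : ℕ} (hn : 1 ≤ n) :
    (one : ℝ) * (c * Real.log n) ≤ (clogUp c n : ℝ) := by
  unfold clogUp clog1 clog2
  generalize lg n = t
  have hc : (c : ℝ) ≤ c.natAbs ∧ -(c : ℝ) ≤ c.natAbs := by
    rw [Nat.cast_natAbs]; push_cast; exact ⟨le_abs_self _, neg_le_abs _⟩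
  have c0 : (0 : ℝ) ≤ c.natAbs := by positivity
  cases hb : (Nat.ble (Nat.mul 2 (Nat.pow 2 t)) (Nat.mul 3 n) && Nat.ble (Nat.mul 2 n) (Nat.mul 3 (Nat.pow 2 t)))
  · show _ ≤ (((c.natAbs * n * 847288609443 : ℕ) : ℤ) : ℝ)
    have n1 : (1 : ℝ) ≤ n := by exact_mod_cast hn
    have l0 := Real.log_nonneg n1
    have l1 : Real.log n ≤ n := (Real.log_le_sub_one_of_pos (by linarith)).trans (by linarith)
    simp only [one]; push_cast
    rw [Nat.cast_natAbs] at hc c0; push_cast at hc c0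
    nlinarith [hc.1]
  · rw [Bool.and_eq_true] at hb
    have hs := logA_sound (n := n) (t := t) (Nat.le_of_ble_eq_true hb.1) (Nat.le_of_ble_eq_true hb.2)
    show _ ≤ ((c * logA n t (2 ^ t) + ((c.natAbs * (3300 + t) : ℕ) : ℤ) : ℤ) : ℝ)
    have : (c : ℝ) * (one * Real.log n - logA n t (2 ^ t)) ≤ c.natAbs * (3300 + t) := by
      calc _ ≤ |(c : ℝ) * (one * Real.log n - logA n t (2 ^ t))| := le_abs_self _
        _ = |(c : ℝ)| * |(logA n t (2 ^ t) : ℝ) - one * Real.log n| := by rw [abs_mul, abs_sub_comm]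
        _ ≤ _ := by
          rw [Nat.cast_natAbs]; push_cast; gcongr
    push_cast
    rw [Nat.cast_natAbs] at this; push_cast at this
    nlinarith

end Crest.Agent.R6.Chk
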