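import Crest.Agent.R6.CongA

/-! The basic congruence `p² s(m,j) ≡ w_a s(m',j')`, where `j = l + p j'`, `m + 2a = l + p m'`.

Proof: induct along diagonals (`s (m+1) (j+1) = s m j - Wp m/(j+1)`):
if `l+1 < p` the subtracted term has `p²·term ≡ 0` (`p ∤ j+1`, `‖Wp m‖ ≤ p`);
if `l = p-1` use `p/(j+1) ≡ 1/(j'+1)` and `p Wp m ≡ w a Wp m'` (`m = 2λ+1`, `m' = 2λ'+1`,
`λ = p-1-a + pλ'`, `V_lucas`).  Boundary values, `e = e0 + p e1`, `h = p/2`, `χ = (-1)^h`:
* `s(2e+1,0)`: `p² s ≡ χ w e0 · s(2e1+1,0)` (blocks of `p` terms give `∑ w² ≡ χ`, the partial block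
  vanishes when `e0 ≤ h`, everything vanishes when `e0 > h`); `a = h - e0` resp. `a > h`.
* `s(2e+2,0)`: `≡ w (p-1-e0) s(2e1+2,0)`, `a = p-1-e0`.
* `s(0,2e)`: `≡ w e0 · s(0,2e1)`, `a = e0`.
* `s(0,2e+1)`: `≡ χ w(p-1-e0) s(0,2e1+1)`, `a = e0-h` if `e0 ≥ h`, else `a > h` and both sides vanish. -/

set_option autoImplicit false

namespace Crest.Agent.R6
open Polynomial Finset

variable {p : ℕ} [Fact p.Prime]

open CongA

theorem CongA.s_odd_zero (e : ℕ) : s (2 * e + 1) 0 = w e * ∑ l ∈ range e, V l ^ 2 := by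
  rw [s, s1, if_pos (by omega), show 2 * e / 2 = e by omega]

theorem CongA.s_even_zero (e : ℕ) :
    s (2 * e + 2) 0 = V e * ∑ l ∈ range (e + 1), (1 : ℚ) / (2 * l + 1) := by
  rw [s, s1, if_neg (by omega), show (2 * e + 1) / 2 = e by omega]

theorem CongA.s_zero_even (e : ℕ) : s 0 (2 * e) = w e * ∑ l ∈ range e, V l / (2 * l + 2) := by
  rw [s, s0, if_pos (by omega), show 2 * e / 2 = e by omega]

theorem CongA.s_zero_odd (e : ℕ) :
    s 0 (2 * e + 1) = V e * ∑ k ∈ range (e + 1), w k / (2 * k + 1) := by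
  rw [s, s0, if_neg (by omega), show (2 * e + 1) / 2 = e by omega]

theorem CongA.digits (e : ℕ) : ∃ e0 e1, e0 < p ∧ e = e0 + p * e1 :=
  ⟨e % p, e / p, Nat.mod_lt _ (Fact.out : p.Prime).pos, (Nat.mod_add_div e p).symm⟩

omit [Fact p.Prime] in
theorem CongA.uniq {a b c d : ℕ} (ha : a < p) (hc : c < p) (h : a + p * b = c + p * d) :
    a = c ∧ b = d := by
  have h1 : (a + p * b) % p = (c + p * d) % p := by rw [h]
  rw [Nat.add_mul_mod_self_left, Nat.add_mul_mod_self_left, Nat.mod_eq_of_lt ha,
    Nat.mod_eq_of_lt hc] at h1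
  subst h1
  exact ⟨rfl, Nat.eq_of_mul_eq_mul_left (by omega) (Nat.add_left_cancel h)⟩

theorem s_cong_col0 (hp : p ≠ 2) {m a m' : ℕ} (hm : m + 2 * p < p * p) (ha : a < p)
    (h : m + 2 * a = p * m') : Cg p ((p : ℚ) ^ 2 * s m 0) (w a * s m' 0) := by
  have hodd := odd_p hp
  have hm' : m' < p := lt_of_mul_lt_mul_left (a := p) (by omega) (Nat.zero_le _)
  have hI : padicNorm p (s m' 0) ≤ 1 := norm_s_le_one hp hm'.le (by omega)
  obtain ⟨e, rfl | rfl⟩ := Nat.even_or_odd' m
  · obtain ⟨e', rfl | rfl⟩ := Nat.even_or_odd' m'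
    swap
    · exfalso
      have : p * (2 * e' + 1) = 2 * (p * e' + p / 2) + 1 := by
        conv_lhs => rw [mul_add, mul_one, hodd]
        rw [← hodd]; ring_nf; omega
      omega
    have h2 : e + a = p * e' := by
      have : p * (2 * e') = 2 * (p * e') := by ring
      omega
    rcases e with _ | e
    · have : e' = 0 := by
        rcases e' with _ | e'
        · rfl
        · rw [mul_add] at h2; omega
      subst this
      refine CongA.of_eq ?_
      have := CongA.s_zero_even 0
      simp only [mul_zero, range_zero, sum_empty] at this ⊢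
      rw [this, mul_zero, mul_zero]
    rcases e' with _ | e'
    · omega
    obtain ⟨e0, e1, h0, rfl⟩ := CongA.digits (p := p) e
    have h3 : p - 1 - a = e0 ∧ e' = e1 := CongA.uniq (p := p) (by omega) h0 (by
      rw [mul_add] at h2; omega)
    obtain ⟨h3, rfl⟩ := h3
    have h4 : a = p - 1 - e0 := by omega
    rw [show 2 * (e0 + p * e' + 1) = 2 * (e0 + p * e') + 2 by ring,
      show 2 * (e' + 1) = 2 * e' + 2 by ring] at *
    have hV := V_lucas hp h0 (l1 := e') (by omega)
    rw [← h4] at hV
    have e1 : (p : ℚ) ^ 2 * s (2 * (e0 + p * e') + 2) 0 = (p * V (e0 + p * e')) *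
        ∑ l ∈ range (e0 + p * e' + 1), 1 * (p * (1 / (2 * (l : ℚ) + 1))) := by
      rw [CongA.s_even_zero]
      simp only [one_mul, ← mul_sum]
      ring
    rw [e1]
    by_cases he : p / 2 ≤ e0
    · have hB := sumB hp (u := fun _ => 1) (u' := fun _ => 1) (fun _ => I_one) (fun _ => I_one)
        (fun _ => Cg.refl _) he h0 (e1 := e') (by omega)
      refine (Cg.mul hV hB (I_mul (norm_w_le hp _) (I_V hp (by omega)))
        (I_sum fun l hl => I_mul I_one (I_odd (by have := mem_range.1 hl; omega)))).trans (CongA.of_eq ?_)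
      rw [CongA.s_even_zero]
      simp only [one_mul, mul_assoc]
    · have hz := w_zero hp (a := a) (by omega) ha
      refine (zero_mul' (hV.trans (zero_mul' hz (I_V hp (by omega)))) (I_sum fun l hl =>
        I_mul I_one (I_p_odd (by have := mem_range.1 hl; omega)))).trans (zero_mul' hz hI).symm
  · obtain ⟨e', rfl | rfl⟩ := Nat.even_or_odd' m'
    · exfalso
      have : p * (2 * e') = 2 * (p * e') := by ring
      omega
    have h2 : e + a = p / 2 + p * e' := by
      have : p * (2 * e' + 1) = 2 * (p * e') + p := by ring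
      omega
    obtain ⟨e0, e1, h0, rfl⟩ := CongA.digits (p := p) e
    have e2 : (p : ℚ) ^ 2 * s (2 * (e0 + p * e1) + 1) 0 = w (e0 + p * e1) *
        ∑ l ∈ range (e0 + p * e1), (p * V l) ^ 2 := by
      rw [CongA.s_odd_zero]
      simp only [mul_pow, ← mul_sum]
      ring
    rw [e2]
    have hw := w_lucas hp h0 e1
    by_cases he : e0 ≤ p / 2
    · have h3 : e0 + a < p := by
        by_contra hc
        have := (CongA.uniq (p := p) (a := e0 + a - p) (b := e1 + 1) (c := p / 2) (d := e')
          (by omega) (by omega) (by rw [mul_add]; omega)).1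
        omega
      obtain ⟨h4, rfl⟩ := CongA.uniq (p := p) (a := e0 + a) (b := e1) (c := p / 2) (d := e') h3
        (by omega) (by omega)
      have hS : padicNorm p (∑ l ∈ range e1, V l ^ 2) ≤ 1 :=
        I_sum fun l hl => I_pow (I_V hp (by have := mem_range.1 hl; omega)) 2
      refine (Cg.mul hw (sumA hp he hm') (I_mul (norm_w_le hp _) (norm_w_le hp _))
        (I_mul (I_sign _) hS)).trans ?_
      have hr := w_reflect hp (a := a) (by omega)
      rw [show p / 2 - a = e0 by omega] at hr
      refine (CongA.of_eq ?_).trans (mul_right _ hI hr).symm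
      rw [CongA.s_odd_zero]; ring
    · have h3 : p / 2 < a := by
        by_contra hc
        by_cases hlt : e0 + a < p
        · have := (CongA.uniq (p := p) (a := e0 + a) (b := e1) (c := p / 2) (d := e') hlt
            (by omega) (by omega)).1
          omega
        · have := (CongA.uniq (p := p) (a := e0 + a - p) (b := e1 + 1) (c := p / 2) (d := e')
            (by omega) (by omega) (by rw [mul_add]; omega)).1
          omega
      refine (zero_mul' (hw.trans (zero_mul' (w_zero hp (by omega) h0) (norm_w_le hp _)))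
        (I_sum fun l hl => I_pow (I_pV hp (by have := mem_range.1 hl; omega)) 2)).trans
        (zero_mul' (w_zero hp h3 ha) hI).symm

theorem s_cong_row0 (hp : p ≠ 2) {j a l m' j' : ℕ} (hj : j + 1 < p * p) (ha : a < p) (hl : l < p)
    (hj' : j = l + p * j') (h : 2 * a = l + p * m') :
    Cg p ((p : ℚ) ^ 2 * s 0 j) (w a * s m' j') := by
  have hodd := odd_p hp
  have h2p := (Fact.out : p.Prime).two_le
  have hj1 : j' < p := lt_of_mul_lt_mul_left (a := p) (by omega) (Nat.zero_le _)
  have hm' : m' = 0 ∨ m' = 1 := by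
    have : m' < 2 := lt_of_mul_lt_mul_left (a := p) (by omega) (Nat.zero_le _)
    omega
  have hI : padicNorm p (s m' j') ≤ 1 := norm_s_le_one hp (by omega) hj1
  obtain ⟨e, rfl | rfl⟩ := Nat.even_or_odd' j
  · obtain ⟨e0, e1, h0, rfl⟩ := CongA.digits (p := p) e
    have e2 : (p : ℚ) ^ 2 * s 0 (2 * (e0 + p * e1)) = w (e0 + p * e1) *
        ∑ k ∈ range (e0 + p * e1), (1 / 2 * (p * V k)) * (p * (1 / ((k : ℚ) + 1))) := by
      rw [CongA.s_zero_even, mul_left_comm, mul_sum]
      congr 1
      refine sum_congr rfl fun k _ => ?_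
      field_simp
    rw [e2]
    have hw := w_lucas hp h0 e1
    have hu : ∀ k < e0 + p * e1, padicNorm p (1 / 2 * (p * V k)) ≤ 1 := fun k hk =>
      I_mul (I_half hp) (I_pV hp (by omega))
    by_cases he : e0 ≤ p / 2
    · obtain ⟨rfl, rfl⟩ := CongA.uniq (p := p) (a := 2 * e0) (b := 2 * e1) (c := l) (d := j')
        (by omega) hl (by rw [← hj']; ring)
      obtain rfl : m' = 0 := by
        rcases hm' with h' | h'
        · exact h'
        · subst h'; omega
      obtain rfl : a = e0 := by omega
      have hu' : ∀ k < e1, padicNorm p (1 / 2 * V k) ≤ 1 := fun k hk =>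
        I_mul (I_half hp) (I_V hp (by omega))
      have hC := sumC (p := p) (u := fun k => 1 / 2 * (p * V k)) (u' := fun k => 1 / 2 * V k)
        (e0 := a) (e1 := e1) hu hu' (fun k hk => Cg.mul_left _ (I_half hp) (by
          have := V_lucas hp (l0 := p - 1) (l1 := k) (by omega) (by omega)
          rwa [Nat.sub_self, w_zero', one_mul] at this)) h0 (Or.inl (by omega))
      refine (Cg.mul hw hC (I_mul (norm_w_le hp _) (norm_w_le hp _)) (I_sum fun k hk =>
        I_mul (hu' k (mem_range.1 hk)) (I_succ (by have := mem_range.1 hk; omega)))).trans (CongA.of_eq ?_)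
      rw [CongA.s_zero_even, mul_assoc]
      congr 2
      refine sum_congr rfl fun k _ => ?_
      field_simp
    · obtain ⟨rfl, rfl⟩ := CongA.uniq (p := p) (a := 2 * e0 - p) (b := 2 * e1 + 1) (c := l) (d := j')
        (by omega) hl (by
          rw [← hj', show p * (2 * e1 + 1) = 2 * (p * e1) + p by ring]; omega)
      have h3 : p / 2 < a := by
        rcases hm' with h' | h' <;> subst h' <;> omega
      refine (zero_mul' (hw.trans (zero_mul' (w_zero hp (by omega) h0) (norm_w_le hp _)))
        (I_sum fun k hk => I_mul (hu k (mem_range.1 hk))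
          (I_p_succ (by have := mem_range.1 hk; omega)))).trans
        (zero_mul' (w_zero hp h3 ha) hI).symm
  · obtain ⟨e0, e1, h0, rfl⟩ := CongA.digits (p := p) e
    have e2 : (p : ℚ) ^ 2 * s 0 (2 * (e0 + p * e1) + 1) = (p * V (e0 + p * e1)) *
        ∑ k ∈ range (e0 + p * e1 + 1), w k * (p * (1 / (2 * (k : ℚ) + 1))) := by
      rw [CongA.s_zero_odd, mul_sum, mul_sum, mul_sum]
      refine sum_congr rfl fun k _ => ?_
      ring
    rw [e2]
    by_cases he : p / 2 ≤ e0
    · obtain ⟨rfl, rfl⟩ := CongA.uniq (p := p) (a := 2 * e0 + 1 - p) (b := 2 * e1 + 1) (c := l)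
        (d := j') (by omega) hl (by
          rw [← hj', show p * (2 * e1 + 1) = 2 * (p * e1) + p by ring]; omega)
      obtain rfl : m' = 0 := by
        rcases hm' with h' | h'
        · exact h'
        · subst h'; omega
      have hV := V_lucas hp h0 hj1
      have hB := sumB hp (u := w) (u' := fun k => (-1) ^ (p / 2) * w k) (norm_w_le hp)
        (fun k => I_mul (I_sign _) (norm_w_le hp k)) (fun k =>
          (w_lucas hp (by omega) k).trans (mul_right _ (norm_w_le hp k) (by
            have := w_reflect hp (le_refl (p / 2))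
            rwa [Nat.sub_self, w_zero', mul_one] at this))) he h0 hj1
      refine (Cg.mul hV hB (I_mul (norm_w_le hp _) (I_V hp hj1)) (I_sum fun k hk =>
        I_mul (I_mul (I_sign _) (norm_w_le hp k))
          (I_odd (by have := mem_range.1 hk; omega)))).trans ?_
      have hr := w_reflect hp (a := a) (by omega)
      rw [show p / 2 - a = p - 1 - e0 by omega] at hr
      refine (CongA.of_eq ?_).trans (mul_right _ hI hr).symm
      rw [CongA.s_zero_odd, mul_sum, mul_sum, mul_sum]
      refine sum_congr rfl fun k _ => ?_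
      ring
    · obtain ⟨rfl, rfl⟩ := CongA.uniq (p := p) (a := 2 * e0 + 1) (b := 2 * e1) (c := l) (d := j')
        (by omega) hl (by rw [← hj']; ring)
      have h3 : p / 2 < a := by
        rcases hm' with h' | h' <;> subst h' <;> omega
      refine (zero_mul' (cg_p_mul (I_V' hp hl (by omega)))
        (I_sum fun k hk => I_mul (norm_w_le hp k)
          (I_p_odd (by have := mem_range.1 hk; omega)))).trans
        (zero_mul' (w_zero hp h3 ha) hI).symm

theorem CongA.Wp_cong (hp : p ≠ 2) {m a m' : ℕ} (ha : a < p) (hm' : m' < p)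
    (h : m + 2 * a = p - 1 + p * m') : Cg p (p * Wp m) (w a * Wp m') := by
  have hodd := odd_p hp
  obtain ⟨e', rfl | rfl⟩ := Nat.even_or_odd' m'
  · have : p * (2 * e') = 2 * (p * e') := by ring
    rw [Wp, Wp, if_neg (by omega), if_neg (by omega), mul_zero, mul_zero]
    exact Cg.refl _
  · have : p * (2 * e' + 1) = 2 * (p * e') + p := by ring
    rw [Wp, Wp, if_pos (by omega), if_pos (by omega), show (2 * e' + 1) / 2 = e' by omega,
      show m / 2 = (p - 1 - a) + p * e' by omega]
    have := V_lucas hp (l0 := p - 1 - a) (by omega) hm'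
    rwa [show p - 1 - (p - 1 - a) = a by omega] at this

theorem s_cong (hp : p ≠ 2) {m j a l m' j' : ℕ} (hm : m + 2 * p < p * p) (hj : j + 1 < p * p)
    (ha : a < p) (hl : l < p) (hj' : j = l + p * j') (h : m + 2 * a = l + p * m') :
    Cg p ((p : ℚ) ^ 2 * s m j) (w a * s m' j') := by
  have hp0 : (p : ℚ) ≠ 0 := by exact_mod_cast (Fact.out : p.Prime).ne_zero
  induction m generalizing j l m' j' with
  | zero => exact s_cong_row0 hp hj ha hl hj' (by omega)
  | succ m ih =>
    rcases j with _ | j
    · obtain ⟨rfl, rfl⟩ := CongA.uniq (p := p) (a := 0) (b := 0) (c := l) (d := j') (by omega) hl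
        (by omega)
      exact s_cong_col0 hp hm ha (by omega)
    rw [s, mul_sub]
    rcases l with _ | l
    · rcases j' with _ | j'
      · omega
      rcases m' with _ | m'
      · omega
      have e1 : p * (j' + 1) = p * j' + p := by ring
      have e2 : p * (m' + 1) = p * m' + p := by ring
      have hj1 : j' + 1 < p := lt_of_mul_lt_mul_left (a := p) (by omega) (Nat.zero_le _)
      have hm1 : m' + 1 < p := lt_of_mul_lt_mul_left (a := p) (by omega) (Nat.zero_le _)
      rw [s, mul_sub]
      refine Cg.sub (ih (l := p - 1) (by omega) (by omega) (by omega) (by omega) (by omega)) ?_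
      have e3 : (j : ℚ) + 1 = p * (j' + 1) := by exact_mod_cast (by omega : j + 1 = p * (j' + 1))
      have := mul_right _ (I_succ hj1) (CongA.Wp_cong hp (m := m) ha (by omega : m' < p) (by omega))
      refine (CongA.of_eq ?_).trans (this.trans (CongA.of_eq (by ring)))
      rw [e3]; field_simp
    · rw [← sub_zero (w a * s m' j')]
      refine Cg.sub (ih (l := l) (by omega) (by omega) (by omega) (by omega) (by omega)) ?_
      have h1 : ¬ p ∣ j + 1 := fun hd => by
        rw [hj', add_comm] at hd
        have := Nat.le_of_dvd (by omega) ((Nat.dvd_add_right (dvd_mul_right _ _)).1 hd)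
        omega
      have h2 := I_inv h1
      push_cast at h2
      have := cg_p_mul (I_mul (I_p_mul (by omega : m < p * p) (norm_Wp_le hp m)) h2)
      refine (CongA.of_eq ?_).trans this
      ring

theorem CongA.harm_eq (n : ℕ) :
    (p : ℚ) * harmonic n = ∑ l ∈ range n, 1 * (p * (1 / ((l : ℚ) + 1))) := by
  rw [harmonic, mul_sum]
  refine sum_congr rfl fun k _ => ?_
  push_cast; ring

theorem CongA.harm_cong {n : ℕ} (hn : n < p * p) :
    Cg p ((p : ℚ) ^ 2 * (harmonic n / n))
      (if n % p = 0 then harmonic (n / p) / (n / p : ℕ) else 0) := by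
  have hp0 : (p : ℚ) ≠ 0 := by exact_mod_cast (Fact.out : p.Prime).ne_zero
  have hpos := (Fact.out : p.Prime).pos
  split_ifs with h
  · obtain ⟨k, rfl⟩ := Nat.dvd_of_mod_eq_zero h
    rw [Nat.mul_div_cancel_left _ hpos]
    have hk : k < p := lt_of_mul_lt_mul_left (a := p) hn (Nat.zero_le _)
    have hC := sumC (p := p) (u := fun _ => 1) (u' := fun _ => 1) (e0 := 0) (e1 := k)
      (fun _ _ => I_one) (fun _ _ => I_one) (fun _ _ => Cg.refl _) hpos (Or.inr ⟨hk, rfl⟩)
    rw [zero_add, ← CongA.harm_eq] at hC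
    refine (CongA.of_eq ?_).trans ((mul_right _ (I_inv_lt hk) hC).trans (CongA.of_eq ?_))
    · push_cast
      rcases eq_or_ne (k : ℚ) 0 with h0 | h0
      · simp [h0]
      · field_simp
    · rw [harmonic, ← div_eq_mul_one_div]
      congr 1
      refine sum_congr rfl fun k _ => ?_
      push_cast; ring
  · have h1 : padicNorm p (p * harmonic n) ≤ 1 := by
      rw [CongA.harm_eq]
      exact I_sum fun l hl => I_mul I_one (I_p_succ (by have := mem_range.1 hl; omega))
    have := cg_p_mul (I_mul h1 (I_inv (k := n) fun hd => h (Nat.mod_eq_zero_of_dvd hd)))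
    refine (CongA.of_eq ?_).trans this
    ring

theorem CongA.z_right (m : ℕ) : z m 0 = harmonic m / m := by
  rcases m with _ | m
  · simp [z]
  · rw [z]; push_cast; rfl

theorem z_cong {m j : ℕ} (hm : m < p * p) (hj : j < p * p) :
    Cg p ((p : ℚ) ^ 2 * z m j) (if m % p = j % p then z (m / p) (j / p) else 0) := by
  have hp0 : (p : ℚ) ≠ 0 := by exact_mod_cast (Fact.out : p.Prime).ne_zero
  have hpos := (Fact.out : p.Prime).pos
  induction m generalizing j with
  | zero =>
    have := CongA.harm_cong hj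
    simpa only [z, Nat.zero_mod, Nat.zero_div, eq_comm] using this
  | succ m ih =>
    rcases j with _ | j
    · have := CongA.harm_cong hm
      simpa only [CongA.z_right, Nat.zero_mod, Nat.zero_div] using this
    have ih' := ih (j := j) (by omega) (by omega)
    have hsmall : ¬ p ∣ m + 1 ∨ ¬ p ∣ j + 1 →
        Cg p ((p : ℚ) ^ 2 * (1 / (((m : ℚ) + 1) * ((j : ℚ) + 1)))) 0 := by
      rintro (h | h)
      · have h2 := I_inv h
        push_cast at h2
        refine (CongA.of_eq ?_).trans (cg_p_mul (I_mul h2 (I_p_succ hj)))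
        field_simp
      · have h2 := I_inv h
        push_cast at h2
        refine (CongA.of_eq ?_).trans (cg_p_mul (I_mul h2 (I_p_succ hm)))
        field_simp
    have hiff : (m + 1) % p = (j + 1) % p ↔ m % p = j % p := Nat.ModEq.add_iff_right (Nat.ModEq.refl 1)
    rw [z, mul_sub]
    by_cases hc : m % p = j % p
    · rw [if_pos hc] at ih'
      have hc' := hiff.2 hc
      rw [if_pos hc']
      by_cases hd : p ∣ m + 1
      · have hd' : p ∣ j + 1 := Nat.dvd_of_mod_eq_zero (hc' ▸ Nat.mod_eq_zero_of_dvd hd)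
        rw [Nat.succ_div_of_dvd hd, Nat.succ_div_of_dvd hd', z]
        refine Cg.sub ih' (CongA.of_eq ?_)
        have e1 : (m : ℚ) + 1 = p * ((m / p : ℕ) + 1) := by
          have := Nat.mul_div_cancel' hd
          rw [Nat.succ_div_of_dvd hd] at this
          exact_mod_cast this.symm
        have e2 : (j : ℚ) + 1 = p * ((j / p : ℕ) + 1) := by
          have := Nat.mul_div_cancel' hd'
          rw [Nat.succ_div_of_dvd hd'] at this
          exact_mod_cast this.symm
        rw [e1, e2]; field_simp
      · have hd' : ¬ p ∣ j + 1 := fun h =>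
          hd (Nat.dvd_of_mod_eq_zero (hc'.trans (Nat.mod_eq_zero_of_dvd h)))
        rw [Nat.succ_div_of_not_dvd hd, Nat.succ_div_of_not_dvd hd', ← sub_zero (z (m / p) (j / p))]
        exact Cg.sub ih' (hsmall (Or.inl hd))
    · rw [if_neg hc] at ih'
      rw [if_neg (fun h => hc (hiff.1 h)), ← sub_zero (0 : ℚ)]
      refine Cg.sub ih' (hsmall ?_)
      by_contra hcon
      push Not at hcon
      exact hc (hiff.1 ((Nat.mod_eq_zero_of_dvd hcon.1).trans (Nat.mod_eq_zero_of_dvd hcon.2).symm))

theorem CongA.pair_sec {l : ℕ} (hl : l < p) (f : ℕ → ℚ) (F : ℤ[X]) :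
    pair f (sec p l F) = pair (fun m => if m % p = l then f (m / p) else 0) F := by
  have hpos : 0 < p := by omega
  have h1 : pair f (sec p l F) = ∑ i ∈ range (F.natDegree + 1), (F.coeff (l + p * i) : ℚ) * f i := by
    rw [sec, pair_sum]
    simp only [pair_monomial]
  have h2 := sum_blocks (p := p) (fun m => (F.coeff m : ℚ) * (if m % p = l then f (m / p) else 0)) 0
    (F.natDegree + 1)
  rw [zero_add, sum_range_zero, add_zero] at h2
  rw [h1, pair_eq_range _ F (n := p * (F.natDegree + 1)) (by nlinarith), h2]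
  refine sum_congr rfl fun i _ => ?_
  rw [sum_eq_single l]
  · rw [Nat.add_mul_mod_self_left, Nat.mod_eq_of_lt hl, if_pos rfl, Nat.add_mul_div_left _ _ hpos,
      Nat.div_eq_of_lt hl, zero_add]
  · intro b hb hbl
    rw [Nat.add_mul_mod_self_left, Nat.mod_eq_of_lt (mem_range.1 hb), if_neg hbl, mul_zero]
  · intro h; exact absurd (mem_range.2 hl) h

theorem CongA.pair_mul (g : ℕ → ℚ) (P Q : ℤ[X]) :
    pair g (P * Q) = pair (fun m => pair (fun n => g (m + n)) Q) P := by
  induction P using Polynomial.induction_on' with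
  | add P P' h h' => rw [add_mul, pair_add, pair_add, h, h']
  | monomial m a =>
    rw [pair_monomial]
    induction Q using Polynomial.induction_on' with
    | add Q Q' h h' => rw [mul_add, pair_add, pair_add, h, h', mul_add]
    | monomial n b =>
      rw [monomial_mul_monomial, pair_monomial, pair_monomial]
      push_cast; ring

theorem CongA.pair_fun {f g : ℕ → ℚ} {P : ℤ[X]} (h : ∀ m ≤ P.natDegree, Cg p (f m) (g m)) :
    Cg p (pair f P) (pair g P) := by
  rw [pair_eq_range f P (Nat.lt_succ_self _), pair_eq_range g P (Nat.lt_succ_self _)]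
  exact Cg.sum _ fun m hm =>
    Cg.mul_left _ (padicNorm.of_int _) (h m (Nat.lt_succ_iff.1 (mem_range.1 hm)))

theorem CongA.exists_a (hp : p ≠ 2) (m : ℕ) {l : ℕ} (hl : l < p) :
    ∃ a i, a < p ∧ m + 2 * a = l + p * i := by
  have hodd := odd_p hp
  obtain ⟨m0, m1, h0, rfl⟩ := CongA.digits (p := p) m
  have e1 : p * (m1 + 1) = p * m1 + p := by ring
  have e2 : p * (m1 + 2) = p * m1 + 2 * p := by ring
  by_cases h1 : (l + m0) % 2 = 0
  · by_cases h2 : m0 ≤ l
    · exact ⟨(l - m0) / 2, m1, by omega, by omega⟩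
    · exact ⟨(l + 2 * p - m0) / 2, m1 + 2, by omega, by omega⟩
  · exact ⟨(l + p - m0) / 2, m1 + 1, by omega, by omega⟩

/-- `p² Φ_γ(P, D; s^(l + p j')) ≡ Φ_0(sec(P (1-t²)^h), sec D; s^j')`. -/
theorem Phi_cong (hp : p ≠ 2) {γ : ℚ} (hγ : padicNorm p γ ≤ 1) {P D : ℤ[X]}
    (hP : P.natDegree + 2 * p < p * p) (hD : D.natDegree < p * p) {l j' : ℕ} (hl : l < p)
    (hj : l + p * j' + 1 < p * p) :
    Cg p ((p : ℚ) ^ 2 * Phi γ P D (l + p * j'))
      (Phi 0 (sec p l (P * (1 - X ^ 2) ^ (p / 2))) (sec p l D) j') := by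
  have hodd := odd_p hp
  have hpos : 0 < p := by omega
  have hj1 : j' < p := lt_of_mul_lt_mul_left (a := p) (by omega) (Nat.zero_le _)
  rw [Phi, Phi, mul_sub, mul_left_comm, ← pair_fun_mul, ← pair_fun_mul ((p : ℚ) ^ 2),
    CongA.pair_sec hl, CongA.pair_sec hl, CongA.pair_mul]
  refine Cg.sub (CongA.pair_fun fun m hm => ?_) (Cg.mul_left _ ?_ (CongA.pair_fun fun m hm => ?_))
  · obtain ⟨a, i, ha, hai⟩ := CongA.exists_a hp m hl
    have h1 := s_cong hp (m := m) (by omega) hj ha hl rfl hai
    have h2 : Cg p ((p : ℚ) ^ 2 * (γ * al m (l + p * j'))) 0 := by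
      refine (CongA.of_eq ?_).trans (cg_p_mul (I_mul (I_nat p) (I_mul hγ (norm_al_le hp m (l + p * j')))))
      ring
    have h3 := h1.add h2
    rw [← mul_add, add_zero] at h3
    refine h3.trans (Cg.symm ?_)
    have hdeg : ((1 - X ^ 2 : ℤ[X]) ^ (p / 2)).natDegree < 2 * p := by
      refine lt_of_le_of_lt natDegree_pow_le ?_
      have : (1 - X ^ 2 : ℤ[X]).natDegree ≤ 2 := by compute_degree
      nlinarith
    rw [pair_eq_range _ _ hdeg]
    simp only [zero_mul, add_zero]
    have h4 : w a * s i j' = ∑ n ∈ range (2 * p), if n = 2 * a then w a * s i j' else 0 := by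
      rw [sum_ite_eq', if_pos (mem_range.2 (by omega))]
    rw [h4]
    refine Cg.sum _ fun n hn => ?_
    have hn' := mem_range.1 hn
    have hI : padicNorm p (if (m + n) % p = l then s ((m + n) / p) j' else 0) ≤ 1 :=
      I_ite (norm_s_le_one hp (Nat.div_le_of_le_mul (by omega)) hj1)
    refine (mul_right _ hI (coeff_omega hp n)).trans (CongA.of_eq ?_)
    by_cases hna : n = 2 * a
    · subst hna
      rw [if_pos ⟨by omega, hn'⟩, if_pos rfl, hai, Nat.add_mul_mod_self_left, Nat.mod_eq_of_lt hl,
        if_pos rfl, Nat.add_mul_div_left _ _ hpos, Nat.div_eq_of_lt hl, zero_add,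
        show 2 * a / 2 = a by omega]
    · rw [if_neg hna]
      by_cases hev : n % 2 = 0
      · rw [if_neg (c := (m + n) % p = l), mul_zero]
        intro hmod
        have h5 : (m + n) % p = (m + 2 * a) % p := by
          rw [hmod, hai, Nat.add_mul_mod_self_left, Nat.mod_eq_of_lt hl]
        have h6 : 2 * (n / 2) ≡ 2 * a [MOD p] := by
          rw [show 2 * (n / 2) = n by omega]
          exact Nat.ModEq.add_left_cancel' m h5
        have h7 := Nat.ModEq.cancel_left_of_coprime (by
          rw [hodd]; simp) h6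
        have h8 := Nat.ModEq.eq_of_lt_of_lt h7 (by omega) ha
        omega
      · rw [if_neg (fun h => hev h.1), zero_mul]
  · have := I_mul (I_nat (p := p) 3) (I_mul (I_half hp) (I_half hp))
    norm_num at this ⊢
    exact this
  · have := z_cong (p := p) (m := m) (j := l + p * j') (by omega) (by omega)
    rwa [Nat.add_mul_mod_self_left, Nat.mod_eq_of_lt hl, Nat.add_mul_div_left _ _ hpos,
      Nat.div_eq_of_lt hl, zero_add] at this

end Crest.Agent.R6
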