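import Crest.Agent.R6.Lucas

/-! Auxiliary facts for `Cong`: integrality and block sums. -/

set_option autoImplicit false

namespace Crest.Agent.R6
open Polynomial Finset

variable {p : ℕ} [Fact p.Prime]

namespace CongA

theorem I_mul {x y : ℚ} (hx : padicNorm p x ≤ 1) (hy : padicNorm p y ≤ 1) :
    padicNorm p (x * y) ≤ 1 := by
  rw [padicNorm.mul]
  exact mul_le_one₀ hx (padicNorm.nonneg _) hy

theorem I_zero : padicNorm p 0 ≤ 1 := by simp

theorem I_one : padicNorm p 1 ≤ 1 := by simp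

theorem I_sum {ι : Type*} {t : Finset ι} {f : ι → ℚ} (h : ∀ i ∈ t, padicNorm p (f i) ≤ 1) :
    padicNorm p (∑ i ∈ t, f i) ≤ 1 :=
  padicNorm.sum_le' h zero_le_one

theorem I_pow {x : ℚ} (hx : padicNorm p x ≤ 1) (n : ℕ) : padicNorm p (x ^ n) ≤ 1 := by
  induction n with
  | zero => simp
  | succ n ih => rw [pow_succ]; exact I_mul ih hx

theorem I_sign (n : ℕ) : padicNorm p ((-1) ^ n) ≤ 1 := I_pow (by simp) n

theorem I_nat (n : ℕ) : padicNorm p n ≤ 1 := padicNorm.of_nat n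

theorem I_ite {c : Prop} [Decidable c] {x : ℚ} (hx : padicNorm p x ≤ 1) :
    padicNorm p (if c then x else 0) ≤ 1 := by
  split_ifs
  · exact hx
  · exact I_zero

theorem I_inv {k : ℕ} (hk : ¬ p ∣ k) : padicNorm p (1 / (k : ℚ)) ≤ 1 := by
  rw [padicNorm.div, (padicNorm.nat_eq_one_iff k).2 hk]; simp

theorem I_inv_lt {k : ℕ} (hk : k < p) : padicNorm p (1 / (k : ℚ)) ≤ 1 := by
  have := norm_inv_le (p := p) (le_refl k)
  rwa [Nat.log_of_lt hk, pow_zero] at this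

theorem I_p_mul {x : ℚ} {B : ℕ} (hB : B < p * p) (hx : padicNorm p x ≤ (p : ℚ) ^ Nat.log p B) :
    padicNorm p (p * x) ≤ 1 := by
  have hp : 1 < p := (Fact.out : p.Prime).one_lt
  have h1 : Nat.log p B ≤ 1 := by
    rcases Nat.eq_zero_or_pos B with h | h
    · simp [h]
    · exact Nat.lt_succ_iff.1 (Nat.log_lt_of_lt_pow h.ne' (by rwa [pow_two]))
  have hp' : (1 : ℚ) ≤ p := by exact_mod_cast hp.le
  have h2 : padicNorm p x ≤ p := hx.trans (by simpa using pow_le_pow_right₀ hp' h1)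
  rw [padicNorm.mul, padicNorm.padicNorm_p hp, inv_mul_le_iff₀ (by positivity), mul_one]
  exact h2

theorem I_p_inv {k : ℕ} (hk : k < p * p) : padicNorm p (p * (1 / (k : ℚ))) ≤ 1 :=
  I_p_mul hk (norm_inv_le le_rfl)

theorem I_pV (hp : p ≠ 2) {l : ℕ} (hl : 2 * l + 1 < p * p) : padicNorm p (p * V l) ≤ 1 :=
  I_p_mul hl (norm_V_le hp l)

theorem I_V (hp : p ≠ 2) {l : ℕ} (hl : 2 * l + 1 < p) : padicNorm p (V l) ≤ 1 := by
  have := norm_V_le hp l
  rwa [Nat.log_of_lt hl, pow_zero] at this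

theorem I_odd {l : ℕ} (hl : 2 * l + 1 < p) : padicNorm p (1 / (2 * (l : ℚ) + 1)) ≤ 1 := by
  have := I_inv_lt (p := p) hl
  push_cast at this
  exact this

theorem I_p_odd {l : ℕ} (hl : 2 * l + 1 < p * p) :
    padicNorm p (p * (1 / (2 * (l : ℚ) + 1))) ≤ 1 := by
  have := I_p_inv (p := p) hl
  push_cast at this
  exact this

theorem I_succ {l : ℕ} (hl : l + 1 < p) : padicNorm p (1 / ((l : ℚ) + 1)) ≤ 1 := by
  have := I_inv_lt (p := p) hl
  push_cast at this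
  exact this

theorem I_p_succ {l : ℕ} (hl : l + 1 < p * p) : padicNorm p (p * (1 / ((l : ℚ) + 1))) ≤ 1 := by
  have := I_p_inv (p := p) hl
  push_cast at this
  exact this

theorem I_half (hp : p ≠ 2) : padicNorm p (1 / 2) ≤ 1 := by
  have := I_inv (p := p) (k := 2) fun h =>
    hp ((Nat.prime_dvd_prime_iff_eq Fact.out Nat.prime_two).1 h)
  exact_mod_cast this

theorem zero_mul' {x y : ℚ} (hx : Cg p x 0) (hy : padicNorm p y ≤ 1) : Cg p (x * y) 0 := by
  have := Cg.mul_left y hy hx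
  rwa [mul_zero, mul_comm] at this

theorem mul_zero' {x y : ℚ} (hx : padicNorm p x ≤ 1) (hy : Cg p y 0) : Cg p (x * y) 0 := by
  have := Cg.mul_left x hx hy
  rwa [mul_zero] at this

theorem mul_right {x y : ℚ} (c : ℚ) (hc : padicNorm p c ≤ 1) (h : Cg p x y) :
    Cg p (x * c) (y * c) := by
  rw [mul_comm x, mul_comm y]; exact Cg.mul_left c hc h

theorem sum_zero {ι : Type*} (t : Finset ι) {f : ι → ℚ} (h : ∀ i ∈ t, Cg p (f i) 0) :
    Cg p (∑ i ∈ t, f i) 0 := by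
  simpa using Cg.sum t (g := fun _ => 0) h

theorem of_eq {x y : ℚ} (h : x = y) : Cg p x y := h ▸ Cg.refl x

omit [Fact p.Prime] in
theorem sum_blocks (f : ℕ → ℚ) (e0 e1 : ℕ) :
    ∑ l ∈ range (e0 + p * e1), f l =
      ∑ l1 ∈ range e1, ∑ l0 ∈ range p, f (l0 + p * l1) + ∑ l0 ∈ range e0, f (l0 + p * e1) := by
  have h : ∀ e1, ∑ l ∈ range (p * e1), f l = ∑ l1 ∈ range e1, ∑ l0 ∈ range p, f (l0 + p * l1) := by
    intro e1
    induction e1 with
    | zero => simp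
    | succ n ih =>
      rw [mul_add, mul_one, sum_range_add, ih, sum_range_succ]
      simp only [add_comm]
  rw [add_comm e0, sum_range_add, h]
  simp only [add_comm]

theorem odd_p (hp : p ≠ 2) : p = 2 * (p / 2) + 1 := by
  have := (Fact.out : p.Prime).eq_two_or_odd
  omega

theorem w_zero' : w 0 = 1 := by simp [w]

theorem norm_w_eq (hp : p ≠ 2) {a : ℕ} (ha : a ≤ p / 2) : padicNorm p (w a) = 1 := by
  have hpp : p.Prime := Fact.out
  have h1 : ¬ p ∣ a.centralBinom := fun h => by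
    have h2 : p ∣ (2 * a).factorial := by
      rw [← Nat.choose_mul_factorial_mul_factorial (show a ≤ 2 * a by omega), mul_assoc]
      exact h.mul_right _
    have := hpp.dvd_factorial.1 h2
    have := odd_p hp
    omega
  have h2 : ¬ p ∣ 4 ^ a := fun h => by
    have h3 : p ∣ 2 ^ 2 := hpp.dvd_of_dvd_pow h
    exact hp ((Nat.prime_dvd_prime_iff_eq hpp Nat.prime_two).1 (hpp.dvd_of_dvd_pow h3))
  have h3 := (padicNorm.nat_eq_one_iff (p := p) _).2 h2
  push_cast at h3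
  rw [w, padicNorm.div, (padicNorm.nat_eq_one_iff _).2 h1, h3, div_one]

theorem I_V' (hp : p ≠ 2) {e0 e1 : ℕ} (h0 : 2 * e0 + 1 < p) (h1 : e1 ≤ p / 2) :
    padicNorm p (V (e0 + p * e1)) ≤ 1 := by
  have hw := w_lucas hp (e0 := e0) (by omega) e1
  have h2 : padicNorm p (w e0 * w e1) = 1 := by
    rw [padicNorm.mul, norm_w_eq hp (by omega), norm_w_eq hp h1, mul_one]
  have h3 : padicNorm p (w (e0 + p * e1)) = 1 := by
    have h4 : w (e0 + p * e1) = (w (e0 + p * e1) - w e0 * w e1) + w e0 * w e1 := by ring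
    have h5 : padicNorm p (w (e0 + p * e1) - w e0 * w e1) < 1 := hw
    rw [h4, padicNorm.add_eq_max_of_ne (by rw [h2]; exact h5.ne), h2, max_eq_right h5.le]
  have h6 : ¬ p ∣ 2 * (e0 + p * e1) + 1 := fun h => by
    have h7 : p ∣ 2 * e0 + 1 := by
      have : 2 * (e0 + p * e1) + 1 = p * (2 * e1) + (2 * e0 + 1) := by ring
      rw [this] at h
      exact (Nat.dvd_add_right (dvd_mul_right _ _)).1 h
    have := Nat.le_of_dvd (by omega) h7
    omega
  have h7 := (padicNorm.nat_eq_one_iff (p := p) _).2 h6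
  rw [V, padicNorm.div, padicNorm.mul, h3]
  push_cast at h7 ⊢
  rw [h7]; simp

/-- `∑ (p V l)²`. -/
theorem sumA (hp : p ≠ 2) {e0 e1 : ℕ} (h0 : e0 ≤ p / 2) (h1 : 2 * e1 + 1 < p) :
    Cg p (∑ l ∈ range (e0 + p * e1), (p * V l) ^ 2)
      ((-1) ^ (p / 2) * ∑ l ∈ range e1, V l ^ 2) := by
  have hodd := odd_p hp
  rw [sum_blocks, mul_sum, ← add_zero (∑ l ∈ range e1, (-1) ^ (p / 2) * V l ^ 2)]
  refine Cg.add (Cg.sum _ fun l1 hl1 => ?_) (sum_zero _ fun l0 hl0 => ?_)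
  · have hl1' : 2 * l1 + 1 < p := by have := mem_range.1 hl1; omega
    have h2 : Cg p (∑ l0 ∈ range p, (p * V (l0 + p * l1)) ^ 2)
        (∑ l0 ∈ range p, w (p - 1 - l0) ^ 2 * V l1 ^ 2) := by
      refine Cg.sum _ fun l0 hl0 => ?_
      have h3 := V_lucas hp (mem_range.1 hl0) hl1'
      have h4 := I_mul (norm_w_le hp (p - 1 - l0)) (I_V hp hl1')
      rw [← mul_pow, pow_two, pow_two]
      exact Cg.mul h3 h3 h4 h4
    refine h2.trans ?_
    rw [← sum_mul, sum_range_reflect (fun a => w a ^ 2) p]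
    exact mul_right _ (I_pow (I_V hp hl1') 2) (w_sq_sum hp)
  · have hl := mem_range.1 hl0
    have h3 := (V_lucas hp (l0 := l0) (by omega) h1).trans
      (zero_mul' (w_zero hp (by omega) (by omega)) (I_V hp h1))
    rw [pow_two]
    exact zero_mul' h3 (h3.norm_le I_zero)

/-- `∑ u l · p/(2l+1)`. -/
theorem sumB (hp : p ≠ 2) {u u' : ℕ → ℚ} (hu : ∀ l, padicNorm p (u l) ≤ 1)
    (hu' : ∀ l, padicNorm p (u' l) ≤ 1) (huu : ∀ l1, Cg p (u (p / 2 + p * l1)) (u' l1))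
    {e0 e1 : ℕ} (h0 : p / 2 ≤ e0) (h0' : e0 < p) (h1 : 2 * e1 + 1 < p) :
    Cg p (∑ l ∈ range (e0 + p * e1 + 1), u l * (p * (1 / (2 * (l : ℚ) + 1))))
      (∑ l ∈ range (e1 + 1), u' l * (1 / (2 * (l : ℚ) + 1))) := by
  have hodd := odd_p hp
  have key : ∀ n l1, p / 2 < n → n ≤ p → 2 * l1 + 1 < p →
      Cg p (∑ l0 ∈ range n, u (l0 + p * l1) * (p * (1 / (2 * ((l0 + p * l1 : ℕ) : ℚ) + 1))))
        (u' l1 * (1 / (2 * (l1 : ℚ) + 1))) := by
    intro n l1 hn hn' hl1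
    have h2 : Cg p (∑ l0 ∈ range n, u (l0 + p * l1) * (p * (1 / (2 * ((l0 + p * l1 : ℕ) : ℚ) + 1))))
        (∑ l0 ∈ range n, if l0 = p / 2 then u' l1 * (1 / (2 * (l1 : ℚ) + 1)) else 0) := by
      refine Cg.sum _ fun l0 hl0 => ?_
      have h3 := inv_odd_lucas hp (l0 := l0) (by have := mem_range.1 hl0; omega) hl1
      split_ifs at h3 ⊢ with h
      · subst h
        exact Cg.mul (huu l1) h3 (hu' _) (I_odd hl1)
      · exact mul_zero' (hu _) h3
    rwa [sum_ite_eq', if_pos (mem_range.2 hn)] at h2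
  rw [show e0 + p * e1 + 1 = (e0 + 1) + p * e1 by ring, sum_blocks, sum_range_succ _ e1]
  exact Cg.add (Cg.sum _ fun l1 hl1 => key p l1 (by omega) le_rfl
    (by have := mem_range.1 hl1; omega)) (key _ e1 (by omega) (by omega) h1)

/-- `∑ u l · p/(l+1)`. -/
theorem sumC {u u' : ℕ → ℚ} {e0 e1 : ℕ} (hu : ∀ l < e0 + p * e1, padicNorm p (u l) ≤ 1)
    (hu' : ∀ l < e1, padicNorm p (u' l) ≤ 1) (huu : ∀ l1 < e1, Cg p (u (p - 1 + p * l1)) (u' l1))
    (h0 : e0 < p) (h1 : e1 + 1 < p ∨ (e1 < p ∧ e0 = 0)) :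
    Cg p (∑ l ∈ range (e0 + p * e1), u l * (p * (1 / ((l : ℚ) + 1))))
      (∑ l ∈ range e1, u' l * (1 / ((l : ℚ) + 1))) := by
  rw [sum_blocks, ← add_zero (∑ l ∈ range e1, u' l * _)]
  refine Cg.add (Cg.sum _ fun l1 hl1 => ?_) (sum_zero _ fun l0 hl0 => ?_)
  · have hl1' := mem_range.1 hl1
    have h2 : Cg p (∑ l0 ∈ range p, u (l0 + p * l1) * (p * (1 / (((l0 + p * l1 : ℕ) : ℚ) + 1))))
        (∑ l0 ∈ range p, if l0 = p - 1 then u' l1 * (1 / ((l1 : ℚ) + 1)) else 0) := by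
      refine Cg.sum _ fun l0 hl0 => ?_
      have hl0' := mem_range.1 hl0
      have h3 := inv_succ_lucas (k0 := l0) (k1 := l1) hl0' (by omega)
      split_ifs at h3 ⊢ with h
      · subst h
        exact Cg.mul (huu l1 hl1') h3 (hu' _ hl1') (I_succ (by omega))
      · exact mul_zero' (hu _ (by nlinarith)) h3
    rwa [sum_ite_eq', if_pos (mem_range.2 (by omega))] at h2
  · have hl0' := mem_range.1 hl0
    have h3 := inv_succ_lucas (p := p) (k0 := l0) (k1 := e1) (by omega) (by omega)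
    rw [if_neg (by omega)] at h3
    exact mul_zero' (hu _ (by omega)) h3

end CongA

end Crest.Agent.R6
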