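import Crest.Agent.R6.CrossA

/-! Energy inequality for charges on the cross `ℝ ∪ γ`.
Put `u0 = 8/5`, `a = 10/3`, `ζ(p) = (p - u0)/(a - p)`: `ℝ ↦ ℝ`, `γ ↦ iℝ`, upper half plane to itself,
inside of `γ ↦ Re > 0`, `ζ(2) = 3/10`, `ζ(-2) = -27/40`, `ζ(y) < -1` for `y > a`;
`log|p-p'| = log|ζ-ζ'| - log(a-u0) + log|a-p| + log|a-p'|`, and the last three terms sum to zero
over all pairs of a family of total charge `0` (points with charges `ch`, poles with `-lam β`).
Representatives in the open first quadrant and odd charges for `cross_cnd` (halve it):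
* real point: `ρ = |ζ|`, `z = ρ + i θ min(ρ, |ζ - 3/10|)`, `a = ch·sign ζ`, `b = 0`;
* circle point: `z = θρ + iρ`, `a = 0`, `b = ch·sign(Im ζ)`;
* pole `Z = ζ(Y)`: `z = Z` if `Re Z > 0` else `-conj Z`, `a = charge·sign(Re Z)`, `b = 0`.
Then half the `cross_cnd` kernel `K` satisfies: `K ≥ log|ζ-ζ'| - O(θ)` for distinct points with equal
charges, `K ≤ log|ζ-ζ'| + O(θ)` for opposite charges (this is where the location hypothesis is used),
`|K - (log|ζ-Z| + log|conj ζ - Z|)/2| ≤ O_Z(θ)` for point–pole, pole–pole gives `Kx`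
(`Z + conj Z' = 2(r0² - (Y-c0)(conj Y'-c0))/((a-Y)(a-conj Y'))`), and the diagonal terms are
`≥ log θ - O(1) + log ρ` resp. `log min(ρ,|ζ-3/10|)`, where `ρ|a-p|² = |p-u0||a-p|`,
`|ζ-3/10||a-p|² = (13/10)|p-2||a-p|`.  Split into lemmas/files as convenient. -/

set_option autoImplicit false

namespace Crest.Agent.R6
open Finset ComplexConjugate

namespace CrossA

noncomputable section

def ze (P : ℂ) : ℂ := (P - 8 / 5) / (10 / 3 - P)
def ell (P : ℂ) : ℝ := Real.log ‖10 / 3 - P‖ - Real.log (26 / 15) / 2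

theorem ze_sub {P P' : ℂ} (h : P ≠ 10 / 3) (h' : P' ≠ 10 / 3) :
    ze P - ze P' = 26 / 15 * (P - P') / ((10 / 3 - P) * (10 / 3 - P')) := by
  have h1 := sub_ne_zero.2 h.symm
  have h2 := sub_ne_zero.2 h'.symm
  unfold ze
  rw [div_sub_div _ _ h1 h2]
  congr 1; ring

theorem ze_add {P P' : ℂ} (h : P ≠ 10 / 3) (h' : P' ≠ 10 / 3) :
    ze P + ze P' = 2 * ((r0 : ℂ) ^ 2 - (P - c0) * (P' - c0)) / ((10 / 3 - P) * (10 / 3 - P')) := by
  have h1 := sub_ne_zero.2 h.symm
  have h2 := sub_ne_zero.2 h'.symm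
  unfold ze r0 c0
  rw [div_add_div _ _ h1 h2]
  congr 1; push_cast; ring

theorem conj_a : conj (10 / 3 : ℂ) = 10 / 3 := by simp [map_ofNat]

theorem ze_conj (P : ℂ) : ze (conj P) = conj (ze P) := by
  unfold ze
  simp [map_ofNat]

theorem norm_a_conj (P : ℂ) : ‖10 / 3 - conj P‖ = ‖10 / 3 - P‖ := by
  rw [← Complex.norm_conj (10 / 3 - P), map_sub, conj_a]

theorem ell_conj (P : ℂ) : ell (conj P) = ell P := by unfold ell; rw [norm_a_conj]

theorem conj_ne {P : ℂ} (h : P ≠ 10 / 3) : conj P ≠ 10 / 3 := fun h' => h (by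
  have := congrArg conj h'
  rwa [Complex.conj_conj, conj_a] at this)

theorem log_ze_sub {P P' : ℂ} (h : P ≠ 10 / 3) (h' : P' ≠ 10 / 3) (hne : P ≠ P') :
    Real.log ‖P - P'‖ - ell P - ell P' = Real.log ‖ze P - ze P'‖ := by
  have h1 := norm_ne_zero_iff.2 (sub_ne_zero.2 h.symm)
  have h2 := norm_ne_zero_iff.2 (sub_ne_zero.2 h'.symm)
  have h3 := norm_ne_zero_iff.2 (sub_ne_zero.2 hne)
  have h4 : ‖(26 / 15 : ℂ)‖ = 26 / 15 := by simp
  rw [ze_sub h h', norm_div, norm_mul, norm_mul, h4, Real.log_div (by positivity) (by positivity),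
    Real.log_mul (by norm_num) h3, Real.log_mul h1 h2]
  unfold ell; ring

theorem ze_re (P : ℂ) : (ze P).re = (r0 ^ 2 - ‖P - c0‖ ^ 2) / Complex.normSq (10 / 3 - P) := by
  unfold ze r0 c0
  rw [Complex.div_re, ← add_div, Complex.sq_norm, Complex.normSq_apply (P - _)]
  congr 1
  simp
  ring

theorem ze_im (P : ℂ) : (ze P).im = 26 / 15 * P.im / Complex.normSq (10 / 3 - P) := by
  unfold ze
  rw [Complex.div_im, ← sub_div]
  congr 1
  simp
  ring

theorem ze_real {P : ℂ} (h : P.im = 0) : (ze P).re = (P.re - 8 / 5) / (10 / 3 - P.re) := by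
  have e : P = (P.re : ℂ) := Complex.ext rfl (by simpa using h)
  have : ze P = (((P.re - 8 / 5) / (10 / 3 - P.re) : ℝ) : ℂ) := by
    unfold ze; rw [e]; push_cast; simp
  rw [this, Complex.ofReal_re]

theorem ns_pos {P : ℂ} (h : P ≠ 10 / 3) : 0 < Complex.normSq (10 / 3 - P) :=
  Complex.normSq_pos.2 (sub_ne_zero.2 h.symm)

theorem r0_pos : 0 < r0 := by unfold r0; norm_num

theorem re_ne {P : ℂ} (h : P.im = 0) {c : ℝ} (hc : P ≠ c) : P.re ≠ c := fun h' =>
  hc (Complex.ext (by simpa using h') (by simpa using h))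

theorem pt_ze {P : ℂ} (h : P.im = 0 ∨ ‖P - c0‖ = r0) (h1 : P ≠ 10 / 3) (h2 : P ≠ 8 / 5) (h3 : P ≠ 2) :
    Pt (ze P).re (ze P).im := by
  by_cases h0 : P.im = 0
  · left
    have a1 := re_ne h0 (c := 10 / 3) (by push_cast; exact h1)
    have a2 := re_ne h0 (c := 8 / 5) (by push_cast; exact h2)
    have a3 := re_ne h0 (c := 2) (by push_cast; exact h3)
    have a4 := sub_ne_zero.2 a1.symm
    refine ⟨by rw [ze_im, h0]; simp, ?_, ?_⟩ <;> rw [ze_real h0]
    · exact div_ne_zero (sub_ne_zero.2 a2) a4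
    · intro h'
      rw [div_eq_iff a4] at h'
      exact a3 (by linarith)
  · right
    refine ⟨by rw [ze_re, h.resolve_left h0]; simp, ?_⟩
    rw [ze_im]
    exact div_ne_zero (mul_ne_zero (by norm_num) h0) (ns_pos h1).ne'

theorem ze_inj {P P' : ℂ} (h : P ≠ 10 / 3) (h' : P' ≠ 10 / 3) (hne : P ≠ P') :
    (ze P).re ≠ (ze P').re ∨ (ze P).im ≠ (ze P').im := by
  by_contra hc
  push Not at hc
  have h1 : ze P - ze P' = 0 := sub_eq_zero.2 (Complex.ext hc.1 hc.2)
  rw [ze_sub h h'] at h1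
  exact div_ne_zero (mul_ne_zero (by norm_num) (sub_ne_zero.2 hne))
    (mul_ne_zero (sub_ne_zero.2 h.symm) (sub_ne_zero.2 h'.symm)) h1

theorem pole_ne {Y : ℂ} (h : 0 < Y.im) : Y ≠ 10 / 3 := fun h' => by rw [h'] at h; simp at h

theorem pole_im {Y : ℂ} (h : 0 < Y.im) : 0 < (ze Y).im := by
  rw [ze_im]; exact div_pos (by positivity) (ns_pos (pole_ne h))

theorem pole_re {Y : ℂ} (h : 0 < Y.im) : 0 < (ze Y).re ↔ ‖Y - c0‖ < r0 := by
  rw [ze_re, div_pos_iff_of_pos_right (ns_pos (pole_ne h)), sub_pos,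
    pow_lt_pow_iff_left₀ (norm_nonneg _) r0_pos.le two_ne_zero]

theorem pole_re_ne {Y : ℂ} (h : 0 < Y.im) (h' : ‖Y - c0‖ ≠ r0) : (ze Y).re ≠ 0 := by
  rw [ze_re]
  refine div_ne_zero (sub_ne_zero.2 fun e => h' ?_) (ns_pos (pole_ne h)).ne'
  exact ((pow_left_inj₀ r0_pos.le (norm_nonneg _) two_ne_zero).1 e).symm

theorem qq {Y Y' : ℂ} (h : 0 < Y.im) (h' : 0 < Y'.im) (o : ‖Y - c0‖ ≠ r0) (o' : ‖Y' - c0‖ ≠ r0) :
    Kx Y Y' - ell Y - ell Y' =
      KK |(ze Y).re| (ze Y).im (sg (ze Y).re) 0 |(ze Y').re| (ze Y').im (sg (ze Y').re) 0 := by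
  have n1 := pole_ne h
  have n2 := pole_ne h'
  have n3 := conj_ne n2
  have i1 := pole_im h
  have i2 := pole_im h'
  have d1 : Y ≠ conj Y' := fun e => by
    have := congrArg Complex.im e
    simp at this; linarith
  have l1 := log_ze_sub n1 n3 d1
  rw [ell_conj, ze_conj, log_norm (ze Y - _)] at l1
  simp only [Complex.sub_re, Complex.sub_im, Complex.conj_re, Complex.conj_im] at l1
  have key : ∀ {W : ℂ}, W ≠ 10 / 3 → ze Y + ze W ≠ 0 → Real.log ‖(r0 : ℂ) ^ 2 - (Y - c0) * (W - c0)‖ =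
      Real.log ‖ze Y + ze W‖ - Real.log 2 + Real.log ‖10 / 3 - Y‖ + Real.log ‖10 / 3 - W‖ := by
    intro W hW hne
    have h1 := norm_ne_zero_iff.2 (sub_ne_zero.2 n1.symm)
    have h2 := norm_ne_zero_iff.2 (sub_ne_zero.2 hW.symm)
    have h3 : ‖(r0 : ℂ) ^ 2 - (Y - c0) * (W - c0)‖ ≠ 0 := by
      rw [norm_ne_zero_iff]
      intro e
      rw [ze_add n1 hW, e] at hne
      simp at hne
    rw [ze_add n1 hW, norm_div, norm_mul, norm_mul, Complex.norm_ofNat, Real.log_div (by positivity) (by positivity),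
      Real.log_mul (by norm_num) h3, Real.log_mul h1 h2]
    ring
  have k2 := key n2 (fun e => by
    have := congrArg Complex.im e
    simp at this; linarith)
  rw [log_norm (ze Y + _)] at k2
  simp only [Complex.add_re, Complex.add_im] at k2
  obtain ⟨X, hX, eX, hs⟩ := sg_cases (pole_re_ne h o)
  obtain ⟨X', hX', eX', hs'⟩ := sg_cases (pole_re_ne h' o')
  have same : (ze Y).re + (ze Y').re ≠ 0 → Real.log ‖(r0 : ℂ) ^ 2 - (Y - c0) * (conj Y' - c0)‖ =
      Lg ((ze Y).re + (ze Y').re) ((ze Y).im - (ze Y').im) - Real.log 2 + Real.log ‖10 / 3 - Y‖ +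
        Real.log ‖10 / 3 - Y'‖ := by
    intro hne
    have k1 := key n3 (fun e => by
      have := congrArg Complex.re e
      rw [ze_conj] at this
      exact hne (by simpa using this))
    rw [ze_conj, norm_a_conj, log_norm (ze Y + _)] at k1
    simpa only [Complex.add_re, Complex.add_im, Complex.conj_re, Complex.conj_im, ← sub_eq_add_neg] using k1
  have opp : (ze Y).re ≠ (ze Y').re → Real.log ‖Y - Y'‖ - ell Y - ell Y' =
      Lg ((ze Y).re - (ze Y').re) ((ze Y).im - (ze Y').im) := by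
    intro hne
    have := log_ze_sub n1 n2 (fun e => hne (by rw [e]))
    rwa [log_norm (ze Y - _)] at this
  rw [eX, eX']
  unfold Kx KK
  have p1 := pole_re h
  have p2 := pole_re h'
  set B := (ze Y).im
  set B' := (ze Y').im
  rcases hs with ⟨ea, sa⟩ | ⟨ea, sa⟩ <;> rcases hs' with ⟨ea', sa'⟩ | ⟨ea', sa'⟩ <;> rw [sa, sa'] <;>
    rw [ea, ea'] at l1 k2 same opp <;> rw [ea] at p1 <;> rw [ea'] at p2
  · rw [if_pos (iff_of_true (p1.1 hX) (p2.1 hX')), same (by positivity), k2]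
    rw [sub_neg_eq_add] at l1
    linarith
  · rw [if_neg (fun e => by linarith [p2.2 (e.1 (p1.1 hX))])]
    have o1 := opp (by linarith)
    rw [sub_neg_eq_add] at o1
    rw [sub_neg_eq_add, sub_neg_eq_add] at l1
    linarith
  · rw [if_neg (fun e => by linarith [p1.2 (e.2 (p2.1 hX'))])]
    have o1 := opp (by linarith)
    rw [Lg_congr (u' := X + X') (v' := B - B') (by ring)] at o1
    rw [Lg_congr (u' := X + X') (v' := B + B') (by ring)] at l1
    linarith
  · rw [if_pos (iff_of_false (fun e => by linarith [p1.2 e]) (fun e => by linarith [p2.2 e])), same (by linarith), k2]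
    rw [Lg_congr (u' := X - X') (v' := B + B') (by ring)] at l1
    rw [Lg_congr (u := -X + -X') (v := B - B') (u' := X + X') (v' := B - B') (by ring),
      Lg_congr (u := -X + -X') (v := B + B') (u' := X + X') (v' := B + B') (by ring)]
    linarith

theorem ker_eq {z z' : ℂ} (h : 0 < z.re ∧ 0 < z.im) (h' : 0 < z'.re ∧ 0 < z'.im) (q q' α α' β β' : ℝ) :
    q * q' * Real.log ‖z ^ 2 - conj z' ^ 2‖
      + q * α * (q' * α') * (Real.log ‖z - conj z'‖ - Real.log ‖z + z'‖)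
      + q * β * (q' * β') * (Real.log ‖z + conj z'‖ - Real.log ‖z + z'‖) =
      2 * (q * q' * KK z.re z.im α β z'.re z'.im α' β') := by
  have h1 : z - conj z' ≠ 0 := fun e => by
    have := congrArg Complex.im e
    simp at this; linarith [h.2, h'.2]
  have h2 : z + conj z' ≠ 0 := fun e => by
    have := congrArg Complex.re e
    simp at this; linarith [h.1, h'.1]
  rw [sq_sub_sq, norm_mul, Real.log_mul (norm_ne_zero_iff.2 h2) (norm_ne_zero_iff.2 h1), log_norm (z + conj z'),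
    log_norm (z - conj z'), log_norm (z + z')]
  simp only [Complex.add_re, Complex.add_im, Complex.sub_re, Complex.sub_im, Complex.conj_re, Complex.conj_im,
    sub_neg_eq_add, ← sub_eq_add_neg]
  unfold KK
  ring

theorem lm_le (w : ℂ) (h : w ≠ 0) : lm w ≤ Real.log ‖w‖ ∧ lm w ≤ 0 := by
  have h0 : 0 < min ‖w‖ 1 := lt_min (norm_pos_iff.2 h) one_pos
  exact ⟨Real.log_le_log h0 (min_le_left _ _), Real.log_nonpos h0.le (min_le_right _ _)⟩

theorem diag' {θ : ℝ} (hθ : 0 < θ) (hθ1 : θ ≤ 1 / 2) {P : ℂ} (h : P.im = 0 ∨ ‖P - c0‖ = r0) (h1 : P ≠ 10 / 3)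
    (h2 : P ≠ 8 / 5) (h3 : P ≠ 2) :
    0 - ell P - ell P - KP θ (ze P).re (ze P).im (ze P).re (ze P).im ≤
      (2 - Real.log θ) - lm (P - 10 / 3) - lm (P - 8 / 5) - lm (P - 2) := by
  obtain ⟨a1, -⟩ := lm_le _ (sub_ne_zero.2 h1)
  obtain ⟨a2, b2⟩ := lm_le _ (sub_ne_zero.2 h2)
  obtain ⟨a3, b3⟩ := lm_le _ (sub_ne_zero.2 h3)
  have c1 : Real.log (26 / 15) ≤ 1 := (Real.log_le_sub_one_of_pos (by norm_num)).trans (by norm_num)
  have c2 : 0 ≤ Real.log (26 / 15) := Real.log_nonneg (by norm_num)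
  rw [norm_sub_rev] at a1
  rcases diag hθ hθ1 (pt_ze h h1 h2 h3) with k | k
  · have e := log_ze_sub h1 (P' := 8 / 5) (by norm_num) h2
    have e0 : ze (8 / 5) = 0 := by unfold ze; simp
    have e1 : ell (8 / 5) = Real.log (26 / 15) / 2 := by
      unfold ell
      rw [show (10 / 3 - 8 / 5 : ℂ) = 26 / 15 by norm_num, show ‖(26 / 15 : ℂ)‖ = 26 / 15 by simp]; ring
    rw [e0, sub_zero, log_norm (ze P), e1] at e
    unfold ell at e ⊢
    linarith
  · have e := log_ze_sub h1 (P' := 2) (by norm_num) h3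
    have e0 : ze 2 = ((3 / 10 : ℝ) : ℂ) := by unfold ze; push_cast; norm_num
    have e1 : ell 2 ≤ Real.log (26 / 15) / 2 := by
      unfold ell
      rw [show (10 / 3 - 2 : ℂ) = 4 / 3 by norm_num, show ‖(4 / 3 : ℂ)‖ = 4 / 3 by simp]
      have := Real.log_le_log (show (0 : ℝ) < 4 / 3 by norm_num) (show (4 / 3 : ℝ) ≤ 26 / 15 by norm_num)
      linarith
    rw [e0, log_norm (ze P - _)] at e
    simp only [Complex.sub_re, Complex.sub_im, Complex.ofReal_re, Complex.ofReal_im, sub_zero] at e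
    unfold ell at e ⊢
    unfold ell at e1
    linarith

theorem hi' {θ : ℝ} (hθ : 0 < θ) (hθ1 : θ ≤ 1 / 12) {P P' : ℂ} (h0 : P.im = 0) (h : 2 < P.re) (h1 : P ≠ 10 / 3)
    (h' : (P'.im = 0 ∧ |P'.re| < 2) ∨ ‖P' - c0‖ = r0) (hp : Pt (ze P').re (ze P').im) :
    KP θ (ze P).re (ze P).im (ze P').re (ze P').im ≤ Real.log ‖ze P - ze P'‖ + 14 * θ := by
  have e0 : (ze P).im = 0 := by rw [ze_im, h0]; simp
  rw [log_norm, Complex.sub_re, Complex.sub_im, e0]
  have a1 := re_ne h0 (c := 10 / 3) (by push_cast; exact h1)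
  have hb : -(27 / 40) < (ze P').re ∧ (ze P').re < 3 / 10 := by
    rcases h' with ⟨b1, b2⟩ | b
    · obtain ⟨b3, b4⟩ := abs_lt.1 b2
      have b5 : 0 < 10 / 3 - P'.re := by linarith
      rw [ze_real b1, lt_div_iff₀ b5, div_lt_iff₀ b5]
      constructor <;> linarith
    · rw [ze_re, b]; norm_num
  refine hi hθ hθ1 ?_ hp hb.1 hb.2
  rw [ze_real h0]
  rcases a1.lt_or_gt with a | a
  · left
    rw [lt_div_iff₀ (by linarith)]; linarith
  · right
    rw [div_lt_iff_of_neg (by linarith)]; linarith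

end

end CrossA

open CrossA

theorem cross_energy (A : Pol) (hA : A.OffCircle) {ε : ℝ} (hε : 0 < ε) : ∃ c : ℝ,
    ∀ (ι : Type) [Fintype ι] (p : ι → ℂ) (ch : ι → ℝ) (lam : ℝ), Function.Injective p → 0 ≤ lam →
      (∀ i, ch i = 0 ∨ ch i = 1 ∨ ch i = -1) → ∑ i, ch i = lam * A.mass →
      (∀ i, ((p i).im = 0 ∨ ‖p i - c0‖ = r0) ∧ p i ≠ 10 / 3 ∧ p i ≠ 8 / 5 ∧ p i ≠ 2) →
      (∀ i j, ch i = 1 → ch j = -1 → ((p i).im = 0 ∧ 2 < (p i).re) ∧
        (((p j).im = 0 ∧ |(p j).re| < 2) ∨ ‖p j - c0‖ = r0)) →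
      En p ch ≤ 2 * lam * ∑ i, ch i * A.U (p i) - lam ^ 2 * A.ECross
        + ε * (∑ i, |ch i| + lam) ^ 2
        + ∑ i, |ch i| * (c - lm (p i - 10 / 3) - lm (p i - 8 / 5) - lm (p i - 2)) := by
  classical
  -- constants
  obtain ⟨M, hM⟩ := (Set.finite_range fun j => 2 * (ze (A.Y j)).re ^ 2 / (ze (A.Y j)).im ^ 2 +
    2 * (ze (A.Y j)).im ^ 2 / (ze (A.Y j)).re ^ 2).bddAbove
  obtain ⟨C, hC2, hCM⟩ : ∃ C : ℝ, 2 ≤ C ∧ M ≤ C ^ 2 :=
    ⟨max 2 M, le_max_left _ _, by nlinarith [le_max_left 2 M, le_max_right 2 M]⟩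
  have hq1 := fun j => pole_im (A.im_pos j)
  have hq2 := fun j => pole_re_ne (A.im_pos j) (hA j)
  have hq3 : ∀ j, 2 * (ze (A.Y j)).re ^ 2 ≤ C ^ 2 * (ze (A.Y j)).im ^ 2 ∧
      2 * (ze (A.Y j)).im ^ 2 ≤ C ^ 2 * (ze (A.Y j)).re ^ 2 := fun j => by
    have h1 := (hM ⟨j, rfl⟩).trans hCM
    have h2 : 0 < (ze (A.Y j)).im ^ 2 := pow_pos (hq1 j) 2
    have h3 : 0 < (ze (A.Y j)).re ^ 2 := by have := hq2 j; positivity
    have h4 : 0 ≤ 2 * (ze (A.Y j)).re ^ 2 / (ze (A.Y j)).im ^ 2 := by positivity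
    have h5 : 0 ≤ 2 * (ze (A.Y j)).im ^ 2 / (ze (A.Y j)).re ^ 2 := by positivity
    simp only at h1
    exact ⟨(div_le_iff₀ h2).1 (by linarith), (div_le_iff₀ h3).1 (by linarith)⟩
  obtain ⟨Bt, hBt⟩ : ∃ Bt : ℝ, Bt = ∑ j, |A.β j| := ⟨_, rfl⟩
  have hBt0 : 0 ≤ Bt := hBt ▸ sum_nonneg fun j _ => abs_nonneg _
  obtain ⟨e, he, hee⟩ : ∃ e : ℝ, 0 < e ∧ e * (1 + Bt) ^ 2 = ε := ⟨ε / (1 + Bt) ^ 2, by positivity, by field_simp⟩
  obtain ⟨θ, hθ, hθ1, hθ2⟩ : ∃ θ : ℝ, 0 < θ ∧ C * θ ≤ 1 / 12 ∧ 14 * (C * θ) ≤ e := by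
    have hC0 : 0 < C := by linarith
    refine ⟨min (1 / 12) (e / 14) / C, by positivity, ?_, ?_⟩ <;> rw [mul_div_cancel₀ _ hC0.ne']
    · exact min_le_left _ _
    · linarith [min_le_right (1 / 12 : ℝ) (e / 14)]
  have hθ3 : θ ≤ C * θ := by nlinarith
  refine ⟨2 - Real.log θ, ?_⟩
  intro ι _ p ch lam hp hlam hch hsum hloc hopp
  have hpt : ∀ i, Pt (ze (p i)).re (ze (p i)).im := fun i =>
    pt_ze (hloc i).1 (hloc i).2.1 (hloc i).2.2.1 (hloc i).2.2.2
  let q : ι ⊕ Fin A.m → ℝ := Sum.elim ch fun j => -lam * A.β j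
  let z : ι ⊕ Fin A.m → ℂ := Sum.elim (fun i => ⟨zx θ (ze (p i)).re (ze (p i)).im, zy θ (ze (p i)).re (ze (p i)).im⟩)
    fun j => ⟨|(ze (A.Y j)).re|, (ze (A.Y j)).im⟩
  let α : ι ⊕ Fin A.m → ℝ := Sum.elim (fun i => CrossA.al (ze (p i)).re (ze (p i)).im) fun j => sg (ze (A.Y j)).re
  let β : ι ⊕ Fin A.m → ℝ := Sum.elim (fun i => CrossA.be (ze (p i)).im) fun _ => 0
  let l : ι ⊕ Fin A.m → ℝ := Sum.elim (fun i => ell (p i)) fun j => ell (A.Y j)
  let u : ι → Fin A.m → ℝ := fun i j => (Real.log ‖p i - A.Y j‖ + Real.log ‖conj (p i) - A.Y j‖) / 2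
  let T : ι ⊕ Fin A.m → ι ⊕ Fin A.m → ℝ := Sum.elim
    (fun i => Sum.elim (fun i' => Real.log ‖p i - p i'‖) (u i))
    fun j => Sum.elim (fun i => u i j) fun j' => Kx (A.Y j) (A.Y j')
  let K : ι ⊕ Fin A.m → ι ⊕ Fin A.m → ℝ := fun k k' =>
    KK (z k).re (z k).im (α k) (β k) (z k').re (z k').im (α k') (β k')
  let D : ι ⊕ Fin A.m → ℝ := Sum.elim
    (fun i => |ch i| * (2 - Real.log θ - lm (p i - 10 / 3) - lm (p i - 8 / 5) - lm (p i - 2))) fun _ => 0
  have hz : ∀ k, 0 < (z k).re ∧ 0 < (z k).im := by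
    rintro (i | j)
    · exact z_pos hθ (hpt i)
    · exact ⟨abs_pos.2 (hq2 j), hq1 j⟩
  have hq0 : ∑ k, q k = 0 := by
    rw [Fintype.sum_sum_type]
    simp only [q, Sum.elim_inl, Sum.elim_inr, ← mul_sum]
    rw [hsum]; unfold Pol.mass; ring
  have hK : ∑ k, ∑ k', q k * q k' * K k k' ≤ 0 := by
    have h1 := cross_cnd z hz q (fun k => q k * α k) (fun k => q k * β k) hq0
    simp only [ker_eq (hz _) (hz _), ← mul_sum] at h1
    linarith
  have hl : ∑ k, ∑ k', q k * q k' * (l k + l k') = 0 := by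
    have : ∀ k k', q k * q k' * (l k + l k') = q k * l k * q k' + q k * (q k' * l k') := fun k k' => by ring
    simp only [this, sum_add_distrib, ← mul_sum, ← sum_mul, hq0]
    ring
  have hu : ∀ i j, |u i j - ell (p i) - ell (A.Y j) - K (.inl i) (.inr j)| ≤ e := by
    intro i j
    have n1 := pole_ne (A.im_pos j)
    have d1 : ∀ P : ℂ, (P.im = 0 ∨ ‖P - c0‖ = r0) → P ≠ A.Y j := fun P hP e => by
      rw [e] at hP
      exact hP.elim (A.im_pos j).ne' (hA j)
    have l1 := log_ze_sub (hloc i).2.1 n1 (d1 _ (hloc i).1)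
    have l2 := log_ze_sub (conj_ne (hloc i).2.1) n1 (d1 _ ((hloc i).1.imp (fun h => by simp [h]) fun h => by
      rw [← h, ← Complex.norm_conj (p i - c0), map_sub, Complex.conj_ofReal]))
    rw [log_norm (ze _ - _)] at l1
    rw [ell_conj, ze_conj, log_norm (conj (ze _) - _)] at l2
    simp only [Complex.sub_re, Complex.sub_im, Complex.conj_re, Complex.conj_im] at l1 l2
    have h1 := pole hθ hC2 (by linarith) (hpt i) (hq2 j) (hq1 j) (hq3 j).1 (hq3 j).2
    rw [← l1, ← l2] at h1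
    refine le_trans (le_of_eq ?_) (h1.trans (by nlinarith))
    congr 1
    simp only [u, K, KQ, z, α, β, Sum.elim_inl, Sum.elim_inr]
    ring
  have hterm : ∀ k k', q k * q k' * (T k k' - l k - l k' - K k k') ≤ e * (|q k| * |q k'|) + if k = k' then D k else 0 := by
    have gen : ∀ a b G : ℝ, |G| ≤ e → a * b * G ≤ e * (|a| * |b|) := fun a b G hG => by
      refine (le_abs_self _).trans ?_
      rw [abs_mul, abs_mul, mul_comm]
      exact mul_le_mul_of_nonneg_right hG (by positivity)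
    rintro (i | j) (i' | j')
    · by_cases hii : i = i'
      · subst hii
        rw [if_pos rfl]
        have h1 := diag' hθ (by linarith) (hloc i).1 (hloc i).2.1 (hloc i).2.2.1 (hloc i).2.2.2
        have h2 : T (.inl i) (.inl i) = 0 := by simp [T]
        have h3 : ch i * ch i = |ch i| := by rcases hch i with h | h | h <;> rw [h] <;> norm_num
        rw [h2]
        refine le_add_of_nonneg_of_le (by positivity) ?_
        simp only [q, D, l, Sum.elim_inl]
        rw [h3]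
        exact mul_le_mul_of_nonneg_left h1 (abs_nonneg _)
      · rw [if_neg (by simpa using hii), add_zero]
        have hne : p i ≠ p i' := fun h => hii (hp h)
        have h1 := log_ze_sub (hloc i).2.1 (hloc i').2.1 hne
        have h2 := lo hθ (by linarith) (hpt i) (hpt i') (ze_inj (hloc i).2.1 (hloc i').2.1 hne)
        rw [← Complex.sub_re, ← Complex.sub_im, ← log_norm] at h2
        have h3 : K (.inl i) (.inl i') = KP θ (ze (p i)).re (ze (p i)).im (ze (p i')).re (ze (p i')).im := rfl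
        simp only [q, T, l, Sum.elim_inl]
        rw [h1, h3]
        rcases hch i with a | a | a
        · rw [a]; simp
        · rcases hch i' with b | b | b
          · rw [b]; simp
          · rw [a, b]; norm_num; linarith
          · have h4 := hopp i i' a b
            have := hi' hθ (by linarith) h4.1.1 h4.1.2 (hloc i).2.1 h4.2 (hpt i')
            rw [a, b]; norm_num; linarith
        · rcases hch i' with b | b | b
          · rw [b]; simp
          · have h4 := hopp i' i b a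
            have := hi' hθ (by linarith) h4.1.1 h4.1.2 (hloc i').2.1 h4.2 (hpt i)
            rw [norm_sub_rev, KP, KK_symm, ← KP] at this
            rw [a, b]; norm_num; linarith
          · rw [a, b]; norm_num; linarith
    · rw [if_neg (by simp), add_zero]
      exact gen _ _ _ (hu i j')
    · rw [if_neg (by simp), add_zero]
      refine gen _ _ _ (le_trans (le_of_eq ?_) (hu i' j))
      congr 1
      simp only [T, l, K, Sum.elim_inl, Sum.elim_inr]
      rw [KK_symm]; ring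
    · have h1 := qq (A.im_pos j) (A.im_pos j') (hA j) (hA j')
      have h2 : T (.inr j) (.inr j') - l (.inr j) - l (.inr j') - K (.inr j) (.inr j') = 0 := sub_eq_zero.2 h1
      have h3 : (if (Sum.inr j : ι ⊕ Fin A.m) = .inr j' then D (.inr j) else 0) = 0 := by
        split_ifs <;> rfl
      rw [h2, h3, mul_zero, add_zero]
      positivity
  have hT : ∑ k, ∑ k', q k * q k' * T k k' =
      En p ch - 2 * lam * ∑ i, ch i * A.U (p i) + lam ^ 2 * A.ECross := by
    have e1 : ∑ i, ∑ j, ch i * (-lam * A.β j) * u i j = -lam * ∑ i, ch i * A.U (p i) := by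
      rw [mul_sum]
      refine sum_congr rfl fun i _ => ?_
      unfold Pol.U
      rw [mul_sum, mul_sum]
      exact sum_congr rfl fun j _ => by simp only [u]; ring
    have e2 : ∑ j, ∑ i, -lam * A.β j * ch i * u i j = -lam * ∑ i, ch i * A.U (p i) := by
      rw [sum_comm, ← e1]
      exact sum_congr rfl fun i _ => sum_congr rfl fun j _ => by ring
    have e3 : ∑ j, ∑ j', -lam * A.β j * (-lam * A.β j') * Kx (A.Y j) (A.Y j') = lam ^ 2 * A.ECross := by
      unfold Pol.ECross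
      rw [mul_sum]
      refine sum_congr rfl fun j _ => ?_
      rw [mul_sum]
      exact sum_congr rfl fun j' _ => by ring
    simp only [Fintype.sum_sum_type, sum_add_distrib, q, T, Sum.elim_inl, Sum.elim_inr]
    rw [e1, e2, e3]
    unfold En
    ring
  have hsumq : ∑ k, |q k| ≤ (1 + Bt) * (∑ i, |ch i| + lam) := by
    have h0 : 0 ≤ ∑ i, |ch i| := sum_nonneg fun i _ => abs_nonneg _
    simp only [Fintype.sum_sum_type, q, Sum.elim_inl, Sum.elim_inr, abs_mul, abs_neg, abs_of_nonneg hlam, ← mul_sum]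
    rw [← hBt]
    nlinarith [mul_nonneg hBt0 h0]
  have h1 := sum_le_sum fun k (_ : k ∈ univ) => sum_le_sum fun k' (_ : k' ∈ univ) => hterm k k'
  have h2 : ∑ k, ∑ k', q k * q k' * (T k k' - l k - l k' - K k k') =
      ∑ k, ∑ k', q k * q k' * T k k' - ∑ k, ∑ k', q k * q k' * (l k + l k') - ∑ k, ∑ k', q k * q k' * K k k' := by
    simp only [← sum_sub_distrib]
    exact sum_congr rfl fun k _ => sum_congr rfl fun k' _ => by ring
  have h3 : ∑ k, ∑ k', (e * (|q k| * |q k'|) + if k = k' then D k else 0) = e * (∑ k, |q k|) ^ 2 + ∑ k, D k := by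
    simp only [sum_add_distrib, sum_ite_eq, mem_univ, if_true, ← mul_sum, ← sum_mul]
    ring
  have h4 : ∑ k, D k = ∑ i, |ch i| * (2 - Real.log θ - lm (p i - 10 / 3) - lm (p i - 8 / 5) - lm (p i - 2)) := by
    simp [Fintype.sum_sum_type, D]
  have h5 : e * (∑ k, |q k|) ^ 2 ≤ ε * (∑ i, |ch i| + lam) ^ 2 := by
    rw [← hee, mul_assoc, ← mul_pow]
    exact mul_le_mul_of_nonneg_left (pow_le_pow_left₀ (sum_nonneg fun k _ => abs_nonneg _) hsumq 2) he.le
  rw [h2, h3, hT, hl, h4] at h1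
  linarith

end Crest.Agent.R6
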