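import Crest.Agent.R6.EN

/-! Real-variable estimates for the kernel of `cross_cnd`. -/

set_option autoImplicit false

namespace Crest.Agent.R6.CrossA

noncomputable section

/-- `log |u + i v|` -/
def Lg (u v : ℝ) : ℝ := Real.log (u ^ 2 + v ^ 2) / 2

theorem log_norm (w : ℂ) : Real.log ‖w‖ = Lg w.re w.im := by
  unfold Lg
  rw [Complex.norm_eq_sqrt_sq_add_sq, Real.log_sqrt (by positivity)]

theorem Lg_congr {u v u' v' : ℝ} (h : u ^ 2 + v ^ 2 = u' ^ 2 + v' ^ 2) : Lg u v = Lg u' v' := by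
  unfold Lg; rw [h]

theorem Lg_mono {u v u' v' : ℝ} (h0 : 0 < u ^ 2 + v ^ 2) (h : u ^ 2 + v ^ 2 ≤ u' ^ 2 + v' ^ 2) :
    Lg u v ≤ Lg u' v' := by
  unfold Lg
  have := Real.log_le_log h0 h
  linarith

theorem log_le_Lg {u v r : ℝ} (h0 : 0 < r) (h : r ^ 2 ≤ u ^ 2 + v ^ 2) : Real.log r ≤ Lg u v := by
  unfold Lg
  have := Real.log_le_log (by positivity) h
  rw [Real.log_pow] at this
  push_cast at this
  linarith

theorem Lg_near {u v u0 v0 t : ℝ} (ht0 : 0 ≤ t) (ht : t ≤ 1 / 2) (h0 : 0 < u0 ^ 2 + v0 ^ 2)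
    (h : (u - u0) ^ 2 + (v - v0) ^ 2 ≤ t ^ 2 * (u0 ^ 2 + v0 ^ 2)) :
    Lg u0 v0 - 2 * t ≤ Lg u v ∧ Lg u v ≤ Lg u0 v0 + 2 * t := by
  have e := log_norm ⟨u, v⟩
  have e0 := log_norm ⟨u0, v0⟩
  simp only at e e0
  rw [← e, ← e0]
  set w : ℂ := ⟨u, v⟩
  set w0 : ℂ := ⟨u0, v0⟩
  have n0 : ‖w0‖ = √(u0 ^ 2 + v0 ^ 2) := Complex.norm_eq_sqrt_sq_add_sq _
  have hp : 0 < ‖w0‖ := n0 ▸ Real.sqrt_pos.2 h0
  have h1 : ‖w - w0‖ ≤ t * ‖w0‖ := by
    rw [Complex.norm_eq_sqrt_sq_add_sq, n0, ← Real.sqrt_sq ht0, ← Real.sqrt_mul (sq_nonneg _)]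
    exact Real.sqrt_le_sqrt h
  have h2 := abs_le.1 ((abs_norm_sub_norm_le w w0).trans h1)
  have h3 : (1 - t) * ‖w0‖ ≤ ‖w‖ := by linarith [h2.1]
  have h4 : ‖w‖ ≤ (1 + t) * ‖w0‖ := by linarith [h2.2]
  have h5 : 0 < 1 - t := by linarith
  have h6 := Real.log_le_log (by positivity) h3
  have h7 := Real.log_le_log (lt_of_lt_of_le (by positivity) h3) h4
  rw [Real.log_mul h5.ne' hp.ne'] at h6
  rw [Real.log_mul (by positivity) hp.ne'] at h7
  have h8 := Real.log_le_sub_one_of_pos (show 0 < 1 + t by positivity)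
  have h9 := Real.one_sub_inv_le_log_of_pos h5
  have h10 : (1 - t)⁻¹ ≤ 1 + 2 * t := by
    rw [inv_le_iff_one_le_mul₀ h5]; nlinarith
  constructor <;> linarith

/-- half of the kernel of `cross_cnd` -/
def KK (x y α β x' y' α' β' : ℝ) : ℝ :=
  (Lg (x - x') (y + y') + Lg (x + x') (y - y') + α * α' * (Lg (x - x') (y + y') - Lg (x + x') (y + y')) +
    β * β' * (Lg (x + x') (y - y') - Lg (x + x') (y + y'))) / 2

theorem KK_symm (x y α β x' y' α' β' : ℝ) : KK x y α β x' y' α' β' = KK x' y' α' β' x y α β := by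
  unfold KK
  rw [Lg_congr (u := x - x') (v := y + y') (u' := x' - x) (v' := y' + y) (by ring),
    Lg_congr (u := x + x') (v := y - y') (u' := x' + x) (v' := y' - y) (by ring), add_comm x x', add_comm y y']
  ring

def sg (t : ℝ) : ℝ := if 0 < t then 1 else -1

theorem sg_cases {a : ℝ} (h : a ≠ 0) : ∃ x, 0 < x ∧ |a| = x ∧ ((a = x ∧ sg a = 1) ∨ (a = -x ∧ sg a = -1)) := by
  rcases h.lt_or_gt with h | h
  · exact ⟨-a, by linarith, abs_of_neg h, Or.inr ⟨by ring, if_neg (not_lt.2 h.le)⟩⟩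
  · exact ⟨a, h, abs_of_pos h, Or.inl ⟨rfl, if_pos h⟩⟩

def zx (θ a b : ℝ) : ℝ := if b = 0 then |a| else θ * |b|
def zy (θ a b : ℝ) : ℝ := if b = 0 then θ * min |a| |a - 3 / 10| else |b|
def al (a b : ℝ) : ℝ := if b = 0 then sg a else 0
def be (b : ℝ) : ℝ := if b = 0 then 0 else sg b

def Pt (a b : ℝ) : Prop := (b = 0 ∧ a ≠ 0 ∧ a ≠ 3 / 10) ∨ (a = 0 ∧ b ≠ 0)

def KP (θ a b a' b' : ℝ) : ℝ := KK (zx θ a b) (zy θ a b) (al a b) (be b) (zx θ a' b') (zy θ a' b') (al a' b') (be b')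
def KQ (θ a b A B : ℝ) : ℝ := KK (zx θ a b) (zy θ a b) (al a b) (be b) |A| B (sg A) 0

theorem z_pos {θ a b : ℝ} (hθ : 0 < θ) (h : Pt a b) : 0 < zx θ a b ∧ 0 < zy θ a b := by
  unfold zx zy
  rcases h with ⟨h1, h2, h3⟩ | ⟨-, h2⟩
  · rw [if_pos h1, if_pos h1]
    exact ⟨abs_pos.2 h2, mul_pos hθ (lt_min (abs_pos.2 h2) (abs_pos.2 (sub_ne_zero.2 h3)))⟩
  · rw [if_neg h2, if_neg h2]
    exact ⟨mul_pos hθ (abs_pos.2 h2), abs_pos.2 h2⟩

theorem eta_le {θ : ℝ} (hθ : 0 < θ) (a : ℝ) : 0 ≤ θ * min |a| |a - 3 / 10| ∧ θ * min |a| |a - 3 / 10| ≤ θ * |a| ∧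
    θ * min |a| |a - 3 / 10| ≤ θ * |a - 3 / 10| :=
  ⟨mul_nonneg hθ.le (le_min (abs_nonneg _) (abs_nonneg _)), mul_le_mul_of_nonneg_left (min_le_left _ _) hθ.le,
    mul_le_mul_of_nonneg_left (min_le_right _ _) hθ.le⟩

/-- a long first coordinate and a short second one -/
theorem near1 {θ X e : ℝ} (hθ : 0 < θ) (hθ1 : θ ≤ 1 / 2) (hX : X ≠ 0) (he : |e| ≤ θ * |X|) :
    Lg X 0 - 2 * θ ≤ Lg X e ∧ Lg X e ≤ Lg X 0 + 2 * θ := by
  refine Lg_near hθ.le hθ1 (by positivity) ?_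
  have := pow_le_pow_left₀ (abs_nonneg _) he 2
  rw [mul_pow, sq_abs, sq_abs] at this
  linarith

theorem near2 {θ X e : ℝ} (hθ : 0 < θ) (hθ1 : θ ≤ 1 / 2) (hX : X ≠ 0) (he : |e| ≤ θ * |X|) :
    Lg X 0 - 2 * θ ≤ Lg e X ∧ Lg e X ≤ Lg X 0 + 2 * θ := by
  rw [Lg_congr (u := e) (v := X) (u' := X) (v' := e) (by ring)]
  exact near1 hθ hθ1 hX he

theorem RR {θ x x' η η' : ℝ} (hθ : 0 < θ) (hθ1 : θ ≤ 1 / 2) (hx : 0 < x) (hx' : 0 < x') (h0 : 0 ≤ η) (h1 : η ≤ θ * x)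
    (h0' : 0 ≤ η') (h1' : η' ≤ θ * x') :
    (Lg (x + x') 0 - 2 * θ ≤ Lg (x + x') (η - η') ∧ Lg (x + x') (η - η') ≤ Lg (x + x') 0 + 2 * θ) ∧
    (Lg (x + x') 0 - 2 * θ ≤ Lg (x + x') (η + η') ∧ Lg (x + x') (η + η') ≤ Lg (x + x') 0 + 2 * θ) := by
  have hs : 0 < x + x' := by positivity
  constructor <;> refine near1 hθ hθ1 hs.ne' ?_ <;> rw [abs_of_pos hs, abs_le] <;> constructor <;> linarith

theorem RI {θ x y η : ℝ} (hθ : 0 < θ) (hθ1 : θ ≤ 1 / 2) (hx : 0 < x) (h0 : 0 ≤ η) (h1 : η ≤ θ * x) (α β : ℝ) :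
    Lg x y - 2 * θ ≤ KK x η α 0 (θ * y) y 0 β ∧ KK x η α 0 (θ * y) y 0 β ≤ Lg x y + 2 * θ := by
  have h2 : η ^ 2 ≤ (θ * x) ^ 2 := pow_le_pow_left₀ h0 h1 2
  have a1 := Lg_near (u := x - θ * y) (v := η + y) (u0 := x) (v0 := y) hθ.le hθ1 (by positivity) (by nlinarith)
  have a2 := Lg_near (u := x + θ * y) (v := η - y) (u0 := x) (v0 := -y) hθ.le hθ1 (by positivity) (by nlinarith)
  rw [Lg_congr (u := x) (v := -y) (u' := x) (v' := y) (by ring)] at a2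
  unfold KK
  constructor <;> linarith [a1.1, a1.2, a2.1, a2.2]

theorem lo {θ a b a' b' : ℝ} (hθ : 0 < θ) (hθ1 : θ ≤ 1 / 2) (h : Pt a b) (h' : Pt a' b')
    (hne : a ≠ a' ∨ b ≠ b') : Lg (a - a') (b - b') - 2 * θ ≤ KP θ a b a' b' := by
  unfold KP zx zy al be
  rcases h with ⟨rfl, h2, -⟩ | ⟨rfl, h2⟩ <;> rcases h' with ⟨rfl, h2', -⟩ | ⟨rfl, h2'⟩
  · simp only [if_true, sub_self]
    have hne' : a - a' ≠ 0 := sub_ne_zero.2 (hne.resolve_right (by simp))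
    obtain ⟨e0, e1, -⟩ := eta_le hθ a
    obtain ⟨e0', e1', -⟩ := eta_le hθ a'
    set η := θ * min |a| |a - 3 / 10|
    set η' := θ * min |a'| |a' - 3 / 10|
    obtain ⟨x, hx, ex, hs⟩ := sg_cases h2
    obtain ⟨x', hx', ex', hs'⟩ := sg_cases h2'
    rw [ex] at e1 ⊢
    rw [ex'] at e1' ⊢
    obtain ⟨⟨r1, -⟩, r2, r3⟩ := RR hθ hθ1 hx hx' e0 e1 e0' e1'
    have hp : 0 < (a - a') ^ 2 + (0 : ℝ) ^ 2 := by positivity
    unfold KK
    rcases hs with ⟨ea, sa⟩ | ⟨ea, sa⟩ <;> rcases hs' with ⟨ea', sa'⟩ | ⟨ea', sa'⟩ <;> rw [sa, sa']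
    · have := Lg_mono (u' := x - x') (v' := η + η') hp (by rw [ea, ea']; nlinarith [sq_nonneg (η + η')])
      linarith
    · have := Lg_congr (u := a - a') (v := 0) (u' := x + x') (v' := 0) (by rw [ea, ea']; ring)
      linarith
    · have := Lg_congr (u := a - a') (v := 0) (u' := x + x') (v' := 0) (by rw [ea, ea']; ring)
      linarith
    · have := Lg_mono (u' := x - x') (v' := η + η') hp (by rw [ea, ea']; nlinarith [sq_nonneg (η + η')])
      linarith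
  · simp only [if_true, if_neg h2']
    obtain ⟨e0, e1, -⟩ := eta_le hθ a
    have := (RI (y := |b'|) hθ hθ1 (abs_pos.2 h2) e0 e1 (sg a) (sg b')).1
    rwa [Lg_congr (u := |a|) (v := |b'|) (u' := a - 0) (v' := 0 - b') (by rw [sq_abs, sq_abs]; ring)] at this
  · simp only [if_true, if_neg h2]
    obtain ⟨e0, e1, -⟩ := eta_le hθ a'
    have := (RI (y := |b|) hθ hθ1 (abs_pos.2 h2') e0 e1 (sg a') (sg b)).1
    rwa [Lg_congr (u := |a'|) (v := |b|) (u' := 0 - a') (v' := b - 0) (by rw [sq_abs, sq_abs]; ring), KK_symm] at this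
  · simp only [if_neg h2, if_neg h2', sub_self]
    have hne' : b - b' ≠ 0 := sub_ne_zero.2 (hne.resolve_left (by simp))
    obtain ⟨x, hx, ex, hs⟩ := sg_cases h2
    obtain ⟨x', hx', ex', hs'⟩ := sg_cases h2'
    rw [ex, ex']
    obtain ⟨⟨r1, -⟩, r2, r3⟩ := RR hθ hθ1 hx hx' (by positivity) le_rfl (by positivity) le_rfl
    rw [Lg_congr (u := x + x') (v := θ * x - θ * x') (u' := θ * x - θ * x') (v' := x + x') (by ring)] at r1
    rw [Lg_congr (u := x + x') (v := θ * x + θ * x') (u' := θ * x + θ * x') (v' := x + x') (by ring)] at r2 r3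
    have hp : 0 < (0 : ℝ) ^ 2 + (b - b') ^ 2 := by positivity
    unfold KK
    rcases hs with ⟨ea, sa⟩ | ⟨ea, sa⟩ <;> rcases hs' with ⟨ea', sa'⟩ | ⟨ea', sa'⟩ <;> rw [sa, sa']
    · have := Lg_mono (u' := θ * x + θ * x') (v' := x - x') hp
        (by rw [ea, ea']; nlinarith [sq_nonneg (θ * x + θ * x')])
      linarith
    · have := Lg_congr (u := 0) (v := b - b') (u' := x + x') (v' := 0) (by rw [ea, ea']; ring)
      linarith
    · have := Lg_congr (u := 0) (v := b - b') (u' := x + x') (v' := 0) (by rw [ea, ea']; ring)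
      linarith
    · have := Lg_mono (u' := θ * x + θ * x') (v' := x - x') hp
        (by rw [ea, ea']; nlinarith [sq_nonneg (θ * x + θ * x')])
      linarith

theorem hi {θ a a' b' : ℝ} (hθ : 0 < θ) (hθ1 : θ ≤ 1 / 12) (h : 3 / 10 < a ∨ a < -1) (h' : Pt a' b')
    (h1 : -(27 / 40) < a') (h2 : a' < 3 / 10) : KP θ a 0 a' b' ≤ Lg (a - a') (0 - b') + 14 * θ := by
  have ha : a ≠ 0 := by rcases h with h | h <;> intro h0 <;> linarith
  have hθ2 : θ ≤ 1 / 2 := by linarith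
  unfold KP zx zy al be
  obtain ⟨e0, e1, e2⟩ := eta_le hθ a
  rcases h' with ⟨rfl, h2', -⟩ | ⟨rfl, h2'⟩
  · simp only [if_true, sub_self]
    obtain ⟨e0', e1', e2'⟩ := eta_le hθ a'
    set η := θ * min |a| |a - 3 / 10|
    set η' := θ * min |a'| |a' - 3 / 10|
    obtain ⟨x, hx, ex, hs⟩ := sg_cases ha
    obtain ⟨x', hx', ex', hs'⟩ := sg_cases h2'
    rw [ex] at e1 ⊢
    rw [ex'] at e1' ⊢
    obtain ⟨⟨-, r1⟩, r2, r3⟩ := RR hθ hθ2 hx hx' e0 e1 e0' e1'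
    unfold KK
    rcases hs with ⟨ea, sa⟩ | ⟨ea, sa⟩ <;> rcases hs' with ⟨ea', sa'⟩ | ⟨ea', sa'⟩ <;> rw [sa, sa']
    · have h3 : 3 / 10 < x := by rcases h with h | h <;> linarith
      rw [abs_of_pos (by linarith), ea] at e2
      rw [abs_of_neg (by linarith), ea'] at e2'
      have h4 : 0 < x - x' := by linarith
      have := (near1 (X := x - x') (e := η + η') hθ hθ2 h4.ne'
        (by rw [abs_of_pos h4, abs_of_nonneg (by positivity)]; linarith)).2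
      rw [ea, ea']
      linarith
    · have := Lg_congr (u := a - a') (v := 0) (u' := x + x') (v' := 0) (by rw [ea, ea']; ring)
      linarith
    · have := Lg_congr (u := a - a') (v := 0) (u' := x + x') (v' := 0) (by rw [ea, ea']; ring)
      linarith
    · have h3 : 1 < x := by rcases h with h | h <;> linarith
      have h4 : 0 < x - x' := by linarith
      have := (near1 (θ := 6 * θ) (X := x - x') (e := η + η') (by positivity) (by linarith) h4.ne'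
        (by rw [abs_of_pos h4, abs_of_nonneg (by positivity)]; nlinarith)).2
      have h5 := Lg_congr (u := a - a') (v := 0) (u' := x - x') (v' := 0) (by rw [ea, ea']; ring)
      linarith
  · simp only [if_true, if_neg h2']
    have := (RI (y := |b'|) hθ hθ2 (abs_pos.2 ha) e0 e1 (sg a) (sg b')).2
    rw [Lg_congr (u := |a|) (v := |b'|) (u' := a - 0) (v' := 0 - b') (by rw [sq_abs, sq_abs]; ring)] at this
    linarith

theorem pole {θ C a b A B : ℝ} (hθ : 0 < θ) (hC : 2 ≤ C) (hθ1 : C * θ ≤ 1 / 2) (h : Pt a b) (hA : A ≠ 0) (hB : 0 < B)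
    (h1 : 2 * A ^ 2 ≤ C ^ 2 * B ^ 2) (h2 : 2 * B ^ 2 ≤ C ^ 2 * A ^ 2) :
    |(Lg (a - A) (b - B) + Lg (a - A) (-b - B)) / 2 - KQ θ a b A B| ≤ 4 * (C * θ) := by
  have ht : 0 ≤ C * θ := by positivity
  have hC2 : 2 ≤ C ^ 2 := by nlinarith
  obtain ⟨X, hX, eX, hS⟩ := sg_cases hA
  have eA : A ^ 2 = X ^ 2 := by rw [← eX, sq_abs]
  rw [eA] at h1 h2
  unfold KQ zx zy al be
  rw [eX, abs_le]
  rcases h with ⟨rfl, h3, -⟩ | ⟨rfl, h3⟩
  · simp only [if_true]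
    obtain ⟨e0, e1, -⟩ := eta_le hθ a
    set η := θ * min |a| |a - 3 / 10|
    obtain ⟨x, hx, ex, hs⟩ := sg_cases h3
    rw [ex] at e1 ⊢
    have k0 : η ^ 2 ≤ θ ^ 2 * x ^ 2 := by rw [← mul_pow]; exact pow_le_pow_left₀ e0 e1 2
    have k1 : x ^ 2 ≤ C ^ 2 * ((x - X) ^ 2 + B ^ 2) := by nlinarith [sq_nonneg (x - 2 * X), sq_nonneg (x - X)]
    have k2 : x ^ 2 ≤ C ^ 2 * ((x + X) ^ 2 + B ^ 2) := by nlinarith [mul_pos hx hX, sq_nonneg (x + X)]
    have k3 : η ^ 2 ≤ (C * θ) ^ 2 * ((x - X) ^ 2 + B ^ 2) :=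
      k0.trans (by rw [mul_pow, mul_comm (C ^ 2), mul_assoc]; exact mul_le_mul_of_nonneg_left k1 (sq_nonneg _))
    have k4 : η ^ 2 ≤ (C * θ) ^ 2 * ((x + X) ^ 2 + B ^ 2) :=
      k0.trans (by rw [mul_pow, mul_comm (C ^ 2), mul_assoc]; exact mul_le_mul_of_nonneg_left k2 (sq_nonneg _))
    have a1 := Lg_near (u := x - X) (v := η + B) (u0 := x - X) (v0 := B) ht hθ1 (by positivity) (by linarith)
    have a2 := Lg_near (u := x + X) (v := η - B) (u0 := x + X) (v0 := -B) ht hθ1 (by positivity) (by linarith)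
    have a3 := Lg_near (u := x + X) (v := η + B) (u0 := x + X) (v0 := B) ht hθ1 (by positivity) (by linarith)
    rw [Lg_congr (u := x + X) (v := -B) (u' := x + X) (v' := B) (by ring)] at a2
    unfold KK
    rw [neg_zero]
    rcases hs with ⟨ea, sa⟩ | ⟨ea, sa⟩ <;> rcases hS with ⟨ea', sa'⟩ | ⟨ea', sa'⟩ <;> rw [sa, sa']
    · have := Lg_congr (u := a - A) (v := 0 - B) (u' := x - X) (v' := B) (by rw [ea, ea']; ring)
      constructor <;> linarith [a1.1, a1.2, a2.1, a2.2, a3.1, a3.2]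
    · have := Lg_congr (u := a - A) (v := 0 - B) (u' := x + X) (v' := B) (by rw [ea, ea']; ring)
      constructor <;> linarith [a1.1, a1.2, a2.1, a2.2, a3.1, a3.2]
    · have := Lg_congr (u := a - A) (v := 0 - B) (u' := x + X) (v' := B) (by rw [ea, ea']; ring)
      constructor <;> linarith [a1.1, a1.2, a2.1, a2.2, a3.1, a3.2]
    · have := Lg_congr (u := a - A) (v := 0 - B) (u' := x - X) (v' := B) (by rw [ea, ea']; ring)
      constructor <;> linarith [a1.1, a1.2, a2.1, a2.2, a3.1, a3.2]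
  · simp only [if_neg h3]
    obtain ⟨y, hy, ey, hs⟩ := sg_cases h3
    rw [ey]
    have k1 : y ^ 2 ≤ C ^ 2 * (X ^ 2 + (y - B) ^ 2) := by nlinarith [sq_nonneg (y - 2 * B), sq_nonneg (y - B)]
    have k2 : y ^ 2 ≤ C ^ 2 * (X ^ 2 + (y + B) ^ 2) := by nlinarith [mul_pos hy hB, sq_nonneg (y + B)]
    have k3 : (θ * y) ^ 2 ≤ (C * θ) ^ 2 * (X ^ 2 + (y - B) ^ 2) := by
      rw [mul_pow, mul_pow, mul_comm (C ^ 2), mul_assoc]; exact mul_le_mul_of_nonneg_left k1 (sq_nonneg _)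
    have k4 : (θ * y) ^ 2 ≤ (C * θ) ^ 2 * (X ^ 2 + (y + B) ^ 2) := by
      rw [mul_pow, mul_pow, mul_comm (C ^ 2), mul_assoc]; exact mul_le_mul_of_nonneg_left k2 (sq_nonneg _)
    have a1 := Lg_near (u := θ * y - X) (v := y + B) (u0 := -X) (v0 := y + B) ht hθ1 (by positivity) (by linarith)
    have a2 := Lg_near (u := θ * y + X) (v := y - B) (u0 := X) (v0 := y - B) ht hθ1 (by positivity) (by linarith)
    unfold KK
    have b1 : Lg (0 - A) (b - B) + Lg (0 - A) (-b - B) = Lg (-X) (y + B) + Lg X (y - B) := by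
      rcases hs with ⟨ea, -⟩ | ⟨ea, -⟩
      · rw [add_comm, Lg_congr (u := 0 - A) (v := -b - B) (u' := -X) (v' := y + B) (by rw [ea]; linarith),
          Lg_congr (u := 0 - A) (v := b - B) (u' := X) (v' := y - B) (by rw [ea]; linarith)]
      · rw [Lg_congr (u := 0 - A) (v := b - B) (u' := -X) (v' := y + B) (by rw [ea]; linarith),
          Lg_congr (u := 0 - A) (v := -b - B) (u' := X) (v' := y - B) (by rw [ea]; linarith)]
    rw [b1]
    constructor <;> linarith [a1.1, a1.2, a2.1, a2.2]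

theorem diag {θ a b : ℝ} (hθ : 0 < θ) (hθ1 : θ ≤ 1 / 2) (h : Pt a b) :
    Real.log θ + Lg a b - 1 ≤ KP θ a b a b ∨ Real.log θ + Lg (a - 3 / 10) b - 1 ≤ KP θ a b a b := by
  have hL : ∀ u : ℝ, Lg u 0 = Real.log |u| := fun u => by
    unfold Lg
    rw [← sq_abs u, zero_pow two_ne_zero, add_zero, Real.log_pow]; push_cast; ring
  obtain ⟨p1, p2⟩ := z_pos hθ h
  unfold KP
  unfold zx at p1 ⊢
  unfold zy at p2 ⊢
  unfold al be
  rcases h with ⟨rfl, h2, h3⟩ | ⟨rfl, h2⟩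
  · simp only [if_true] at p1 p2 ⊢
    obtain ⟨e0, e1, -⟩ := eta_le hθ a
    obtain ⟨⟨r1, -⟩, -, r3⟩ := RR hθ hθ1 p1 p1 e0 e1 e0 e1
    have s1 : sg a * sg a = 1 := by unfold sg; split_ifs <;> norm_num
    have k1 := log_le_Lg (u := |a| - |a|) (v := θ * min |a| |a - 3 / 10| + θ * min |a| |a - 3 / 10|) p2 (by nlinarith)
    rw [Real.log_mul hθ.ne' ((mul_pos_iff_of_pos_left hθ).1 p2).ne'] at k1
    unfold KK
    rw [s1, hL, hL]
    rcases min_choice |a| |a - 3 / 10| with e | e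
    · left
      have := congrArg Real.log e
      linarith
    · right
      have := congrArg Real.log e
      linarith
  · simp only [if_neg h2] at p1 p2 ⊢
    obtain ⟨⟨r1, -⟩, -, r3⟩ := RR hθ hθ1 p2 p2 p1.le le_rfl p1.le le_rfl
    rw [Lg_congr (u' := θ * |b| - θ * |b|) (v' := |b| + |b|) (add_comm _ _)] at r1
    rw [Lg_congr (u := |b| + |b|) (u' := θ * |b| + θ * |b|) (v' := |b| + |b|) (add_comm _ _)] at r3
    have s1 : sg b * sg b = 1 := by unfold sg; split_ifs <;> norm_num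
    have k1 := log_le_Lg (u := θ * |b| + θ * |b|) (v := |b| - |b|) p1 (by nlinarith)
    rw [Real.log_mul hθ.ne' p2.ne'] at k1
    left
    unfold KK
    rw [s1, Lg_congr (u := 0) (v := b) (u' := b) (v' := 0) (add_comm _ _), hL]
    linarith

end

end Crest.Agent.R6.CrossA
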