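import Mathlib

/-! # Row 6 (Catalan's constant is irrational): definitions.

Parameters `(n,b,q,g,h) = (32,5,2,3,2)·N`, `L = 39N`, `C = 42N`, `H = 44N`.
`Emat γ N` is a rational `32N × 32N` matrix; with `γ = G` it is a matrix of double integrals.
Plan: if `G = γ ∈ ℚ` then for prime `N` large `det ≠ 0`, `log|det| ≥ -(1922 + 945/8·log 2 + ε)N²`
(`Arith`), and `log |det| ≤ -(2004 - ε) N²` (`RealMain`). -/

set_option autoImplicit false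

namespace Crest.Agent.R6
open Polynomial Finset

/-! ## Arithmetic side -/

/-- `w e = C(2e,e)/4^e`, the coefficients of `(1-t²)^(-1/2) = ∑ w e t^(2e)`. -/
def w (e : ℕ) : ℚ := (e.centralBinom : ℚ) / 4 ^ e

/-- `V l = ∫_0^{π/2} sin^(2l+1)`. -/
def V (l : ℕ) : ℚ := 1 / ((2 * l + 1) * w l)

def Wp (m : ℕ) : ℚ := if m % 2 = 1 then V (m / 2) else 0

/-- `s 0 j`. -/
def s0 (j : ℕ) : ℚ :=
  if j % 2 = 0 then w (j / 2) * ∑ l ∈ range (j / 2), V l / (2 * l + 2)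
  else V (j / 2) * ∑ k ∈ range (j / 2 + 1), w k / (2 * k + 1)

/-- `s (m+1) 0`. -/
def s1 (m : ℕ) : ℚ :=
  if m % 2 = 0 then w (m / 2) * ∑ l ∈ range (m / 2), V l ^ 2
  else V (m / 2) * ∑ l ∈ range (m / 2 + 1), (1 : ℚ) / (2 * l + 1)

/-- rational part of `∑_i Wp (m+i)/(j+i+1)`. -/
def s : ℕ → ℕ → ℚ
  | 0, j => s0 j
  | m + 1, 0 => s1 m
  | m + 1, j + 1 => s m j - Wp m / (j + 1)

/-- coefficient of `G` in `∑_i Wp (m+i)/(j+i+1)`. -/
def al (m j : ℕ) : ℚ := if j < m ∧ (m - j) % 2 = 1 then 2 * w ((m - j - 1) / 2) else 0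

/-- coefficient of `(3/4)ζ(2)` in `∑_i Wp (m+i)/(j+i+1)`. -/
def be (m j : ℕ) : ℚ := if m ≤ j ∧ (j - m) % 2 = 0 then w ((j - m) / 2) else 0

/-- rational part of `∑_i 1/((m+i+1)(j+i+1))` (the rest is `ζ(2)·[m=j]`). -/
def z : ℕ → ℕ → ℚ
  | 0, j => harmonic j / j
  | m + 1, 0 => harmonic (m + 1) / (m + 1)
  | m + 1, j + 1 => z m j - 1 / ((m + 1) * (j + 1))

/-- the linear functional `X^m ↦ f m`. -/
def pair (f : ℕ → ℚ) (P : ℤ[X]) : ℚ := P.sum fun m a => (a : ℚ) * f m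

/-- `t^M f(2/t)` (when `natDegree f ≤ M`). -/
noncomputable def rev (M : ℕ) (f : ℤ[X]) : ℤ[X] := reflect M (f.comp (C 2 * X))

noncomputable def Prow (N : ℕ) (d : ℤ) : ℤ[X] :=
  (1 - X) ^ (2 * N) * rev (42 * N) (Chebyshev.C ℤ d)

noncomputable def Drow (N : ℕ) (d : ℤ) : ℤ[X] :=
  2 * (1 - X) ^ (2 * N) * rev (42 * N - 1) (Chebyshev.S ℤ (d - 1))

noncomputable def col (N j : ℕ) : ℤ[X] := X ^ (5 * N + j) * (1 - X) ^ (2 * N)

/-- row `(P, D)` against the monomial column `s^k`. -/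
def Phi (γ : ℚ) (P D : ℤ[X]) (k : ℕ) : ℚ :=
  pair (fun m => s m k + γ * al m k) P - 3 / 4 * pair (fun m => z m k) D

/-- entry for row index `d` and column `j`. -/
noncomputable def Ent (γ : ℚ) (N : ℕ) (d : ℤ) (j : ℕ) : ℚ :=
  pair (Phi γ (Prow N d) (Drow N d)) (col N j)

noncomputable def Emat (γ : ℚ) (N : ℕ) : Matrix (Fin (32 * N)) (Fin (32 * N)) ℚ :=
  Matrix.of fun r j => Ent γ N (((r : ℕ) : ℤ) - 3 * N) j

/-- level one matrices used for non-vanishing. -/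
noncomputable def M0 : Matrix (Fin 32) (Fin 32) ℚ :=
  Matrix.of fun r j => Ent 0 1 (((r : ℕ) : ℤ) - 3) j

noncomputable def M1 : Matrix (Fin 32) (Fin 32) ℚ :=
  Matrix.of fun r j => Ent 0 1 (((r : ℕ) : ℤ) - 2) j

/-- congruence mod `p` of rationals. -/
def Cg (p : ℕ) (x y : ℚ) : Prop := padicNorm p (x - y) < 1

/-- the section `∑_i coeff (l + p i) X^i`. -/
noncomputable def sec (p l : ℕ) (F : ℤ[X]) : ℤ[X] :=
  ∑ i ∈ range (F.natDegree + 1), monomial i (F.coeff (l + p * i))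

/-- exponent of the odd prime `p` in the denominator of the determinant (truncated subtraction). -/
def eN (N p : ℕ) : ℕ :=
  if 44 * N < 2 * p then
    min (32 * N) ((44 * N - p) + (26 * N - p)) + min (32 * N) (2 * (39 * N - p))
  else if 33 * N ≤ 2 * p then
    32 * N + min (32 * N) (34 * N - (13 * N - max (44 * N - 2 * p) (5 * N)))
  else 64 * N

/-! ## Real side -/

noncomputable section

def Gc : ℝ := ∑' j : ℕ, (-1 : ℝ) ^ j / ((2 * j + 1 : ℝ) ^ 2)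

def zeta2 : ℝ := ∑' i : ℕ, (1 : ℝ) / ((i + 1 : ℝ) ^ 2)

def tt (x : ℝ) : ℝ := 2 * x / (1 + x ^ 2)

def yy (x : ℝ) : ℝ := x + 1 / x

def psi (d : ℤ) (x : ℝ) : ℝ :=
  if x < 0 then -(1 / 2) * (x ^ d + x ^ (-d)) else 5 / 4 * x ^ d - 1 / 4 * x ^ (-d)

def Psi (N : ℕ) (d : ℤ) (x : ℝ) : ℝ := (1 - tt x) ^ (2 * N) * tt x ^ (42 * N) * psi d x

def Ker (x s : ℝ) : ℝ := 2 / (1 + x ^ 2 - 2 * x * s)

def colR (N j : ℕ) (s : ℝ) : ℝ := s ^ (5 * N + j) * (1 - s) ^ (2 * N)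

def EmatR (N : ℕ) : Matrix (Fin (32 * N)) (Fin (32 * N)) ℝ :=
  Matrix.of fun r j => ∫ x in Set.Ioo (-1 : ℝ) 1,
    Psi N (((r : ℕ) : ℤ) - 3 * N) x * ∫ s in Set.Ioo (0 : ℝ) 1, Ker x s * colR N j s

/-- discrete logarithmic energy of charges `c` at points `p` (the diagonal is `log 0 = 0`). -/
def En {ι : Type} [Fintype ι] (p : ι → ℂ) (c : ι → ℝ) : ℝ :=
  ∑ i, ∑ j, c i * c j * Real.log ‖p i - p j‖

def lm (z : ℂ) : ℝ := Real.log (min ‖z‖ 1)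

/-- the circle `γ` has centre `c0`, radius `r0`, diameter `[8/5, 10/3]`. -/
def c0 : ℝ := 37 / 15
def r0 : ℝ := 13 / 15

/-- a finite family of weighted poles in the upper half plane. -/
structure Pol where
  m : ℕ
  Y : Fin m → ℂ
  β : Fin m → ℝ
  im_pos : ∀ j, 0 < (Y j).im

def Pol.mass (A : Pol) : ℝ := ∑ j, A.β j

/-- potential (for real `p` it is `∑ β log |p - Y|`). -/
def Pol.U (A : Pol) (p : ℂ) : ℝ :=
  ∑ j, A.β j * ((Real.log ‖p - A.Y j‖ + Real.log ‖(starRingEnd ℂ) p - A.Y j‖) / 2)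

def Pol.ELine (A : Pol) : ℝ :=
  ∑ j, ∑ k, A.β j * A.β k * Real.log ‖A.Y j - (starRingEnd ℂ) (A.Y k)‖

open Classical in
/-- mutual energy of two poles for the cross `ℝ ∪ γ`. -/
def Kx (Y Y' : ℂ) : ℝ :=
  if (‖Y - c0‖ < r0 ↔ ‖Y' - c0‖ < r0) then
    Real.log ‖Y - (starRingEnd ℂ) Y'‖ +
      (Real.log ‖(r0 : ℂ) ^ 2 - (Y - c0) * ((starRingEnd ℂ) Y' - c0)‖ -
        Real.log ‖(r0 : ℂ) ^ 2 - (Y - c0) * (Y' - c0)‖) / 2
  else (Real.log ‖Y - Y'‖ + Real.log ‖Y - (starRingEnd ℂ) Y'‖) / 2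

def Pol.ECross (A : Pol) : ℝ := ∑ j, ∑ k, A.β j * A.β k * Kx (A.Y j) (A.Y k)

def Pol.OffCircle (A : Pol) : Prop := ∀ j, ‖A.Y j - c0‖ ≠ r0

def V1 (y : ℝ) : ℝ := 42 * Real.log 2 - 44 * Real.log |y| + 2 * Real.log |y - 2|

def V2 (σ : ℝ) : ℝ := 5 * Real.log (σ / 2) + 2 * Real.log (1 - σ / 2) - 16 * Real.log 2

/-- the numerical certificate for the real place. -/
structure Cert where
  A : Pol
  B : Pol
  C : Pol
  D : Pol
  l : ℝ
  lw : ℝ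
  ls : ℝ
  offA : A.OffCircle
  offB : B.OffCircle
  mA : A.mass = 29
  mB : B.mass = 3
  mC : C.mass = 0
  mD : D.mass = 32
  hS : ∀ y : ℝ, y ≤ -2 ∨ 10 / 3 - 1 / 1000 ≤ y → A.U y + C.U y + V1 y ≤ l
  hP : ∀ y : ℝ, 2 < y → B.U y + C.U y + V1 y ≤ l - lw
  hW : ∀ η : ℂ, (η.im = 0 ∧ |η.re| ≤ 2) ∨ ‖η - c0‖ = r0 → A.U η - B.U η ≤ lw
  hs : ∀ σ : ℝ, 0 < σ → σ < 2 → D.U σ - C.U σ + V2 σ ≤ ls
  total : 32 * l - 3 * lw + 32 * ls - (A.ECross + B.ECross + C.ELine + D.ELine) / 2 ≤ -2004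

/-- charges of determinant A (Vandermonde of `S ∪ T`). -/
def chA {ι κ : Type} [DecidableEq ι] [DecidableEq κ] (S : Finset ι) (T : Finset κ) : ι ⊕ κ → ℝ :=
  Sum.elim (fun i => if i ∈ S then 1 else 0) (fun b => if b ∈ T then 1 else 0)

/-- charges of determinant B (Cauchy–Vandermonde of `Sᶜ` against `T`). -/
def chB {ι κ : Type} [DecidableEq ι] [DecidableEq κ] (S : Finset ι) (T : Finset κ) : ι ⊕ κ → ℝ :=
  Sum.elim (fun i => if i ∈ S then 0 else 1) (fun b => if b ∈ T then -1 else 0)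

/-- admissible configurations. -/
def GoodX {n : ℕ} (x : Fin n → ℝ) : Prop :=
  Function.Injective x ∧ ∀ i, -1 < x i ∧ x i < 1 ∧ x i ≠ 0 ∧ x i ≠ 1 / 3

def GoodS {n : ℕ} (s : Fin n → ℝ) : Prop := Function.Injective s ∧ ∀ k, 0 < s k ∧ s k < 1

end

end Crest.Agent.R6
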