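import Crest.Agent.R6.Defs

/-! More definitions for the real half of row 6. -/

set_option autoImplicit false

namespace Crest.Agent.R6
open Polynomial Finset

noncomputable section

def SS (m k : ℕ) : ℝ := ∑' i : ℕ, (Wp (m + i) : ℝ) / (k + i + 1)

def ZZ (m k : ℕ) : ℝ := ∑' i : ℕ, (1 : ℝ) / ((m + i + 1) * (k + i + 1))

/-- A discrete "contour deformation": for `0 < x < 1`, `psi d x` is a tiny (when `y = yy x` is well
inside the circle `γ` and away from `2`) multiple of `C_d(y)` plus a Cauchy transform over nodes on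
`(-2,2) ∪ γ`. -/
structure Nodes (M : ℕ) where
  m : ℕ
  η : Fin m → ℂ
  τ : Fin m → ℂ
  e : ℝ → ℝ
  card : m ≤ 4 * M + 1
  inj : Function.Injective η
  loc : ∀ b, ((η b).im = 0 ∧ |(η b).re| < 2) ∨ (‖η b - c0‖ = r0 ∧ (η b).im ≠ 0)
  sep : ∀ b, 1 / (20 * (M : ℝ) ^ 2) ≤ ‖η b - 10 / 3‖ ∧ 1 / (20 * (M : ℝ) ^ 2) ≤ ‖η b - 8 / 5‖ ∧
    1 / (20 * (M : ℝ) ^ 2) ≤ ‖η b - 2‖
  tau : ∀ b, ‖τ b‖ ≤ 1
  e1 : ∀ x, 0 < x → x < 1 → |e x| ≤ 1
  e2 : ∀ x, 0 < x → x < 1 → |e x| ≤ max (x ^ M) (|(yy x - c0) / r0| ^ M)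
  rep : ∀ x : ℝ, 0 < x → x < 1 → ∀ d : ℤ, d.natAbs ≤ M →
    (psi d x : ℂ) = (e x : ℂ) * (Chebyshev.C ℂ d).eval (yy x : ℂ) +
      ((3 / 4 * (1 / x - x) : ℝ) : ℂ) *
        (∑ b, τ b * (Chebyshev.C ℂ d).eval (η b) / ((yy x : ℂ) - η b) +
          if d < 0 then 2 * (Chebyshev.S ℂ (-d - 1)).eval (yy x : ℂ) else 0)

/-- the three determinants of the Andréief integrand. -/
def detPsi (N : ℕ) (x : Fin (32 * N) → ℝ) : ℝ :=
  (Matrix.of fun r i : Fin (32 * N) => Psi N (((r : ℕ) : ℤ) - 3 * N) (x i)).det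

def detKer {n : ℕ} (x s : Fin n → ℝ) : ℝ := (Matrix.of fun i k : Fin n => Ker (x i) (s k)).det

def detCol (N : ℕ) (s : Fin (32 * N) → ℝ) : ℝ :=
  (Matrix.of fun j k : Fin (32 * N) => colR N j (s k)).det

/-- points and charges of determinant C (Cauchy, `y` against `σ = 2 s`). -/
def ptC {n : ℕ} (x s : Fin n → ℝ) : Fin n ⊕ Fin n → ℂ :=
  Sum.elim (fun i => ((yy (x i) : ℝ) : ℂ)) (fun k => ((2 * s k : ℝ) : ℂ))

def chC (n : ℕ) : Fin n ⊕ Fin n → ℝ := Sum.elim (fun _ => 1) (fun _ => -1)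

/-- points of determinants A and B. -/
def ptAB {n m : ℕ} (x : Fin n → ℝ) (η : Fin m → ℂ) : Fin n ⊕ Fin m → ℂ :=
  Sum.elim (fun i => ((yy (x i) : ℝ) : ℂ)) η

end

end Crest.Agent.R6
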