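import Crest.Agent.R6.Defs

/-! General `p`-adic determinant bounds. -/

set_option autoImplicit false

namespace Crest.Agent.R6
open Finset

theorem DetVal.norm_prod (p : ℕ) [Fact p.Prime] {ι : Type*} (s : Finset ι) (f : ι → ℚ) :
    padicNorm p (∏ i ∈ s, f i) = ∏ i ∈ s, padicNorm p (f i) := by
  classical
  induction s using Finset.induction_on with
  | empty => simp
  | insert a s ha ih => rw [prod_insert ha, prod_insert ha, padicNorm.mul, ih]

theorem DetVal.prod_zpow (p : ℕ) [Fact p.Prime] {ι : Type*} (s : Finset ι) (e : ι → ℤ) :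
    ∏ i ∈ s, (p : ℚ) ^ e i = (p : ℚ) ^ ∑ i ∈ s, e i := by
  classical
  have hp : (p : ℚ) ≠ 0 := Nat.cast_ne_zero.2 (Fact.out : p.Prime).ne_zero
  induction s using Finset.induction_on with
  | empty => simp
  | insert a s ha ih => rw [prod_insert ha, sum_insert ha, zpow_add₀ hp, ih]

theorem DetVal.one_le (p : ℕ) [Fact p.Prime] : (1 : ℚ) ≤ p :=
  Nat.one_le_cast.2 (Fact.out : p.Prime).one_le

theorem DetVal.det_mul_le (p : ℕ) [Fact p.Prime] {n : ℕ} {α : Type} [Fintype α]
    (R : Matrix (Fin n) α ℚ) (Y : Matrix α (Fin n) ℚ) (hR : ∀ i a, padicNorm p (R i a) ≤ 1)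
    {B : ℚ} (hB : 0 ≤ B)
    (hY : ∀ f : Fin n → α, Function.Injective f → padicNorm p (Y.submatrix f id).det ≤ B) :
    padicNorm p (R * Y).det ≤ B := by
  classical
  have h1 : (R * Y).det = ∑ f : Fin n → α, (∏ i, R i (f i)) * (Y.submatrix f id).det := by
    have e : R * Y = fun i => ∑ a, R i a • Y a := by
      ext i j
      simp [Matrix.mul_apply, Finset.sum_apply]
    have h2 := (Matrix.detRowAlternating (n := Fin n) (R := ℚ)).toMultilinearMap.map_sum
      (fun i a => R i a • Y a)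
    rw [e]
    refine h2.trans (sum_congr rfl fun f _ => ?_)
    exact (Matrix.detRowAlternating (n := Fin n) (R := ℚ)).toMultilinearMap.map_smul_univ
      (fun i => R i (f i)) (fun i => Y (f i))
  rw [h1]
  refine padicNorm.sum_le' (fun f _ => ?_) hB
  by_cases hf : Function.Injective f
  · rw [padicNorm.mul, DetVal.norm_prod]
    calc _ ≤ 1 * B := mul_le_mul (prod_le_one (fun i _ => padicNorm.nonneg _) fun i _ => hR _ _)
          (hY f hf) (padicNorm.nonneg _) zero_le_one
      _ = B := one_mul _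
  · obtain ⟨i, j, h, hij⟩ := Function.not_injective_iff.1 hf
    rw [Matrix.det_zero_of_row_eq hij (by ext k; simp [h]), mul_zero, padicNorm.zero]
    exact hB

theorem DetVal.exists_int (p : ℕ) [Fact p.Prime] {x : ℚ} (hx : padicNorm p x ≤ 1) :
    ∃ m : ℤ, padicNorm p (x - m) < 1 := by
  have h : ‖(x : ℚ_[p])‖ ≤ 1 := by
    rw [Padic.eq_padicNorm]; exact_mod_cast hx
  obtain ⟨m, -, -, hm⟩ := PadicInt.exists_mem_range_of_norm_rat_le_one x h
  refine ⟨m, ?_⟩
  have h2 : ‖((x - m : ℚ) : ℚ_[p])‖ < 1 := by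
    rw [PadicInt.norm_def] at hm
    push_cast at hm ⊢
    exact hm
  rw [Padic.eq_padicNorm] at h2
  exact_mod_cast h2

theorem DetVal.norm_int_eq_one (p : ℕ) [Fact p.Prime] {n : ℕ} {U : Matrix (Fin n) (Fin n) ℤ}
    (hU : ¬ (p : ℤ) ∣ U.det) : padicNorm p (U.map (Int.cast : ℤ → ℚ)).det = 1 := by
  have : (U.map (Int.cast : ℤ → ℚ)).det = ((U.det : ℤ) : ℚ) :=
    ((Int.castRingHom ℚ).map_det U).symm
  rw [this]
  exact (padicNorm.int_eq_one_iff _).2 hU

theorem DetVal.sum_ind {n : ℕ} (bad : Finset (Fin n)) :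
    ∑ r : Fin n, (if r ∈ bad then (1 : ℤ) else 0) = bad.card := by
  simp

/-- entries with `‖X i j‖ ≤ p^(ρ i + σ j)`. -/
theorem detval_basic (p : ℕ) [Fact p.Prime] {n : ℕ} (X : Matrix (Fin n) (Fin n) ℚ)
    (ρ σ : Fin n → ℤ) (h : ∀ i j, padicNorm p (X i j) ≤ (p : ℚ) ^ (ρ i + σ j)) :
    padicNorm p X.det ≤ (p : ℚ) ^ (∑ i, ρ i + ∑ j, σ j) := by
  have hp : (0 : ℚ) < p := lt_of_lt_of_le one_pos (DetVal.one_le p)
  rw [Matrix.det_apply']
  refine padicNorm.sum_le' (fun τ _ => ?_) (zpow_pos hp _).le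
  rw [padicNorm.mul, DetVal.norm_prod]
  calc _ ≤ 1 * ∏ i, (p : ℚ) ^ (ρ (τ i) + σ i) :=
        mul_le_mul (padicNorm.of_int _) (prod_le_prod (fun i _ => padicNorm.nonneg _) fun i _ => h _ _)
          (prod_nonneg fun i _ => padicNorm.nonneg _) zero_le_one
    _ = _ := by rw [one_mul, DetVal.prod_zpow, sum_add_distrib, Equiv.sum_comp τ ρ]

/-- factorised form `X = R T Q` with `R`, `Q` integral.
Proof: expand `det (R * T * Q)` multilinearly in the rows and in the columns
(`det = ∑_{f,g} ∏ R i (f i) · ∏ Q (g j) j · det (T.submatrix f g)`), non-injective `f`, `g` vanish. -/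
theorem detval_fact (p : ℕ) [Fact p.Prime] {n : ℕ} {α β : Type} [Fintype α] [Fintype β]
    (R : Matrix (Fin n) α ℚ) (T : Matrix α β ℚ) (Q : Matrix β (Fin n) ℚ)
    (hR : ∀ i a, padicNorm p (R i a) ≤ 1) (hQ : ∀ b j, padicNorm p (Q b j) ≤ 1)
    (ρ : α → ℤ) (σ : β → ℤ) (hT : ∀ a b, padicNorm p (T a b) ≤ (p : ℚ) ^ (ρ a + σ b))
    (u v : ℤ) (hu : ∀ f : Fin n → α, Function.Injective f → ∑ i, ρ (f i) ≤ u)
    (hv : ∀ g : Fin n → β, Function.Injective g → ∑ j, σ (g j) ≤ v) :
    padicNorm p (R * T * Q).det ≤ (p : ℚ) ^ (u + v) := by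
  have hp : (0 : ℚ) < p := lt_of_lt_of_le one_pos (DetVal.one_le p)
  rw [Matrix.mul_assoc]
  refine DetVal.det_mul_le p R (T * Q) hR (zpow_pos hp _).le fun f hf => ?_
  have e : (T * Q).submatrix f id = T.submatrix f id * Q := by
    ext i j; simp [Matrix.mul_apply]
  rw [e, ← Matrix.det_transpose, Matrix.transpose_mul]
  refine DetVal.det_mul_le p Q.transpose _ (fun i a => hQ a i) (zpow_pos hp _).le fun g hg => ?_
  refine (detval_basic p _ (fun j => σ (g j)) (fun i => ρ (f i)) fun j i => ?_).trans ?_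
  · rw [add_comm]; exact hT _ _
  · exact zpow_le_zpow_right₀ (DetVal.one_le p) (by linarith [hu f hf, hv g hg])

/-- an integer matrix, invertible mod `p`, at least `n - |t|` rows of which kill the
functionals `φ · a` (`a ∈ t`) mod `p`. (Linear algebra over `ZMod p`: kernel of
`(ZMod p)^n → (ZMod p)^t`, extend a basis, lift; first replace each `p`-integral rational
`φ i a` by a congruent integer.) -/
theorem exists_adapted (p : ℕ) [Fact p.Prime] {n : ℕ} {α : Type} (t : Finset α)
    (φ : Fin n → α → ℚ) (hφ : ∀ i, ∀ a ∈ t, padicNorm p (φ i a) ≤ 1) :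
    ∃ (U : Matrix (Fin n) (Fin n) ℤ) (bad : Finset (Fin n)), ¬ (p : ℤ) ∣ U.det ∧
      bad.card ≤ t.card ∧
      ∀ r, r ∉ bad → ∀ a ∈ t, padicNorm p (∑ i, (U r i : ℚ) * φ i a) < 1 := by
  classical
  induction t using Finset.induction_on with
  | empty =>
    refine ⟨1, ∅, ?_, le_rfl, fun r _ a ha => absurd ha (notMem_empty a)⟩
    rw [Matrix.det_one]
    exact fun h => (Fact.out : p.Prime).one_lt.ne' (by exact_mod_cast Int.eq_one_of_dvd_one (by positivity) h)
  | insert a t ha ih =>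
    obtain ⟨U, bad, hU, hc, hg⟩ := ih fun i b hb => hφ i b (mem_insert_of_mem hb)
    have hint : ∀ r, padicNorm p (∑ i, (U r i : ℚ) * φ i a) ≤ 1 := fun r =>
      padicNorm.sum_le' (fun i _ => by
        rw [padicNorm.mul]
        exact mul_le_one₀ (padicNorm.of_int _) (padicNorm.nonneg _) (hφ i a (mem_insert_self _ _)))
        zero_le_one
    by_cases hall : ∀ r, r ∉ bad → padicNorm p (∑ i, (U r i : ℚ) * φ i a) < 1
    · refine ⟨U, bad, hU, hc.trans (card_le_card (subset_insert _ _)), fun r hr b hb => ?_⟩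
      rcases mem_insert.1 hb with rfl | hb
      · exact hall r hr
      · exact hg r hr b hb
    · push Not at hall
      obtain ⟨r0, hr0, h1⟩ := hall
      have h1' : padicNorm p (∑ i, (U r0 i : ℚ) * φ i a) = 1 := le_antisymm (hint r0) h1
      have hne : (∑ i, (U r0 i : ℚ) * φ i a) ≠ 0 := by
        intro h; rw [h, padicNorm.zero] at h1'; exact zero_ne_one h1'
      have hm : ∀ r, ∃ m : ℤ, padicNorm p
          ((∑ i, (U r i : ℚ) * φ i a) / (∑ i, (U r0 i : ℚ) * φ i a) - m) < 1 := fun r =>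
        DetVal.exists_int p (by rw [padicNorm.div, h1', div_one]; exact hint r)
      choose m hm using hm
      set c : Fin n → ℤ := fun r => if r = r0 then 0 else -m r with hcdef
      refine ⟨Matrix.of fun r i => U r i + c r * U r0 i, insert r0 bad, ?_, ?_, fun r hr b hb => ?_⟩
      · rwa [Matrix.det_eq_of_forall_row_eq_smul_add_const
          (A := Matrix.of fun r i => U r i + c r * U r0 i) (B := U) c r0 (by simp [hcdef])
          fun i j => rfl]
      · rw [card_insert_of_notMem ha]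
        exact (card_insert_le _ _).trans (Nat.succ_le_succ hc)
      · have hr1 : r ≠ r0 := fun h => hr (h ▸ mem_insert_self _ _)
        have hr2 : r ∉ bad := fun h => hr (mem_insert_of_mem h)
        have e : ∑ i, (((Matrix.of fun r i => U r i + c r * U r0 i) r i : ℤ) : ℚ) * φ i b =
            ∑ i, (U r i : ℚ) * φ i b - m r * ∑ i, (U r0 i : ℚ) * φ i b := by
          rw [mul_sum, ← sum_sub_distrib]
          refine sum_congr rfl fun i _ => ?_
          simp only [Matrix.of_apply, hcdef, if_neg hr1]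
          push_cast; ring
        rw [e]
        rcases mem_insert.1 hb with rfl | hb
        · have e2 : ∑ i, (U r i : ℚ) * φ i b - m r * ∑ i, (U r0 i : ℚ) * φ i b =
              ((∑ i, (U r i : ℚ) * φ i b) / (∑ i, (U r0 i : ℚ) * φ i b) - m r) *
                ∑ i, (U r0 i : ℚ) * φ i b := by field_simp
          rw [e2, padicNorm.mul, h1', mul_one]
          exact hm r
        · refine padicNorm.sub.trans_lt (max_lt (hg r hr2 b hb) ?_)
          rw [padicNorm.mul]
          exact mul_lt_one_of_nonneg_of_lt_one_right (padicNorm.of_int _) (padicNorm.nonneg _)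
            (hg r0 hr0 b hb)

/-- functional form: rows `u` killed by the `φ`'s and columns `v` killed by the `ψ`'s each gain a
factor `p`. -/
theorem detval_fun (p : ℕ) [Fact p.Prime] {n : ℕ} (X : Matrix (Fin n) (Fin n) ℚ)
    {α β : Type} (t : Finset α) (t' : Finset β) (φ : Fin n → α → ℚ) (ψ : Fin n → β → ℚ)
    (hφ : ∀ i, ∀ a ∈ t, padicNorm p (φ i a) ≤ 1) (hψ : ∀ j, ∀ b ∈ t', padicNorm p (ψ j b) ≤ 1)
    (h2 : ∀ u v : Fin n → ℤ, padicNorm p (∑ i, ∑ j, (u i : ℚ) * X i j * v j) ≤ (p : ℚ) ^ 2)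
    (hr : ∀ u v : Fin n → ℤ, (∀ a ∈ t, padicNorm p (∑ i, (u i : ℚ) * φ i a) < 1) →
      padicNorm p (∑ i, ∑ j, (u i : ℚ) * X i j * v j) ≤ p)
    (hc : ∀ u v : Fin n → ℤ, (∀ b ∈ t', padicNorm p (∑ j, (v j : ℚ) * ψ j b) < 1) →
      padicNorm p (∑ i, ∑ j, (u i : ℚ) * X i j * v j) ≤ p)
    (h0 : ∀ u v : Fin n → ℤ, (∀ a ∈ t, padicNorm p (∑ i, (u i : ℚ) * φ i a) < 1) →
      (∀ b ∈ t', padicNorm p (∑ j, (v j : ℚ) * ψ j b) < 1) →
      padicNorm p (∑ i, ∑ j, (u i : ℚ) * X i j * v j) ≤ 1) :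
    padicNorm p X.det ≤ (p : ℚ) ^ (min n t.card + min n t'.card) := by
  classical
  obtain ⟨U, bad, hU, hb, hg⟩ := exists_adapted p t φ hφ
  obtain ⟨U', bad', hU', hb', hg'⟩ := exists_adapted p t' ψ hψ
  have e : ∀ r s, (U.map (Int.cast : ℤ → ℚ) * X * (U'.map (Int.cast : ℤ → ℚ)).transpose) r s =
      ∑ i, ∑ j, (U r i : ℚ) * X i j * U' s j := fun r s => by
    simp only [Matrix.mul_apply, Matrix.transpose_apply, Matrix.map_apply, sum_mul]
    exact sum_comm
  have h := detval_basic p (U.map (Int.cast : ℤ → ℚ) * X * (U'.map (Int.cast : ℤ → ℚ)).transpose)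
    (fun r => if r ∈ bad then 1 else 0) (fun s => if s ∈ bad' then 1 else 0) fun r s => by
      rw [e]
      by_cases h1 : r ∈ bad <;> by_cases h2' : s ∈ bad' <;> simp only [h1, h2', if_true, if_false]
      · exact (h2 _ _).trans (le_of_eq (by norm_num))
      · exact (hc _ _ (hg' s h2')).trans (le_of_eq (by norm_num))
      · exact (hr _ _ (hg r h1)).trans (le_of_eq (by norm_num))
      · exact (h0 _ _ (hg r h1) (hg' s h2')).trans (le_of_eq (by norm_num))
  rw [Matrix.det_mul, Matrix.det_mul, Matrix.det_transpose, padicNorm.mul, padicNorm.mul,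
    DetVal.norm_int_eq_one p hU, DetVal.norm_int_eq_one p hU', one_mul, mul_one, DetVal.sum_ind,
    DetVal.sum_ind, ← Nat.cast_add, zpow_natCast] at h
  refine h.trans (pow_le_pow_right₀ (DetVal.one_le p) (add_le_add (le_min ?_ hb) (le_min ?_ hb')))
  · simpa using card_le_univ bad
  · simpa using card_le_univ bad'

/-- rows only. -/
theorem detval_row (p : ℕ) [Fact p.Prime] {n : ℕ} (X : Matrix (Fin n) (Fin n) ℚ)
    {α : Type} (t : Finset α) (φ : Fin n → α → ℚ)
    (hφ : ∀ i, ∀ a ∈ t, padicNorm p (φ i a) ≤ 1)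
    (h2 : ∀ i j, padicNorm p (X i j) ≤ (p : ℚ) ^ 2)
    (hr : ∀ (u : Fin n → ℤ) (j : Fin n), (∀ a ∈ t, padicNorm p (∑ i, (u i : ℚ) * φ i a) < 1) →
      padicNorm p (∑ i, (u i : ℚ) * X i j) ≤ p) :
    padicNorm p X.det ≤ (p : ℚ) ^ (n + min n t.card) := by
  classical
  have hp : (0 : ℚ) < p := lt_of_lt_of_le one_pos (DetVal.one_le p)
  obtain ⟨U, bad, hU, hb, hg⟩ := exists_adapted p t φ hφ
  have h := detval_basic p (U.map (Int.cast : ℤ → ℚ) * X)
    (fun r => if r ∈ bad then 1 else 0) (fun _ => 1) fun r s => by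
      simp only [Matrix.mul_apply, Matrix.map_apply]
      by_cases h1 : r ∈ bad <;> simp only [h1, if_true, if_false]
      · refine padicNorm.sum_le' (fun i _ => ?_) (zpow_pos hp _).le
        rw [padicNorm.mul]
        calc _ ≤ 1 * (p : ℚ) ^ 2 :=
              mul_le_mul (padicNorm.of_int _) (h2 _ _) (padicNorm.nonneg _) zero_le_one
          _ = _ := by norm_num
      · exact (hr _ _ (hg r h1)).trans (le_of_eq (by norm_num))
  rw [Matrix.det_mul, padicNorm.mul, DetVal.norm_int_eq_one p hU, one_mul, DetVal.sum_ind] at h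
  simp only [sum_const, card_univ, Fintype.card_fin, nsmul_eq_mul, mul_one] at h
  rw [← Nat.cast_add, zpow_natCast] at h
  refine h.trans (pow_le_pow_right₀ (DetVal.one_le p) ?_)
  have : bad.card ≤ min n t.card := le_min (by simpa using card_le_univ bad) hb
  omega

/-- product formula. -/
theorem log_abs_ge {q : ℚ} (hq : q ≠ 0) (e : ℕ → ℕ) (B : ℕ)
    (h : ∀ p : ℕ, p.Prime → padicNorm p q ≤ (p : ℚ) ^ e p) (hB : ∀ p, B < p → e p = 0) :
    -(∑ p ∈ (range (B + 1)).filter Nat.Prime, (e p : ℝ) * Real.log p) ≤ Real.log |(q : ℝ)| := by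
  have hv : ∀ p ∈ q.den.primeFactors, q.den.factorization p ≤ e p := by
    intro p hp
    have hpp := Nat.prime_of_mem_primeFactors hp
    have := Fact.mk hpp
    have hd := Nat.dvd_of_mem_primeFactors hp
    have hn : ¬ (p : ℤ) ∣ q.num := fun h' =>
      hpp.one_lt.ne' (Nat.eq_one_of_dvd_coprimes q.reduced (Int.natCast_dvd.1 h') hd)
    have h1 := h p hpp
    rw [padicNorm.eq_zpow_of_nonzero hq, padicValRat_def, padicValInt.eq_zero_of_not_dvd hn,
      ← zpow_natCast, zpow_le_zpow_iff_right₀ (by exact_mod_cast hpp.one_lt)] at h1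
    rw [Nat.factorization_def _ hpp]
    omega
  have h1 : Real.log q.den ≤ ∑ p ∈ (range (B + 1)).filter Nat.Prime, (e p : ℝ) * Real.log p := by
    rw [Real.log_nat_eq_sum_factorization, Finsupp.sum, Nat.support_factorization]
    calc _ ≤ ∑ p ∈ q.den.primeFactors, (e p : ℝ) * Real.log p :=
          sum_le_sum fun p hp => mul_le_mul_of_nonneg_right (by exact_mod_cast hv p hp)
            (Real.log_natCast_nonneg p)
      _ ≤ _ := by
          refine sum_le_sum_of_subset_of_nonneg (fun p hp => ?_)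
            fun p _ _ => mul_nonneg (Nat.cast_nonneg _) (Real.log_natCast_nonneg p)
          refine mem_filter.2 ⟨mem_range.2 ?_, Nat.prime_of_mem_primeFactors hp⟩
          by_contra hc
          have h2 := hv p hp
          rw [hB p (by omega)] at h2
          have h3 : q.den.factorization p ≠ 0 := Finsupp.mem_support_iff.1 (by simpa using hp)
          omega
  have h2 : -Real.log q.den ≤ Real.log |(q : ℝ)| := by
    have hn : (1 : ℝ) ≤ |(q.num : ℝ)| := by
      have := Int.one_le_abs (Rat.num_ne_zero.2 hq)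
      exact_mod_cast this
    have hd : (0 : ℝ) < q.den := by exact_mod_cast q.den_pos
    rw [Rat.cast_def, abs_div, abs_of_pos hd, Real.log_div (by linarith) hd.ne']
    linarith [Real.log_nonneg hn]
  linarith

end Crest.Agent.R6
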