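import Crest.Agent.R6.Defs2

/-! Vandermonde, Cauchy and Cauchy–Vandermonde determinants as exponentials of energies.
`cauchy_vand`: multiply column `i` by `∏_b (y i - η b)`; the rows become polynomials
`p_b = ∏_{b' ≠ b}(X - η b')`, `p_k = S_k ∏_b (X - η b)` of degree `< card α`, so the determinant is
`det(coefficients)·Vandermonde(y)`; `|det(coefficients)| = |Vandermonde η|` (block triangular in the
basis `X^i (i < card β)`, `X^k ∏(X - η)`, and `det(coeff p_b)·Vand(η) = ∏_b ∏_{b'≠b}(η b - η b')`). -/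

set_option autoImplicit false

namespace Crest.Agent.R6
open Polynomial Finset

theorem vand_norm {m : ℕ} (p : Fin m → ℂ) (hp : Function.Injective p) :
    ‖(Matrix.vandermonde p).det‖ = Real.exp (En p (fun _ => 1) / 2) := by
  rw [Matrix.det_vandermonde, norm_prod]
  have h1 : En p (fun _ => 1) = 2 * ∑ i, ∑ j ∈ Ioi i, Real.log ‖p j - p i‖ := by
    have h2 := Finset.sum_sum_Ioi_add_eq_sum_sum_off_diag (fun i j => Real.log ‖p i - p j‖)
    have h3 : ∀ i, ∑ j, (1 : ℝ) * 1 * Real.log ‖p i - p j‖ =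
        ∑ j ∈ ({i} : Finset (Fin m))ᶜ, Real.log ‖p j - p i‖ := by
      intro i
      rw [← Finset.sum_compl_add_sum ({i} : Finset (Fin m))]
      simp [norm_sub_rev]
    rw [En, Finset.sum_congr rfl fun i _ => h3 i, ← h2, Finset.mul_sum]
    refine Finset.sum_congr rfl fun i _ => ?_
    rw [Finset.mul_sum]
    refine Finset.sum_congr rfl fun j _ => ?_
    rw [norm_sub_rev (p i)]; ring
  rw [h1, mul_div_cancel_left₀ _ (two_ne_zero), Real.exp_sum]
  refine Finset.prod_congr rfl fun i _ => ?_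
  rw [norm_prod, Real.exp_sum]
  refine Finset.prod_congr rfl fun j hj => ?_
  rw [Real.exp_log]
  exact norm_pos_iff.mpr (sub_ne_zero.mpr fun h => (Finset.mem_Ioi.mp hj).ne' (hp h))

theorem En_equiv {ι κ : Type} [Fintype ι] [Fintype κ] (e : ι ≃ κ) (p : κ → ℂ) (c : κ → ℝ) :
    En (p ∘ e) (c ∘ e) = En p c := by
  unfold En
  rw [← e.sum_comp]
  refine Finset.sum_congr rfl fun i _ => ?_
  rw [← e.sum_comp]
  rfl

/-- zero charges do not matter. -/
theorem En_embed {ι κ : Type} [Fintype ι] [Fintype κ] (f : ι → κ) (hf : Function.Injective f)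
    (p : κ → ℂ) (c : κ → ℝ) (h : ∀ k, k ∉ Set.range f → c k = 0) :
    En (p ∘ f) (c ∘ f) = En p c := by
  classical
  have key : ∀ F : κ → ℝ, (∀ k, k ∉ Set.range f → F k = 0) → ∑ i, F (f i) = ∑ k, F k := by
    intro F hF
    rw [← Finset.sum_image (s := Finset.univ) (g := f) (f := F) (fun a _ b _ hab => hf hab)]
    refine Finset.sum_subset (Finset.subset_univ _) fun k _ hk => hF k ?_
    rintro ⟨i, rfl⟩
    exact hk (Finset.mem_image_of_mem _ (Finset.mem_univ _))
  unfold En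
  rw [← key (fun k => ∑ j, c k * c j * Real.log ‖p k - p j‖) fun k hk => by simp [h k hk]]
  refine Finset.sum_congr rfl fun i _ => ?_
  rw [← key (fun j => c (f i) * c j * Real.log ‖p (f i) - p j‖) fun k hk => by simp [h k hk]]
  rfl

namespace DetsX

theorem S_monic (n : ℕ) : (Chebyshev.S ℂ (n : ℤ)).Monic ∧ (Chebyshev.S ℂ (n : ℤ)).natDegree = n := by
  induction n using Nat.twoStepInduction with
  | zero => simp
  | one => simp
  | more n h0 h1 =>
    have e : Chebyshev.S ℂ ((n + 2 : ℕ) : ℤ) =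
        X * Chebyshev.S ℂ ((n + 1 : ℕ) : ℤ) - Chebyshev.S ℂ (n : ℤ) := by
      push_cast; exact Chebyshev.S_add_two ℂ n
    have hm : (X * Chebyshev.S ℂ ((n + 1 : ℕ) : ℤ)).Monic := monic_X.mul h1.1
    have hd : (X * Chebyshev.S ℂ ((n + 1 : ℕ) : ℤ)).natDegree = n + 2 := by
      rw [monic_X.natDegree_mul h1.1, h1.2, natDegree_X]; ring
    have hlt : (Chebyshev.S ℂ (n : ℤ)).natDegree <
        (X * Chebyshev.S ℂ ((n + 1 : ℕ) : ℤ)).natDegree := by rw [hd, h0.2]; omega
    rw [e]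
    exact ⟨hm.sub_of_left (degree_lt_degree hlt), by rw [natDegree_sub_eq_left_of_natDegree_lt hlt, hd]⟩

theorem C_monic (n : ℕ) : (Chebyshev.C ℂ ((n + 1 : ℕ) : ℤ)).Monic ∧
    (Chebyshev.C ℂ ((n + 1 : ℕ) : ℤ)).natDegree = n + 1 := by
  induction n using Nat.twoStepInduction with
  | zero => simp
  | one =>
    have e : Chebyshev.C ℂ ((1 + 1 : ℕ) : ℤ) = X ^ 2 - C 2 := by
      rw [show ((1 + 1 : ℕ) : ℤ) = 2 by norm_num, Chebyshev.C_two]; rfl
    rw [e]
    exact ⟨monic_X_pow_sub_C _ two_ne_zero, natDegree_X_pow_sub_C⟩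
  | more n h0 h1 =>
    have e : Chebyshev.C ℂ ((n + 2 + 1 : ℕ) : ℤ) =
        X * Chebyshev.C ℂ ((n + 1 + 1 : ℕ) : ℤ) - Chebyshev.C ℂ ((n + 1 : ℕ) : ℤ) := by
      have := Chebyshev.C_add_two ℂ ((n : ℤ) + 1)
      push_cast
      rw [show (n : ℤ) + 2 + 1 = n + 1 + 2 by ring]
      exact this
    have hm : (X * Chebyshev.C ℂ ((n + 1 + 1 : ℕ) : ℤ)).Monic := monic_X.mul h1.1
    have hd : (X * Chebyshev.C ℂ ((n + 1 + 1 : ℕ) : ℤ)).natDegree = n + 2 + 1 := by
      rw [monic_X.natDegree_mul h1.1, h1.2, natDegree_X]; ring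
    have hlt : (Chebyshev.C ℂ ((n + 1 : ℕ) : ℤ)).natDegree <
        (X * Chebyshev.C ℂ ((n + 1 + 1 : ℕ) : ℤ)).natDegree := by rw [hd, h0.2]; omega
    rw [e]
    exact ⟨hm.sub_of_left (degree_lt_degree hlt), by rw [natDegree_sub_eq_left_of_natDegree_lt hlt, hd]⟩

theorem det_monic {m : ℕ} (p : Fin m → ℂ) (hp : Function.Injective p) (P : Fin m → ℂ[X])
    (hm : ∀ d, (P d).Monic) (hd : ∀ d, (P d).natDegree = d) :
    ‖(Matrix.of fun d i : Fin m => (P d).eval (p i)).det‖ = Real.exp (En p (fun _ => 1) / 2) := by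
  rw [← vand_norm p hp, Matrix.det_eval_matrixOfPolynomials_eq_det_vandermonde p P hd hm,
    ← Matrix.det_transpose]
  rfl

theorem det_poly {α : Type} [Fintype α] [DecidableEq α] (P : α → ℂ[X])
    (hP : ∀ a, (P a).natDegree < Fintype.card α) :
    ∃ c : ℝ, ∀ y : α → ℂ, Function.Injective y →
      ‖(Matrix.of fun a i : α => (P a).eval (y i)).det‖ = c * Real.exp (En y (fun _ => 1) / 2) := by
  let e := Fintype.equivFin α
  refine ⟨‖(Matrix.of fun a j : α => (P a).coeff (e j)).det‖, fun y hy => ?_⟩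
  have h1 : (Matrix.of fun a i : α => (P a).eval (y i)) =
      (Matrix.of fun a j : α => (P a).coeff (e j)) * (Matrix.of fun j i : α => y i ^ (e j : ℕ)) := by
    ext a i
    simp only [Matrix.of_apply, Matrix.mul_apply]
    rw [eval_eq_sum_range' (hP a), Finset.sum_range,
      ← e.sum_comp (fun j : Fin (Fintype.card α) => (P a).coeff j * y i ^ (j : ℕ))]
  have h2 : (Matrix.of fun j i : α => y i ^ (e j : ℕ)).det =
      (Matrix.vandermonde (y ∘ e.symm)).det := by
    rw [← Matrix.det_transpose, ← Matrix.det_submatrix_equiv_self e]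
    congr 1
    ext i j
    simp [Matrix.vandermonde_apply]
  rw [h1, Matrix.det_mul, norm_mul, h2, vand_norm _ (hy.comp e.symm.injective)]
  congr 3
  exact En_equiv e.symm y (fun _ => 1)

theorem En_sum {α β : Type} [Fintype α] [Fintype β] (y : α → ℂ) (η : β → ℂ) (t : ℝ) :
    En (Sum.elim y η) (Sum.elim (fun _ => 1) (fun _ => t)) =
      En y (fun _ => 1) + t ^ 2 * En η (fun _ => 1) +
        2 * t * ∑ i, ∑ b, Real.log ‖y i - η b‖ := by
  simp only [En, Fintype.sum_sum_type, Sum.elim_inl, Sum.elim_inr, Finset.sum_add_distrib,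
    Finset.mul_sum, one_mul, mul_one]
  have h1 : ∑ b, ∑ i, t * Real.log ‖η b - y i‖ = ∑ i, ∑ b, t * Real.log ‖y i - η b‖ := by
    rw [Finset.sum_comm]
    simp only [norm_sub_rev (η _)]
  have h2 : ∑ i, ∑ b, 2 * t * Real.log ‖y i - η b‖ =
      ∑ i, ∑ b, t * Real.log ‖y i - η b‖ + ∑ i, ∑ b, t * Real.log ‖y i - η b‖ := by
    simp only [← Finset.sum_add_distrib]
    refine Finset.sum_congr rfl fun i _ => Finset.sum_congr rfl fun b _ => by ring
  have h3 : ∑ b, ∑ b', t * t * Real.log ‖η b - η b'‖ =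
      ∑ b, ∑ b', t ^ 2 * Real.log ‖η b - η b'‖ := by simp only [sq]
  rw [h1, h2, h3]; ring

theorem exp_cross {α β : Type} [Fintype α] [Fintype β] (y : α → ℂ) (η : β → ℂ)
    (h : ∀ i b, y i ≠ η b) :
    Real.exp (∑ i, ∑ b, Real.log ‖y i - η b‖) = ∏ i, ‖∏ b, (y i - η b)‖ := by
  rw [Real.exp_sum]
  refine Finset.prod_congr rfl fun i _ => ?_
  rw [Real.exp_sum, norm_prod]
  exact Finset.prod_congr rfl fun b _ => Real.exp_log (norm_pos_iff.mpr (sub_ne_zero.mpr (h i b)))

theorem exp_En {β : Type} [Fintype β] [DecidableEq β] (η : β → ℂ) (h : Function.Injective η) :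
    Real.exp (En η (fun _ => 1)) = ∏ b, ‖∏ b' ∈ Finset.univ.erase b, (η b - η b')‖ := by
  rw [En, Real.exp_sum]
  refine Finset.prod_congr rfl fun b _ => ?_
  rw [← Finset.add_sum_erase _ _ (Finset.mem_univ b), norm_prod]
  simp only [sub_self, norm_zero, Real.log_zero, mul_zero, zero_add, one_mul, Real.exp_sum]
  exact Finset.prod_congr rfl fun b' hb' => Real.exp_log
    (norm_pos_iff.mpr (sub_ne_zero.mpr fun h' => (Finset.mem_erase.mp hb').1 (h h').symm))

end DetsX

theorem vand_C {m : ℕ} (p : Fin m → ℂ) (hp : Function.Injective p) :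
    ‖(Matrix.of fun d i : Fin m => (Chebyshev.C ℂ ((d : ℕ) : ℤ)).eval (p i)).det‖
      ≤ 2 * Real.exp (En p (fun _ => 1) / 2) := by
  let P : Fin m → ℂ[X] := fun d => if (d : ℕ) = 0 then 1 else Chebyshev.C ℂ ((d : ℕ) : ℤ)
  have hP : ∀ d, (P d).Monic ∧ (P d).natDegree = d := by
    intro d
    by_cases h : (d : ℕ) = 0
    · simp [P, h]
    · obtain ⟨n, hn⟩ := Nat.exists_eq_succ_of_ne_zero h
      simp only [P, h, if_false]
      rw [hn]
      exact DetsX.C_monic n
  have h1 : (Matrix.of fun d i : Fin m => (Chebyshev.C ℂ ((d : ℕ) : ℤ)).eval (p i)) =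
      Matrix.of fun d i : Fin m => (if (d : ℕ) = 0 then (2 : ℂ) else 1) *
        (Matrix.of fun d i : Fin m => (P d).eval (p i)) d i := by
    ext d i
    by_cases h : (d : ℕ) = 0 <;> simp [P, h]
  rw [h1, Matrix.det_mul_column, norm_mul, DetsX.det_monic p hp P (fun d => (hP d).1) fun d => (hP d).2]
  refine mul_le_mul_of_nonneg_right ?_ (Real.exp_pos _).le
  rcases m with _ | m
  · simp
  · rw [Fin.prod_univ_succ]
    simp

theorem cauchy_vand {α β : Type} [Fintype α] [DecidableEq α] [Fintype β] [DecidableEq β] {g : ℕ}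
    (e : α ≃ β ⊕ Fin g) (y : α → ℂ) (η : β → ℂ) (hinj : Function.Injective (Sum.elim y η)) :
    ‖(Matrix.of fun a i : α => Sum.elim (fun b => 1 / (y i - η b))
        (fun k : Fin g => (Chebyshev.S ℂ ((k : ℕ) : ℤ)).eval (y i)) (e a)).det‖
      = Real.exp (En (Sum.elim y η) (Sum.elim (fun _ => 1) (fun _ => -1)) / 2) := by
  have hy : Function.Injective y := fun i j h =>
    Sum.inl_injective (hinj (a₁ := Sum.inl i) (a₂ := Sum.inl j) h)
  have hη : Function.Injective η := fun i j h =>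
    Sum.inr_injective (hinj (a₁ := Sum.inr i) (a₂ := Sum.inr j) h)
  have hyη : ∀ i b, y i ≠ η b := fun i b h =>
    Sum.inl_ne_inr (hinj (a₁ := Sum.inl i) (a₂ := Sum.inr b) h)
  have hcard : Fintype.card α = Fintype.card β + g := by
    rw [Fintype.card_congr e]; simp
  let P : β ⊕ Fin g → ℂ[X] := Sum.elim (fun b => ∏ b' ∈ Finset.univ.erase b, (X - C (η b')))
    (fun k => Chebyshev.S ℂ ((k : ℕ) : ℤ) * ∏ b, (X - C (η b)))
  have hP : ∀ a, (P (e a)).natDegree < Fintype.card α := by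
    intro a
    rcases e a with b | k
    · simp only [P, Sum.elim_inl]
      rw [natDegree_prod_of_monic _ _ fun b' _ => monic_X_sub_C _]
      have : 0 < Fintype.card β := Fintype.card_pos_iff.mpr ⟨b⟩
      simp only [natDegree_X_sub_C, Finset.sum_const, smul_eq_mul, mul_one,
        Finset.card_erase_of_mem (Finset.mem_univ b), Finset.card_univ]
      omega
    · simp only [P, Sum.elim_inr]
      rw [(DetsX.S_monic k).1.natDegree_mul (monic_prod_of_monic _ _ fun b' _ => monic_X_sub_C _),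
        (DetsX.S_monic k).2, natDegree_prod_of_monic _ _ fun b' _ => monic_X_sub_C _]
      have := k.2
      simp only [natDegree_X_sub_C, Finset.sum_const, smul_eq_mul, mul_one, Finset.card_univ]
      omega
  obtain ⟨c, hc⟩ := DetsX.det_poly (fun a => P (e a)) hP
  let u : Fin g → ℂ := fun k => y (e.symm (Sum.inr k))
  have hu : Function.Injective u := fun k l h => Sum.inr_injective (e.symm.injective (hy h))
  have huη : ∀ b k, η b ≠ u k := fun b k h => hyη _ b h.symm
  have hz : Function.Injective (Sum.elim η u) := by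
    rintro (b | k) (b' | k') h
    · exact congrArg _ (hη h)
    · exact absurd h (huη _ _)
    · exact absurd h.symm (huη _ _)
    · exact congrArg _ (hu h)
  have hc1 := hc (Sum.elim η u ∘ e) (hz.comp e.injective)
  have hM : (Matrix.of fun a i : α => (P (e a)).eval ((Sum.elim η u ∘ e) i)) =
      (Matrix.fromBlocks (Matrix.diagonal fun b => ∏ b' ∈ Finset.univ.erase b, (η b - η b'))
        (Matrix.of fun b k => (P (Sum.inl b)).eval (u k)) 0
        (Matrix.of fun k l : Fin g => (∏ b, (u l - η b)) *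
          (Matrix.of fun k l : Fin g => (Chebyshev.S ℂ ((k : ℕ) : ℤ)).eval (u l)) k l)).submatrix
        e e := by
    ext a i
    simp only [Matrix.of_apply, Matrix.submatrix_apply, Function.comp_apply]
    rcases e a with b | k <;> rcases e i with b' | l
    · simp only [P, Sum.elim_inl, Matrix.fromBlocks_apply₁₁, Matrix.diagonal_apply, eval_prod,
        eval_sub, eval_X, eval_C]
      split_ifs with h
      · subst h; rfl
      · exact Finset.prod_eq_zero (Finset.mem_erase.mpr ⟨Ne.symm h, Finset.mem_univ _⟩) (sub_self _)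
    · simp
    · simp only [P, Sum.elim_inl, Sum.elim_inr, Matrix.fromBlocks_apply₂₁, eval_mul, eval_prod,
        eval_sub, eval_X, eval_C, Matrix.zero_apply]
      rw [Finset.prod_eq_zero (Finset.mem_univ b') (sub_self _), mul_zero]
    · simp only [P, Sum.elim_inr, Matrix.fromBlocks_apply₂₂, eval_mul, eval_prod,
        eval_sub, eval_X, eval_C, Matrix.of_apply]
      ring
  have hE : En (Sum.elim η u ∘ e) (fun _ => 1) = En η (fun _ => 1) + En u (fun _ => 1) +
      2 * ∑ l, ∑ b, Real.log ‖u l - η b‖ := by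
    have h1 := En_equiv e (Sum.elim η u) (Sum.elim (fun _ => 1) (fun _ => 1))
    have h2 : (Sum.elim (fun _ : β => (1 : ℝ)) (fun _ : Fin g => 1)) ∘ e = fun _ => 1 := by
      funext a; simp only [Function.comp_apply]; rcases e a with _ | _ <;> rfl
    rw [h2] at h1
    rw [h1, DetsX.En_sum, Finset.sum_comm]
    simp only [norm_sub_rev (η _)]
    ring
  rw [hM, Matrix.det_submatrix_equiv_self, Matrix.det_fromBlocks_zero₂₁, Matrix.det_diagonal,
    Matrix.det_mul_row, norm_mul, norm_mul, norm_prod, norm_prod, ← DetsX.exp_En η hη,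
    ← DetsX.exp_cross u η (fun k b h => huη b k h.symm),
    DetsX.det_monic u hu _ (fun k => (DetsX.S_monic k).1) (fun k => (DetsX.S_monic k).2), hE,
    ← Real.exp_add, ← Real.exp_add] at hc1
  have hc2 : c = Real.exp (En η (fun _ => 1) / 2) := by
    rw [← div_eq_iff (Real.exp_pos _).ne', ← Real.exp_sub] at hc1
    rw [← hc1]
    congr 1
    ring
  have hM2 : (Matrix.of fun a i : α => Sum.elim (fun b => 1 / (y i - η b))
        (fun k : Fin g => (Chebyshev.S ℂ ((k : ℕ) : ℤ)).eval (y i)) (e a)) =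
      Matrix.of fun a i : α => (∏ b, (y i - η b))⁻¹ *
        (Matrix.of fun a i : α => (P (e a)).eval (y i)) a i := by
    ext a i
    have h0 : ∏ b, (y i - η b) ≠ 0 :=
      Finset.prod_ne_zero_iff.mpr fun b _ => sub_ne_zero.mpr (hyη i b)
    simp only [Matrix.of_apply]
    rcases e a with b | k
    · simp only [P, Sum.elim_inl, eval_prod, eval_sub, eval_X, eval_C]
      rw [eq_inv_mul_iff_mul_eq₀ h0, ← Finset.mul_prod_erase _ _ (Finset.mem_univ b)]
      have := sub_ne_zero.mpr (hyη i b)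
      field_simp
    · simp only [P, Sum.elim_inr, eval_mul, eval_prod, eval_sub, eval_X, eval_C]
      field_simp
  rw [hM2, Matrix.det_mul_row, norm_mul, hc y hy, hc2, norm_prod, DetsX.En_sum]
  simp only [norm_inv]
  rw [Finset.prod_inv_distrib, ← DetsX.exp_cross y η hyη, ← Real.exp_neg, ← Real.exp_add,
    ← Real.exp_add]
  congr 1
  ring

theorem abs_yy {x : ℝ} (h1 : -1 < x) (h2 : x < 1) (h0 : x ≠ 0) : 2 < |yy x| := by
  have e : yy x = (x ^ 2 + 1) / x := by unfold yy; field_simp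
  have hx : 0 < |x| := abs_pos.mpr h0
  have hx1 : |x| < 1 := abs_lt.mpr ⟨h1, h2⟩
  rw [e, abs_div, lt_div_iff₀ hx, abs_of_pos (by positivity : 0 < x ^ 2 + 1), ← sq_abs x]
  nlinarith

theorem yy_injOn : Set.InjOn yy {x | -1 < x ∧ x < 1 ∧ x ≠ 0} := by
  rintro a ⟨a1, a2, a0⟩ b ⟨b1, b2, b0⟩ h
  unfold yy at h
  have h1 : (a - b) * (a * b - 1) = 0 := by
    field_simp at h
    linear_combination h
  rcases mul_eq_zero.mp h1 with h2 | h2
  · linarith
  · exfalso
    have ha : |a| < 1 := abs_lt.mpr ⟨a1, a2⟩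
    have hb : |b| < 1 := abs_lt.mpr ⟨b1, b2⟩
    have h3 : |a| * |b| = 1 := by rw [← abs_mul, show a * b = 1 by linarith, abs_one]
    nlinarith [abs_nonneg a, abs_nonneg b]

theorem ptC_inj {n : ℕ} {x s : Fin n → ℝ} (hx : GoodX x) (hs : GoodS s) :
    Function.Injective (ptC x s) := by
  have hyy : ∀ i k, yy (x i) ≠ 2 * s k := by
    intro i k h
    have h1 := abs_yy (hx.2 i).1 (hx.2 i).2.1 (hx.2 i).2.2.1
    have h2 := hs.2 k
    rw [h, abs_of_pos (by linarith)] at h1
    linarith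
  rintro (i | k) (j | l) h <;> simp only [ptC, Sum.elim_inl, Sum.elim_inr, Complex.ofReal_inj] at h
  · exact congrArg _ (hx.1 (yy_injOn ⟨(hx.2 i).1, (hx.2 i).2.1, (hx.2 i).2.2.1⟩
      ⟨(hx.2 j).1, (hx.2 j).2.1, (hx.2 j).2.2.1⟩ h))
  · exact absurd h (hyy _ _)
  · exact absurd h.symm (hyy _ _)
  · exact congrArg _ (hs.1 (by linarith))

/-- `Ker x s = 2/(x (y - 2s))`, `1/|x| ≤ |y|`. -/
theorem ker_col_bound {N : ℕ} {x s : Fin (32 * N) → ℝ} (hx : GoodX x) (hs : GoodS s) :
    |detKer x s| * |detCol N s| ≤ (∏ i, 2 * |yy (x i)|) * (∏ k, Real.exp (N * V2 (2 * s k)))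
      * 2 ^ (16 * N) * Real.exp (En (ptC x s) (chC (32 * N)) / 2
        + En (fun k => ((2 * s k : ℝ) : ℂ)) (fun _ => 1) / 2) := by
  have hinj := ptC_inj hx hs
  have hσ : Function.Injective fun k => ((2 * s k : ℝ) : ℂ) := fun k l h =>
    Sum.inr_injective (hinj (a₁ := Sum.inr k) (a₂ := Sum.inr l) h)
  have hx0 : ∀ i, x i ≠ 0 := fun i => (hx.2 i).2.2.1
  have hcv := cauchy_vand (g := 0) (Equiv.sumEmpty (Fin (32 * N)) (Fin 0)).symm
    (fun i => ((yy (x i) : ℝ) : ℂ)) (fun k => ((2 * s k : ℝ) : ℂ)) hinj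
  have hK : |detKer x s| = (∏ i, 2 / |x i|) * Real.exp (En (ptC x s) (chC (32 * N)) / 2) := by
    have h1 : ((detKer x s : ℝ) : ℂ) = (Matrix.of fun a i : Fin (32 * N) => ((2 / x i : ℝ) : ℂ) *
        (Matrix.of fun a i : Fin (32 * N) =>
          1 / (((yy (x i) : ℝ) : ℂ) - ((2 * s a : ℝ) : ℂ))) a i).det := by
      rw [detKer, ← Matrix.det_transpose]
      refine (RingHom.map_det Complex.ofRealHom _).trans ?_
      congr 1
      ext a i
      have h2 : yy (x i) - 2 * s a ≠ 0 := fun h => Sum.inl_ne_inr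
        (hinj (a₁ := Sum.inl i) (a₂ := Sum.inr a) (by
          simp only [ptC, Sum.elim_inl, Sum.elim_inr]; rw [sub_eq_zero.mp h]))
      have h3 : Ker (x i) (s a) = 2 / x i * (1 / (yy (x i) - 2 * s a)) := by
        have h4 : 1 + x i ^ 2 - 2 * x i * s a = x i * (yy (x i) - 2 * s a) := by
          have := hx0 i
          unfold yy; field_simp; ring
        have := hx0 i
        rw [Ker, h4]; field_simp
      simp only [RingHom.mapMatrix_apply, Matrix.map_apply, Matrix.transpose_apply,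
        Matrix.of_apply, Complex.ofRealHom_eq_coe, h3]
      push_cast; ring
    rw [← Real.norm_eq_abs, ← Complex.norm_real, h1, Matrix.det_mul_row, norm_mul, norm_prod]
    congr 1
    refine Finset.prod_congr rfl fun i _ => ?_
    rw [Complex.norm_real, Real.norm_eq_abs, abs_div, abs_two]
  have hC : |detCol N s| = (∏ k, s k ^ (5 * N) * (1 - s k) ^ (2 * N)) *
      ((∏ j : Fin (32 * N), ((1 : ℝ) / 2) ^ (j : ℕ)) *
        Real.exp (En (fun k => ((2 * s k : ℝ) : ℂ)) (fun _ => 1) / 2)) := by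
    have h1 : ((detCol N s : ℝ) : ℂ) = (Matrix.of fun j k : Fin (32 * N) =>
        ((s k ^ (5 * N) * (1 - s k) ^ (2 * N) : ℝ) : ℂ) *
        (Matrix.of fun j k : Fin (32 * N) => ((((1 : ℝ) / 2) ^ (j : ℕ) : ℝ) : ℂ) *
          (Matrix.vandermonde fun k => ((2 * s k : ℝ) : ℂ)).transpose j k) j k).det := by
      rw [detCol]
      refine (RingHom.map_det Complex.ofRealHom _).trans ?_
      congr 1
      ext j k
      simp only [RingHom.mapMatrix_apply, Matrix.map_apply, Matrix.transpose_apply,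
        Matrix.of_apply, Complex.ofRealHom_eq_coe, colR, Matrix.vandermonde_apply]
      push_cast
      rw [← mul_pow, pow_add]
      ring_nf
    rw [← Real.norm_eq_abs, ← Complex.norm_real, h1, Matrix.det_mul_row, norm_mul, norm_prod,
      Matrix.det_mul_column, norm_mul, norm_prod, Matrix.det_transpose, vand_norm _ hσ]
    congr 1
    · refine Finset.prod_congr rfl fun k _ => ?_
      have := hs.2 k
      rw [Complex.norm_real, Real.norm_eq_abs, abs_of_nonneg]
      exact mul_nonneg (pow_nonneg this.1.le _) (pow_nonneg (by linarith) _)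
    · congr 1
      refine Finset.prod_congr rfl fun j _ => ?_
      rw [Complex.norm_real, Real.norm_eq_abs, abs_of_nonneg (by positivity)]
  have hV : ∀ k, Real.exp (N * V2 (2 * s k)) =
      s k ^ (5 * N) * (1 - s k) ^ (2 * N) * (1 / 2) ^ (16 * N) := by
    intro k
    have h := hs.2 k
    have e1 : (N : ℝ) * V2 (2 * s k) = ((5 * N : ℕ) : ℝ) * Real.log (s k) +
        ((2 * N : ℕ) : ℝ) * Real.log (1 - s k) + ((16 * N : ℕ) : ℝ) * Real.log (1 / 2) := by
      rw [V2, mul_div_cancel_left₀ _ (two_ne_zero), one_div, Real.log_inv]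
      push_cast; ring
    rw [e1, Real.exp_add, Real.exp_add, Real.exp_nat_mul, Real.exp_nat_mul, Real.exp_nat_mul,
      Real.exp_log h.1, Real.exp_log (by linarith), Real.exp_log (by norm_num)]
  have hpow : (∏ j : Fin (32 * N), ((1 : ℝ) / 2) ^ (j : ℕ)) =
      (∏ _k : Fin (32 * N), ((1 : ℝ) / 2) ^ (16 * N)) * 2 ^ (16 * N) := by
    rw [Finset.prod_pow_eq_pow_sum, Finset.prod_const, Finset.card_univ, Fintype.card_fin,
      ← pow_mul, Fin.sum_univ_eq_sum_range (fun j => j) (32 * N)]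
    have h1 := Finset.sum_range_id_mul_two (32 * N)
    have h2 : 16 * N * (32 * N) = ∑ i ∈ Finset.range (32 * N), i + 16 * N := by
      rcases Nat.eq_zero_or_pos N with h | h
      · simp [h]
      · obtain ⟨M, hM⟩ : ∃ M, 32 * N = M + 1 := ⟨32 * N - 1, by omega⟩
        have h3 : 32 * N - 1 = M := by omega
        rw [h3] at h1
        nlinarith
    rw [h2, pow_add, mul_assoc, ← mul_pow]
    norm_num
  rw [hK, hC, hpow, Finset.prod_congr rfl fun k _ => hV k, Finset.prod_mul_distrib (s := univ)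
    (f := fun k => s k ^ (5 * N) * (1 - s k) ^ (2 * N)), add_comm (En (ptC x s) _ / 2), Real.exp_add]
  have hle : ∏ i, 2 / |x i| ≤ ∏ i, 2 * |yy (x i)| := by
    refine Finset.prod_le_prod (fun i _ => by positivity) fun i _ => ?_
    have e : yy (x i) = (x i ^ 2 + 1) / x i := by have := hx0 i; unfold yy; field_simp
    have hxp : 0 < |x i| := abs_pos.mpr (hx0 i)
    rw [e, abs_div, abs_of_pos (by positivity : 0 < x i ^ 2 + 1), ← mul_div_assoc]
    exact div_le_div_of_nonneg_right (by nlinarith [sq_nonneg (x i)]) hxp.le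
  have hpos : 0 ≤ ∏ k, s k ^ (5 * N) * (1 - s k) ^ (2 * N) :=
    Finset.prod_nonneg fun k _ =>
      mul_nonneg (pow_nonneg (hs.2 k).1.le _) (pow_nonneg (by linarith [(hs.2 k).2]) _)
  calc _ = (∏ i, 2 / |x i|) * (((∏ k, s k ^ (5 * N) * (1 - s k) ^ (2 * N)) *
        ∏ _k : Fin (32 * N), ((1 : ℝ) / 2) ^ (16 * N)) * 2 ^ (16 * N) *
        (Real.exp (En (fun k => ((2 * s k : ℝ) : ℂ)) (fun _ => 1) / 2) *
          Real.exp (En (ptC x s) (chC (32 * N)) / 2))) := by ring
    _ ≤ (∏ i, 2 * |yy (x i)|) * (((∏ k, s k ^ (5 * N) * (1 - s k) ^ (2 * N)) *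
        ∏ _k : Fin (32 * N), ((1 : ℝ) / 2) ^ (16 * N)) * 2 ^ (16 * N) *
        (Real.exp (En (fun k => ((2 * s k : ℝ) : ℂ)) (fun _ => 1) / 2) *
          Real.exp (En (ptC x s) (chC (32 * N)) / 2))) :=
        mul_le_mul_of_nonneg_right hle (by positivity)
    _ = _ := by ring

/-- `tt x = 2 / yy x`. -/
theorem detPsi_eq {N : ℕ} {x : Fin (32 * N) → ℝ} (hx : GoodX x) :
    |detPsi N x| = (∏ i, Real.exp (N * V1 (yy (x i)))) *
      ‖(Matrix.of fun r i : Fin (32 * N) =>
        ((psi (((r : ℕ) : ℤ) - 3 * N) (x i) : ℝ) : ℂ)).det‖ := by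
  have h1 : ((detPsi N x : ℝ) : ℂ) = (Matrix.of fun r i : Fin (32 * N) =>
      (((1 - tt (x i)) ^ (2 * N) * tt (x i) ^ (42 * N) : ℝ) : ℂ) *
      (Matrix.of fun r i : Fin (32 * N) =>
        ((psi (((r : ℕ) : ℤ) - 3 * N) (x i) : ℝ) : ℂ)) r i).det := by
    rw [detPsi]
    refine (RingHom.map_det Complex.ofRealHom _).trans ?_
    congr 1
    ext r i
    simp only [RingHom.mapMatrix_apply, Matrix.map_apply, Matrix.of_apply,
      Complex.ofRealHom_eq_coe, Psi]
    push_cast; ring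
  rw [← Real.norm_eq_abs, ← Complex.norm_real, h1, Matrix.det_mul_row, norm_mul, norm_prod]
  congr 1
  refine Finset.prod_congr rfl fun i _ => ?_
  have h0 := (hx.2 i).2.2.1
  have hy := abs_yy (hx.2 i).1 (hx.2 i).2.1 h0
  have hy0 : yy (x i) ≠ 0 := abs_pos.mp (by linarith)
  have hy2 : yy (x i) - 2 ≠ 0 := fun h => by
    rw [sub_eq_zero.mp h, abs_two] at hy; exact lt_irrefl _ hy
  have ht : tt (x i) = 2 / yy (x i) := by
    have : 0 < x i ^ 2 + 1 := by positivity
    unfold tt yy; field_simp; ring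
  have ht1 : 1 - tt (x i) = (yy (x i) - 2) / yy (x i) := by rw [ht]; field_simp
  have e1 : (N : ℝ) * V1 (yy (x i)) = ((2 * N : ℕ) : ℝ) * Real.log |1 - tt (x i)| +
      ((42 * N : ℕ) : ℝ) * Real.log |tt (x i)| := by
    rw [ht1, ht, abs_div, abs_div, abs_two, Real.log_div (abs_ne_zero.mpr hy2) (abs_ne_zero.mpr hy0),
      Real.log_div two_ne_zero (abs_ne_zero.mpr hy0), V1]
    push_cast; ring
  rw [Complex.norm_real, Real.norm_eq_abs, abs_mul, abs_pow, abs_pow, e1, Real.exp_add,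
    Real.exp_nat_mul, Real.exp_nat_mul, Real.exp_log, Real.exp_log]
  · rw [ht]; exact abs_pos.mpr (div_ne_zero two_ne_zero hy0)
  · rw [ht1]; exact abs_pos.mpr (div_ne_zero hy2 hy0)

end Crest.Agent.R6
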