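import Crest.Agent.R6.Defs2

/-! Conditional negativity of `log |z - conj z'|` on the upper half plane, and the energy
inequality on a line.
`en_cnd`: Cayley `w = (z-i)/(z+i)`, `|z - conj z'| = |1 - w conj w'| |z+i| |z'+i|/2`,
`log|1 - w conj w'| = -∑_m Re (w conj w')^m/m` (`Complex.hasSum_taylorSeries_neg_log`), and
`∑ c c' Re(w^m conj w'^m) = |∑ c w^m|² ≥ 0`.
`cross_cnd`: apply `en_cnd` to `z²` with charges `c`; to the family `z, -conj z` with charges
`a, -a`; to the family `i conj z`, `-conj(i conj z)` with charges `b, -b`.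
`line_energy`: lift `p i` to `p i + i θ r i`, add the poles with charges `-lam β`. -/

set_option autoImplicit false

namespace Crest.Agent.R6
open Finset ComplexConjugate

namespace ENX

theorem disc {ι : Type} [Fintype ι] (w : ι → ℂ) (hw : ∀ i, ‖w i‖ < 1) (c : ι → ℝ) :
    ∑ i, ∑ j, c i * c j * Real.log ‖1 - w i * conj (w j)‖ ≤ 0 := by
  have h1 : ∀ i j, HasSum (fun m : ℕ => c i * c j * ((w i * conj (w j)) ^ m / m).re)
      (c i * c j * -Real.log ‖1 - w i * conj (w j)‖) := fun i j => by
    have h2 : ‖w i * conj (w j)‖ < 1 := by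
      rw [norm_mul, Complex.norm_conj]
      exact mul_lt_one_of_nonneg_of_lt_one_left (norm_nonneg _) (hw i) (hw j).le
    have h3 := Complex.hasSum_re (Complex.hasSum_taylorSeries_neg_log h2)
    rw [Complex.neg_re, Complex.log_re] at h3
    exact h3.mul_left _
  have h2 := (hasSum_sum fun i (_ : i ∈ univ) => hasSum_sum fun j (_ : j ∈ univ) => h1 i j).nonneg fun m => by
    have h3 : ∑ i, ∑ j, c i * c j * ((w i * conj (w j)) ^ m / m).re =
        ((∑ i, c i * w i ^ m) * conj (∑ i, c i * w i ^ m) / m).re := by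
      rw [map_sum, Finset.sum_mul_sum, Finset.sum_div, Complex.re_sum]
      refine Finset.sum_congr rfl fun i _ => ?_
      rw [Finset.sum_div, Complex.re_sum]
      refine Finset.sum_congr rfl fun j _ => ?_
      rw [← Complex.re_ofReal_mul]
      congr 1
      simp only [map_mul, Complex.conj_ofReal, map_pow, mul_pow]
      push_cast
      ring
    rw [h3, Complex.mul_conj, ← Complex.ofReal_natCast, ← Complex.ofReal_div, Complex.ofReal_re]
    exact div_nonneg (Complex.normSq_nonneg _) m.cast_nonneg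
  simp only [mul_neg, Finset.sum_neg_distrib] at h2
  linarith

theorem log_lip {a b m t : ℝ} (hm : 0 < m) (ha : m ≤ a) (hb : m ≤ b) (h : |a - b| ≤ t) :
    |Real.log a - Real.log b| ≤ t / m := by
  have key : ∀ {a b : ℝ}, m ≤ a → m ≤ b → |a - b| ≤ t → Real.log a - Real.log b ≤ t / m := fun {a b} ha hb h => by
    have ha0 : 0 < a := hm.trans_le ha
    have hb0 : 0 < b := hm.trans_le hb
    rw [← Real.log_div ha0.ne' hb0.ne']
    refine (Real.log_le_sub_one_of_pos (div_pos ha0 hb0)).trans ?_
    rw [div_sub_one hb0.ne']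
    exact div_le_div₀ ((abs_nonneg _).trans h) ((le_abs_self _).trans h) hm hb
  refine abs_le.2 ⟨?_, key ha hb h⟩
  have := key hb ha (by rwa [abs_sub_comm])
  linarith

end ENX
open ENX

theorem en_cnd {ι : Type} [Fintype ι] (z : ι → ℂ) (hz : ∀ i, 0 < (z i).im) (c : ι → ℝ)
    (hc : ∑ i, c i = 0) : ∑ i, ∑ j, c i * c j * Real.log ‖z i - conj (z j)‖ ≤ 0 := by
  have hI : ∀ i, z i + Complex.I ≠ 0 := fun i h => by
    have := congrArg Complex.im h
    simp at this
    linarith [hz i]
  have hw : ∀ i, ‖(z i - Complex.I) / (z i + Complex.I)‖ < 1 := fun i => by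
    rw [norm_div, div_lt_one (norm_pos_iff.2 (hI i))]
    refine lt_of_pow_lt_pow_left₀ 2 (norm_nonneg _) ?_
    rw [Complex.sq_norm, Complex.sq_norm, Complex.normSq_apply, Complex.normSq_apply]
    simp
    nlinarith [hz i]
  have h := disc _ hw c
  have e : ∀ i j, Real.log ‖1 - (z i - Complex.I) / (z i + Complex.I) * conj ((z j - Complex.I) / (z j + Complex.I))‖ =
      Real.log ‖z i - conj (z j)‖ + Real.log 2 - Real.log ‖z i + Complex.I‖ - Real.log ‖z j + Complex.I‖ :=
    fun i j => by
      have h1 := hI i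
      have h2 : conj (z j + Complex.I) ≠ 0 := (map_ne_zero _).2 (hI j)
      have h3 : z i - conj (z j) ≠ 0 := fun h => by
        have := congrArg Complex.im h
        simp at this
        linarith [hz i, hz j]
      have h4 : 1 - (z i - Complex.I) / (z i + Complex.I) * conj ((z j - Complex.I) / (z j + Complex.I)) =
          (z i - conj (z j)) * (2 * -Complex.I) / (z i + Complex.I) / conj (z j + Complex.I) := by
        rw [map_div₀]
        field_simp
        simp only [map_add, map_sub, Complex.conj_I]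
        ring
      have h5 := norm_pos_iff.2 h1
      have h6 := norm_pos_iff.2 (hI j)
      have h7 := norm_pos_iff.2 h3
      rw [h4, norm_div, norm_div, norm_mul, Complex.norm_conj, Real.log_div (by simp [h1, h3]) h6.ne',
        Real.log_div (by simp [h3]) h5.ne', Real.log_mul h7.ne' (by simp)]
      simp
  have e1 : ∀ f : ι → ℝ, ∑ i, ∑ j, c i * c j * f i = 0 := fun f => by
    refine Finset.sum_eq_zero fun i _ => ?_
    rw [← Finset.sum_mul, ← Finset.mul_sum, hc, mul_zero, zero_mul]
  have e2 : ∀ f : ι → ℝ, ∑ i, ∑ j, c i * c j * f j = 0 := fun f => by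
    rw [Finset.sum_comm]
    simpa only [mul_comm (c _) (c _)] using e1 f
  simp only [e, mul_sub, mul_add, Finset.sum_sub_distrib, Finset.sum_add_distrib, e1, e2] at h
  linarith

theorem ENX.half {ι : Type} [Fintype ι] (z : ι → ℂ) (hz : ∀ i, 0 < (z i).im) (a : ι → ℝ) :
    ∑ i, ∑ j, a i * a j * (Real.log ‖z i - conj (z j)‖ - Real.log ‖z i + z j‖) ≤ 0 := by
  have h := en_cnd (Sum.elim z fun i => -conj (z i)) (by rintro (i | i) <;> simp [hz]) (Sum.elim a fun i => -a i)
    (by simp)
  have e1 : ∀ i j, ‖-conj (z i) - conj (z j)‖ = ‖z i + z j‖ := fun i j => by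
    rw [← neg_add', norm_neg, ← map_add, Complex.norm_conj]
  have e2 : ∀ i j, ‖-conj (z i) + z j‖ = ‖z i - conj (z j)‖ := fun i j => by
    rw [← Complex.norm_conj, ← norm_neg]
    simp [sub_eq_add_neg, add_comm]
  simp only [Fintype.sum_sum_type, Sum.elim_inl, Sum.elim_inr, map_neg, Complex.conj_conj, sub_neg_eq_add, e1, e2,
    mul_neg, neg_mul, neg_neg, Finset.sum_add_distrib, Finset.sum_neg_distrib] at h
  simp only [mul_sub, Finset.sum_sub_distrib]
  linarith

theorem cross_cnd {ι : Type} [Fintype ι] (z : ι → ℂ) (hz : ∀ i, 0 < (z i).re ∧ 0 < (z i).im)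
    (c a b : ι → ℝ) (hc : ∑ i, c i = 0) :
    ∑ i, ∑ j, (c i * c j * Real.log ‖z i ^ 2 - conj (z j) ^ 2‖
      + a i * a j * (Real.log ‖z i - conj (z j)‖ - Real.log ‖z i + z j‖)
      + b i * b j * (Real.log ‖z i + conj (z j)‖ - Real.log ‖z i + z j‖)) ≤ 0 := by
  have h1 := en_cnd (fun i => z i ^ 2) (fun i => by
    have := mul_pos (hz i).1 (hz i).2
    simp only [sq, Complex.mul_im]
    linarith) c hc
  have h2 := ENX.half z (fun i => (hz i).2) a
  have h3 := ENX.half (fun i => Complex.I * conj (z i)) (fun i => by simpa using (hz i).1) b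
  have e1 : ∀ i j, ‖Complex.I * conj (z i) - conj (Complex.I * conj (z j))‖ = ‖z i + conj (z j)‖ := fun i j => by
    rw [← Complex.norm_conj (z i + _), map_mul, Complex.conj_I, neg_mul, sub_neg_eq_add, ← mul_add, norm_mul,
      Complex.norm_I, one_mul, map_add]
  have e2 : ∀ i j, ‖Complex.I * conj (z i) + Complex.I * conj (z j)‖ = ‖z i + z j‖ := fun i j => by
    rw [← mul_add, norm_mul, Complex.norm_I, one_mul, ← map_add, Complex.norm_conj]
  simp only [e1, e2] at h3
  simp only [map_pow] at h1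
  simp only [Finset.sum_add_distrib]
  linarith

theorem line_energy (A : Pol) {ε : ℝ} (hε : 0 < ε) : ∃ c : ℝ,
    ∀ (ι : Type) [Fintype ι] (p ch r : ι → ℝ) (lam : ℝ), Function.Injective p → 0 ≤ lam →
      (∀ i, ch i = 1 ∨ ch i = -1) → ∑ i, ch i = lam * A.mass → (∀ i, 0 < r i ∧ r i ≤ 1) →
      (∀ i j, ch i = 1 → ch j = -1 → r i + r j ≤ |p i - p j|) →
      En (fun i => (p i : ℂ)) ch ≤ 2 * lam * ∑ i, ch i * A.U (p i) - lam ^ 2 * A.ELine
        + ε * (Fintype.card ι + lam) ^ 2 + ∑ i, (c - Real.log (r i)) := by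
  classical
  set K : ℝ := ∑ k, |A.β k| / (A.Y k).im with hK
  have hK0 : 0 ≤ K := Finset.sum_nonneg fun k _ => div_nonneg (abs_nonneg _) (A.im_pos k).le
  set θ : ℝ := ε / (1 + K) with hθ
  have hθ0 : 0 < θ := by positivity
  have hθ1 : θ + θ * K = ε := by rw [hθ]; field_simp
  refine ⟨-Real.log (2 * θ), fun ι _ p ch r lam hp hl hch hm hr hsep => ?_⟩
  have habs : ∀ i, |ch i| = 1 := fun i => by rcases hch i with h | h <;> simp [h]
  set z : ι → ℂ := fun i => p i + (θ * r i : ℝ) * Complex.I with hz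
  have h := en_cnd (Sum.elim z A.Y) (by
      rintro (i | k)
      · simpa [hz] using mul_pos hθ0 (hr i).1
      · exact A.im_pos k) (Sum.elim ch fun k => -(lam * A.β k))
    (by simp [hm, Pol.mass, Finset.mul_sum])
  simp only [Fintype.sum_sum_type, Sum.elim_inl, Sum.elim_inr, Finset.sum_add_distrib] at h
  -- the particle-particle part
  have h1 : ∀ i j, ch i * ch j * Real.log ‖(p i : ℂ) - p j‖ +
      (if i = j then Real.log (2 * θ) + Real.log (r i) else 0) - θ ≤
      ch i * ch j * Real.log ‖z i - conj (z j)‖ := fun i j => by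
    have e : z i - conj (z j) = ((p i - p j : ℝ) : ℂ) + (θ * (r i + r j) : ℝ) * Complex.I := by
      simp only [hz, map_add, map_mul, Complex.conj_ofReal, Complex.conj_I]
      push_cast
      ring
    have hri := (hr i).1
    have hrj := (hr j).1
    rw [e, ← Complex.ofReal_sub]
    split_ifs with hij
    · subst hij
      have a1 : ch i * ch i = 1 := by rcases hch i with h | h <;> simp [h]
      rw [a1, sub_self, Complex.ofReal_zero, zero_add, norm_zero, Real.log_zero, norm_mul, Complex.norm_I, mul_one,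
        Complex.norm_real, Real.norm_of_nonneg (by positivity), ← Real.log_mul (by positivity) hri.ne',
        show 2 * θ * r i = θ * (r i + r i) by ring]
      linarith
    · have a0 : 0 < |p i - p j| := abs_pos.2 (sub_ne_zero.2 fun h => hij (hp h))
      have a1 : |p i - p j| ≤ ‖((p i - p j : ℝ) : ℂ) + (θ * (r i + r j) : ℝ) * Complex.I‖ := by
        simpa using Complex.abs_re_le_norm (((p i - p j : ℝ) : ℂ) + (θ * (r i + r j) : ℝ) * Complex.I)
      have a2 := Real.log_le_log a0 a1
      have a3 : r i + r j ≤ |p i - p j| → Real.log ‖((p i - p j : ℝ) : ℂ) + (θ * (r i + r j) : ℝ) * Complex.I‖ ≤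
          Real.log |p i - p j| + θ := fun hs => by
        have b1 : ‖((p i - p j : ℝ) : ℂ) + (θ * (r i + r j) : ℝ) * Complex.I‖ ≤ |p i - p j| * (1 + θ) := by
          refine (norm_add_le _ _).trans ?_
          rw [norm_mul, Complex.norm_I, mul_one, Complex.norm_real, Complex.norm_real, Real.norm_eq_abs,
            Real.norm_of_nonneg (by positivity)]
          nlinarith
        refine (Real.log_le_log (a0.trans_le a1) b1).trans ?_
        rw [Real.log_mul a0.ne' (by positivity)]
        have := Real.log_le_sub_one_of_pos (show 0 < 1 + θ by positivity)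
        linarith
      rw [Complex.norm_real, Real.norm_eq_abs]
      rcases hch i with hi | hi <;> rcases hch j with hj | hj <;> rw [hi, hj]
      · linarith
      · linarith [a3 (hsep i j hi hj)]
      · linarith [a3 (by rw [add_comm, abs_sub_comm]; exact hsep j i hj hi)]
      · linarith
  have h2 : En (fun i => (p i : ℂ)) ch + ∑ i, (Real.log (2 * θ) + Real.log (r i)) - θ * (Fintype.card ι) ^ 2 ≤
      ∑ i, ∑ j, ch i * ch j * Real.log ‖z i - conj (z j)‖ := by
    refine le_trans (le_of_eq ?_) (Finset.sum_le_sum fun i _ => Finset.sum_le_sum fun j _ => h1 i j)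
    simp only [Finset.sum_sub_distrib, Finset.sum_add_distrib, Finset.sum_ite_eq, Finset.mem_univ, if_true, En,
      Finset.sum_const, Finset.card_univ, nsmul_eq_mul]
    ring
  -- the particle-pole part
  have h3 : ∀ i, ch i * ∑ k, A.β k * Real.log ‖z i - conj (A.Y k)‖ ≤ ch i * A.U (p i) + θ * K := fun i => by
    rw [← sub_le_iff_le_add', ← mul_sub]
    refine (le_abs_self _).trans ?_
    rw [abs_mul, habs, one_mul, Pol.U, ← Finset.sum_sub_distrib, hK, Finset.mul_sum]
    refine (Finset.abs_sum_le_sum_abs _ _).trans (Finset.sum_le_sum fun k _ => ?_)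
    have e : ‖(p i : ℂ) - A.Y k‖ = ‖(p i : ℂ) - conj (A.Y k)‖ := by
      rw [← Complex.norm_conj, map_sub, Complex.conj_ofReal]
    rw [Complex.conj_ofReal, add_self_div_two, ← mul_sub, abs_mul, e, mul_div_left_comm]
    have hri := hr i
    refine mul_le_mul_of_nonneg_left (log_lip (A.im_pos k) ?_ ?_ ?_) (abs_nonneg _)
    · refine le_trans ?_ (Complex.im_le_norm _)
      have := mul_pos hθ0 hri.1
      simp [hz]
      linarith
    · refine le_trans ?_ (Complex.im_le_norm _)
      simp
    · refine (abs_norm_sub_norm_le _ _).trans ?_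
      rw [sub_sub_sub_cancel_right, hz]
      simp only [add_sub_cancel_left, norm_mul, Complex.norm_I, mul_one, Complex.norm_real]
      rw [Real.norm_of_nonneg hθ0.le, Real.norm_of_nonneg hri.1.le]
      exact mul_le_of_le_one_right hθ0.le hri.2
  have h4 := Finset.sum_le_sum fun i (_ : i ∈ univ) => h3 i
  have e1 : ∑ i, ∑ k, ch i * -(lam * A.β k) * Real.log ‖z i - conj (A.Y k)‖ =
      -(lam * ∑ i, ch i * ∑ k, A.β k * Real.log ‖z i - conj (A.Y k)‖) := by
    simp only [Finset.mul_sum, ← Finset.sum_neg_distrib]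
    exact Finset.sum_congr rfl fun i _ => Finset.sum_congr rfl fun k _ => by ring
  have e2 : ∑ k, ∑ i, -(lam * A.β k) * ch i * Real.log ‖A.Y k - conj (z i)‖ =
      -(lam * ∑ i, ch i * ∑ k, A.β k * Real.log ‖z i - conj (A.Y k)‖) := by
    rw [Finset.sum_comm, ← e1]
    refine Finset.sum_congr rfl fun i _ => Finset.sum_congr rfl fun k _ => ?_
    rw [← Complex.norm_conj (A.Y k - _), map_sub, Complex.conj_conj, norm_sub_rev]
    ring
  have e3 : ∑ j, ∑ k, -(lam * A.β j) * -(lam * A.β k) * Real.log ‖A.Y j - conj (A.Y k)‖ = lam ^ 2 * A.ELine := by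
    simp only [Pol.ELine, Finset.mul_sum]
    exact Finset.sum_congr rfl fun i _ => Finset.sum_congr rfl fun k _ => by ring
  rw [e1, e2, e3] at h
  simp only [Finset.sum_add_distrib, Finset.sum_const, Finset.card_univ, nsmul_eq_mul] at h4 h2
  simp only [Finset.sum_sub_distrib, Finset.sum_const, Finset.card_univ, nsmul_eq_mul]
  have h5 := mul_le_mul_of_nonneg_left h4 hl
  have hn : (0 : ℝ) ≤ Fintype.card ι := Nat.cast_nonneg _
  have h6 : θ * (Fintype.card ι) ^ 2 + 2 * (lam * (Fintype.card ι * (θ * K))) ≤ ε * (Fintype.card ι + lam) ^ 2 := by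
    rw [← hθ1]
    have a1 := mul_nonneg hθ0.le hK0
    have a2 := mul_nonneg hn hl
    nlinarith [mul_nonneg a1 (sq_nonneg (Fintype.card ι : ℝ)), mul_nonneg a1 (sq_nonneg lam),
      mul_nonneg hθ0.le a2, mul_nonneg hθ0.le (sq_nonneg lam)]
  nlinarith

end Crest.Agent.R6
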