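import Crest.Agent.R6.Dets

/-! One-body bounds including the lower-order terms.  Trick: `N F + low = (N-1) F + (F + low)` with
`F ≤ l` and `F + low` bounded above (crude bounds `U_abs`, `U_seg`).
In `oneS`, for `2 < y < 10/3 - 1/1000` with `F y > l`: `F y ≤ c + 2 log|y-2|` forces `y ≥ 2 + δ1`, so
`x ≤ q < 1` (`y - 2 = (1-x)²/x`, `x > 1/3`), `|(y-c0)/r0| ≤ q < 1`, and `q^(N²) exp(N c)` is tiny. -/

set_option autoImplicit false

namespace Crest.Agent.R6
open Filter

namespace One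

theorem U_real (A : Pol) (y : ℝ) : A.U y = ∑ j, A.β j * Real.log ‖(y : ℂ) - A.Y j‖ := by
  unfold Pol.U
  refine Finset.sum_congr rfl fun j _ => ?_
  rw [Complex.conj_ofReal]
  ring

theorem im_le (Y : ℂ) (y : ℝ) : Y.im ≤ ‖(y : ℂ) - Y‖ := by
  have h := Complex.abs_im_le_norm ((y : ℂ) - Y)
  simp only [Complex.sub_im, Complex.ofReal_im, zero_sub, abs_neg] at h
  exact (le_abs_self _).trans h

theorem norm_le (Y : ℂ) (y : ℝ) : ‖(y : ℂ) - Y‖ ≤ |y| + ‖Y‖ := by
  have h := norm_sub_le (y : ℂ) Y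
  rwa [Complex.norm_real, Real.norm_eq_abs] at h

theorem abs_le_norm (Y : ℂ) (y : ℝ) : |y| ≤ ‖(y : ℂ) - Y‖ + ‖Y‖ := by
  have h := norm_add_le ((y : ℂ) - Y) Y
  rwa [sub_add_cancel, Complex.norm_real, Real.norm_eq_abs] at h

theorem lm_real (y a : ℝ) : lm ((y : ℂ) - (a : ℂ)) = Real.log (min |y - a| 1) := by
  unfold lm
  rw [← Complex.ofReal_sub, Complex.norm_real, Real.norm_eq_abs]

theorem lm_two (y : ℝ) : lm ((y : ℂ) - 2) = Real.log (min |y - 2| 1) := by
  have := lm_real y 2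
  simpa using this

theorem lm_nonpos (z : ℂ) : lm z ≤ 0 :=
  Real.log_nonpos (le_min (norm_nonneg _) zero_le_one) (min_le_right _ _)

end One
open One

theorem U_abs (A : Pol) : ∃ c : ℝ, ∀ y : ℝ, 2 ≤ |y| → abs (A.U y - A.mass * Real.log |y|) ≤ c := by
  refine ⟨∑ j, |A.β j| * (Real.log (1 + ‖A.Y j‖) + Real.log (1 + ‖A.Y j‖ / (A.Y j).im)),
    fun y hy => ?_⟩
  rw [U_real, Pol.mass, Finset.sum_mul, ← Finset.sum_sub_distrib]
  refine (Finset.abs_sum_le_sum_abs _ _).trans (Finset.sum_le_sum fun j _ => ?_)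
  rw [← mul_sub, abs_mul]
  refine mul_le_mul_of_nonneg_left ?_ (abs_nonneg _)
  have hi := A.im_pos j
  have h1 := im_le (A.Y j) y
  have h2 := norm_le (A.Y j) y
  have h3 := abs_le_norm (A.Y j) y
  have hY := norm_nonneg (A.Y j)
  have hd : 0 ≤ ‖A.Y j‖ / (A.Y j).im := div_nonneg hY hi.le
  have hp : 0 < ‖(y : ℂ) - A.Y j‖ := hi.trans_le h1
  have ha : 0 ≤ Real.log (1 + ‖A.Y j‖) := Real.log_nonneg (by linarith)
  have hb : 0 ≤ Real.log (1 + ‖A.Y j‖ / (A.Y j).im) := Real.log_nonneg (by linarith)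
  have h4 : Real.log ‖(y : ℂ) - A.Y j‖ ≤ Real.log |y| + Real.log (1 + ‖A.Y j‖) := by
    rw [← Real.log_mul (by linarith) (by linarith)]
    exact Real.log_le_log hp (by nlinarith)
  have h5 : Real.log |y| ≤ Real.log ‖(y : ℂ) - A.Y j‖ + Real.log (1 + ‖A.Y j‖ / (A.Y j).im) := by
    rw [← Real.log_mul hp.ne' (by linarith)]
    refine Real.log_le_log (by linarith) ?_
    have h6 : ‖A.Y j‖ = (A.Y j).im * (‖A.Y j‖ / (A.Y j).im) := by field_simp
    have h7 := mul_le_mul_of_nonneg_right h1 hd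
    nlinarith
  rw [abs_le]
  constructor <;> linarith

theorem U_seg (A : Pol) : ∃ c : ℝ, ∀ y : ℝ, |y| ≤ 2 → |A.U y| ≤ c := by
  refine ⟨∑ j, |A.β j| * (|Real.log (A.Y j).im| + |Real.log (2 + ‖A.Y j‖)|), fun y hy => ?_⟩
  rw [U_real]
  refine (Finset.abs_sum_le_sum_abs _ _).trans (Finset.sum_le_sum fun j _ => ?_)
  rw [abs_mul]
  refine mul_le_mul_of_nonneg_left ?_ (abs_nonneg _)
  have hi := A.im_pos j
  have h1 := im_le (A.Y j) y
  have h2 := norm_le (A.Y j) y
  have h4 := Real.log_le_log hi h1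
  have h5 : Real.log ‖(y : ℂ) - A.Y j‖ ≤ Real.log (2 + ‖A.Y j‖) :=
    Real.log_le_log (hi.trans_le h1) (by linarith)
  have h6 := neg_abs_le (Real.log (A.Y j).im)
  have h7 := le_abs_self (Real.log (2 + ‖A.Y j‖))
  have h8 := abs_nonneg (Real.log (A.Y j).im)
  have h9 := abs_nonneg (Real.log (2 + ‖A.Y j‖))
  rw [abs_le]
  constructor <;> linarith

namespace One

/-- crude bounds for `F` and `F + low`. -/
theorem crude (P Q : Pol) (hP : P.mass ≤ 40) (hQ : Q.mass = 0) : ∃ c : ℝ, ∀ y : ℝ, 2 < |y| →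
    P.U y + Q.U y + V1 y ≤ c + 2 * Real.log |y - 2| ∧
    P.U y + Q.U y + V1 y + 2 * Real.log |y| - lm ((y : ℂ) - 2) ≤ c := by
  obtain ⟨c1, h1⟩ := U_abs P
  obtain ⟨c2, h2⟩ := U_abs Q
  refine ⟨c1 + c2 + 44 * Real.log 2, fun y hy => ?_⟩
  have h3 := (abs_le.1 (h1 y hy.le)).2
  have h4 := (abs_le.1 (h2 y hy.le)).2
  rw [hQ, zero_mul, sub_zero] at h4
  have hl : 0 ≤ Real.log |y| := Real.log_nonneg (by linarith)
  have h5 : P.mass * Real.log |y| ≤ 40 * Real.log |y| := mul_le_mul_of_nonneg_right hP hl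
  have hl2 : 0 ≤ Real.log 2 := Real.log_nonneg (by norm_num)
  have hne : 0 < |y - 2| := by
    rw [abs_pos, sub_ne_zero]
    rintro rfl
    norm_num at hy
  have h6 : Real.log |y - 2| ≤ Real.log 2 + Real.log |y| := by
    rw [← Real.log_mul (by norm_num) (by linarith)]
    refine Real.log_le_log hne ?_
    have := abs_sub y 2
    rw [abs_two] at this
    linarith
  unfold V1
  rw [lm_two]
  refine ⟨by linarith, ?_⟩
  rcases le_total |y - 2| 1 with h | h
  · rw [min_eq_left h]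
    have := Real.log_nonpos hne.le h
    linarith
  · rw [min_eq_right h, Real.log_one]
    linarith

theorem trick {N : ℕ} (hN : 1 ≤ N) {F low l c : ℝ} (h1 : F ≤ l) (h2 : F + low ≤ c) :
    N * F + low ≤ N * l + (c - l) := by
  have h : (1 : ℝ) ≤ N := by exact_mod_cast hN
  nlinarith

end One

theorem oneS (cert : Cert) : ∃ c : ℝ, ∀ᶠ N : ℕ in atTop, ∀ x e : ℝ, -1 < x → x < 1 → x ≠ 0 →
    |e| ≤ 1 → (0 < x → |e| ≤ max (x ^ (N ^ 2)) (|(yy x - c0) / r0| ^ (N ^ 2))) →
    |e| * Real.exp (N * (cert.A.U (yy x : ℝ) + cert.C.U (yy x : ℝ) + V1 (yy x))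
      + 2 * Real.log |yy x| - lm ((yy x : ℝ) - 2)) ≤ Real.exp (N * cert.l + c) := by
  obtain ⟨c, hc⟩ := crude cert.A cert.C (by rw [cert.mA]; norm_num) cert.mC
  set δ : ℝ := Real.exp ((cert.l - c) / 2) with hδ
  have hδ0 : 0 < δ := Real.exp_pos _
  set q : ℝ := max (1 - δ / 3) (999 / 1000) with hq
  have hq0 : 0 < q := lt_of_lt_of_le (by norm_num) (le_max_right _ _)
  have hq1 : q < 1 := max_lt (by linarith) (by norm_num)
  have hlq : Real.log q < 0 := Real.log_neg hq0 hq1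
  set c2 : ℝ := c + 2 * Real.log 2 with hc2
  refine ⟨max (c - cert.l) (c - c2), ?_⟩
  have hev : ∀ᶠ N : ℕ in atTop, (c2 - cert.l) / (-Real.log q) ≤ N :=
    tendsto_natCast_atTop_atTop.eventually_ge_atTop _
  filter_upwards [hev, eventually_ge_atTop 1] with N hN hN1 x e hx1 hx2 hx0 he1 he2
  have hy := abs_yy hx1 hx2 hx0
  obtain ⟨hF1, hF2⟩ := hc (yy x) hy
  set F : ℝ := cert.A.U (yy x : ℝ) + cert.C.U (yy x : ℝ) + V1 (yy x) with hF
  have hF2' : F + (2 * Real.log |yy x| - lm ((yy x : ℝ) - 2)) ≤ c := by linarith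
  by_cases hl : F ≤ cert.l
  · have h1 := trick hN1 hl hF2'
    refine (mul_le_of_le_one_left (Real.exp_pos _).le he1).trans (Real.exp_le_exp.2 ?_)
    have := le_max_left (c - cert.l) (c - c2)
    linarith
  · have hns : ¬ (yy x ≤ -2 ∨ 10 / 3 - 1 / 1000 ≤ yy x) := fun h => hl (cert.hS _ h)
    push Not at hns hl
    obtain ⟨hy1, hy2⟩ := hns
    have hy3 : 2 < yy x := by
      rcases lt_abs.1 hy with h | h
      · exact h
      · linarith
    have hxp : 0 < x := by
      rcases lt_or_gt_of_ne hx0 with h | h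
      · exfalso
        have : 1 / x < 0 := one_div_neg.2 h
        unfold yy at hy3
        linarith
      · exact h
    rw [abs_of_pos (by linarith : 0 < yy x - 2)] at hF1
    have hδy : δ ≤ yy x - 2 := by
      rw [hδ, ← Real.le_log_iff_exp_le (by linarith)]
      linarith
    have hxy : x * yy x = x ^ 2 + 1 := by
      unfold yy
      field_simp
    have hx3 : 1 / 3 < x := by
      by_contra h
      push Not at h
      nlinarith
    have hxq : x ≤ q := by
      refine le_trans ?_ (le_max_left _ _)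
      nlinarith
    have hyq : |(yy x - c0) / r0| ≤ q := by
      refine le_trans ?_ (le_max_right _ _)
      unfold c0 r0
      rw [abs_le]
      constructor
      · rw [le_div_iff₀ (by norm_num)]
        linarith
      · rw [div_le_iff₀ (by norm_num)]
        linarith
    have heq : |e| ≤ Real.exp ((N : ℝ) ^ 2 * Real.log q) := by
      have h1 : |e| ≤ q ^ (N ^ 2) :=
        (he2 hxp).trans (max_le (pow_le_pow_left₀ hxp.le hxq _)
          (pow_le_pow_left₀ (abs_nonneg _) hyq _))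
      rwa [← Real.exp_log (pow_pos hq0 (N ^ 2)), Real.log_pow, Nat.cast_pow] at h1
    have hFc : F ≤ c2 := by
      have : Real.log (yy x - 2) ≤ Real.log 2 := Real.log_le_log (by linarith) (by linarith)
      linarith
    have h1 := trick hN1 hFc hF2'
    refine (mul_le_mul_of_nonneg_right heq (Real.exp_pos _).le).trans ?_
    rw [← Real.exp_add, Real.exp_le_exp]
    have h2 := le_max_right (c - cert.l) (c - c2)
    rw [div_le_iff₀ (by linarith)] at hN
    have hN0 : (0 : ℝ) ≤ N := Nat.cast_nonneg N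
    have h3 := mul_le_mul_of_nonneg_left hN hN0
    nlinarith

theorem oneP (cert : Cert) : ∃ c : ℝ, ∀ N : ℕ, 1 ≤ N → ∀ y : ℝ, 2 < y →
    N * (cert.B.U y + cert.C.U y + V1 y) + 2 * Real.log |y| - lm ((y : ℂ) - 2)
      ≤ N * (cert.l - cert.lw) + c := by
  obtain ⟨c, hc⟩ := crude cert.B cert.C (by rw [cert.mB]; norm_num) cert.mC
  refine ⟨c - (cert.l - cert.lw), fun N hN y hy => ?_⟩
  have h1 := (hc y (hy.trans_le (le_abs_self y))).2
  have h2 := trick (low := 2 * Real.log |y| - lm ((y : ℂ) - 2)) (c := c) hN (cert.hP y hy)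
    (by linarith)
  linarith

theorem oneSig (cert : Cert) : ∃ c : ℝ, ∀ N : ℕ, 1 ≤ N → ∀ σ : ℝ, 0 < σ → σ < 2 →
    N * (cert.D.U σ - cert.C.U σ + V2 σ) - lm ((σ : ℂ) - 2) ≤ N * cert.ls + c := by
  obtain ⟨c1, h1⟩ := U_seg cert.D
  obtain ⟨c2, h2⟩ := U_seg cert.C
  refine ⟨c1 + c2 - cert.ls, fun N hN σ h0 h2' => ?_⟩
  have ha : |σ| ≤ 2 := by rw [abs_of_pos h0]; exact h2'.le
  have h3 := (abs_le.1 (h1 σ ha)).2
  have h4 := (abs_le.1 (h2 σ ha)).1
  have hl2 : 0 ≤ Real.log 2 := Real.log_nonneg (by norm_num)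
  have h5 : Real.log (σ / 2) ≤ 0 := Real.log_nonpos (by linarith) (by linarith)
  have h6 : Real.log (1 - σ / 2) ≤ 0 := Real.log_nonpos (by linarith) (by linarith)
  have h7 : V2 σ - lm ((σ : ℂ) - 2) ≤ 0 := by
    unfold V2
    rw [lm_two, abs_of_neg (by linarith : σ - 2 < 0)]
    rcases le_total (-(σ - 2)) 1 with h | h
    · rw [min_eq_left h]
      have h8 : Real.log (-(σ - 2)) = Real.log 2 + Real.log (1 - σ / 2) := by
        rw [← Real.log_mul (by norm_num) (by linarith)]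
        congr 1
        ring
      linarith
    · rw [min_eq_right h, Real.log_one]
      linarith
  have h8 := trick (low := -lm ((σ : ℂ) - 2)) (c := c1 + c2) hN (cert.hs σ h0 h2') (by linarith)
  linarith

end Crest.Agent.R6
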