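import Crest.Agent.R6.Cross
import Crest.Agent.R6.Dets
import Crest.Agent.R6.OneBody

/-! The four energy inequalities added up (`lam = N`).  A, B: `cross_energy` on `ptAB` with `chA`,
`chB` (total charges `29N`, `3N`); C: `line_energy` on `Sum.elim (yy ∘ x) (2 s)` with
`r p = min |p-2| 1`; D: `line_energy` with `r = 1`.  Self terms: `|y - 8/5| ≥ 2/5`,
`|y - 10/3| = |x-1/3| |1 - 3/x| ≥ |x - 1/3|`, so `min(|y-10/3|,1) ≥ |x-1/3|/2`; nodes: `Nodes.sep`,
at most `29N` nodes, cost `O(N log N)`. -/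

set_option autoImplicit false

namespace Crest.Agent.R6
open Finset Filter One

theorem ptAB_inj {M n : ℕ} (nd : Nodes M) {x : Fin n → ℝ} (hx : GoodX x) :
    Function.Injective (ptAB x nd.η) := by
  have hne : ∀ i b, ((yy (x i) : ℝ) : ℂ) ≠ nd.η b := by
    intro i b h
    obtain ⟨h1, h2, h3, -⟩ := hx.2 i
    have h4 := abs_yy h1 h2 h3
    rcases nd.loc b with ⟨-, h5⟩ | ⟨-, h5⟩
    · rw [← h, Complex.ofReal_re] at h5
      linarith
    · rw [← h, Complex.ofReal_im] at h5
      exact h5 rfl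
  rintro (i | b) (j | b') h
  · simp only [ptAB, Sum.elim_inl, Complex.ofReal_inj] at h
    obtain ⟨h1, h2, h3, -⟩ := hx.2 i
    obtain ⟨h1', h2', h3', -⟩ := hx.2 j
    rw [hx.1 (yy_injOn ⟨h1, h2, h3⟩ ⟨h1', h2', h3'⟩ h)]
  · exact absurd h (hne i b')
  · exact absurd h.symm (hne j b)
  · rw [nd.inj h]

namespace E4

/-- `K (1 + log N) ≤ ε N` eventually. -/
theorem ev_log (K : ℝ) {ε : ℝ} (hε : 0 < ε) :
    ∀ᶠ N : ℕ in atTop, K * (1 + Real.log N) ≤ ε * N := by
  have hK : 0 < |K| + 1 := by positivity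
  have h1 := (Real.isLittleO_log_id_atTop.comp_tendsto tendsto_natCast_atTop_atTop).bound
    (show 0 < ε / (2 * (|K| + 1)) by positivity)
  have h2 : ∀ᶠ N : ℕ in atTop, 2 * (|K| + 1) / ε ≤ N :=
    tendsto_natCast_atTop_atTop.eventually_ge_atTop _
  filter_upwards [h1, h2] with N h1 h2
  simp only [Function.comp, id, Real.norm_eq_abs, Nat.abs_cast] at h1
  have h3 : 0 ≤ Real.log N := Real.log_natCast_nonneg N
  rw [abs_of_nonneg h3, div_mul_eq_mul_div, le_div_iff₀ (by positivity)] at h1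
  rw [div_le_iff₀ hε] at h2
  have h4 : K * (1 + Real.log N) ≤ (|K| + 1) * (1 + Real.log N) :=
    mul_le_mul_of_nonneg_right (by linarith [le_abs_self K]) (by linarith)
  nlinarith

variable {ι κ : Type} [Fintype ι] [Fintype κ] [DecidableEq ι] [DecidableEq κ]

theorem sumA (S : Finset ι) (T : Finset κ) (f : ι ⊕ κ → ℝ) :
    ∑ i, chA S T i * f i = ∑ i ∈ S, f (Sum.inl i) + ∑ b ∈ T, f (Sum.inr b) := by
  simp [chA, Fintype.sum_sum_type, Finset.sum_ite_mem]

theorem absA (S : Finset ι) (T : Finset κ) (i : ι ⊕ κ) : |chA S T i| = chA S T i := by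
  rcases i with i | b <;> simp only [chA, Sum.elim_inl, Sum.elim_inr] <;> split_ifs <;> simp

theorem sum_compl_ite (S : Finset ι) (f : ι → ℝ) :
    ∑ i, (if i ∈ S then 0 else f i) = ∑ i ∈ Sᶜ, f i := by
  rw [← Finset.sum_add_sum_compl S, Finset.sum_eq_zero fun i hi => if_pos hi, zero_add]
  exact Finset.sum_congr rfl fun i hi => if_neg (Finset.mem_compl.1 hi)

theorem sumB (S : Finset ι) (T : Finset κ) (f : ι ⊕ κ → ℝ) :
    ∑ i, chB S T i * f i = ∑ i ∈ Sᶜ, f (Sum.inl i) - ∑ b ∈ T, f (Sum.inr b) := by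
  rw [Fintype.sum_sum_type, ← sum_compl_ite]
  simp [chB, Finset.sum_ite_mem, sub_eq_add_neg]

theorem sumB' (S : Finset ι) (T : Finset κ) (f : ι ⊕ κ → ℝ) :
    ∑ i, |chB S T i| * f i = ∑ i ∈ Sᶜ, f (Sum.inl i) + ∑ b ∈ T, f (Sum.inr b) := by
  rw [Fintype.sum_sum_type, ← sum_compl_ite]
  congr 1
  · refine Finset.sum_congr rfl fun i _ => ?_
    simp only [chB, Sum.elim_inl]
    split_ifs <;> simp
  · have : ∀ b, |chB S T (Sum.inr b)| * f (Sum.inr b) = if b ∈ T then f (Sum.inr b) else 0 := by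
      intro b
      simp only [chB, Sum.elim_inr]
      split_ifs <;> simp
    simp only [this, Finset.sum_ite_mem, Finset.univ_inter]

theorem yy_third : yy (1 / 3) = 10 / 3 := by
  unfold yy
  norm_num

/-- self terms of a real point. -/
theorem self_real {x : ℝ} (h1 : -1 < x) (h2 : x < 1) (h0 : x ≠ 0) (h3 : x ≠ 1 / 3) :
    -lm (((yy x : ℝ) : ℂ) - 10 / 3) - lm (((yy x : ℝ) : ℂ) - 8 / 5)
      ≤ Real.log 5 - Real.log |x - 1 / 3| := by
  have e1 : (10 / 3 : ℂ) = ((10 / 3 : ℝ) : ℂ) := by push_cast; ring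
  have e2 : (8 / 5 : ℂ) = ((8 / 5 : ℝ) : ℂ) := by push_cast; ring
  rw [e1, e2, lm_real, lm_real]
  have hy := abs_yy h1 h2 h0
  have hp : 0 < |x - 1 / 3| := abs_pos.2 (sub_ne_zero.2 h3)
  have a1 : |x - 1 / 3| / 2 ≤ min |yy x - 10 / 3| 1 := by
    refine le_min ?_ ?_
    · have e : yy x - 10 / 3 = (x - 1 / 3) * ((x - 3) / x) := by
        unfold yy
        field_simp
        ring
      have : 1 ≤ |(x - 3) / x| := by
        rw [abs_div, le_div_iff₀ (abs_pos.2 h0), one_mul, abs_of_neg (by linarith : x - 3 < 0)]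
        rw [abs_le]
        constructor <;> linarith
      rw [e, abs_mul]
      nlinarith
    · have : |x - 1 / 3| ≤ 2 := by
        rw [abs_le]
        constructor <;> linarith
      linarith
  have a2 : (2 / 5 : ℝ) ≤ min |yy x - 8 / 5| 1 := by
    refine le_min ?_ (by norm_num)
    have := abs_sub_abs_le_abs_sub (yy x) (8 / 5)
    rw [abs_of_pos (by norm_num : (0 : ℝ) < 8 / 5)] at this
    linarith
  have b1 := Real.log_le_log (by positivity) a1
  have b2 := Real.log_le_log (by norm_num) a2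
  rw [Real.log_div hp.ne' (by norm_num)] at b1
  rw [Real.log_div (by norm_num) (by norm_num)] at b2
  linarith

theorem lm_node {N : ℕ} (hN : 1 ≤ N) {z : ℂ} (h : 1 / (20 * (((N ^ 2 : ℕ) : ℝ)) ^ 2) ≤ ‖z‖) :
    -lm z ≤ Real.log 20 + 4 * Real.log N := by
  have hN' : (1 : ℝ) ≤ N := by exact_mod_cast hN
  have h4 : (1 : ℝ) ≤ (N : ℝ) ^ 4 := one_le_pow₀ hN'
  have e : 20 * (((N ^ 2 : ℕ) : ℝ)) ^ 2 = 20 * (N : ℝ) ^ 4 := by push_cast; ring
  rw [e] at h
  have h1 : 1 / (20 * (N : ℝ) ^ 4) ≤ min ‖z‖ 1 :=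
    le_min h (by rw [div_le_one (by positivity)]; linarith)
  have h2 := Real.log_le_log (by positivity) h1
  rw [one_div, Real.log_inv, Real.log_mul (by norm_num) (by positivity), Real.log_pow] at h2
  unfold lm
  push_cast at h2
  linarith

theorem loc {N n : ℕ} (hN : 1 ≤ N) (nd : Nodes (N ^ 2)) {x : Fin n → ℝ} (hx : GoodX x)
    (i : Fin n ⊕ Fin nd.m) :
    ((ptAB x nd.η i).im = 0 ∨ ‖ptAB x nd.η i - c0‖ = r0) ∧ ptAB x nd.η i ≠ 10 / 3 ∧
      ptAB x nd.η i ≠ 8 / 5 ∧ ptAB x nd.η i ≠ 2 := by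
  rcases i with i | b
  · obtain ⟨h1, h2, h3, h4⟩ := hx.2 i
    have hy := abs_yy h1 h2 h3
    simp only [ptAB, Sum.elim_inl]
    refine ⟨Or.inl (Complex.ofReal_im _), fun h => ?_, fun h => ?_, fun h => ?_⟩
    · have h5 : yy (x i) = 10 / 3 := by
        have := congrArg Complex.re h
        simpa using this
      rw [← yy_third] at h5
      exact h4 (yy_injOn ⟨h1, h2, h3⟩ ⟨by norm_num, by norm_num, by norm_num⟩ h5)
    · have h5 : yy (x i) = 8 / 5 := by
        have := congrArg Complex.re h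
        simpa using this
      rw [h5, abs_of_pos (by norm_num)] at hy
      norm_num at hy
    · have h5 : yy (x i) = 2 := by
        have := congrArg Complex.re h
        simpa using this
      rw [h5, abs_of_pos (by norm_num)] at hy
      norm_num at hy
  · have hN' : (0 : ℝ) < ((N ^ 2 : ℕ) : ℝ) := by
      have : 0 < N ^ 2 := by positivity
      exact_mod_cast this
    have hp : (0 : ℝ) < 1 / (20 * (((N ^ 2 : ℕ) : ℝ)) ^ 2) := by positivity
    obtain ⟨s1, s2, s3⟩ := nd.sep b
    simp only [ptAB, Sum.elim_inr]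
    refine ⟨(nd.loc b).imp And.left And.left, fun h => ?_, fun h => ?_, fun h => ?_⟩
    · rw [h, sub_self, norm_zero] at s1
      linarith
    · rw [h, sub_self, norm_zero] at s2
      linarith
    · rw [h, sub_self, norm_zero] at s3
      linarith

end E4
open E4

theorem energy4 (cert : Cert) {ε : ℝ} (hε : 0 < ε) : ∀ᶠ N : ℕ in atTop,
    ∀ (nd : Nodes (N ^ 2)) (x s : Fin (32 * N) → ℝ), GoodX x → GoodS s →
    ∀ (S : Finset (Fin (32 * N))) (T : Finset (Fin nd.m)), S.card + T.card = 29 * N →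
      (∀ i, i ∉ S → 0 < x i) →
      En (ptAB x nd.η) (chA S T) / 2 + En (ptAB x nd.η) (chB S T) / 2
        + En (ptC x s) (chC (32 * N)) / 2 + En (fun k => ((2 * s k : ℝ) : ℂ)) (fun _ => 1) / 2
      ≤ ∑ i ∈ S, (N * (cert.A.U (yy (x i) : ℝ) + cert.C.U (yy (x i) : ℝ)) - lm ((yy (x i) : ℝ) - 2))
        + ∑ i ∈ Sᶜ, (N * (cert.B.U (yy (x i) : ℝ) + cert.C.U (yy (x i) : ℝ))
            - lm ((yy (x i) : ℝ) - 2))
        + ∑ b ∈ T, N * (cert.A.U (nd.η b) - cert.B.U (nd.η b))
        + ∑ k, (N * (cert.D.U (2 * s k : ℝ) - cert.C.U (2 * s k : ℝ)) - lm ((2 * s k : ℝ) - 2))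
        - (N : ℝ) ^ 2 * (cert.A.ECross + cert.B.ECross + cert.C.ELine + cert.D.ELine) / 2
        + ε * (N : ℝ) ^ 2 - (∑ i, Real.log |x i - 1 / 3|) / 2 := by
  have hε' : 0 < ε / 20000 := by positivity
  obtain ⟨cA, hA⟩ := cross_energy cert.A cert.offA hε'
  obtain ⟨cB, hB⟩ := cross_energy cert.B cert.offB hε'
  obtain ⟨cC, hC⟩ := line_energy cert.C hε'
  obtain ⟨cD, hD⟩ := line_energy cert.D hε'
  set K0 : ℝ := |cA| + |cB| + |cC| + |cD| + Real.log 20 + 4 with hK0
  filter_upwards [ev_log (400 * K0) (half_pos hε), eventually_ge_atTop 1] with N hev hN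
  intro nd x s hx hs S T hST hpos
  have hN0 : (0 : ℝ) ≤ N := Nat.cast_nonneg N
  have hN1 : (1 : ℝ) ≤ N := by exact_mod_cast hN
  have hinj := ptAB_inj nd hx
  have hcard : (S.card : ℝ) + T.card = 29 * N := by exact_mod_cast hST
  have hcard' : (S.card : ℝ) + (Sᶜ.card : ℝ) = 32 * N := by
    have := Finset.card_add_card_compl S
    rw [Fintype.card_fin] at this
    exact_mod_cast this
  have hS0 : (0 : ℝ) ≤ S.card := Nat.cast_nonneg _
  have hT0 : (0 : ℝ) ≤ T.card := Nat.cast_nonneg _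
  have hS0' : (0 : ℝ) ≤ (Sᶜ.card : ℝ) := Nat.cast_nonneg _
  have sA1 : ∑ i, chA S T i = 29 * N := by
    have := sumA S T fun _ => 1
    simp only [mul_one, Finset.sum_const, nsmul_eq_mul] at this
    rw [this, hcard]
  have sB1 : ∑ i, chB S T i = 3 * N := by
    have := sumB S T fun _ => 1
    simp only [mul_one, Finset.sum_const, nsmul_eq_mul] at this
    rw [this]
    linarith
  have sB2 : ∑ i, |chB S T i| = (Sᶜ.card : ℝ) + T.card := by
    have := sumB' S T fun _ => 1
    simpa only [mul_one, Finset.sum_const, nsmul_eq_mul] using this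
  -- A
  have EA := hA _ (ptAB x nd.η) (chA S T) N hinj hN0
    (by
      rintro (i | b) <;> simp only [chA, Sum.elim_inl, Sum.elim_inr] <;> split_ifs <;> simp)
    (by rw [sA1, cert.mA]; ring) (loc hN nd hx)
    (by
      rintro i (j | b) - h <;> simp only [chA, Sum.elim_inl, Sum.elim_inr] at h <;>
        split_ifs at h <;> norm_num at h)
  simp only [absA] at EA
  rw [sA1, sumA, sumA] at EA
  -- B
  have EB := hB _ (ptAB x nd.η) (chB S T) N hinj hN0
    (by
      rintro (i | b) <;> simp only [chB, Sum.elim_inl, Sum.elim_inr] <;> split_ifs <;> simp)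
    (by rw [sB1, cert.mB]; ring) (loc hN nd hx)
    (by
      rintro (i | b) (j | b') h h' <;> simp only [chB, Sum.elim_inl, Sum.elim_inr] at h h'
      · split_ifs at h' <;> norm_num at h'
      · have hi : i ∉ S := fun hi => by
          rw [if_pos hi] at h
          norm_num at h
        obtain ⟨h1, h2, h3, -⟩ := hx.2 i
        have hy := abs_yy h1 h2 h3
        have hxi := hpos i hi
        have hy0 : 0 < yy (x i) := by
          unfold yy
          positivity
        rw [abs_of_pos hy0] at hy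
        simp only [ptAB, Sum.elim_inl, Sum.elim_inr, Complex.ofReal_im, Complex.ofReal_re]
        exact ⟨⟨trivial, hy⟩, (nd.loc b').imp id And.left⟩
      · split_ifs at h <;> norm_num at h
      · split_ifs at h <;> norm_num at h)
  rw [sB2, sumB, sumB'] at EB
  -- C
  set p : Fin (32 * N) ⊕ Fin (32 * N) → ℝ := Sum.elim (fun i => yy (x i)) (fun k => 2 * s k) with hp
  have hpC : (fun i => ((p i : ℝ) : ℂ)) = ptC x s := by
    funext i
    rcases i with i | k <;> rfl
  have hyy : ∀ i, 2 < |yy (x i)| := fun i => by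
    obtain ⟨h1, h2, h3, -⟩ := hx.2 i
    exact abs_yy h1 h2 h3
  have EC := hC _ p (chC (32 * N)) (fun i => min |p i - 2| 1) N
    (by
      intro i j h
      refine ptC_inj hx hs ?_
      rw [← hpC]
      simp only [h]) hN0
    (by rintro (i | k) <;> simp [chC])
    (by simp [chC, Fintype.sum_sum_type, cert.mC])
    (by
      refine fun i => ⟨lt_min (abs_pos.2 (sub_ne_zero.2 ?_)) one_pos, min_le_right _ _⟩
      rcases i with i | k
      · intro h
        have := hyy i
        simp only [hp, Sum.elim_inl] at h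
        rw [h] at this
        norm_num at this
      · have := (hs.2 k).2
        simp only [hp, Sum.elim_inr]
        intro h
        linarith)
    (by
      rintro (i | k) (j | k') h h' <;> simp only [chC, Sum.elim_inl, Sum.elim_inr] at h h'
      · norm_num at h'
      swap
      · norm_num at h
      swap
      · norm_num at h
      simp only [hp, Sum.elim_inl, Sum.elim_inr]
      obtain ⟨a1, a2⟩ := hs.2 k'
      rcases lt_abs.1 (hyy i) with hy | hy
      · have b1 := min_le_left |yy (x i) - 2| 1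
        have b2 := min_le_left |2 * s k' - 2| 1
        rw [abs_of_pos (by linarith : 0 < yy (x i) - 2)] at b1
        rw [abs_of_neg (by linarith : 2 * s k' - 2 < 0)] at b2
        rw [abs_of_pos (by linarith : 0 < yy (x i) - 2), abs_of_neg (by linarith : 2 * s k' - 2 < 0),
          abs_of_pos (by linarith : 0 < yy (x i) - 2 * s k')]
        linarith
      · have b1 := min_le_right |yy (x i) - 2| 1
        have b2 := min_le_right |2 * s k' - 2| 1
        rw [abs_of_neg (by linarith : yy (x i) - 2 * s k' < 0)]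
        linarith)
  rw [hpC] at EC
  simp only [Fintype.sum_sum_type, chC, hp, Sum.elim_inl, Sum.elim_inr, one_mul, neg_mul,
    Finset.sum_neg_distrib, Fintype.card_sum, Fintype.card_fin, ← lm_two] at EC
  -- D
  have ED := hD _ (fun k => 2 * s k) (fun _ => 1) (fun _ => 1) N
    (fun i j h => hs.1 (by simpa using h)) hN0 (fun _ => Or.inl rfl)
    (by simp [cert.mD, mul_comm]) (fun _ => ⟨one_pos, le_rfl⟩)
    (fun _ _ _ h => by norm_num at h)
  simp only [one_mul, Real.log_one, sub_zero, Finset.sum_const, Finset.card_univ, Fintype.card_fin,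
    nsmul_eq_mul] at ED
  simp only [ptAB, Sum.elim_inl, Sum.elim_inr] at EA EB
  -- self terms
  have hlN : 0 ≤ Real.log N := Real.log_natCast_nonneg N
  have hl20 : Real.log 5 ≤ Real.log 20 := Real.log_le_log (by norm_num) (by norm_num)
  have hl5 : 0 ≤ Real.log 5 := Real.log_nonneg (by norm_num)
  set L : ℝ := Real.log 20 + 4 * Real.log N with hL
  have selfR : ∀ (c : ℝ) (U : Finset (Fin (32 * N))),
      ∑ i ∈ U, (c - lm (((yy (x i) : ℝ) : ℂ) - 10 / 3) - lm (((yy (x i) : ℝ) : ℂ) - 8 / 5)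
        - lm (((yy (x i) : ℝ) : ℂ) - 2)) ≤ U.card * (|c| + Real.log 5)
        - ∑ i ∈ U, Real.log |x i - 1 / 3| - ∑ i ∈ U, lm (((yy (x i) : ℝ) : ℂ) - 2) := by
    intro c U
    rw [← nsmul_eq_mul, ← Finset.sum_const, ← Finset.sum_sub_distrib, ← Finset.sum_sub_distrib]
    refine Finset.sum_le_sum fun i _ => ?_
    obtain ⟨h1, h2, h3, h4⟩ := hx.2 i
    have := self_real h1 h2 h3 h4
    have := le_abs_self c
    linarith
  have selfN : ∀ c : ℝ,
      ∑ b ∈ T, (c - lm (nd.η b - 10 / 3) - lm (nd.η b - 8 / 5) - lm (nd.η b - 2))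
        ≤ T.card * (|c| + 3 * L) := by
    intro c
    rw [← nsmul_eq_mul, ← Finset.sum_const]
    refine Finset.sum_le_sum fun b _ => ?_
    obtain ⟨s1, s2, s3⟩ := nd.sep b
    have := lm_node hN s1
    have := lm_node hN s2
    have := lm_node hN s3
    have := le_abs_self c
    linarith
  have rA := selfR cA S
  have rB := selfR cB Sᶜ
  have nA := selfN cA
  have nB := selfN cB
  have hσ : ∑ k, lm (((2 * s k : ℝ) : ℂ) - 2) ≤ 0 := Finset.sum_nonpos fun k _ => lm_nonpos _
  have sp1 := Finset.sum_add_sum_compl S fun i => Real.log |x i - 1 / 3|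
  have sp2 := Finset.sum_add_sum_compl S fun i => lm (((yy (x i) : ℝ) : ℂ) - 2)
  have sp3 := Finset.sum_add_sum_compl S fun i => cert.C.U ((yy (x i) : ℝ) : ℂ)
  simp only [Finset.sum_sub_distrib, Finset.sum_const, Finset.card_univ, Fintype.card_fin,
    nsmul_eq_mul] at EC
  simp only [Finset.sum_sub_distrib, Finset.sum_add_distrib, ← Finset.mul_sum]
  push_cast at EC ED ⊢ hσ
  -- numerical bookkeeping
  have a0 := abs_nonneg cA
  have b0 := abs_nonneg cB
  have c0' := abs_nonneg cC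
  have d0 := abs_nonneg cD
  have hK : 0 ≤ K0 := by rw [hK0]; linarith
  have q1 : (Sᶜ.card + T.card + N : ℝ) ^ 2 ≤ (62 * N) ^ 2 :=
    pow_le_pow_left₀ (by linarith) (by linarith) 2
  have q1' := mul_le_mul_of_nonneg_left q1 hε'.le
  have hKL : K0 ≤ K0 * (1 + Real.log N) := by nlinarith
  have hL' : L ≤ K0 * (1 + Real.log N) := by
    have : 4 * Real.log N ≤ K0 * Real.log N := mul_le_mul_of_nonneg_right (by linarith) hlN
    nlinarith
  set W : ℝ := K0 * (1 + Real.log N) with hW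
  have hW0 : 0 ≤ W := hK.trans hKL
  have t1 : (S.card : ℝ) * (|cA| + Real.log 5) ≤ 32 * N * W :=
    mul_le_mul (by linarith) (by linarith) (by linarith) (by linarith)
  have t2 : (Sᶜ.card : ℝ) * (|cB| + Real.log 5) ≤ 32 * N * W :=
    mul_le_mul (by linarith) (by linarith) (by linarith) (by linarith)
  have hL0 : 0 ≤ L := by rw [hL]; linarith
  have t3 : (T.card : ℝ) * (|cA| + 3 * L) ≤ 29 * N * (4 * W) :=
    mul_le_mul (by linarith) (by linarith) (by linarith) (by linarith)
  have t4 : (T.card : ℝ) * (|cB| + 3 * L) ≤ 29 * N * (4 * W) :=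
    mul_le_mul (by linarith) (by linarith) (by linarith) (by linarith)
  have t5 : (N : ℝ) * cC ≤ N * W :=
    mul_le_mul_of_nonneg_left (by linarith [le_abs_self cC]) hN0
  have t6 : (N : ℝ) * cD ≤ N * W :=
    mul_le_mul_of_nonneg_left (by linarith [le_abs_self cD]) hN0
  have t7 : (N : ℝ) * (400 * W) ≤ N * (ε / 2 * N) :=
    mul_le_mul_of_nonneg_left (by rw [hW]; linarith) hN0
  have t8 : 0 ≤ ε * (N : ℝ) ^ 2 := by positivity
  have sp3' := congrArg (fun t => (N : ℝ) * t) sp3
  have t9 : 0 ≤ (N : ℝ) * W := mul_nonneg hN0 hW0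
  simp only [ptAB, chC]
  clear hA hB hC hD selfR selfN
  linarith

end Crest.Agent.R6
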