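import Crest.Agent.R6.Cong

/-! Frobenius structure for `N = p`.  Exact identities in `ℤ[y]` (check with `y = x + 1/x`):
`S_{p-1} C_{k+pd} = S_{p-k-1} C_{pd} + S_{k-1} C_{p(d+1)}`,
`S_{k+pd-1} = S_{p-k-1} · S_{d-1}(C_p) + S_{k-1} · S_d(C_p)`, `C_{pd} = C_d(C_p)`;
mod `p`: `C_p ≡ y^p`, `S_{p-1} ≡ (y²-4)^h`, so `rev (p-1) S_{p-1} ≡ (1-t²)^h` (`4^h ≡ 1`),
`(1-t)^(2p) ≡ (1-t^p)²`, `2^(p i) ≡ 2^i`.  (Work in `(ZMod p)[X]`, `ZMod.expand_card`,
`Polynomial.expand`.) -/

set_option autoImplicit false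

namespace Crest.Agent.R6
open Polynomial Finset

/-- `𝒜_k = t^(p-1) S_{p-k-1}(2/t)`; `ℬ_k = t^(p-1) S_{k-1}(2/t)` is `Acal p (p-k)`. -/
noncomputable def Acal (p k : ℕ) : ℤ[X] := rev (p - 1) (Chebyshev.S ℤ ((p : ℤ) - k - 1))

namespace FrobA

section
variable {K : Type*} [Field K]

theorem ev_C {x : K} (hx : x ≠ 0) (n : ℤ) :
    aeval (x + x⁻¹) (Chebyshev.C ℤ n) = x ^ n + x ^ (-n) := by
  induction n using Chebyshev.induct with
  | zero => simp [map_ofNat]; norm_num
  | one => simp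
  | add_two n ih1 ih2 =>
    rw [Chebyshev.C_add_two, map_sub, map_mul, aeval_X, ih1, ih2]
    simp only [neg_add, zpow_add₀ hx, zpow_neg, zpow_ofNat]
    have := zpow_ne_zero (n : ℤ) hx
    field_simp
    ring
  | neg_add_one n ih1 ih2 =>
    rw [Chebyshev.C_sub_one, map_sub, map_mul, aeval_X, ih1, ih2]
    simp only [neg_add, sub_eq_add_neg, neg_neg, zpow_add₀ hx, zpow_neg, zpow_one]
    have := zpow_ne_zero (n : ℤ) hx
    field_simp
    ring

theorem ev_S' {x : K} (hx : x ≠ 0) (n : ℤ) :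
    aeval (x + x⁻¹) (Chebyshev.S ℤ n) * (x - x⁻¹) = x ^ (n + 1) - x ^ (-(n + 1)) := by
  induction n using Chebyshev.induct with
  | zero => simp
  | one =>
    simp only [Chebyshev.S_one, aeval_X, neg_add, zpow_add₀ hx, zpow_neg, zpow_one]
    ring
  | add_two n ih1 ih2 =>
    rw [Chebyshev.S_add_two, map_sub, map_mul, aeval_X, sub_mul, mul_assoc, ih1, ih2]
    simp only [neg_add, zpow_add₀ hx, zpow_neg, zpow_ofNat]
    have := zpow_ne_zero (n : ℤ) hx
    field_simp
    ring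
  | neg_add_one n ih1 ih2 =>
    rw [Chebyshev.S_sub_one, map_sub, map_mul, aeval_X, sub_mul, mul_assoc, ih1, ih2]
    simp only [neg_add, sub_eq_add_neg, neg_neg, zpow_add₀ hx, zpow_neg, zpow_one]
    have := zpow_ne_zero (n : ℤ) hx
    field_simp
    ring

theorem ev_S {x : K} (hx : x ≠ 0) (h1 : x - x⁻¹ ≠ 0) (n : ℤ) :
    aeval (x + x⁻¹) (Chebyshev.S ℤ (n - 1)) = (x ^ n - x ^ (-n)) / (x - x⁻¹) := by
  rw [eq_div_iff h1, ev_S' hx, sub_add_cancel]

theorem ev_rev {M : ℕ} {f : ℤ[X]} (h : f.natDegree ≤ M) {t : K} (ht : t ≠ 0) :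
    aeval t (rev M f) = t ^ M * aeval (2 / t) f := by
  rw [rev_eq_sum h, map_sum, aeval_eq_sum_range' (Nat.lt_succ_of_le h), Finset.mul_sum]
  refine Finset.sum_congr rfl fun i hi => ?_
  have hi' : i ≤ M := Nat.lt_succ_iff.1 (Finset.mem_range.1 hi)
  obtain ⟨e, rfl⟩ := Nat.exists_eq_add_of_le hi'
  rw [aeval_monomial, Nat.add_sub_cancel_left, zsmul_eq_mul, div_pow, pow_add]
  simp only [eq_intCast, Int.cast_mul, Int.cast_pow, Int.cast_ofNat]
  field_simp

theorem ev_P {N : ℕ} {d : ℤ} (hd : d.natAbs ≤ 42 * N) {t x : K} (ht : t ≠ 0) (hx : x ≠ 0)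
    (h : 2 / t = x + x⁻¹) :
    aeval t (Prow N d) = (1 - t) ^ (2 * N) * t ^ (42 * N) * (x ^ d + x ^ (-d)) := by
  rw [Prow, map_mul, ev_rev ((natDegree_C_le d).trans hd) ht, h, ev_C hx]
  simp [mul_assoc]

theorem ev_D {N : ℕ} {d : ℤ} (hd : d.natAbs ≤ 42 * N) {t x : K} (ht : t ≠ 0) (hx : x ≠ 0)
    (h1 : x - x⁻¹ ≠ 0) (h : 2 / t = x + x⁻¹) :
    aeval t (Drow N d) =
      2 * (1 - t) ^ (2 * N) * t ^ (42 * N - 1) * ((x ^ d - x ^ (-d)) / (x - x⁻¹)) := by
  rw [Drow, map_mul, ev_rev ((natDegree_S_le d).trans (by omega)) ht, h, ev_S hx h1]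
  simp [mul_assoc, map_ofNat]

theorem ev_A {p k : ℕ} (hk : k ≤ p) {t x : K} (ht : t ≠ 0) (hx : x ≠ 0)
    (h1 : x - x⁻¹ ≠ 0) (h : 2 / t = x + x⁻¹) :
    aeval t (Acal p k) =
      t ^ (p - 1) * ((x ^ ((p : ℤ) - k) - x ^ (-((p : ℤ) - k))) / (x - x⁻¹)) := by
  rw [Acal, ev_rev ((natDegree_S_le _).trans (by omega)) ht, h, ev_S hx h1]

end

variable {p : ℕ} [Fact p.Prime]

section
variable {K : Type} [Field K] [CharP K p]

theorem two_pow_p : (2 : K) ^ p = 2 := by
  rw [← one_add_one_eq_two, add_pow_char, one_pow]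

theorem two_ne (hp : p ≠ 2) : (2 : K) ≠ 0 := by
  intro h
  have h1 : ((2 : ℕ) : K) = 0 := by exact_mod_cast h
  rw [CharP.cast_eq_zero_iff (K) p] at h1
  exact hp ((Nat.prime_dvd_prime_iff_eq (Fact.out : p.Prime) Nat.prime_two).1 h1)

theorem ext_p [IsAlgClosed K] [Algebra (ZMod p) K] (hp : p ≠ 2) {P Q : ℤ[X]} (h : ∀ t x : K, t ≠ 0 → x ≠ 0 → x - x⁻¹ ≠ 0 →
    2 / t = x + x⁻¹ → aeval t P = aeval t Q) :
    P.map (Int.castRingHom (ZMod p)) = Q.map (Int.castRingHom (ZMod p)) := by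
  refine Polynomial.map_injective (algebraMap (ZMod p) (K)) (algebraMap (ZMod p) (K)).injective ?_
  rw [Polynomial.map_map, Polynomial.map_map,
    show (algebraMap (ZMod p) (K)).comp (Int.castRingHom (ZMod p)) = algebraMap ℤ (K) from
      RingHom.ext_int _ _]
  refine Polynomial.eq_of_infinite_eval_eq _ _
    (Set.Infinite.mono ?_ (Set.toFinite ({0, 1, -1} : Set (K))).infinite_compl)
  intro t ht
  simp only [Set.mem_compl_iff, Set.mem_insert_iff, Set.mem_singleton_iff, not_or] at ht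
  obtain ⟨h0, h1, h2⟩ := ht
  obtain ⟨r, hr⟩ := IsAlgClosed.exists_pow_nat_eq (1 - t ^ 2) two_pos
  have hr0 : r ≠ 0 := by
    rintro rfl
    have : (t - 1) * (t + 1) = 0 := by linear_combination hr
    rcases mul_eq_zero.1 this with h3 | h3
    · exact h1 (sub_eq_zero.1 h3)
    · exact h2 (eq_neg_of_add_eq_zero_left h3)
  have hinv : (1 + r) / t * ((1 - r) / t) = 1 := by
    field_simp
    linear_combination -hr
  have hx : (1 + r) / t ≠ 0 := left_ne_zero_of_mul_eq_one hinv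
  have hi : ((1 + r) / t)⁻¹ = (1 - r) / t := inv_eq_of_mul_eq_one_right hinv
  have := h t ((1 + r) / t) h0 hx (by
    rw [hi, ← sub_div]
    refine div_ne_zero ?_ h0
    rw [show 1 + r - (1 - r) = 2 * r by ring]
    exact mul_ne_zero (two_ne hp) hr0) (by rw [hi]; ring)
  simpa only [Set.mem_ofPred_eq, eval_map_algebraMap] using this

theorem frob_par {t x : K} (h : 2 / t = x + x⁻¹) : 2 / t ^ p = x ^ p + (x ^ p)⁻¹ := by
  rw [← inv_pow, ← add_pow_char, ← h, div_pow, two_pow_p]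

theorem frob_sub (x : K) : x ^ p - (x ^ p)⁻¹ = (x - x⁻¹) ^ p := by
  rw [← inv_pow, sub_pow_char]

theorem omega_ev (hp : p ≠ 2) {t x : K} (ht : t ≠ 0) (hx : x ≠ 0) (h1 : x - x⁻¹ ≠ 0)
    (h : 2 / t = x + x⁻¹) :
    (1 - t ^ 2) ^ (p / 2) = t ^ (p - 1) * ((x ^ p - (x ^ p)⁻¹) / (x - x⁻¹)) := by
  have hodd := (Fact.out : p.Prime).eq_two_or_odd.resolve_left hp
  have e1 : 2 * (p / 2) = p - 1 := by omega
  have e2 : p - 1 + 1 = p := by omega
  have h2 : (2 : K) ≠ 0 := two_ne hp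
  have h3 : (2 : K) ^ (p - 1) = 1 := by
    refine mul_right_cancel₀ h2 ?_
    rw [← pow_succ, e2, two_pow_p, one_mul]
  have h4 : 1 - t ^ 2 = (t * (x - x⁻¹) / 2) ^ 2 := by
    have h5 : t * (x + x⁻¹) = 2 := by rw [← h]; field_simp
    have h6 : x * x⁻¹ = 1 := mul_inv_cancel₀ hx
    rw [div_pow, eq_div_iff (pow_ne_zero _ h2)]
    linear_combination (-(t * (x + x⁻¹) + 2)) * h5 + 4 * t ^ 2 * h6
  rw [h4, ← pow_mul, e1, div_pow, h3, div_one, mul_pow, frob_sub]
  congr 1
  rw [eq_div_iff h1, ← pow_succ, e2]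

end

theorem coeff_S_self (n : ℕ) : (Chebyshev.S ℤ n).coeff n = 1 := by
  induction n using Nat.twoStepInduction with
  | zero => simp
  | one => simp
  | more n ih1 ih2 =>
    have h1 : (Chebyshev.S ℤ n).coeff (n + 2) = 0 := by
      refine coeff_eq_zero_of_natDegree_lt ?_
      have := natDegree_S_le ((n : ℤ) + 1)
      rw [add_sub_cancel_right] at this
      omega
    push_cast at ih2 ⊢
    rw [Chebyshev.S_add_two, coeff_sub, h1, sub_zero, coeff_X_mul, ih2]

theorem modEq_of_map {P Q : ℤ[X]}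
    (h : P.map (Int.castRingHom (ZMod p)) = Q.map (Int.castRingHom (ZMod p))) (m : ℕ) :
    P.coeff m ≡ Q.coeff m [ZMOD p] := by
  have := congrArg (fun R => coeff R m) h
  simp only [coeff_map, eq_intCast] at this
  exact (ZMod.intCast_eq_intCast_iff _ _ _).1 this

omit [Fact p.Prime] in
theorem pair_expand (f : ℕ → ℚ) (l : ℕ) (Q : ℤ[X]) :
    pair f (X ^ l * expand ℤ p Q) = pair (fun i => f (l + p * i)) Q := by
  induction Q using Polynomial.induction_on' with
  | add P Q hP hQ => rw [map_add, mul_add, pair_add, pair_add, hP, hQ]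
  | monomial n a =>
    rw [expand_monomial, X_pow_mul_monomial, pair_monomial, pair_monomial, add_comm, mul_comm n]

theorem coeff_mul_expand {A : ℤ[X]} (hA : A.natDegree < p) (Q : ℤ[X]) {l : ℕ} (hl : l < p) (i : ℕ) :
    (A * expand ℤ p Q).coeff (l + p * i) = A.coeff l * Q.coeff i := by
  induction Q using Polynomial.induction_on' with
  | add P Q hP hQ => rw [map_add, mul_add, coeff_add, coeff_add, hP, hQ, mul_add]
  | monomial n a =>
    rw [expand_monomial, ← C_mul_X_pow_eq_monomial, ← mul_assoc, coeff_mul_X_pow', coeff_mul_C,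
      coeff_monomial]
    rcases lt_trichotomy n i with h | rfl | h
    · have h1 : (n + 1) * p ≤ i * p := Nat.mul_le_mul_right p h
      rw [if_neg h.ne, mul_zero, coeff_eq_zero_of_natDegree_lt, zero_mul, ite_self]
      rw [add_mul, one_mul, mul_comm i] at h1
      omega
    · rw [if_pos rfl, if_pos (by rw [mul_comm]; omega), mul_comm n, Nat.add_sub_cancel]
    · have h1 : (i + 1) * p ≤ n * p := Nat.mul_le_mul_right p h
      rw [if_neg h.ne', mul_zero, if_neg]
      rw [add_mul, one_mul, mul_comm i] at h1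
      omega

theorem cg_pair_fun {f g : ℕ → ℚ} {Q : ℤ[X]} (h : ∀ m, Q.coeff m ≠ 0 → Cg p (f m) (g m)) :
    Cg p (pair f Q) (pair g Q) := by
  rw [pair_eq_range f Q (Nat.lt_succ_self _), pair_eq_range g Q (Nat.lt_succ_self _)]
  refine Cg.sum _ fun m _ => ?_
  by_cases hm : Q.coeff m = 0
  · rw [hm, Int.cast_zero, zero_mul, zero_mul]
    exact Cg.refl _
  · exact Cg.mul_left _ (padicNorm.of_int _) (h m hm)

theorem cg_Phi (hp : 47 < p) {P D P' D' : ℤ[X]} (hP : ∀ m, P.coeff m ≡ P'.coeff m [ZMOD p])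
    (hD : ∀ m, D.coeff m ≡ D'.coeff m [ZMOD p])
    (h : ∀ m, P.coeff m ≠ 0 ∨ P'.coeff m ≠ 0 ∨ D.coeff m ≠ 0 ∨ D'.coeff m ≠ 0 → m ≤ 46) {k : ℕ}
    (hk : k ≤ 46) : Cg p (Phi 0 P D k) (Phi 0 P' D' k) := by
  have hp2 : p ≠ 2 := by omega
  refine Cg.sub (Cg.pair hP fun m hm => ?_) (Cg.mul_left _ (ValA.pn_34 hp2) (Cg.pair hD fun m hm => ?_))
  · have : m ≤ 46 := h m (by tauto)
    rw [zero_mul, add_zero]
    exact norm_s_le_one hp2 (by omega) (by omega)
  · have h1 : m ≤ 46 := h m (by tauto)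
    have h2 := norm_z_le (p := p) h1 hk
    rwa [Nat.log_of_lt (by omega), mul_zero, pow_zero] at h2

theorem Phi_comb (a b : ℤ) (P D P' D' : ℤ[X]) (k : ℕ) :
    Phi 0 (C a * P + C b * P') (C a * D + C b * D') k = a * Phi 0 P D k + b * Phi 0 P' D' k := by
  simp only [Phi, pair_add, pair_C_mul]
  ring

end FrobA

open FrobA

variable {p : ℕ} [Fact p.Prime]

theorem Prow_frob (hp : p ≠ 2) {k : ℕ} (hk : k < p) {d : ℤ} (hd : -3 ≤ d) (hd' : d ≤ 28) :
    (Prow p (k + p * d) * (1 - X ^ 2) ^ (p / 2)).map (Int.castRingHom (ZMod p)) =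
      (Acal p k * expand ℤ p (Prow 1 d) + Acal p (p - k) * expand ℤ p (Prow 1 (d + 1))).map
        (Int.castRingHom (ZMod p)) := by
  refine ext_p (K := AlgebraicClosure (ZMod p)) hp fun t x ht hx h1 h => ?_
  have hp0 := (Fact.out : p.Prime).pos
  have hd1 : (k + p * d : ℤ).natAbs ≤ 42 * p := by
    zify
    rw [abs_le]
    constructor <;> nlinarith
  have htp := pow_ne_zero p ht
  have hxp := pow_ne_zero p hx
  have e1 : (p : ℤ) - ((p - k : ℕ) : ℤ) = k := by omega
  simp only [map_mul, map_add, map_pow, map_sub, map_one, aeval_X, expand_aeval]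
  rw [ev_P hd1 ht hx h, omega_ev hp ht hx h1 h, ev_A hk.le ht hx h1 h,
    ev_A (Nat.sub_le p k) ht hx h1 h, ev_P (by omega) htp hxp (frob_par h),
    ev_P (by omega) htp hxp (frob_par h), e1, mul_comm 2 p, mul_comm 42 p, pow_mul, pow_mul,
    sub_pow_char, one_pow]
  simp only [neg_add, neg_sub, zpow_add₀ hx, zpow_add₀ hxp, zpow_sub₀ hx, zpow_neg, zpow_one, zpow_mul,
    zpow_natCast]
  have h2 := zpow_ne_zero d hxp
  have h3 := pow_ne_zero k hx
  generalize (x ^ p) ^ d = c at *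
  generalize x ^ p = b at *
  generalize x ^ k = a at *
  generalize x - x⁻¹ = u at *
  field_simp
  ring

theorem Drow_frob (hp : p ≠ 2) {k : ℕ} (hk : k < p) {d : ℤ} (hd : -3 ≤ d) (hd' : d ≤ 28) :
    (Drow p (k + p * d)).map (Int.castRingHom (ZMod p)) =
      (Acal p k * expand ℤ p (Drow 1 d) + Acal p (p - k) * expand ℤ p (Drow 1 (d + 1))).map
        (Int.castRingHom (ZMod p)) := by
  refine ext_p (K := AlgebraicClosure (ZMod p)) hp fun t x ht hx h1 h => ?_
  have hp0 := (Fact.out : p.Prime).pos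
  have hd1 : (k + p * d : ℤ).natAbs ≤ 42 * p := by
    zify
    rw [abs_le]
    constructor <;> nlinarith
  have htp := pow_ne_zero p ht
  have hxp := pow_ne_zero p hx
  have h1p : x ^ p - (x ^ p)⁻¹ ≠ 0 := by rw [frob_sub]; exact pow_ne_zero _ h1
  have e1 : (p : ℤ) - ((p - k : ℕ) : ℤ) = k := by omega
  have e2 : 42 * p - 1 = (p - 1) + p * 41 := by omega
  simp only [map_mul, map_add, expand_aeval]
  rw [ev_D hd1 ht hx h1 h, ev_A hk.le ht hx h1 h,
    ev_A (Nat.sub_le p k) ht hx h1 h, ev_D (by omega) htp hxp h1p (frob_par h),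
    ev_D (by omega) htp hxp h1p (frob_par h), e1, e2, mul_comm 2 p, pow_add, pow_mul, pow_mul,
    sub_pow_char, one_pow]
  simp only [neg_add, neg_sub, zpow_add₀ hx, zpow_add₀ hxp, zpow_sub₀ hx, zpow_neg, zpow_one, zpow_mul,
    zpow_natCast]
  have h2 := zpow_ne_zero d hxp
  have h3 := pow_ne_zero k hx
  generalize (x ^ p) ^ d = c at *
  generalize x ^ p = b at *
  generalize x ^ k = a at *
  generalize x - x⁻¹ = u at *
  have h4 : b ^ 2 - 1 ≠ 0 := fun h5 => h1p (by field_simp; linear_combination h5)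
  rw [show b - b⁻¹ = (b ^ 2 - 1) / b by field_simp]
  field_simp
  ring

theorem col_frob (l j : ℕ) :
    (col p (l + p * j)).map (Int.castRingHom (ZMod p)) =
      (X ^ l * expand ℤ p (col 1 j)).map (Int.castRingHom (ZMod p)) := by
  simp only [col, map_mul, map_pow, map_sub, map_one, expand_X, Polynomial.map_mul, Polynomial.map_pow,
    Polynomial.map_sub, Polynomial.map_one, map_X]
  rw [mul_comm 2 p, pow_mul, sub_pow_char, one_pow]
  ring

theorem natDegree_Acal_lt {k : ℕ} (hk : k ≤ p) : (Acal p k).natDegree < p := by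
  have hp0 := (Fact.out : p.Prime).pos
  have : (Acal p k).natDegree ≤ p - 1 := natDegree_rev_le ((natDegree_S_le _).trans (by omega))
  omega

/-- triangularity. -/
theorem coeff_Acal_lt {k l : ℕ} (hk : k ≤ p) (hl : l < k) (hl' : l < p) :
    (Acal p k).coeff l = 0 := by
  have h := coeff_rev (M := p - 1) (Chebyshev.S ℤ ((p : ℤ) - k - 1)) (i := p - 1 - l) (by omega)
  rw [show p - 1 - (p - 1 - l) = l by omega] at h
  rw [Acal, h]
  rcases hk.eq_or_lt with rfl | hk'
  · simp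
  · rw [coeff_eq_zero_of_natDegree_lt ((natDegree_S_le _).trans_lt (by omega)), zero_mul]

theorem coeff_Acal_self {k : ℕ} (hk : k < p) : (Acal p k).coeff k = 2 ^ (p - 1 - k) := by
  have h := coeff_rev (M := p - 1) (Chebyshev.S ℤ ((p : ℤ) - k - 1)) (i := p - 1 - k) (by omega)
  rw [show p - 1 - (p - 1 - k) = k by omega] at h
  rw [Acal, h, show (p : ℤ) - k - 1 = ((p - 1 - k : ℕ) : ℤ) by omega, coeff_S_self, one_mul]

/-- entry congruence. -/
theorem Ent_frob (hp : 47 < p) {γ : ℚ} (hγ : padicNorm p γ ≤ 1) {k l : ℕ} (hk : k < p) (hl : l < p)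
    {d : ℤ} (hd : -3 ≤ d) (hd' : d ≤ 28) {j : ℕ} (hj : j < 32) :
    Cg p ((p : ℚ) ^ 2 * Ent γ p (k + p * d) (l + p * j))
      (((Acal p k).coeff l : ℚ) * Ent 0 1 d j + ((Acal p (p - k)).coeff l : ℚ) * Ent 0 1 (d + 1) j) := by
  have hp2 : p ≠ 2 := by omega
  have hp0 : 0 < p := by omega
  have hpp : 48 * p ≤ p * p := Nat.mul_le_mul_right p hp
  have hd1 : (k + p * d : ℤ).natAbs ≤ 42 * p := by
    zify
    rw [abs_le]
    constructor <;> nlinarith
  set P := Prow p (k + p * d) with hP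
  set D := Drow p (k + p * d) with hD
  have hPd : P.natDegree ≤ 44 * p := natDegree_Prow_le hd1
  have hDd : D.natDegree ≤ 44 * p := (natDegree_Drow_le hp0 hd1).trans (Nat.sub_le _ _)
  have hlog : Nat.log p (44 * p) = 1 := by
    rw [Nat.log_eq_iff (by omega), pow_one, show 1 + 1 = 2 from rfl, pow_two]
    omega
  have hjp : p * j ≤ p * 31 := Nat.mul_le_mul_left p (by omega)
  have hE : pair (fun m => (p : ℚ) ^ 2 * Phi γ P D m) (col p (l + p * j)) =
      (p : ℚ) ^ 2 * Ent γ p (k + p * d) (l + p * j) := pair_fun_mul _ _ _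
  rw [← hE]
  have hnorm : ∀ m, m ≤ 44 * p → padicNorm p ((p : ℚ) ^ 2 * Phi γ P D m) ≤ 1 := fun m hm => by
    have h1 := norm_Phi_le hp2 (v := 0) (by simpa using hγ) hPd hDd hm
    rw [hlog] at h1
    have h2 : (0 : ℚ) < p := by exact_mod_cast hp0
    rw [padicNorm.mul, ValA.pn_pow, padicNorm.padicNorm_p_of_prime, inv_pow,
      inv_mul_le_iff₀ (by positivity)]
    simpa using h1
  refine (Cg.pair (modEq_of_map (col_frob l j)) fun m hm => hnorm m ?_).trans ?_
  · rcases hm with hm | hm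
    · have := (coeff_col_ne_zero hm).2
      omega
    · have h1 := le_natDegree_of_ne_zero hm
      have h2 : (col 1 j).natDegree ≤ 38 := natDegree_le_iff_coeff_eq_zero.2 fun i hi => by
        by_contra h3
        have := (coeff_col_ne_zero h3).2
        omega
      have h3 := natDegree_mul_le (p := (X : ℤ[X]) ^ l) (q := expand ℤ p (col 1 j))
      rw [natDegree_X_pow, natDegree_expand] at h3
      have h4 : (col 1 j).natDegree * p ≤ 38 * p := Nat.mul_le_mul_right p h2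
      omega
  rw [pair_expand, Ent, Ent, ← pair_fun_mul, ← pair_fun_mul, ← pair_fun_add]
  refine cg_pair_fun fun i hi => ?_
  have hi' : i ≤ 38 := by
    have := (coeff_col_ne_zero hi).2
    omega
  have hip : p * i ≤ p * 38 := Nat.mul_le_mul_left p hi'
  refine (Phi_cong hp2 hγ (by omega) (by omega) hl (by omega)).trans ?_
  rw [← Phi_comb]
  have hA := natDegree_Acal_lt (p := p) hk.le
  have hB := natDegree_Acal_lt (p := p) (Nat.sub_le p k)
  refine cg_Phi hp (fun m => ?_) (fun m => ?_) (fun m hm => ?_) (by omega)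
  · rw [coeff_sec hp0, coeff_add, coeff_C_mul, coeff_C_mul, ← coeff_mul_expand hA _ hl,
      ← coeff_mul_expand hB _ hl, ← coeff_add]
    exact modEq_of_map (Prow_frob hp2 hk hd hd') _
  · rw [coeff_sec hp0, coeff_add, coeff_C_mul, coeff_C_mul, ← coeff_mul_expand hA _ hl,
      ← coeff_mul_expand hB _ hl, ← coeff_add]
    exact modEq_of_map (Drow_frob hp2 hk hd hd') _
  · by_contra hm'
    have hm1 : p * 47 ≤ p * m := Nat.mul_le_mul_left p (by omega)
    have a1 := natDegree_Prow_le (N := 1) (d := d) (by omega)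
    have a2 := natDegree_Prow_le (N := 1) (d := d + 1) (by omega)
    have a3 := natDegree_Drow_le (N := 1) (d := d) le_rfl (by omega)
    have a4 := natDegree_Drow_le (N := 1) (d := d + 1) le_rfl (by omega)
    rcases hm with hm | hm | hm | hm <;> apply hm
    · rw [coeff_sec hp0]
      refine coeff_eq_zero_of_natDegree_lt (natDegree_mul_le.trans_lt ?_)
      have h1 : ((1 - X ^ 2 : ℤ[X]) ^ (p / 2)).natDegree ≤ p / 2 * 2 :=
        natDegree_pow_le_of_le _ ((natDegree_sub_le _ _).trans (by simp))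
      omega
    · rw [coeff_add, coeff_C_mul, coeff_C_mul, coeff_eq_zero_of_natDegree_lt (p := Prow 1 d) (by omega),
        coeff_eq_zero_of_natDegree_lt (p := Prow 1 (d + 1)) (by omega)]
      simp
    · rw [coeff_sec hp0]
      exact coeff_eq_zero_of_natDegree_lt (by omega)
    · rw [coeff_add, coeff_C_mul, coeff_C_mul, coeff_eq_zero_of_natDegree_lt (p := Drow 1 d) (by omega),
        coeff_eq_zero_of_natDegree_lt (p := Drow 1 (d + 1)) (by omega)]
      simp

end Crest.Agent.R6
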