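import Crest.Agent.R6.SerBase

/-! Monomial double integrals.  `Ker x s = (2/(1+x²)) ∑_i (tt x · s)^i`, so the inner integral is
`(2/(1+x²)) ∑_i tt x^i/(k+i+1)`; interchange with `wallis_le`.  `tt` is odd, so the signed integral
of `tt^m · 2/(1+x²)` is `Wp m`; `d(tt x) = (1-x²)/(1+x²) · 2/(1+x²) dx`. -/

set_option autoImplicit false

namespace Crest.Agent.R6
open MeasureTheory

namespace IntA

theorem integrable_tsum' {α : Type*} [MeasurableSpace α] {μ : Measure α} {F : ℕ → α → ℝ}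
    (hF : ∀ i, Integrable (F i) μ) (hs : Summable fun i => ∫ a, ‖F i a‖ ∂μ) :
    Integrable (fun a => ∑' i, F i a) μ := by
  refine ⟨(AEMeasurable.tsum fun i => (hF i).1.aemeasurable).aestronglyMeasurable, ?_⟩
  unfold HasFiniteIntegral
  calc ∫⁻ a, ‖∑' i, F i a‖ₑ ∂μ ≤ ∫⁻ a, ∑' i, ‖F i a‖ₑ ∂μ := lintegral_mono fun a => enorm_tsum_le_tsum_enorm
    _ = ∑' i, ∫⁻ a, ‖F i a‖ₑ ∂μ := lintegral_tsum fun i => (hF i).1.enorm
    _ = ENNReal.ofReal (∑' i, ∫ a, ‖F i a‖ ∂μ) := by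
      rw [ENNReal.ofReal_tsum_of_nonneg (fun i => integral_nonneg fun a => norm_nonneg _) hs]
      exact tsum_congr fun i => (ofReal_integral_norm_eq_lintegral_enorm (hF i)).symm
    _ < ⊤ := ENNReal.ofReal_lt_top

theorem tt_cont : Continuous tt := by
  unfold tt
  exact Continuous.div (by fun_prop) (by fun_prop) fun x => by positivity

theorem rho_cont : Continuous fun x : ℝ => 2 / (1 + x ^ 2) :=
  Continuous.div (by fun_prop) (by fun_prop) fun x => by positivity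

theorem tt_neg (x : ℝ) : tt (-x) = -tt x := by
  unfold tt
  ring

theorem abs_tt_lt {x : ℝ} (h1 : -1 < x) (h2 : x < 1) : |tt x| < 1 := by
  unfold tt
  rw [abs_lt, lt_div_iff₀ (by positivity), div_lt_iff₀ (by positivity)]
  constructor <;> nlinarith

theorem tt_nonneg {x : ℝ} (h : 0 ≤ x) : 0 ≤ tt x := by
  unfold tt
  positivity

theorem intOn {f : ℝ → ℝ} (hf : Continuous f) (a b : ℝ) : IntegrableOn f (Set.Ioo a b) :=
  (hf.integrableOn_Icc).mono_set Set.Ioo_subset_Icc_self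

theorem int_Ioo (f : ℝ → ℝ) {a b : ℝ} (h : a ≤ b) : ∫ x in Set.Ioo a b, f x = ∫ x in a..b, f x := by
  rw [intervalIntegral.integral_of_le h, integral_Ioc_eq_integral_Ioo]

theorem int_pow (n : ℕ) : ∫ s in Set.Ioo (0 : ℝ) 1, s ^ n = 1 / (n + 1) := by
  rw [int_Ioo _ zero_le_one, integral_pow]
  simp

theorem inner_hasSum {x : ℝ} (h1 : -1 < x) (h2 : x < 1) (k : ℕ) :
    HasSum (fun i : ℕ => 2 / (1 + x ^ 2) * tt x ^ i / (k + i + 1)) (∫ s in Set.Ioo (0 : ℝ) 1, Ker x s * s ^ k) := by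
  have ht := abs_tt_lt h1 h2
  have hs := hasSum_integral_of_summable_integral_norm (μ := volume.restrict (Set.Ioo (0 : ℝ) 1))
    (F := fun (i : ℕ) (s : ℝ) => 2 / (1 + x ^ 2) * tt x ^ i * s ^ (k + i))
    (fun i => intOn (by fun_prop) _ _) ?_
  · have e1 : (fun i : ℕ => 2 / (1 + x ^ 2) * tt x ^ i / (k + i + 1)) =
        fun i : ℕ => ∫ s in Set.Ioo (0 : ℝ) 1, 2 / (1 + x ^ 2) * tt x ^ i * s ^ (k + i) := by
      funext i
      rw [integral_const_mul, int_pow]
      push_cast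
      ring
    have e2 : ∫ s in Set.Ioo (0 : ℝ) 1, Ker x s * s ^ k =
        ∫ s in Set.Ioo (0 : ℝ) 1, ∑' i : ℕ, 2 / (1 + x ^ 2) * tt x ^ i * s ^ (k + i) := by
      refine setIntegral_congr_fun measurableSet_Ioo fun s hs => ?_
      have h3 : |tt x * s| < 1 := by
        rw [abs_mul, abs_of_pos hs.1]
        nlinarith [hs.1, hs.2, abs_nonneg (tt x)]
      have h4 := (hasSum_geometric_of_abs_lt_one h3).mul_left (2 / (1 + x ^ 2) * s ^ k)
      have h5 : (fun i : ℕ => 2 / (1 + x ^ 2) * tt x ^ i * s ^ (k + i)) =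
          fun i : ℕ => 2 / (1 + x ^ 2) * s ^ k * (tt x * s) ^ i := by
        funext i
        ring
      beta_reduce
      rw [h5, h4.tsum_eq]
      have h6 : 1 - tt x * s ≠ 0 := by
        have := (abs_lt.1 h3).2
        linarith
      have h7 : 1 + x ^ 2 - 2 * x * s = (1 + x ^ 2) * (1 - tt x * s) := by
        unfold tt
        field_simp
      rw [Ker, h7]
      field_simp
    rw [e1, e2]
    exact hs
  · refine Summable.of_nonneg_of_le (fun i => integral_nonneg fun s => norm_nonneg _) (fun i => ?_)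
      ((summable_geometric_of_lt_one (abs_nonneg _) ht).mul_left (2 / (1 + x ^ 2)))
    have : ∫ s in Set.Ioo (0 : ℝ) 1, ‖2 / (1 + x ^ 2) * tt x ^ i * s ^ (k + i)‖ =
        ∫ s in Set.Ioo (0 : ℝ) 1, 2 / (1 + x ^ 2) * |tt x| ^ i * s ^ (k + i) := by
      refine setIntegral_congr_fun measurableSet_Ioo fun s hs => ?_
      simp only [Real.norm_eq_abs, abs_mul, abs_pow, abs_of_pos hs.1]
      rw [abs_of_pos (by positivity)]
    rw [this, integral_const_mul, int_pow]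
    refine mul_le_of_le_one_right (by positivity) ?_
    rw [div_le_one (by positivity)]
    have : (0 : ℝ) ≤ (k + i : ℕ) := Nat.cast_nonneg _
    linarith

theorem int_split {f : ℝ → ℝ} (hf : IntegrableOn f (Set.Ioo (-1) 1)) :
    ∫ x in Set.Ioo (-1 : ℝ) 1, f x = (∫ x in Set.Ioo (0 : ℝ) 1, f (-x)) + ∫ x in Set.Ioo (0 : ℝ) 1, f x := by
  have h1 : IntervalIntegrable f volume (-1) 0 :=
    (intervalIntegrable_iff_integrableOn_Ioo_of_le (by norm_num)).2
      (hf.mono_set (Set.Ioo_subset_Ioo le_rfl zero_le_one))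
  have h2 : IntervalIntegrable f volume 0 1 :=
    (intervalIntegrable_iff_integrableOn_Ioo_of_le (by norm_num)).2
      (hf.mono_set (Set.Ioo_subset_Ioo (by norm_num) le_rfl))
  rw [int_Ioo _ (by norm_num), int_Ioo _ zero_le_one, int_Ioo _ zero_le_one, intervalIntegral.integral_comp_neg,
    neg_zero, intervalIntegral.integral_add_adjacent_intervals h1 h2]

theorem abs_wallis (n : ℕ) :
    ∫ x in Set.Ioo (-1 : ℝ) 1, |tt x| ^ n * (2 / (1 + x ^ 2)) ≤ 4 / Real.sqrt (n + 1) := by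
  rw [int_split (f := fun x => |tt x| ^ n * (2 / (1 + x ^ 2))) (intOn ((tt_cont.abs.pow n).mul rho_cont) _ _)]
  have : ∫ x in Set.Ioo (0 : ℝ) 1, |tt x| ^ n * (2 / (1 + x ^ 2)) =
      ∫ x in Set.Ioo (0 : ℝ) 1, tt x ^ n * (2 / (1 + x ^ 2)) :=
    setIntegral_congr_fun measurableSet_Ioo fun x hx => by
      simp only [abs_of_nonneg (tt_nonneg hx.1.le)]
  simp only [tt_neg, abs_neg, neg_sq, this]
  have := wallis_le n
  calc _ ≤ 2 / Real.sqrt (n + 1) + 2 / Real.sqrt (n + 1) := add_le_add this this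
    _ = _ := by ring

theorem summable_bd : Summable fun i : ℕ => 4 / Real.sqrt (i + 1) / (i + 1) := by
  have h := ((summable_nat_add_iff 1).2 (Real.summable_nat_rpow_inv.2 (show (1 : ℝ) < 3 / 2 by norm_num))).mul_left 4
  refine h.congr fun i => ?_
  have : (0 : ℝ) < i + 1 := by positivity
  push_cast
  rw [show (3 / 2 : ℝ) = 1 / 2 + 1 by norm_num, Real.rpow_add this, Real.rpow_one, ← Real.sqrt_eq_rpow]
  field_simp

theorem intOn_phi {φ : ℝ → ℝ} (hm : Measurable φ) (hb : ∀ x, |φ x| ≤ 1) (n : ℕ) :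
    IntegrableOn (fun x => φ x * (tt x ^ n * (2 / (1 + x ^ 2)))) (Set.Ioo (-1 : ℝ) 1) :=
  Integrable.bdd_mul (c := 1) (intOn ((tt_cont.pow n).mul rho_cont) _ _) hm.aestronglyMeasurable
    (Filter.Eventually.of_forall hb)

theorem main {φ : ℝ → ℝ} (hm : Measurable φ) (hb : ∀ x, |φ x| ≤ 1) (m k : ℕ) :
    IntegrableOn (fun x => φ x * tt x ^ m * ∫ s in Set.Ioo (0 : ℝ) 1, Ker x s * s ^ k) (Set.Ioo (-1 : ℝ) 1) ∧
    ∫ x in Set.Ioo (-1 : ℝ) 1, φ x * tt x ^ m * ∫ s in Set.Ioo (0 : ℝ) 1, Ker x s * s ^ k =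
      ∑' i : ℕ, (∫ x in Set.Ioo (-1 : ℝ) 1, φ x * (tt x ^ (m + i) * (2 / (1 + x ^ 2)))) / ((k : ℝ) + i + 1) := by
  let G : ℕ → ℝ → ℝ := fun i x => φ x * (tt x ^ (m + i) * (2 / (1 + x ^ 2))) / (k + i + 1)
  have hG : ∀ i, IntegrableOn (G i) (Set.Ioo (-1 : ℝ) 1) := fun i => (intOn_phi hm hb (m + i)).div_const _
  have hs : Summable fun i => ∫ x in Set.Ioo (-1 : ℝ) 1, ‖G i x‖ := by
    refine Summable.of_nonneg_of_le (fun i => integral_nonneg fun s => norm_nonneg _) (fun i => ?_) summable_bd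
    have h0 : (0 : ℝ) < i + 1 := by positivity
    have hk : (0 : ℝ) ≤ k := Nat.cast_nonneg _
    have hm' : (0 : ℝ) ≤ m := Nat.cast_nonneg _
    calc _ ≤ ∫ x in Set.Ioo (-1 : ℝ) 1, |tt x| ^ (m + i) * (2 / (1 + x ^ 2)) / (k + i + 1) := by
          refine integral_mono (hG i).norm ((intOn ((tt_cont.abs.pow _).mul rho_cont) _ _).div_const _) fun x => ?_
          simp only [G, Real.norm_eq_abs, abs_div, abs_mul, abs_pow]
          rw [abs_of_pos (show (0 : ℝ) < k + i + 1 by positivity), abs_of_pos (show (0 : ℝ) < 1 + x ^ 2 by positivity),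
            abs_two]
          exact div_le_div_of_nonneg_right (mul_le_of_le_one_left (by positivity) (hb x)) (by positivity)
      _ ≤ 4 / Real.sqrt ((m + i : ℕ) + 1) / (k + i + 1) := by
          rw [integral_div]
          exact div_le_div_of_nonneg_right (abs_wallis _) (by positivity)
      _ ≤ _ := by
          push_cast
          gcongr <;> linarith
  have he : Set.EqOn (fun x => ∑' i, G i x)
      (fun x => φ x * tt x ^ m * ∫ s in Set.Ioo (0 : ℝ) 1, Ker x s * s ^ k) (Set.Ioo (-1 : ℝ) 1) := by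
    intro x hx
    simp only
    rw [← ((inner_hasSum hx.1 hx.2 k).mul_left (φ x * tt x ^ m)).tsum_eq]
    refine tsum_congr fun i => ?_
    simp only [G]
    ring
  refine ⟨(IntegrableOn.congr_fun (integrable_tsum' hG hs) he measurableSet_Ioo), ?_⟩
  rw [← setIntegral_congr_fun measurableSet_Ioo he, ← integral_tsum_of_summable_integral_norm hG hs]
  exact tsum_congr fun i => integral_div _ _

theorem mS : Measurable fun x : ℝ => (if x < 0 then -(1 / 2) else 1 / 2 : ℝ) :=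
  Measurable.ite measurableSet_Iio measurable_const measurable_const

theorem bS (x : ℝ) : |(if x < 0 then -(1 / 2) else 1 / 2 : ℝ)| ≤ 1 := by
  split_ifs <;> norm_num [abs_le]

theorem mZ : Measurable fun x : ℝ => (if x < 0 then 0 else (1 - x ^ 2) / (1 + x ^ 2) : ℝ) :=
  Measurable.ite measurableSet_Iio measurable_const (by fun_prop)

theorem bZ (x : ℝ) : |(if x < 0 then 0 else (1 - x ^ 2) / (1 + x ^ 2) : ℝ)| ≤ 1 := by
  split_ifs
  · simp
  · rw [abs_le, le_div_iff₀ (by positivity), div_le_iff₀ (by positivity)]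
    constructor <;> nlinarith [sq_nonneg x]

theorem vS (n : ℕ) : ∫ x in Set.Ioo (-1 : ℝ) 1, (if x < 0 then -(1 / 2) else 1 / 2 : ℝ) *
    (tt x ^ n * (2 / (1 + x ^ 2))) = (Wp n : ℝ) := by
  rw [int_split (intOn_phi mS bS n)]
  have h1 : ∫ x in Set.Ioo (0 : ℝ) 1, (if -x < 0 then -(1 / 2) else 1 / 2 : ℝ) *
      (tt (-x) ^ n * (2 / (1 + (-x) ^ 2))) =
      ∫ x in Set.Ioo (0 : ℝ) 1, -(1 / 2) * (-1) ^ n * (tt x ^ n * (2 / (1 + x ^ 2))) :=
    setIntegral_congr_fun measurableSet_Ioo fun x hx => by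
      beta_reduce
      rw [if_pos (by linarith [hx.1]), tt_neg, neg_pow (tt x), neg_sq]
      ring
  have h2 : ∫ x in Set.Ioo (0 : ℝ) 1, (if x < 0 then -(1 / 2) else 1 / 2 : ℝ) *
      (tt x ^ n * (2 / (1 + x ^ 2))) =
      ∫ x in Set.Ioo (0 : ℝ) 1, (1 / 2) * (tt x ^ n * (2 / (1 + x ^ 2))) :=
    setIntegral_congr_fun measurableSet_Ioo fun x hx => by
      beta_reduce
      rw [if_neg (by linarith [hx.1])]
  rw [h1, h2, integral_const_mul, integral_const_mul, Wp]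
  rcases Nat.even_or_odd' n with ⟨l, rfl | rfl⟩
  · rw [if_neg (by omega), pow_mul]
    simp
  · rw [if_pos (by omega), V_integral, show (2 * l + 1) / 2 = l by omega, pow_succ, pow_mul]
    ring

theorem vZ (n : ℕ) : ∫ x in Set.Ioo (-1 : ℝ) 1, (if x < 0 then 0 else (1 - x ^ 2) / (1 + x ^ 2) : ℝ) *
    (tt x ^ n * (2 / (1 + x ^ 2))) = 1 / ((n : ℝ) + 1) := by
  rw [int_split (intOn_phi mZ bZ n)]
  have h1 : ∫ x in Set.Ioo (0 : ℝ) 1, (if -x < 0 then 0 else (1 - (-x) ^ 2) / (1 + (-x) ^ 2) : ℝ) *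
      (tt (-x) ^ n * (2 / (1 + (-x) ^ 2))) = ∫ x in Set.Ioo (0 : ℝ) 1, (0 : ℝ) :=
    setIntegral_congr_fun measurableSet_Ioo fun x hx => by
      beta_reduce
      rw [if_pos (by linarith [hx.1]), zero_mul]
  have h2 : ∫ x in Set.Ioo (0 : ℝ) 1, (if x < 0 then 0 else (1 - x ^ 2) / (1 + x ^ 2) : ℝ) *
      (tt x ^ n * (2 / (1 + x ^ 2))) =
      ∫ x in Set.Ioo (0 : ℝ) 1, (1 - x ^ 2) / (1 + x ^ 2) * (tt x ^ n * (2 / (1 + x ^ 2))) :=
    setIntegral_congr_fun measurableSet_Ioo fun x hx => by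
      beta_reduce
      rw [if_neg (by linarith [hx.1])]
  have hd : ∀ x : ℝ, HasDerivAt (fun x => tt x ^ (n + 1) / (n + 1))
      ((1 - x ^ 2) / (1 + x ^ 2) * (tt x ^ n * (2 / (1 + x ^ 2)))) x := by
    intro x
    have h3 : HasDerivAt tt ((1 - x ^ 2) / (1 + x ^ 2) * (2 / (1 + x ^ 2))) x := by
      have := ((hasDerivAt_id x).const_mul 2).fun_div (((hasDerivAt_id x).fun_pow 2).const_add 1)
        (by simp only [id]; positivity)
      refine this.congr_deriv ?_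
      simp only [id]
      field_simp
      ring
    refine ((h3.fun_pow (n + 1)).div_const ((n : ℝ) + 1)).congr_deriv ?_
    push_cast
    field_simp
  have hc : Continuous fun x : ℝ => (1 - x ^ 2) / (1 + x ^ 2) * (tt x ^ n * (2 / (1 + x ^ 2))) :=
    (Continuous.div (by fun_prop) (by fun_prop) fun x => by positivity).mul ((tt_cont.pow n).mul rho_cont)
  rw [h1, h2, integral_zero, zero_add, int_Ioo _ zero_le_one,
    intervalIntegral.integral_eq_sub_of_hasDerivAt (fun x _ => hd x) (hc.intervalIntegrable _ _)]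
  norm_num [tt]

end IntA

open IntA

theorem inner_integrable {x : ℝ} (h1 : -1 < x) (h2 : x < 1) (k : ℕ) :
    IntegrableOn (fun s => Ker x s * s ^ k) (Set.Ioo (0 : ℝ) 1) := by
  refine (ContinuousOn.integrableOn_Icc ?_).mono_set Set.Ioo_subset_Icc_self
  unfold Ker
  refine (ContinuousOn.div (by fun_prop) (by fun_prop) fun s hs => ?_).mul (by fun_prop)
  have h3 : 0 < 1 + x ^ 2 - 2 * x * s := by
    rcases le_total x 0 with h | h
    · nlinarith [hs.1, hs.2, mul_nonneg hs.1 (neg_nonneg.2 h)]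
    · nlinarith [hs.1, hs.2, mul_nonneg (sub_nonneg.2 hs.2) h]
  exact h3.ne'

theorem IS_integrable (m k : ℕ) :
    IntegrableOn (fun x => (if x < 0 then -(1 / 2) else 1 / 2 : ℝ) * tt x ^ m *
      ∫ s in Set.Ioo (0 : ℝ) 1, Ker x s * s ^ k) (Set.Ioo (-1 : ℝ) 1) := by
  exact (main mS bS m k).1

theorem IS_eq (m k : ℕ) :
    ∫ x in Set.Ioo (-1 : ℝ) 1, (if x < 0 then -(1 / 2) else 1 / 2 : ℝ) * tt x ^ m *
      ∫ s in Set.Ioo (0 : ℝ) 1, Ker x s * s ^ k = SS m k := by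
  rw [(main mS bS m k).2, SS]
  exact tsum_congr fun i => by rw [vS]

theorem IZ_integrable (m k : ℕ) :
    IntegrableOn (fun x => (if x < 0 then 0 else (1 - x ^ 2) / (1 + x ^ 2) : ℝ) * tt x ^ m *
      ∫ s in Set.Ioo (0 : ℝ) 1, Ker x s * s ^ k) (Set.Ioo (-1 : ℝ) 1) := by
  exact (main mZ bZ m k).1

theorem IZ_eq (m k : ℕ) :
    ∫ x in Set.Ioo (-1 : ℝ) 1, (if x < 0 then 0 else (1 - x ^ 2) / (1 + x ^ 2) : ℝ) * tt x ^ m *
      ∫ s in Set.Ioo (0 : ℝ) 1, Ker x s * s ^ k = ZZ m k := by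
  rw [(main mZ bZ m k).2, ZZ]
  refine tsum_congr fun i => ?_
  rw [vZ, div_div]
  push_cast
  rfl

end Crest.Agent.R6
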