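import Crest.Agent.R6.Basic

/-! The Taylor relation `D ≡ P·(1-t²)^(-1/2)` up to order `42N + d`.
Idea: `ω = ∑ w a t^(2a)` has `(1-t²) ω² = 1`; `C_d² - (y²-4) S_{d-1}² = 4` gives
`P² - (1-t²) D² = 4 (1-t)^(4N) t^(84N)`, so `(Pω - D)(Pω + D) = 4 ω² (1-t)^(4N) t^(84 N)`.
For `d ≥ 0`, `Pω + D` has order exactly `42N - d` (leading coefficients `2^d` each; `d = 0`: `D = 0`).
For `d < 0` both `P` and `D` have order `≥ 42N - |d|` (`coeff_Prow_eq_zero`, `coeff_Drow_eq_zero`). -/

set_option autoImplicit false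

namespace Crest.Agent.R6
open Polynomial Finset

theorem w_succ (e : ℕ) : (2 * e + 2 : ℚ) * w (e + 1) = (2 * e + 1) * w e := by
  unfold w
  have h : ((e + 1 : ℕ) : ℚ) * ((e + 1).centralBinom : ℚ) = 2 * (2 * e + 1) * (e.centralBinom : ℚ) := by
    exact_mod_cast Nat.succ_mul_centralBinom_succ e
  push_cast at h
  rw [pow_succ]
  field_simp
  linear_combination 2 * h

theorem w_pos (e : ℕ) : 0 < w e := by
  unfold w
  have : (0 : ℚ) < e.centralBinom := by exact_mod_cast Nat.centralBinom_pos e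
  positivity

theorem V_succ (l : ℕ) : (2 * l + 3 : ℚ) * V (l + 1) = (2 * l + 2) * V l := by
  have h := w_succ l
  have h1 := w_pos l
  have h2 := w_pos (l + 1)
  unfold V
  push_cast
  field_simp
  linear_combination (-(2 * l + 3)) * h

namespace Tay

noncomputable section

def om : PowerSeries ℚ := PowerSeries.mk fun k => if k % 2 = 0 then w (k / 2) else 0

def io : ℤ[X] →+* PowerSeries ℚ :=
  Polynomial.coeToPowerSeries.ringHom.comp (Polynomial.mapRingHom (Int.castRingHom ℚ))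

theorem coeff_io (P : ℤ[X]) (k : ℕ) : PowerSeries.coeff k (io P) = (P.coeff k : ℚ) := by
  simp [io]

theorem io_X : io X = PowerSeries.X := by simp [io]

theorem io_C (a : ℤ) : io (C a) = PowerSeries.C (a : ℚ) := by simp [io]

theorem pair_be (k : ℕ) (P : ℤ[X]) : pair (fun m => be m k) P = PowerSeries.coeff k (io P * om) := by
  induction P using Polynomial.induction_on' with
  | add p q hp hq => rw [pair_add, hp, hq, map_add, add_mul, map_add]
  | monomial m a =>
    rw [pair_monomial, ← C_mul_X_pow_eq_monomial, map_mul io, map_pow io, io_X, io_C, mul_assoc,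
      PowerSeries.coeff_C_mul, PowerSeries.coeff_X_pow_mul']
    congr 1
    unfold be om
    by_cases h : m ≤ k <;> simp [h]

theorem w_zero : w 0 = 1 := by simp [w]

theorem om_ode : PowerSeries.derivative ℚ om =
    PowerSeries.X ^ 2 * PowerSeries.derivative ℚ om + PowerSeries.X ^ 1 * om := by
  ext k
  rw [map_add, PowerSeries.coeff_X_pow_mul', PowerSeries.coeff_X_pow_mul',
    PowerSeries.coeff_derivative, PowerSeries.coeff_derivative]
  simp only [om, PowerSeries.coeff_mk]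
  rcases k with _ | _ | j
  · simp
  · have := w_succ 0
    simp at this ⊢
    linarith
  · rw [if_pos (by omega : 2 ≤ j + 1 + 1), if_pos (by omega : 1 ≤ j + 1 + 1)]
    rcases Nat.even_or_odd' j with ⟨e, rfl | rfl⟩
    · rw [if_neg (by omega), if_neg (by omega), if_neg (by omega)]; simp
    · rw [if_pos (by omega), if_pos (by omega), if_pos (by omega),
        show (2 * e + 1 + 1 + 1 + 1) / 2 = e + 1 + 1 by omega,
        show (2 * e + 1 + 1 + 1 - 2 + 1) / 2 = e + 1 by omega,
        show (2 * e + 1 + 1 + 1 - 1) / 2 = e + 1 by omega,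
        show 2 * e + 1 + 1 + 1 - 2 = 2 * e + 1 by omega]
      have := w_succ (e + 1)
      push_cast at this ⊢
      linear_combination this

theorem om_sq : (1 - PowerSeries.X ^ 2) * om * om = 1 := by
  refine PowerSeries.derivative.ext ?_ ?_
  · have h := om_ode
    simp only [Derivation.leibniz, map_sub, Derivation.map_one_eq_zero, Derivation.leibniz_pow,
      PowerSeries.derivative_X, smul_eq_mul, nsmul_eq_mul]
    push_cast
    linear_combination 2 * om * h
  · have : PowerSeries.constantCoeff om = 1 := by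
      rw [← PowerSeries.coeff_zero_eq_constantCoeff_apply]; simp [om, w_zero]
    simp [this]

def rho : PowerSeries ℚ := (1 - PowerSeries.X ^ 2) * om

theorem rho_om : rho * om = 1 := om_sq

theorem rho_sq : rho ^ 2 = 1 - PowerSeries.X ^ 2 := by
  have := om_sq
  unfold rho
  linear_combination (1 - PowerSeries.X ^ 2) * this

theorem dvd_rho : PowerSeries.X ^ 2 ∣ 1 - rho := by
  have h1 : IsUnit (1 + rho) := by
    rw [PowerSeries.isUnit_iff_constantCoeff]
    have : PowerSeries.constantCoeff om = 1 := by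
      rw [← PowerSeries.coeff_zero_eq_constantCoeff_apply]; simp [om, w_zero]
    simp [rho, this]
  rw [← h1.dvd_mul_right]
  exact ⟨1, by linear_combination -rho_sq⟩

theorem rev_sub (M : ℕ) (f g : ℤ[X]) : rev M (f - g) = rev M f - rev M g := by
  rw [eq_sub_iff_add_eq, ← rev_add, sub_add_cancel]

theorem rev_X : rev 1 X = 2 := by
  rw [rev_eq_sum natDegree_X_le]
  simp [Finset.sum_range_succ, coeff_X]

theorem rev_C (a : ℤ) : rev 0 (C a) = C a := by
  rw [rev_eq_sum (by simp)]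
  simp

theorem rev_step {n : ℕ} {f g : ℤ[X]} (hf : f.natDegree ≤ n + 1) (hg : g.natDegree ≤ n) :
    rev (n + 2) (X * f - g) = 2 * rev (n + 1) f - X ^ 2 * rev n g := by
  rw [rev_sub, rev_shift 2 hg, show n + 2 = 1 + (n + 1) by ring, rev_mul natDegree_X_le hf, rev_X]

theorem degC (n : ℕ) : (Chebyshev.C ℤ n).natDegree ≤ n := by simpa using natDegree_C_le n

theorem degS (n : ℕ) : (Chebyshev.S ℤ n).natDegree ≤ n := by
  have := natDegree_S_le (n + 1)
  rw [add_sub_cancel_right] at this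
  refine this.trans ?_
  omega

theorem C_step (n : ℕ) : rev (n + 2) (Chebyshev.C ℤ (n + 2 : ℕ)) =
    2 * rev (n + 1) (Chebyshev.C ℤ (n + 1 : ℕ)) - X ^ 2 * rev n (Chebyshev.C ℤ n) := by
  rw [← rev_step (degC (n + 1)) (degC n)]
  push_cast
  rw [Chebyshev.C_add_two]

theorem S_step (n : ℕ) : rev (n + 2) (Chebyshev.S ℤ (n + 2 : ℕ)) =
    2 * rev (n + 1) (Chebyshev.S ℤ (n + 1 : ℕ)) - X ^ 2 * rev n (Chebyshev.S ℤ n) := by
  rw [← rev_step (degS (n + 1)) (degS n)]
  push_cast
  rw [Chebyshev.S_add_two]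

theorem C0 : rev 0 (Chebyshev.C ℤ (0 : ℕ)) = 2 := by
  rw [Nat.cast_zero, Chebyshev.C_zero]; exact rev_C 2
theorem C1 : rev 1 (Chebyshev.C ℤ (1 : ℕ)) = 2 := by
  rw [Nat.cast_one, Chebyshev.C_one]; exact rev_X
theorem S0 : rev 0 (Chebyshev.S ℤ (0 : ℕ)) = 1 := by
  rw [Nat.cast_zero, Chebyshev.S_zero]; exact rev_C 1
theorem S1 : rev 1 (Chebyshev.S ℤ (1 : ℕ)) = 2 := by
  rw [Nat.cast_one, Chebyshev.S_one]; exact rev_X

theorem closed (n : ℕ) : io (rev (n + 1) (Chebyshev.C ℤ (n + 1 : ℕ))) -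
    2 * rho * io (rev n (Chebyshev.S ℤ n)) = 2 * (1 - rho) ^ (n + 1) := by
  induction n using Nat.twoStepInduction with
  | zero => rw [zero_add, C1, S0, map_ofNat, map_one]; ring
  | one =>
    rw [C_step 0, zero_add, C1, C0, S1]
    simp only [map_sub, map_mul, map_pow, io_X, map_ofNat]
    linear_combination (-2) * rho_sq
  | more n h1 h2 =>
    rw [C_step (n + 1), S_step n]
    simp only [map_sub, map_mul, map_pow, io_X, map_ofNat]
    linear_combination 2 * h2 - PowerSeries.X ^ 2 * h1 - 2 * (1 - rho) ^ (n + 1) * rho_sq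

end

end Tay

theorem taylor {N : ℕ} (hN : 1 ≤ N) {d : ℤ} (hd : d.natAbs ≤ 42 * N) {k : ℕ}
    (hk : (k : ℤ) < 42 * N + d) :
    ((Drow N d).coeff k : ℚ) = pair (fun m => be m k) (Prow N d) := by
  rcases le_or_gt d 0 with h0 | h0
  · have hk' : k + d.natAbs < 42 * N := by omega
    rw [coeff_Drow_eq_zero hk', pair_congr (g := fun _ => 0) fun m hm => ?_]
    · simp [pair, Polynomial.sum]
    · refine if_neg fun h => hm (coeff_Prow_eq_zero ?_)
      omega
  obtain ⟨n, rfl⟩ : ∃ n : ℕ, d = ((n + 1 : ℕ) : ℤ) := ⟨(d - 1).toNat, by omega⟩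
  obtain ⟨j, hj⟩ : ∃ j, 42 * N = n + 1 + j := ⟨42 * N - (n + 1), by omega⟩
  have hc := Tay.closed n
  have h1 := Tay.rho_om
  obtain ⟨u, hu⟩ := Tay.dvd_rho
  rw [Tay.pair_be, ← Tay.coeff_io, eq_comm, ← sub_eq_zero, ← map_sub]
  have e : Tay.io (Prow N ((n + 1 : ℕ) : ℤ)) * Tay.om - Tay.io (Drow N ((n + 1 : ℕ) : ℤ)) =
      PowerSeries.X ^ (j + 2 * (n + 1)) * (2 * u ^ (n + 1) * Tay.om * Tay.io ((1 - X) ^ (2 * N))) := by
    unfold Prow Drow
    rw [show 42 * N - 1 = n + j by omega, hj, rev_shift j (Tay.degC (n + 1)),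
      show ((n + 1 : ℕ) : ℤ) - 1 = n by push_cast; ring, rev_shift j (Tay.degS n)]
    rw [hu, mul_pow, ← pow_mul] at hc
    simp only [map_mul, map_ofNat, map_pow (Tay.io) X, Tay.io_X]
    rw [pow_add]
    linear_combination PowerSeries.X ^ j * Tay.io ((1 - X) ^ (2 * N)) * Tay.om * hc +
      2 * PowerSeries.X ^ j * Tay.io ((1 - X) ^ (2 * N)) * Tay.io (rev n (Chebyshev.S ℤ n)) * h1
  rw [e, PowerSeries.coeff_X_pow_mul', if_neg (by omega)]

end Crest.Agent.R6
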