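import Crest.Agent.R6.Series
import Crest.Agent.R6.Integral
import Crest.Agent.R6.Taylor

/-! `Emat G = EmatR`.  With `t = tt x`, `2/t = yy x`, `C_d(x+1/x) = x^d + x^(-d)`,
`(1/x - x) S_{d-1}(x+1/x) = x^(-d) - x^d`, `(1-x²)/(1+x²) = t (1/x - x)/2`.
The `ζ(2)` terms cancel by `taylor` (columns have degree `< 39N ≤ 42N + d`). -/

set_option autoImplicit false

namespace Crest.Agent.R6
open Polynomial MeasureTheory

namespace Ident

theorem cheb_C {x : ℝ} (hx : x ≠ 0) (d : ℤ) : aeval (x + 1 / x) (Chebyshev.C ℤ d) = x ^ d + x ^ (-d) := by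
  induction d using Chebyshev.induct with
  | zero => simp [Chebyshev.C_zero, map_ofNat]; norm_num
  | one => simp [Chebyshev.C_one]
  | add_two n h1 h2 =>
    rw [Chebyshev.C_add_two, map_sub, map_mul, aeval_X, h1, h2]
    simp only [neg_add, zpow_add₀ hx, zpow_neg, zpow_ofNat, zpow_natCast]
    field_simp
    ring
  | neg_add_one n h1 h2 =>
    rw [Chebyshev.C_sub_one, map_sub, map_mul, aeval_X, h1, h2]
    simp only [neg_add, neg_sub, sub_eq_add_neg, zpow_add₀ hx, zpow_neg, zpow_ofNat, zpow_natCast, neg_neg]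
    field_simp
    ring

theorem cheb_S {x : ℝ} (hx : x ≠ 0) (d : ℤ) :
    (1 / x - x) * aeval (x + 1 / x) (Chebyshev.S ℤ d) = x ^ (-(d + 1)) - x ^ (d + 1) := by
  induction d using Chebyshev.induct with
  | zero => simp [Chebyshev.S_zero]
  | one =>
    simp only [Chebyshev.S_one, aeval_X, neg_add, zpow_add₀ hx, zpow_neg, zpow_ofNat]
    field_simp
    ring
  | add_two n h1 h2 =>
    rw [Chebyshev.S_add_two, map_sub, map_mul, aeval_X, mul_sub, mul_left_comm, h1, h2]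
    simp only [neg_add, zpow_add₀ hx, zpow_neg, zpow_ofNat, zpow_natCast]
    field_simp
    ring
  | neg_add_one n h1 h2 =>
    rw [Chebyshev.S_sub_one, map_sub, map_mul, aeval_X, mul_sub, mul_left_comm, h1, h2]
    simp only [neg_add, neg_sub, sub_eq_add_neg, zpow_add₀ hx, zpow_neg, zpow_ofNat, zpow_natCast, neg_neg]
    field_simp
    ring

theorem aeval_eq (t : ℝ) (P : ℤ[X]) : aeval t P = ∑ m ∈ P.support, (P.coeff m : ℝ) * t ^ m := by
  rw [aeval_def, eval₂_eq_sum, Polynomial.sum]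
  simp

theorem cast_pair (f : ℕ → ℚ) (P : ℤ[X]) :
    ((pair f P : ℚ) : ℝ) = ∑ m ∈ P.support, (P.coeff m : ℝ) * (f m : ℝ) := by
  unfold pair
  rw [Polynomial.sum]
  push_cast
  rfl

theorem lin {σ J : ℝ → ℝ} {v : ℕ → ℝ}
    (hi : ∀ m : ℕ, IntegrableOn (fun x => σ x * tt x ^ m * J x) (Set.Ioo (-1 : ℝ) 1))
    (he : ∀ m : ℕ, ∫ x in Set.Ioo (-1 : ℝ) 1, σ x * tt x ^ m * J x = v m) (P : ℤ[X]) :
    IntegrableOn (fun x => σ x * aeval (tt x) P * J x) (Set.Ioo (-1 : ℝ) 1) ∧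
      ∫ x in Set.Ioo (-1 : ℝ) 1, σ x * aeval (tt x) P * J x = ∑ m ∈ P.support, (P.coeff m : ℝ) * v m := by
  have e : (fun x => σ x * aeval (tt x) P * J x) =
      fun x => ∑ m ∈ P.support, (P.coeff m : ℝ) * (σ x * tt x ^ m * J x) := by
    funext x
    rw [aeval_eq, Finset.mul_sum, Finset.sum_mul]
    exact Finset.sum_congr rfl fun m _ => by ring
  rw [e]
  refine ⟨integrable_finsetSum _ fun m _ => (hi m).const_mul _, ?_⟩
  rw [integral_finsetSum _ fun m _ => (hi m).const_mul _]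
  exact Finset.sum_congr rfl fun m _ => by rw [integral_const_mul, he]

end Ident

theorem Psi_eq {N : ℕ} (hN : 1 ≤ N) {d : ℤ} (hd : d.natAbs ≤ 42 * N) {x : ℝ} (hx : x ≠ 0) :
    Psi N d x = (if x < 0 then -(1 / 2) else 1 / 2 : ℝ) * aeval (tt x) (Prow N d)
      - 3 / 4 * ((if x < 0 then 0 else (1 - x ^ 2) / (1 + x ^ 2) : ℝ) * aeval (tt x) (Drow N d)) := by
  have h1 : (1 + x ^ 2) ≠ 0 := by positivity
  have ht : tt x ≠ 0 := by unfold tt; exact div_ne_zero (mul_ne_zero two_ne_zero hx) h1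
  have hy : 2 / tt x = x + 1 / x := by unfold tt; field_simp; ring
  have hS := Ident.cheb_S hx (d - 1)
  rw [sub_add_cancel] at hS
  have e1 : aeval (tt x) (Prow N d) = (1 - tt x) ^ (2 * N) * (tt x ^ (42 * N) * (x ^ d + x ^ (-d))) := by
    unfold Prow
    rw [map_mul, aeval_rev ((natDegree_C_le d).trans hd) ht, hy, Ident.cheb_C hx]
    simp
  have e2 : aeval (tt x) (Drow N d) = 2 * (1 - tt x) ^ (2 * N) *
      (tt x ^ (42 * N - 1) * aeval (x + 1 / x) (Chebyshev.S ℤ (d - 1))) := by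
    unfold Drow
    rw [map_mul, aeval_rev ((natDegree_S_le d).trans (by omega)) ht, hy]
    simp [map_ofNat]
  have e3 : (1 - x ^ 2) / (1 + x ^ 2) = tt x * (1 / x - x) / 2 := by unfold tt; field_simp
  have e4 : tt x ^ (42 * N) = tt x ^ (42 * N - 1) * tt x := by
    rw [← pow_succ]; congr 1; omega
  rw [e1, e2]
  unfold Psi psi
  split_ifs
  · ring
  · rw [e3, e4]
    linear_combination (3 / 4 * (1 - tt x) ^ (2 * N) * tt x ^ (42 * N - 1) * tt x) * hS

theorem Ident.row {γ : ℚ} (hγ : (γ : ℝ) = Gc) {N : ℕ} (hN : 1 ≤ N) {d : ℤ} (hd : d.natAbs ≤ 42 * N) {k : ℕ}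
    (hk : (k : ℤ) < 42 * N + d) :
    IntegrableOn (fun x => Psi N d x * ∫ s in Set.Ioo (0 : ℝ) 1, Ker x s * s ^ k) (Set.Ioo (-1 : ℝ) 1) ∧
    ∫ x in Set.Ioo (-1 : ℝ) 1, Psi N d x * ∫ s in Set.Ioo (0 : ℝ) 1, Ker x s * s ^ k =
      ((Phi γ (Prow N d) (Drow N d) k : ℚ) : ℝ) := by
  obtain ⟨i1, e1⟩ := Ident.lin (fun m => IS_integrable m k) (fun m => IS_eq m k) (Prow N d)
  obtain ⟨i2, e2⟩ := Ident.lin (fun m => IZ_integrable m k) (fun m => IZ_eq m k) (Drow N d)
  have hae : (fun x => (if x < 0 then -(1 / 2) else 1 / 2 : ℝ) * aeval (tt x) (Prow N d) *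
        (∫ s in Set.Ioo (0 : ℝ) 1, Ker x s * s ^ k) -
      3 / 4 * ((if x < 0 then 0 else (1 - x ^ 2) / (1 + x ^ 2) : ℝ) * aeval (tt x) (Drow N d) *
        ∫ s in Set.Ioo (0 : ℝ) 1, Ker x s * s ^ k)) =ᵐ[volume.restrict (Set.Ioo (-1 : ℝ) 1)]
      fun x => Psi N d x * ∫ s in Set.Ioo (0 : ℝ) 1, Ker x s * s ^ k := by
    have : ∀ᵐ x : ℝ, x ≠ 0 := by simp [ae_iff]
    filter_upwards [ae_restrict_of_ae this] with x hx
    rw [Psi_eq hN hd hx]
    ring
  refine ⟨(i1.sub (i2.const_mul _)).congr hae, ?_⟩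
  rw [← integral_congr_ae hae, integral_sub i1 (i2.const_mul _), integral_const_mul, e1, e2]
  have ht : (((Drow N d).coeff k : ℚ) : ℝ) = ((pair (fun m => be m k) (Prow N d) : ℚ) : ℝ) := by
    rw [taylor hN hd hk]
  rw [Ident.cast_pair] at ht
  have e3 : ∑ m ∈ (Drow N d).support, ((Drow N d).coeff m : ℝ) * (if m = k then zeta2 else 0) =
      (Drow N d).coeff k * zeta2 := by
    rw [Finset.sum_eq_single k (fun m _ hm => by simp [hm]) (fun h => by simp [notMem_support_iff.1 h])]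
    simp
  unfold Phi
  push_cast at ht ⊢
  rw [Ident.cast_pair, Ident.cast_pair]
  simp only [SS_eq, ZZ_eq, mul_add, Finset.sum_add_distrib, e3, ht]
  push_cast
  simp only [mul_add, Finset.sum_add_distrib, hγ, Finset.sum_mul, Finset.mul_sum]
  have e4 : ∑ m ∈ (Prow N d).support, ((Prow N d).coeff m : ℝ) * (3 / 4 * zeta2 * (be m k : ℝ)) =
      ∑ m ∈ (Prow N d).support, 3 / 4 * (((Prow N d).coeff m : ℝ) * (be m k : ℝ) * zeta2) :=
    Finset.sum_congr rfl fun m _ => by ring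
  rw [e4]
  ring

theorem Emat_eq {γ : ℚ} (hγ : (γ : ℝ) = Gc) {N : ℕ} (hN : 1 ≤ N) (r j : Fin (32 * N)) :
    ((Emat γ N r j : ℚ) : ℝ) = EmatR N r j := by
  have hr := r.2
  have hj := j.2
  have hd : (((r : ℕ) : ℤ) - 3 * N).natAbs ≤ 42 * N := by omega
  have hrow : ∀ k ∈ (col N j).support, _ := fun k hk =>
    Ident.row hγ hN hd (k := k) (by have := coeff_col_ne_zero (mem_support_iff.1 hk); omega)
  simp only [Emat, EmatR, Matrix.of_apply, Ent]
  rw [Ident.cast_pair]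
  have hin : ∀ x ∈ Set.Ioo (-1 : ℝ) 1, Psi N (((r : ℕ) : ℤ) - 3 * N) x *
      ∫ s in Set.Ioo (0 : ℝ) 1, Ker x s * colR N j s =
      ∑ k ∈ (col N j).support, ((col N j).coeff k : ℝ) *
        (Psi N (((r : ℕ) : ℤ) - 3 * N) x * ∫ s in Set.Ioo (0 : ℝ) 1, Ker x s * s ^ k) := by
    intro x hx
    have e : (fun s => Ker x s * colR N j s) =
        fun s => ∑ k ∈ (col N j).support, ((col N j).coeff k : ℝ) * (Ker x s * s ^ k) := by
      funext s
      have : colR N j s = aeval s (col N j) := by simp [colR, col]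
      rw [this, Ident.aeval_eq, Finset.mul_sum]
      exact Finset.sum_congr rfl fun k _ => by ring
    rw [e, integral_finsetSum _ fun k _ => (inner_integrable hx.1 hx.2 k).const_mul _, Finset.mul_sum]
    exact Finset.sum_congr rfl fun k _ => by rw [integral_const_mul]; ring
  rw [setIntegral_congr_fun measurableSet_Ioo hin,
    integral_finsetSum _ fun k hk => (hrow k hk).1.const_mul _]
  exact Finset.sum_congr rfl fun k hk => by rw [integral_const_mul, (hrow k hk).2]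

theorem det_Emat_eq {γ : ℚ} (hγ : (γ : ℝ) = Gc) {N : ℕ} (hN : 1 ≤ N) :
    (((Emat γ N).det : ℚ) : ℝ) = (EmatR N).det := by
  have : EmatR N = (Rat.castHom ℝ).mapMatrix (Emat γ N) := by
    ext r j
    exact (Emat_eq hγ hN r j).symm
  rw [this, ← RingHom.map_det]
  rfl

end Crest.Agent.R6
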