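import Crest.Agent.R6.Val

/-! Lucas-type congruences for `w` and `V` (`p` odd, `h = (p-1)/2 = p/2`). -/

set_option autoImplicit false

namespace Crest.Agent.R6
open Polynomial Finset

variable {p : ℕ} [Fact p.Prime]

theorem Lucas.n_mul {x y : ℚ} (hx : padicNorm p x ≤ 1) (hy : padicNorm p y ≤ 1) :
    padicNorm p (x * y) ≤ 1 := by
  rw [padicNorm.mul]; exact mul_le_one₀ hx (padicNorm.nonneg _) hy

theorem Lucas.lin {a b x y : ℚ} (c d : ℚ) (h : Cg p x y) (hc : padicNorm p c ≤ 1)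
    (hd : padicNorm p d ≤ 1) (e : a - b = c * (x - y) + p * d) : Cg p a b := by
  have h1 := (h.mul_left c hc).add (cg_p_mul hd)
  unfold Cg at h1 ⊢
  rw [e]
  convert h1 using 2
  ring

theorem Lucas.cancel {x y : ℚ} (c : ℚ) (hc : padicNorm p c = 1) (h : Cg p (c * x) (c * y)) :
    Cg p x y := by
  unfold Cg at h ⊢
  rwa [← mul_sub, padicNorm.mul, hc, one_mul] at h

theorem Lucas.inv {x y : ℚ} (h : Cg p x y) (hy : padicNorm p y = 1) : Cg p (1 / x) (1 / y) := by
  have hx : padicNorm p x = 1 := by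
    have h1 : padicNorm p (y + (x - y)) = max (padicNorm p y) (padicNorm p (x - y)) :=
      padicNorm.add_eq_max_of_ne (by rw [hy]; exact (ne_of_lt h).symm)
    rw [add_sub_cancel, hy, max_eq_left (le_of_lt h)] at h1
    exact h1
  have hx0 : x ≠ 0 := fun h0 => by rw [h0, padicNorm.zero] at hx; exact zero_ne_one hx
  have hy0 : y ≠ 0 := fun h0 => by rw [h0, padicNorm.zero] at hy; exact zero_ne_one hy
  refine Lucas.cancel (x * y) (by rw [padicNorm.mul, hx, hy, one_mul]) ?_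
  have e1 : x * y * (1 / x) = y := by field_simp
  have e2 : x * y * (1 / y) = x := by field_simp
  rw [e1, e2]
  exact h.symm

theorem Lucas.odd (hp : p ≠ 2) : p = 2 * (p / 2) + 1 := by
  have := (Fact.out : p.Prime).eq_two_or_odd
  omega

theorem Lucas.unit {a : ℕ} (b : ℕ) (h0 : 0 < a) (h1 : a < 2 * p) (h2 : a ≠ p) :
    padicNorm p ((a + p * b : ℕ) : ℚ) = 1 := by
  refine (padicNorm.nat_eq_one_iff _).2 fun h => ?_
  obtain ⟨c, hc⟩ := (Nat.dvd_add_left (dvd_mul_right p b)).1 h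
  subst hc
  have hc2 : c < 2 := by
    by_contra hc; push Not at hc; nlinarith
  interval_cases c <;> simp_all

theorem Lucas.unit2 (hp : p ≠ 2) {a : ℕ} (b : ℕ) (h : a + 1 < p) :
    padicNorm p (2 * ((a + p * b : ℕ) : ℚ) + 2) = 1 := by
  have h1 := Lucas.unit (p := p) (a := 2 * a + 2) (2 * b) (by omega) (by omega)
    (by have := Lucas.odd hp; omega)
  rw [← h1]; congr 1; push_cast; ring

theorem Lucas.four (hp : p ≠ 2) (k : ℕ) : padicNorm p ((4 : ℚ) ^ k) = 1 := by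
  have h : padicNorm p ((4 ^ k : ℕ) : ℚ) = 1 := by
    refine (padicNorm.nat_eq_one_iff _).2 fun h => hp ?_
    have h1 : p ∣ 2 ^ 2 := (Fact.out : p.Prime).dvd_of_dvd_pow h
    exact (Nat.prime_dvd_prime_iff_eq Fact.out Nat.prime_two).1
      ((Fact.out : p.Prime).dvd_of_dvd_pow h1)
  exact_mod_cast h

theorem Lucas.w_mul (hp : p ≠ 2) (e : ℕ) : Cg p (w (p * e)) (w e) := by
  have hp0 : 0 < p := (Fact.out : p.Prime).pos
  refine Lucas.cancel (4 ^ (p * e) * 4 ^ e)
    (by rw [padicNorm.mul, Lucas.four hp, Lucas.four hp, one_mul]) ?_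
  have e1 : (4 : ℚ) ^ (p * e) * 4 ^ e * w (p * e) = (((p * e).centralBinom * 4 ^ e : ℤ) : ℚ) := by
    unfold w; push_cast; field_simp
  have e2 : (4 : ℚ) ^ (p * e) * 4 ^ e * w e = ((e.centralBinom * 4 ^ (p * e) : ℤ) : ℚ) := by
    unfold w; push_cast; field_simp
  rw [e1, e2]
  refine Cg.of_int (Int.ModEq.mul ?_ ?_)
  · have h := Choose.choose_modEq_choose_mod_mul_choose_div (n := p * (2 * e)) (k := p * e) (p := p)
    rw [Nat.mul_mod_right, Nat.mul_mod_right, Nat.mul_div_cancel_left _ hp0,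
      Nat.mul_div_cancel_left _ hp0, Nat.choose_zero_right, Nat.cast_one, one_mul] at h
    rw [Nat.centralBinom_eq_two_mul_choose, Nat.centralBinom_eq_two_mul_choose,
      show 2 * (p * e) = p * (2 * e) by ring]
    exact h
  · rw [← ZMod.intCast_eq_intCast_iff]
    push_cast
    rw [mul_comm, pow_mul, ZMod.pow_card]

theorem Lucas.coeff_one_sub (h k : ℕ) :
    ((1 - X : ℤ[X]) ^ h).coeff k = (-1) ^ k * (h.choose k : ℤ) := by
  induction h generalizing k with
  | zero => cases k <;> simp [coeff_one]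
  | succ h ih =>
    rw [pow_succ, mul_sub, mul_one, coeff_sub]
    cases k with
    | zero => simp [ih]
    | succ k => rw [coeff_mul_X, ih, ih, Nat.choose_succ_succ']; push_cast; ring

/-- Lucas (`Choose.choose_modEq_choose_mod_mul_choose_div`) + Fermat for `4^(p e1)`. -/
theorem w_lucas (hp : p ≠ 2) {e0 : ℕ} (h0 : e0 < p) (e1 : ℕ) :
    Cg p (w (e0 + p * e1)) (w e0 * w e1) := by
  induction e0 with
  | zero => simpa [w] using Lucas.w_mul hp e1
  | succ e0 ih =>
    refine Lucas.cancel _ (Lucas.unit2 hp e1 h0) ?_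
    have h1 := w_succ (e0 + p * e1)
    have h2 := w_succ e0
    rw [show e0 + 1 + p * e1 = e0 + p * e1 + 1 by ring, h1]
    refine Lucas.lin (((2 * (e0 + p * e1) + 1 : ℕ) : ℚ)) (((2 * e1 : ℕ) : ℚ) *
      ((w e0 - w (e0 + 1)) * w e1)) (ih (by omega)) (padicNorm.of_nat _)
      (Lucas.n_mul (padicNorm.of_nat _) (Lucas.n_mul
        (padicNorm.sub.trans (max_le (norm_w_le hp _) (norm_w_le hp _))) (norm_w_le hp _))) ?_
    push_cast
    linear_combination (-w e1) * h2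

theorem w_choose (hp : p ≠ 2) {a : ℕ} (ha : a < p) :
    Cg p (w a) ((-1) ^ a * ((p / 2).choose a : ℚ)) := by
  induction a with
  | zero => simpa [w] using Cg.refl (p := p) 1
  | succ a ih =>
    have hu := Lucas.unit2 hp 0 ha
    rw [mul_zero, add_zero] at hu
    refine Lucas.cancel _ hu ?_
    rw [w_succ]
    have h1 : (((p / 2).choose (a + 1) : ℕ) : ℚ) * (a + 1) =
        ((p / 2).choose a : ℚ) * (((p / 2 : ℕ) : ℚ) - a) := by
      rcases le_or_gt a (p / 2) with h | h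
      · have := Nat.choose_succ_right_eq (p / 2) a
        rw [← Nat.cast_sub h]
        exact_mod_cast this
      · rw [Nat.choose_eq_zero_of_lt h, Nat.choose_eq_zero_of_lt (by omega)]; simp
    have h2 : (p : ℚ) = 2 * ((p / 2 : ℕ) : ℚ) + 1 := by exact_mod_cast Lucas.odd hp
    refine Lucas.lin (((2 * a + 1 : ℕ) : ℚ)) ((((-1) ^ a * ((p / 2).choose a : ℤ) : ℤ) : ℚ))
      (ih (by omega)) (padicNorm.of_nat _) (padicNorm.of_int _) ?_
    push_cast
    linear_combination (2 * (-1) ^ a) * h1 - ((-1) ^ a * ((p / 2).choose a : ℚ)) * h2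

theorem w_zero (hp : p ≠ 2) {a : ℕ} (ha : p / 2 < a) (ha' : a < p) : Cg p (w a) 0 := by
  simpa [Nat.choose_eq_zero_of_lt ha] using w_choose hp ha'

theorem w_reflect (hp : p ≠ 2) {a : ℕ} (ha : a ≤ p / 2) :
    Cg p (w a) ((-1) ^ (p / 2) * w (p / 2 - a)) := by
  have ho := Lucas.odd hp
  have h1 := w_choose hp (a := a) (by omega)
  have h2 := (w_choose hp (a := p / 2 - a) (by omega)).mul_left ((-1) ^ (p / 2))
    (by exact_mod_cast padicNorm.of_int (p := p) ((-1) ^ (p / 2)))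
  refine h1.trans (Cg.symm ?_)
  rw [Nat.choose_symm ha] at h2
  convert h2 using 1
  obtain ⟨b, hb⟩ := Nat.exists_eq_add_of_le ha
  rw [hb, Nat.add_sub_cancel_left, pow_add, mul_assoc, ← mul_assoc ((-1 : ℚ) ^ b), ← mul_pow]
  simp

/-- `∑ C(h,a)² = C(2h,h) = C(p-1,h) ≡ (-1)^h`. -/
theorem w_sq_sum (hp : p ≠ 2) : Cg p (∑ a ∈ range p, w a ^ 2) ((-1) ^ (p / 2)) := by
  have ho := Lucas.odd hp
  have hi : ∀ a : ℕ, padicNorm p ((-1) ^ a * ((p / 2).choose a : ℚ)) ≤ 1 := fun a => by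
    exact_mod_cast padicNorm.of_int (p := p) ((-1) ^ a * ((p / 2).choose a : ℤ))
  have h1 : Cg p (∑ a ∈ range p, w a ^ 2) (∑ a ∈ range p, ((p / 2).choose a : ℚ) ^ 2) := by
    refine Cg.sum _ fun a ha => ?_
    have h := w_choose hp (mem_range.1 ha)
    have h' := h.mul h (hi a) (hi a)
    convert h' using 1
    · ring
    · rw [mul_mul_mul_comm, ← mul_pow]; simp [sq]
  have h2 : ∑ a ∈ range p, ((p / 2).choose a : ℚ) ^ 2 = 4 ^ (p / 2) * w (p / 2) := by
    rw [← sum_subset (range_subset_range.2 (show p / 2 + 1 ≤ p by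
      have := (Fact.out : p.Prime).two_le; omega)) fun a _ ha => by
        rw [Nat.choose_eq_zero_of_lt (by simpa using ha)]; simp]
    have := Nat.sum_range_choose_sq (p / 2)
    unfold w
    rw [mul_div_cancel₀ _ (by positivity), Nat.centralBinom_eq_two_mul_choose, ← this]
    push_cast; rfl
  have h3 : Cg p (4 ^ (p / 2)) 1 := by
    have h : ((4 : ℤ) ^ (p / 2)) ≡ 1 [ZMOD p] := by
      rw [← ZMod.intCast_eq_intCast_iff]
      push_cast
      have h2 : (2 : ZMod p) ≠ 0 := fun h => hp ((Nat.prime_dvd_prime_iff_eq Fact.out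
        Nat.prime_two).1 ((ZMod.natCast_eq_zero_iff 2 p).1 (by exact_mod_cast h)))
      rw [show (4 : ZMod p) = 2 ^ 2 by norm_num, ← pow_mul, show 2 * (p / 2) = p - 1 by omega]
      exact ZMod.pow_card_sub_one_eq_one h2
    exact_mod_cast Cg.of_int (p := p) h
  have h4 := h3.mul (w_choose hp (a := p / 2) (by omega)) (by simp) (hi _)
  rw [h2] at h1
  simpa using h1.trans h4

/-- downward induction on `l0` from `l0 = p-1` with `V_succ`, `w_succ`; base:
`p V(p(l1+1)-1) = 1/(w(p(l1+1)) (2 l1+2)) ≡ 1/(w(l1+1)(2 l1+2)) = V l1`. -/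
theorem V_lucas (hp : p ≠ 2) {l0 l1 : ℕ} (h0 : l0 < p) (h1 : 2 * l1 + 1 < p) :
    Cg p (p * V (l0 + p * l1)) (w (p - 1 - l0) * V l1) := by
  have ho := Lucas.odd hp
  have hV : padicNorm p (V l1) ≤ 1 := by
    simpa [Nat.log_of_lt h1] using norm_V_le hp l1
  have hp0 : (p : ℚ) ≠ 0 := Nat.cast_ne_zero.2 (Fact.out : p.Prime).ne_zero
  suffices H : ∀ e l0 : ℕ, l0 + e + 1 = p → Cg p (p * V (l0 + p * l1)) (w e * V l1) from
    H _ _ (by omega)
  intro e
  induction e with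
  | zero =>
    intro l0 hl
    have hy : padicNorm p ((2 * l1 + 2 : ℚ) * w (l1 + 1)) = 1 := by
      rw [w_succ]
      have h2 : padicNorm p ((2 * l1 + 1 : ℚ) * w l1) ≤ 1 :=
        Lucas.n_mul (by exact_mod_cast padicNorm.of_nat (p := p) (2 * l1 + 1)) (norm_w_le hp _)
      have h3 : padicNorm p ((2 * l1 + 1 : ℚ) * w l1) * padicNorm p (V l1) = 1 := by
        have := w_pos l1
        rw [← padicNorm.mul, V, mul_one_div_cancel (by positivity), padicNorm.one]
      refine le_antisymm h2 ?_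
      calc (1 : ℚ) = _ := h3.symm
        _ ≤ _ := mul_le_of_le_one_right (padicNorm.nonneg _) hV
    have h2 := Lucas.inv ((Lucas.w_mul hp (l1 + 1)).mul_left (2 * l1 + 2 : ℚ)
      (by exact_mod_cast padicNorm.of_nat (p := p) (2 * l1 + 2))) hy
    have hl' : (l0 : ℚ) + 1 = p := by exact_mod_cast hl
    convert h2 using 1
    · have e1 : l0 + p * l1 + 1 = p * (l1 + 1) := by rw [mul_add, mul_one]; omega
      have := w_pos (p * (l1 + 1))
      rw [V, ← w_succ, e1]
      push_cast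
      rw [show 2 * ((l0 : ℚ) + p * l1) + 2 = p * (2 * l1 + 2) by linear_combination 2 * hl']
      field_simp
    · rw [V, w_succ]; simp [w]
  | succ e ih =>
    intro l0 hl
    refine Lucas.cancel _ (Lucas.unit2 hp (a := l0) l1 (by omega)) ?_
    have h2 := V_succ (l0 + p * l1)
    have h3 := w_succ e
    have h4 := ih (l0 + 1) (by omega)
    rw [show l0 + 1 + p * l1 = l0 + p * l1 + 1 by ring] at h4
    have hl' : (l0 : ℚ) + (e + 1) + 1 = p := by exact_mod_cast hl
    refine Lucas.lin (((2 * (l0 + p * l1) + 3 : ℕ) : ℚ)) (((2 * l1 + 2 : ℕ) : ℚ) *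
      ((w e - w (e + 1)) * V l1)) h4 (padicNorm.of_nat _)
      (Lucas.n_mul (padicNorm.of_nat _) (Lucas.n_mul
        (padicNorm.sub.trans (max_le (norm_w_le hp _) (norm_w_le hp _))) hV)) ?_
    push_cast at h2 ⊢
    linear_combination (-(p : ℚ)) * h2 + V l1 * h3 + 2 * (w e - w (e + 1)) * V l1 * hl'

/-- `p/(2l+1)`. -/
theorem inv_odd_lucas (hp : p ≠ 2) {l0 l1 : ℕ} (h0 : l0 < p) (h1 : 2 * l1 + 1 < p) :
    Cg p (p * (1 / (2 * ((l0 + p * l1 : ℕ) : ℚ) + 1)))
      (if l0 = p / 2 then 1 / (2 * (l1 : ℚ) + 1) else 0) := by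
  have ho := Lucas.odd hp
  have hp0 : (p : ℚ) ≠ 0 := Nat.cast_ne_zero.2 (Fact.out : p.Prime).ne_zero
  split_ifs with h
  · have h2 : (p : ℚ) = 2 * l0 + 1 := by rw [h]; exact_mod_cast ho
    convert Cg.refl (p := p) (1 / (2 * (l1 : ℚ) + 1)) using 1
    push_cast
    rw [show 2 * ((l0 : ℚ) + p * l1) + 1 = p * (2 * l1 + 1) by linear_combination -h2]
    field_simp
  · refine cg_p_mul (le_of_eq ?_)
    have h2 := Lucas.unit (p := p) (a := 2 * l0 + 1) (2 * l1) (by omega) (by omega) (by omega)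
    rw [padicNorm.div, padicNorm.one, show 2 * ((l0 + p * l1 : ℕ) : ℚ) + 1 =
      ((2 * l0 + 1 + p * (2 * l1) : ℕ) : ℚ) by push_cast; ring, h2, div_one]

/-- `p/(k+1)`. -/
theorem inv_succ_lucas {k0 k1 : ℕ} (h0 : k0 < p) (h1 : k1 + 1 < p) :
    Cg p (p * (1 / (((k0 + p * k1 : ℕ) : ℚ) + 1)))
      (if k0 = p - 1 then 1 / ((k1 : ℚ) + 1) else 0) := by
  have hp0 : (p : ℚ) ≠ 0 := Nat.cast_ne_zero.2 (Fact.out : p.Prime).ne_zero
  split_ifs with h
  · have h2 : (p : ℚ) = k0 + 1 := by exact_mod_cast (show p = k0 + 1 by omega)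
    convert Cg.refl (p := p) (1 / ((k1 : ℚ) + 1)) using 1
    push_cast
    rw [show ((k0 : ℚ) + p * k1) + 1 = p * (k1 + 1) by linear_combination -h2]
    field_simp
  · refine cg_p_mul (le_of_eq ?_)
    have h2 := Lucas.unit (p := p) (a := k0 + 1) k1 (by omega) (by omega) (by omega)
    rw [padicNorm.div, padicNorm.one, show ((k0 + p * k1 : ℕ) : ℚ) + 1 =
      ((k0 + 1 + p * k1 : ℕ) : ℚ) by push_cast; ring, h2, div_one]

/-- coefficients of `(1-X²)^h`. -/
theorem coeff_omega (hp : p ≠ 2) (m : ℕ) :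
    Cg p (((1 - X ^ 2 : ℤ[X]) ^ (p / 2)).coeff m : ℚ)
      (if m % 2 = 0 ∧ m < 2 * p then w (m / 2) else 0) := by
  have ho := Lucas.odd hp
  have e : (1 - X ^ 2 : ℤ[X]) ^ (p / 2) = expand ℤ 2 ((1 - X) ^ (p / 2)) := by simp
  rw [e, coeff_expand (by norm_num), Lucas.coeff_one_sub]
  by_cases h1 : m % 2 = 0
  · rw [if_pos (Nat.dvd_of_mod_eq_zero h1)]
    by_cases h2 : m < 2 * p
    · rw [if_pos ⟨h1, h2⟩]
      push_cast
      exact (w_choose hp (by omega)).symm
    · rw [if_neg (fun h => h2 h.2), Nat.choose_eq_zero_of_lt (by omega)]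
      simpa using Cg.refl (p := p) 0
  · rw [if_neg (fun h => h1 (Nat.mod_eq_zero_of_dvd h)), if_neg (fun h => h1 h.1)]
    simpa using Cg.refl (p := p) 0

end Crest.Agent.R6
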