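import Crest.Agent.R6.Dets

/-! Discrete Cauchy–Binet bound.  `M = F G` through the index set `μ = Fin n ⊕ Fin m ⊕ Fin g`:
`F r (inl k) = C_d(y k)`, `F r (b) = C_d(η b)`, `F r (k) = 2·[d = -(k+1)]` (`d = r - g`);
`G (inl k) i = ε i·[k = i]`, `G b i = δ i τ b/(y i - η b)`, `G k i = δ i S_k(y i)`.
`det (F G) = (1/n!) ∑_{f : Fin n → μ} det F_f det G_f`, so `‖det‖ ≤ |μ|^n max_f ‖det F_f‖‖det G_f‖`.
For injective `f` with image `S ⊔ T ⊔ K`: since `C_{-d} = C_d` the `C`-columns span a space of
dimension `≤ n'`, so `det F_f = 0` unless `K` is everything (`|S|+|T| = n'`), and then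
`‖det F_f‖ = 2^g ‖det (C_d(p))_{0 ≤ d < n'}‖` (`vand_C`),
`‖det G_f‖ = ∏_S ‖ε‖ ∏_{Sᶜ} ‖δ‖ ∏_T ‖τ‖ · cauchy_vand`. -/

set_option autoImplicit false

namespace Crest.Agent.R6
open Polynomial Finset

theorem cauchy_binet_bound {n : ℕ} {μ : Type} [Fintype μ] (F : Matrix (Fin n) μ ℂ)
    (G : Matrix μ (Fin n) ℂ) {B : ℝ} (hB : 0 ≤ B)
    (h : ∀ f : Fin n → μ, Function.Injective f →
      ‖(F.submatrix id f).det‖ * ‖(G.submatrix f id).det‖ ≤ B) :
    ‖(F * G).det‖ ≤ (Fintype.card μ : ℝ) ^ n * B := by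
  classical
  have h1 : (F * G).det = ∑ f : Fin n → μ, (F.submatrix id f).det * ∏ i, G (f i) i := by
    simp only [Matrix.det_apply', Matrix.mul_apply, Finset.prod_univ_sum, Finset.mul_sum,
      Fintype.piFinset_univ, Matrix.submatrix_apply, id, Finset.sum_mul]
    rw [Finset.sum_comm]
    refine Finset.sum_congr rfl fun f _ => Finset.sum_congr rfl fun σ _ => ?_
    rw [Finset.prod_mul_distrib, mul_assoc]
  have h2 : ∀ τ : Equiv.Perm (Fin n), (F * G).det = ∑ f : Fin n → μ,
      (F.submatrix id f).det * (((Equiv.Perm.sign τ : ℤ) : ℂ) * ∏ i, G (f (τ i)) i) := by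
    intro τ
    rw [h1, ← (Equiv.arrowCongr τ.symm (Equiv.refl μ)).sum_comp]
    refine Finset.sum_congr rfl fun f _ => ?_
    have := Matrix.det_permute' τ (F.submatrix id f)
    have e : F.submatrix id ((Equiv.arrowCongr τ.symm (Equiv.refl μ)) f) =
        (F.submatrix id f).submatrix id τ := by
      ext a b; simp
    rw [e, this]
    simp
    ring
  have h3 : (n.factorial : ℂ) * (F * G).det =
      ∑ f : Fin n → μ, (F.submatrix id f).det * (G.submatrix f id).det := by
    have : (n.factorial : ℂ) * (F * G).det = ∑ τ : Equiv.Perm (Fin n), (F * G).det := by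
      simp [Fintype.card_perm]
    rw [this, Finset.sum_congr rfl fun τ _ => h2 τ, Finset.sum_comm]
    refine Finset.sum_congr rfl fun f _ => ?_
    rw [← Finset.mul_sum, Matrix.det_apply' (G.submatrix f id)]
    rfl
  have h4 : ‖(n.factorial : ℂ) * (F * G).det‖ ≤ (Fintype.card μ : ℝ) ^ n * B := by
    rw [h3]
    refine (norm_sum_le _ _).trans ?_
    refine (Finset.sum_le_card_nsmul _ _ B fun f _ => ?_).trans (by simp)
    rw [norm_mul]
    by_cases hf : Function.Injective f
    · exact h f hf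
    · simp only [Function.Injective, not_forall] at hf
      obtain ⟨a, b, hab, hne⟩ := hf
      rw [Matrix.det_zero_of_column_eq (M := F.submatrix id f) hne fun k => by simp [hab]]
      simpa using hB
  rw [norm_mul, Complex.norm_natCast] at h4
  have h8 : (1 : ℝ) ≤ n.factorial := by exact_mod_cast n.factorial_pos
  nlinarith [norm_nonneg (F * G).det]

theorem PD.norm_det {α β : Type} [Fintype α] [DecidableEq α] [Fintype β] [DecidableEq β]
    (M : Matrix β β ℂ) (a b : α ≃ β) : ‖(M.submatrix a b).det‖ = ‖M.det‖ := by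
  have e : M.submatrix a b = (M.submatrix id (a.symm.trans b : Equiv.Perm β)).submatrix a a := by
    ext i j; simp
  rw [e, Matrix.det_submatrix_equiv_self, Matrix.det_permute', norm_mul]
  rcases Int.units_eq_one_or (Equiv.Perm.sign (a.symm.trans b : Equiv.Perm β)) with h | h <;>
    simp [h]

theorem PD.exists_equiv {n : ℕ} {α μ : Type} [Fintype α] (f : Fin n → μ) (κ : α → μ)
    (hκ : Function.Injective κ) (hr : ∀ a, κ a ∈ Set.range f) (hc : Fintype.card α = n) :
    ∃ c : α ≃ Fin n, ∀ a, f (c a) = κ a := by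
  choose c hc' using hr
  have hi : Function.Injective c := fun a b hab => hκ (by rw [← hc', ← hc', hab])
  exact ⟨Equiv.ofBijective c ((Fintype.bijective_iff_injective_and_card c).2 ⟨hi, by simpa⟩), hc'⟩

/-- the left factor -/
noncomputable def PD.F (n g : ℕ) {m : ℕ} (y : Fin n → ℂ) (η : Fin m → ℂ) :
    Matrix (Fin n) (Fin n ⊕ Fin m ⊕ Fin g) ℂ :=
  Matrix.of fun r => Sum.elim (fun k => (Chebyshev.C ℂ (((r : ℕ) : ℤ) - g)).eval (y k))
    (Sum.elim (fun b => (Chebyshev.C ℂ (((r : ℕ) : ℤ) - g)).eval (η b))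
      (fun k => if (r : ℕ) + (k : ℕ) + 1 = g then 2 else 0))

/-- the right factor -/
noncomputable def PD.G (g : ℕ) {n m : ℕ} (y ε δ : Fin n → ℂ) (η τ : Fin m → ℂ) :
    Matrix (Fin n ⊕ Fin m ⊕ Fin g) (Fin n) ℂ :=
  Matrix.of (Sum.elim (fun k i => if k = i then ε i else 0)
    (Sum.elim (fun b i => τ b * (δ i * (1 / (y i - η b))))
      (fun k i => δ i * (Chebyshev.S ℂ ((k : ℕ) : ℤ)).eval (y i))))

theorem PD.F_bound {n n' g m : ℕ} (hn : n = n' + g) (y : Fin n → ℂ)
    (η : Fin m → ℂ) (hinj : Function.Injective (Sum.elim y η))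
    (f : Fin n → Fin n ⊕ Fin m ⊕ Fin g) (S : Finset (Fin n)) (T : Finset (Fin m))
    (hST : S.card + T.card = n') (hS : ∀ i ∈ S, Sum.inl i ∈ Set.range f)
    (hT : ∀ b ∈ T, Sum.inr (Sum.inl b) ∈ Set.range f)
    (hK : ∀ k, Sum.inr (Sum.inr k) ∈ Set.range f) :
    ‖((PD.F n g y η).submatrix id f).det‖ ≤
      2 ^ (g + 1) * Real.exp (En (Sum.elim y η) (chA S T) / 2) := by
  classical
  let q : Fin n' ≃ S ⊕ T := Fintype.equivOfCardEq (by simp [hST])
  let φ : Fin n' → Fin n ⊕ Fin m := fun e => Sum.map Subtype.val Subtype.val (q e)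
  have hφ : Function.Injective φ :=
    (Subtype.val_injective.sumMap Subtype.val_injective).comp q.injective
  let κ : Fin n' ⊕ Fin g → Fin n ⊕ Fin m ⊕ Fin g :=
    Sum.elim (fun e => Sum.map id Sum.inl (φ e)) (fun k => Sum.inr (Sum.inr k))
  have hκ : Function.Injective κ := by
    refine Function.Injective.sumElim
      ((Function.injective_id.sumMap Sum.inl_injective).comp hφ)
      (Sum.inr_injective.comp Sum.inr_injective) ?_
    intro a b
    rcases φ a with u | u <;> simp
  obtain ⟨c, hc⟩ := PD.exists_equiv f κ hκ (by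
    rintro (e | k)
    · simp only [κ, φ, Sum.elim_inl]
      rcases q e with u | u
      · exact hS _ u.2
      · exact hT _ u.2
    · exact hK k) (by simp [hn])
  let ρ0 : Fin n' ⊕ Fin g → Fin n :=
    Sum.elim (fun e => ⟨g + e, by omega⟩) (fun k => ⟨g - 1 - k, by omega⟩)
  have hρ0 : Function.Injective ρ0 := by
    rintro (a | a) (b | b) hab <;> simp only [ρ0, Sum.elim_inl, Sum.elim_inr, Fin.mk.injEq] at hab
    · congr 1; ext; omega
    · omega
    · omega
    · congr 1; ext; omega
  let ρ := Equiv.ofBijective ρ0 ((Fintype.bijective_iff_injective_and_card ρ0).2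
    ⟨hρ0, by simp [hn]⟩)
  rw [← PD.norm_det _ ρ c]
  have e : ((PD.F n g y η).submatrix id f).submatrix ρ c =
      Matrix.fromBlocks (Matrix.of fun d i : Fin n' =>
        (Chebyshev.C ℂ ((d : ℕ) : ℤ)).eval ((Sum.elim y η ∘ φ) i)) 0
        (Matrix.of fun k i => PD.F n g y η (ρ0 (Sum.inr k)) (κ (Sum.inl i)))
        (Matrix.diagonal fun _ => 2) := by
    ext a b
    simp only [Matrix.submatrix_apply, id, hc]
    rcases a with a | a <;> rcases b with b | b
    · simp only [Matrix.fromBlocks_apply₁₁, Matrix.of_apply, κ, Sum.elim_inl, Function.comp, ρ,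
        Equiv.ofBijective_apply, ρ0, PD.F]
      rcases φ b with u | u <;> simp
    · simp only [Matrix.fromBlocks_apply₁₂, Matrix.of_apply, κ, Sum.elim_inl, Sum.elim_inr, ρ,
        Equiv.ofBijective_apply, ρ0, PD.F, Matrix.zero_apply]
      rw [if_neg (by omega)]
    · rfl
    · simp only [Matrix.fromBlocks_apply₂₂, Matrix.of_apply, κ, Sum.elim_inr, ρ,
        Equiv.ofBijective_apply, ρ0, PD.F, Matrix.diagonal_apply]
      have := a.2
      by_cases hab : a = b
      · rw [if_pos hab, if_pos (by subst hab; omega)]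
      · rw [if_neg hab, if_neg (fun h => hab (by ext; omega))]
  rw [e, Matrix.det_fromBlocks_zero₁₂, norm_mul, Matrix.det_diagonal]
  have h1 := vand_C (Sum.elim y η ∘ φ) (hinj.comp hφ)
  have h2 := En_embed φ hφ (Sum.elim y η) (chA S T) (by
    rintro (i | b) hk
    · simp only [chA, Sum.elim_inl]
      rw [if_neg]
      intro hi
      exact hk ⟨q.symm (Sum.inl ⟨i, hi⟩), by simp [φ]⟩
    · simp only [chA, Sum.elim_inr]
      rw [if_neg]
      intro hi
      exact hk ⟨q.symm (Sum.inr ⟨b, hi⟩), by simp [φ]⟩)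
  have h3 : chA S T ∘ φ = fun _ => 1 := by
    funext a
    simp only [Function.comp, φ]
    rcases q a with u | u <;> simp [chA]
  rw [h3] at h2
  rw [h2] at h1
  simp only [Finset.prod_const, Finset.card_univ, Fintype.card_fin, norm_pow, Complex.norm_ofNat]
  calc _ ≤ 2 * Real.exp (En (Sum.elim y η) (chA S T) / 2) * 2 ^ g := by gcongr
    _ = _ := by ring

theorem PD.G_eq {n n' g m : ℕ} (hn : n = n' + g) (y ε δ : Fin n → ℂ)
    (η τ : Fin m → ℂ) (hinj : Function.Injective (Sum.elim y η))
    (f : Fin n → Fin n ⊕ Fin m ⊕ Fin g) (S : Finset (Fin n)) (T : Finset (Fin m))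
    (hST : S.card + T.card = n') (hS : ∀ i ∈ S, Sum.inl i ∈ Set.range f)
    (hT : ∀ b ∈ T, Sum.inr (Sum.inl b) ∈ Set.range f)
    (hK : ∀ k, Sum.inr (Sum.inr k) ∈ Set.range f) :
    ‖((PD.G g y ε δ η τ).submatrix f id).det‖ =
      (∏ i ∈ S, ‖ε i‖) * (∏ i ∈ Sᶜ, ‖δ i‖) * (∏ b ∈ T, ‖τ b‖) *
        Real.exp (En (Sum.elim y η) (chB S T) / 2) := by
  classical
  have hSc : Sᶜ.card = T.card + g := by
    rw [Finset.card_compl, Fintype.card_fin]; omega
  let e : (Sᶜ : Finset (Fin n)) ≃ T ⊕ Fin g := Fintype.equivOfCardEq (by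
    rw [Fintype.card_coe, Fintype.card_sum, Fintype.card_coe, Fintype.card_fin, hSc])
  have hcard : Fintype.card (S ⊕ (Sᶜ : Finset (Fin n))) = n := by
    rw [Fintype.card_sum, Fintype.card_coe, Fintype.card_coe, Finset.card_add_card_compl,
      Fintype.card_fin]
  let κ : S ⊕ (Sᶜ : Finset (Fin n)) → Fin n ⊕ Fin m ⊕ Fin g :=
    Sum.map Subtype.val (fun a => Sum.map Subtype.val id (e a))
  have hκ : Function.Injective κ :=
    Subtype.val_injective.sumMap
      ((Subtype.val_injective.sumMap Function.injective_id).comp e.injective)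
  obtain ⟨c, hc⟩ := PD.exists_equiv f κ hκ (by
    rintro (u | a)
    · exact hS _ u.2
    · simp only [κ, Sum.map_inr]
      rcases e a with u | u
      · exact hT _ u.2
      · exact hK u) hcard
  obtain ⟨ρ, hρ⟩ := PD.exists_equiv (id : Fin n → Fin n)
    (Sum.elim Subtype.val Subtype.val : S ⊕ (Sᶜ : Finset (Fin n)) → Fin n)
    (Function.Injective.sumElim Subtype.val_injective Subtype.val_injective (by
      intro a b hab
      have := b.2
      rw [← hab] at this
      exact Finset.mem_compl.1 this a.2)) (fun a => ⟨_, rfl⟩) hcard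
  simp only [id] at hρ
  rw [← PD.norm_det _ c ρ]
  have e1 : ((PD.G g y ε δ η τ).submatrix f id).submatrix c ρ =
      Matrix.fromBlocks (Matrix.diagonal fun i : S => ε i) 0
        (Matrix.of fun a i => PD.G g y ε δ η τ (κ (Sum.inr a)) i)
        (Matrix.of fun a i : (Sᶜ : Finset (Fin n)) =>
          Sum.elim (fun b : T => τ b) (fun _ => 1) (e a) * (Matrix.of fun a i : (Sᶜ : Finset (Fin n)) => δ i *
          (Matrix.of fun a i : (Sᶜ : Finset (Fin n)) => Sum.elim (fun b : T => 1 / (y i - η b))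
            (fun k : Fin g => (Chebyshev.S ℂ ((k : ℕ) : ℤ)).eval (y i)) (e a)) a i) a i) := by
    ext a b
    simp only [Matrix.submatrix_apply, id, hc, hρ]
    rcases a with a | a <;> rcases b with b | b
    · simp only [Matrix.fromBlocks_apply₁₁, Matrix.of_apply, κ, Sum.map_inl, Sum.elim_inl, PD.G,
        Matrix.diagonal_apply]
      by_cases h : a = b
      · rw [if_pos h, if_pos (by rw [h]), h]
      · rw [if_neg h, if_neg (fun h' => h (Subtype.ext h'))]
    · have : (a : Fin n) ≠ b := by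
        intro hab
        have := b.2
        rw [← hab] at this
        exact Finset.mem_compl.1 this a.2
      simp [κ, PD.G, this]
    · rfl
    · simp only [Matrix.fromBlocks_apply₂₂, Matrix.of_apply, κ, Sum.map_inr, Sum.elim_inr, PD.G]
      rcases e a with u | u <;> simp
  let φ : (Sᶜ : Finset (Fin n)) ⊕ T → Fin n ⊕ Fin m := Sum.map Subtype.val Subtype.val
  have hφ : Function.Injective φ := Subtype.val_injective.sumMap Subtype.val_injective
  have e2 : Sum.elim (fun i : (Sᶜ : Finset (Fin n)) => y i) (fun b : T => η b) =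
      Sum.elim y η ∘ φ := by
    funext a; rcases a with a | a <;> rfl
  have h1 := cauchy_vand e (fun i : (Sᶜ : Finset (Fin n)) => y i) (fun b : T => η b)
    (e2 ▸ hinj.comp hφ)
  have h2 := En_embed φ hφ (Sum.elim y η) (chB S T) (by
    rintro (i | b) hk
    · simp only [chB, Sum.elim_inl]
      rw [if_pos]
      by_contra hi
      exact hk ⟨Sum.inl ⟨i, Finset.mem_compl.2 hi⟩, rfl⟩
    · simp only [chB, Sum.elim_inr]
      rw [if_neg]
      intro hi
      exact hk ⟨Sum.inr ⟨b, hi⟩, rfl⟩)
  have h3 : chB S T ∘ φ = Sum.elim (fun _ => 1) (fun _ => -1) := by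
    funext a
    rcases a with u | u
    · simp [chB, φ, Finset.mem_compl.1 u.2]
    · simp [chB, φ]
  rw [h3, ← e2] at h2
  rw [h2] at h1
  rw [e1, Matrix.det_fromBlocks_zero₁₂, Matrix.det_mul_column, Matrix.det_mul_row,
    Matrix.det_diagonal, norm_mul, norm_mul, norm_mul, h1, norm_prod, norm_prod, norm_prod,
    Finset.prod_coe_sort S (fun i => ‖ε i‖), Finset.prod_coe_sort Sᶜ (fun i => ‖δ i‖),
    e.prod_comp (fun a => ‖Sum.elim (fun b : T => τ b) (fun _ => (1 : ℂ)) a‖),
    Fintype.prod_sum_type]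
  simp only [Sum.elim_inl, Sum.elim_inr, norm_one, Finset.prod_const_one, mul_one]
  rw [Finset.prod_coe_sort T (fun i => ‖τ i‖)]
  ring

theorem psi_det_bound {n n' g m : ℕ} (hn : n = n' + g) (hg : g < n') (y ε δ : Fin n → ℂ)
    (η τ : Fin m → ℂ) (hinj : Function.Injective (Sum.elim y η)) {B : ℝ} (hB : 0 ≤ B)
    (h : ∀ (S : Finset (Fin n)) (T : Finset (Fin m)), S.card + T.card = n' →
      2 ^ (g + 1) * (∏ i ∈ S, ‖ε i‖) * (∏ i ∈ Sᶜ, ‖δ i‖) * (∏ b ∈ T, ‖τ b‖) *
        Real.exp (En (Sum.elim y η) (chA S T) / 2 + En (Sum.elim y η) (chB S T) / 2) ≤ B) :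
    ‖(Matrix.of fun r i : Fin n =>
        ε i * (Chebyshev.C ℂ (((r : ℕ) : ℤ) - g)).eval (y i) +
          δ i * (∑ b, τ b * (Chebyshev.C ℂ (((r : ℕ) : ℤ) - g)).eval (η b) / (y i - η b) +
            if ((r : ℕ) : ℤ) - g < 0 then
              2 * (Chebyshev.S ℂ (-(((r : ℕ) : ℤ) - g) - 1)).eval (y i) else 0)).det‖
      ≤ ((n + m + g : ℕ) : ℝ) ^ n * B := by
  classical
  have key := cauchy_binet_bound (PD.F n g y η) (PD.G g y ε δ η τ) hB ?_
  · convert key using 3
    · ext r i
      simp only [Matrix.mul_apply, Fintype.sum_sum_type, PD.F, PD.G, Matrix.of_apply, Sum.elim_inl,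
        Sum.elim_inr, mul_ite, mul_zero, Finset.sum_ite_eq', Finset.mem_univ, if_true, mul_add,
        Finset.mul_sum, ite_mul, zero_mul]
      congr 1
      · ring
      congr 1
      · exact Finset.sum_congr rfl fun b _ => by ring
      · split_ifs with hr
        · rw [Finset.sum_eq_single (⟨g - 1 - r, by omega⟩ : Fin g)]
          · rw [if_pos (by simp only; omega)]
            have : (-(((r : ℕ) : ℤ) - g) - 1) = ((g - 1 - r : ℕ) : ℤ) := by omega
            rw [this]
            ring
          · intro k _ hk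
            rw [if_neg (fun h => hk (by ext; simp only; omega))]
          · simp
        · symm
          exact Finset.sum_eq_zero fun k _ => if_neg (by omega)
    · simp [add_assoc]
  · intro f hf
    by_cases hK : ∀ k, Sum.inr (Sum.inr k) ∈ Set.range f
    · let S : Finset (Fin n) := Finset.univ.filter fun i => Sum.inl i ∈ Set.range f
      let T : Finset (Fin m) := Finset.univ.filter fun b => Sum.inr (Sum.inl b) ∈ Set.range f
      have hS : ∀ i ∈ S, Sum.inl i ∈ Set.range f := fun i hi => (Finset.mem_filter.1 hi).2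
      have hT : ∀ b ∈ T, Sum.inr (Sum.inl b) ∈ Set.range f := fun i hi => (Finset.mem_filter.1 hi).2
      have hST : S.card + T.card = n' := by
        have e : Finset.univ.image f = S.disjSum (T.disjSum Finset.univ) := by
          ext a
          rcases a with a | a | a
          · simp [S]
          · simp [T]
          · simpa using hK a
        have := congrArg Finset.card e
        rw [Finset.card_image_of_injective _ hf, Finset.card_disjSum, Finset.card_disjSum] at this
        simp at this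
        omega
      refine le_trans ?_ (h S T hST)
      rw [PD.G_eq hn y ε δ η τ hinj f S T hST hS hT hK, Real.exp_add]
      calc _ ≤ 2 ^ (g + 1) * Real.exp (En (Sum.elim y η) (chA S T) / 2) *
            ((∏ i ∈ S, ‖ε i‖) * (∏ i ∈ Sᶜ, ‖δ i‖) * (∏ b ∈ T, ‖τ b‖) *
              Real.exp (En (Sum.elim y η) (chB S T) / 2)) := by
            gcongr
            exact PD.F_bound hn y η hinj f S T hST hS hT hK
        _ = _ := by ring
    · push Not at hK
      obtain ⟨k, hk⟩ := hK
      have hk' := k.2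
      rw [Matrix.det_zero_of_row_eq (M := (PD.F n g y η).submatrix id f)
        (i := ⟨g - 1 - k, by omega⟩) (j := ⟨g + 1 + k, by omega⟩) (by simp; omega)]
      · simpa using hB
      · funext j
        have e1 : (((g - 1 - k : ℕ) : ℤ) - g) = -(((g + 1 + k : ℕ) : ℤ) - g) := by omega
        simp only [Matrix.submatrix_apply, id, PD.F, Matrix.of_apply, e1, Chebyshev.C_neg]
        rcases hj : f j with u | u | u
        · rfl
        · rfl
        · simp only [Sum.elim_inr]
          rw [if_neg, if_neg (by omega)]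
          intro h'
          apply hk
          exact ⟨j, by rw [hj]; congr 2; ext; omega⟩

end Crest.Agent.R6
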