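import Crest.Agent.R6.RepA

/-! Construction of the nodes.  `J = 2M`, `K ∈ {2M, 2M+1}` with `|C_K(8/5)| ≥ 0.63`
(`C_{K+1}² - u C_K C_{K+1} + C_K² = 4 - u²`).  `Y = (y - c0)/r0`, `Ω = C_K(y)(1 + Y^J)`,
`Nn = S_{K-1}(y)(2/3 + Y^J)`; nodes = the `K + J` simple roots of `Ω`:
`2cos((2k+1)π/(2K))` and `c0 + r0 exp(iπ(2k+1)/J)`; `τ = Nn/Ω'` at the node.
For `0 ≤ d ≤ J`: `C_d Nn - S_{d-1} Ω = 2(1+Y^J) S_{K-d-1} - C_d S_{K-1}/3` has degree `< K + J`, so by
Lagrange interpolation / partial fractions `∑ τ C_d(η)/(y-η) = C_d Nn/Ω - S_{d-1}`.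
With `δ = 1/x - x`: `psi d x = C_d/2 - (3/4) δ S_{d-1}`, `e x = 1/2 - (3/4) δ Nn/Ω
= e1/2 - (1-e1) Z/(4(1+Z))`, `e1 = 2x^(2K)/(1+x^(2K))`, `Z = Y^J ≥ 0`.
`d < 0`: `psi d = psi |d| + (3/2) δ S_{|d|-1}`.
`τ`: Chebyshev node `(2/3+Z)/(K(1+Z))` as `C_K' = K S_{K-1}`; circle node
`|τ| = r0 |S_{K-1}/C_K|/(3J) ≤ r0/(3J|Im η|)` as `K S_{K-1}/C_K = ∑ 1/(η - η_k)` (real roots), and
`|Im η| ≥ 2 r0/J`.  Separation: `2 - 2cos(π/(2K)) ≥ 1/K²`; `|C_K'| ≤ K²` on `[-2,2]`. -/

set_option autoImplicit false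

namespace Crest.Agent.R6

namespace RepX
open Polynomial Finset

local notation "CC" => Chebyshev.C ℂ
local notation "SC" => Chebyshev.S ℂ

noncomputable def Yp : ℂ[X] := C (1 / (r0 : ℂ)) * (X - C (c0 : ℂ))

noncomputable def Om (M K : ℕ) : ℂ[X] := CC K * (1 + Yp ^ (2 * M))

noncomputable def Nn (M K : ℕ) : ℂ[X] := SC (K - 1) * (C (2 / 3) + Yp ^ (2 * M))

noncomputable def ee (M K : ℕ) (x : ℝ) : ℝ :=
  1 / 2 - 3 / 4 * ((1 - x ^ (2 * K)) / (1 + x ^ (2 * K))) *
    ((2 / 3 + ((yy x - c0) / r0) ^ (2 * M)) / (1 + ((yy x - c0) / r0) ^ (2 * M)))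

theorem r0_pos : 0 < r0 := by unfold r0; norm_num

theorem Yp_eval (z : ℂ) : Yp.eval z = (z - c0) / r0 := by
  simp [Yp, div_eq_inv_mul]

theorem Yp_der : derivative Yp = C (1 / (r0 : ℂ)) := by simp [Yp]

theorem Yp_deg (n : ℕ) : (Yp ^ n).natDegree ≤ n := by
  have : Yp.natDegree ≤ 1 := (natDegree_C_mul_le _ _).trans (natDegree_X_sub_C_le _)
  simpa using natDegree_pow_le_of_le n this

theorem Yp_deg' (n : ℕ) (c : ℂ) : (C c + Yp ^ n).natDegree ≤ n :=
  (natDegree_add_le _ _).trans (max_le (by simp) (Yp_deg n))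

theorem Om_deg (M K : ℕ) : (Om M K).natDegree ≤ K + 2 * M :=
  natDegree_mul_le.trans (add_le_add (degC K) (by simpa using Yp_deg' (2 * M) 1))

theorem ee_bounds {M K : ℕ} (hK : M ≤ 2 * K) {x : ℝ} (h0 : 0 < x) (h1 : x < 1) :
    |ee M K x| ≤ 1 ∧ |ee M K x| ≤ max (x ^ M) (|(yy x - c0) / r0| ^ M) := by
  unfold ee
  set t := |(yy x - c0) / r0| ^ M with ht
  have ht0 : 0 ≤ t := by positivity
  have e : ((yy x - c0) / r0) ^ (2 * M) = t ^ 2 := by
    rw [ht, ← pow_mul, mul_comm M, pow_mul, pow_mul, sq_abs]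
  rw [e]
  have hq0 : 0 < x ^ (2 * K) := by positivity
  have hq1 : x ^ (2 * K) ≤ x ^ M := pow_le_pow_of_le_one h0.le h1.le hK
  have hq2 : x ^ M ≤ 1 := pow_le_one₀ h0.le h1.le
  generalize x ^ (2 * K) = q at *
  have u0 : 0 ≤ (1 - q) / (1 + q) := div_nonneg (by linarith) (by linarith)
  have u1 : (1 - q) / (1 + q) ≤ 1 := (div_le_one (by linarith)).2 (by linarith)
  have u2 : 1 - 2 * q ≤ (1 - q) / (1 + q) := (le_div_iff₀ (by linarith)).2 (by nlinarith)
  have w0 : 2 / 3 ≤ (2 / 3 + t ^ 2) / (1 + t ^ 2) := (le_div_iff₀ (by positivity)).2 (by nlinarith)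
  have w1 : (2 / 3 + t ^ 2) / (1 + t ^ 2) ≤ 1 := (div_le_one (by positivity)).2 (by linarith)
  have w2 : (2 / 3 + t ^ 2) / (1 + t ^ 2) ≤ 2 / 3 + t :=
    (div_le_iff₀ (by positivity)).2 (by nlinarith [sq_nonneg (t - 1), mul_nonneg ht0 (sq_nonneg (t - 1))])
  generalize (1 - q) / (1 + q) = u at *
  generalize (2 / 3 + t ^ 2) / (1 + t ^ 2) = w at *
  have a1 : u * (2 / 3) ≤ u * w := mul_le_mul_of_nonneg_left w0 u0
  have a2 : u * w ≤ w := mul_le_of_le_one_left (by linarith) u1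
  have := le_max_left (x ^ M) t
  have := le_max_right (x ^ M) t
  constructor <;> rw [abs_le] <;> constructor <;> nlinarith

theorem rep_nat {ι : Type} [Fintype ι] {M K : ℕ} (hM : 1 ≤ M) (hK : 2 * M ≤ K) (η : ι → ℂ)
    (hη : Function.Injective η) (hc : Fintype.card ι = K + 2 * M) (hr : ∀ b, (Om M K).eval (η b) = 0)
    {x : ℝ} (h0 : 0 < x) {n : ℕ} (hn : n ≤ M) :
    (CC n).eval (yy x : ℂ) / 2 = (ee M K x : ℂ) * (CC n).eval (yy x : ℂ) + 3 / 4 * (1 / x - x) *
      (∑ b, (Nn M K).eval (η b) / (Om M K).derivative.eval (η b) * (CC n).eval (η b) / ((yy x : ℂ) - η b)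
        + (SC (n - 1)).eval (yy x : ℂ)) := by
  have hx : (x : ℂ) ≠ 0 := by exact_mod_cast h0.ne'
  have hy : (yy x : ℂ) = x + 1 / x := by simp [yy]
  have hZ : (1 : ℂ) + (((yy x : ℂ) - c0) / r0) ^ (2 * M) ≠ 0 := by
    have : (0 : ℝ) < 1 + ((yy x - c0) / r0) ^ (2 * M) := by
      have := (even_two_mul M).pow_nonneg ((yy x - c0) / r0)
      linarith
    exact_mod_cast this.ne'
  have hq : (1 : ℂ) + (x : ℂ) ^ (2 * K) ≠ 0 := by
    have : (0 : ℝ) < 1 + x ^ (2 * K) := by positivity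
    exact_mod_cast this.ne'
  have hC : (CC K).eval (yy x : ℂ) = (1 + (x : ℂ) ^ (2 * K)) / x ^ K := by
    rw [hy, evalC hx, one_div_pow]; field_simp; ring
  have hS : (1 / x - x) * (SC (K - 1)).eval (yy x : ℂ) = (1 - (x : ℂ) ^ (2 * K)) / x ^ K := by
    rw [hy, evalS hx, one_div_pow]; field_simp; ring
  have hO : (Om M K).eval (yy x : ℂ) =
      (1 + (x : ℂ) ^ (2 * K)) / x ^ K * (1 + (((yy x : ℂ) - c0) / r0) ^ (2 * M)) := by
    simp [Om, hC, Yp_eval]
  have hO0 : (Om M K).eval (yy x : ℂ) ≠ 0 := by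
    rw [hO]; exact mul_ne_zero (div_ne_zero hq (pow_ne_zero _ hx)) hZ
  have hP : CC n * Nn M K - SC (n - 1) * Om M K =
      C 2 * ((C 1 + Yp ^ (2 * M)) * SC (K - n - 1 : ℕ)) - C (1 / 3) * (CC n * SC (K - 1 : ℕ)) := by
    have e1 : ((K - n - 1 : ℕ) : ℤ) = K - n - 1 := by omega
    have e2 : ((K - 1 : ℕ) : ℤ) = K - 1 := by omega
    have e3 : (C (2 / 3) : ℂ[X]) = 1 - C (1 / 3) := by
      rw [← C_1, ← C_sub]; norm_num
    rw [e1, e2, Nn, Om, e3, C_1, show (C 2 : ℂ[X]) = 2 from rfl]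
    linear_combination (1 + Yp ^ (2 * M)) * CS K n
  have hd : (CC n * Nn M K - SC (n - 1) * Om M K).natDegree < Fintype.card ι := by
    rw [hP, hc]
    refine (natDegree_sub_le _ _).trans_lt (max_lt ?_ ?_)
    · refine ((natDegree_C_mul_le _ _).trans natDegree_mul_le).trans_lt ?_
      have := Yp_deg' (2 * M) 1
      have := degS (K - n - 1)
      omega
    · refine ((natDegree_C_mul_le _ _).trans natDegree_mul_le).trans_lt ?_
      have := degC n
      have := degS (K - 1)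
      omega
  have h := pf η hη _ _ (hc ▸ Om_deg M K) hr hd hO0
  simp only [eval_sub, eval_mul, hr, mul_zero, sub_zero] at h
  have e : ∑ b, (Nn M K).eval (η b) / (Om M K).derivative.eval (η b) * (CC n).eval (η b) /
      ((yy x : ℂ) - η b) + (SC (n - 1)).eval (yy x : ℂ) =
      (CC n).eval (yy x : ℂ) * ((Nn M K).eval (yy x : ℂ) / (Om M K).eval (yy x : ℂ)) := by
    rw [sum_congr rfl fun b _ => (by ring : (Nn M K).eval (η b) / (Om M K).derivative.eval (η b) *
      (CC n).eval (η b) / ((yy x : ℂ) - η b) = (CC n).eval (η b) * (Nn M K).eval (η b) /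
        (Om M K).derivative.eval (η b) / ((yy x : ℂ) - η b)), ← h]
    field_simp
    ring
  have e' : (ee M K x : ℂ) = 1 / 2 - 3 / 4 * ((1 / x - x) *
      ((Nn M K).eval (yy x : ℂ) / (Om M K).eval (yy x : ℂ))) := by
    rw [hO, Nn, eval_mul, ← mul_div_assoc, ← mul_assoc, hS, ee]
    simp only [eval_add, eval_C, eval_pow, Yp_eval]
    push_cast
    field_simp
  rw [e, e']
  ring

theorem sep_le {M K : ℕ} (hM : 1 ≤ M) (hK : K ≤ 2 * M + 1) {θ φ : ℝ} (h : Real.cos (K * θ) = 0)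
    (hφ : 3 / 10 ≤ |Real.cos (K * φ)|) :
    1 / (20 * (M : ℝ) ^ 2) ≤ |2 * Real.cos θ - 2 * Real.cos φ| := by
  have h1 := cos_lip K θ φ
  rw [h, zero_sub, abs_neg] at h1
  have hM' : (1 : ℝ) ≤ M := by exact_mod_cast hM
  have hK' : (K : ℝ) ≤ 3 * M := by exact_mod_cast (by omega : K ≤ 3 * M)
  have h2 : (K : ℝ) ^ 2 ≤ (3 * M) ^ 2 := by gcongr
  rw [← mul_sub, abs_mul, abs_two, div_le_iff₀ (by positivity)]
  nlinarith [abs_nonneg (Real.cos θ - Real.cos φ), mul_le_mul_of_nonneg_right h2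
    (abs_nonneg (Real.cos θ - Real.cos φ))]

theorem cos_lt {K : ℕ} {θ : ℝ} (h : Real.cos (K * θ) = 0) : |Real.cos θ| < 1 := by
  have h1 := sin_mul_le K θ
  have h2 := Real.sin_sq_add_cos_sq (K * θ)
  have h3 := Real.sin_sq_add_cos_sq θ
  have h4 : Real.sin θ ≠ 0 := fun h4 => by
    rw [h4, abs_zero, mul_zero, abs_nonpos_iff] at h1
    rw [h1, h] at h2
    norm_num at h2
  rw [← sq_lt_one_iff_abs_lt_one]
  nlinarith [sq_pos_of_ne_zero h4]

end RepX

open RepX Polynomial Finset in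
theorem nodes_exist {M : ℕ} (hM : 1 ≤ M) : Nonempty (Nodes M) := by
  obtain ⟨K, hK1, hK2, hK3⟩ := exists_K M
  obtain ⟨θ, hθ1, hθ2⟩ := exists_theta K
  obtain ⟨Y, hY1, hY2⟩ := exists_Y (J := 2 * M) (by omega)
  have hM' : (1 : ℝ) ≤ M := by exact_mod_cast hM
  have hr0 : (r0 : ℂ) ≠ 0 := by exact_mod_cast r0_pos.ne'
  let η : Fin K ⊕ Fin (2 * M) → ℂ :=
    Sum.elim (fun k => ((2 * Real.cos (θ k) : ℝ) : ℂ)) fun j => c0 + r0 * Y j
  have him : ∀ j, (c0 + r0 * Y j : ℂ).im = r0 * (Y j).im := fun j => by simp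
  have hlow : ∀ j, r0 / M ≤ |(c0 + r0 * Y j : ℂ).im| := fun j => by
    rw [him, abs_mul, abs_of_pos r0_pos, div_le_iff₀ (by positivity)]
    nlinarith [(Y_facts hM (hY2 j)).2, r0_pos]
  have hne : ∀ j, (c0 + r0 * Y j : ℂ).im ≠ 0 := fun j =>
    abs_pos.1 ((div_pos r0_pos (by positivity)).trans_le (hlow j))
  have hYp : ∀ j, Yp.eval (c0 + r0 * Y j : ℂ) = Y j := fun j => by
    rw [Yp_eval]; field_simp; ring
  have hC0 : ∀ k, (Chebyshev.C ℂ K).eval ((2 * Real.cos (θ k) : ℝ) : ℂ) = 0 := fun k => by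
    push_cast
    rw [Chebyshev.C_two_mul_complex_cos]
    exact_mod_cast (by rw [hθ2 k, mul_zero] : 2 * Real.cos (K * θ k) = 0)
  have hinj : Function.Injective η := by
    rintro (k | j) (l | i) h
    · have := Complex.ofReal_injective h
      exact congrArg _ (hθ1 (by simpa using this))
    · exact absurd (congrArg Complex.im h).symm (by simpa [η] using hne i)
    · exact absurd (congrArg Complex.im h) (by simpa [η] using hne j)
    · exact congrArg _ (hY1 (by simpa [η, hr0] using h))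
  have hr : ∀ b, (Om M K).eval (η b) = 0 := by
    rintro (k | j)
    · simp only [η, Sum.elim_inl, Om, eval_mul, hC0, zero_mul]
    · simp only [η, Sum.elim_inr, Om, eval_mul, eval_add, eval_pow, hYp, hY2, eval_one,
        add_neg_cancel, mul_zero]
  have hder : derivative (Om M K) = K * Chebyshev.S ℂ (K - 1) * (1 + Yp ^ (2 * M)) +
      Chebyshev.C ℂ K * (C ((2 * M : ℕ) : ℂ) * Yp ^ (2 * M - 1) * C (1 / (r0 : ℂ))) := by
    rw [Om, derivative_mul, derC, derivative_add, derivative_one, derivative_pow, Yp_der, zero_add]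
  let E := (finSumFinEquiv (m := K) (n := 2 * M)).symm
  have hreal : ∀ a r : ℝ, ‖(a : ℂ) - (r : ℂ)‖ = |a - r| := fun a r => by
    rw [← Complex.ofReal_sub, Complex.norm_real, Real.norm_eq_abs]
  have c1 : (10 / 3 : ℂ) = ((10 / 3 : ℝ) : ℂ) := by push_cast; rfl
  have c2 : (8 / 5 : ℂ) = ((8 / 5 : ℝ) : ℂ) := by push_cast; rfl
  have c3 : (2 : ℂ) = ((2 : ℝ) : ℂ) := by push_cast; rfl
  have hsm : 1 / (20 * (M : ℝ) ^ 2) ≤ r0 / M := by
    rw [div_le_div_iff₀ (by positivity) (by positivity), r0]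
    nlinarith
  refine ⟨⟨K + 2 * M, η ∘ E, fun b => (Nn M K).eval (η (E b)) / (Om M K).derivative.eval (η (E b)),
    ee M K, by omega, hinj.comp E.injective, fun b => ?_, fun b => ?_, fun b => ?_,
    fun x h0 h1 => (ee_bounds (by omega) h0 h1).1, fun x h0 h1 => (ee_bounds (by omega) h0 h1).2,
    fun x h0 h1 d hd => ?_⟩⟩
  · rw [Function.comp_apply]
    rcases E b with k | j
    · refine .inl ⟨Complex.ofReal_im _, ?_⟩
      have := cos_lt (hθ2 k)
      simp only [η, Sum.elim_inl, Complex.ofReal_re, abs_mul, abs_two]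
      linarith
    · refine .inr ⟨?_, hne j⟩
      simp [η, (Y_facts hM (hY2 j)).1, abs_of_pos r0_pos]
  · rw [Function.comp_apply, c1, c2, c3]
    rcases E b with k | j
    · simp only [η, Sum.elim_inl, hreal]
      refine ⟨?_, ?_, ?_⟩
      · have h1 : 1 / (20 * (M : ℝ) ^ 2) ≤ 1 := (div_le_one (by positivity)).2 (by nlinarith)
        have := Real.cos_le_one (θ k)
        rw [abs_of_neg (by linarith)]
        linarith
      · have := sep_le hM hK2 (hθ2 k) hK3
        rwa [Real.cos_arccos (by norm_num) (by norm_num), show (2 : ℝ) * (4 / 5) = 8 / 5 by norm_num] at this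
      · simpa using sep_le hM hK2 (hθ2 k) (φ := 0) (by norm_num)
    · have : ∀ r : ℝ, 1 / (20 * (M : ℝ) ^ 2) ≤ ‖η (.inr j) - (r : ℂ)‖ := fun r =>
        hsm.trans ((hlow j).trans (by
          simpa [η] using Complex.abs_im_le_norm (η (.inr j) - (r : ℂ))))
      exact ⟨this _, this _, this _⟩
  · rcases E b with k | j
    · simp only [η, Sum.elim_inl, hder, Nn, eval_add, eval_mul, hC0, zero_mul, add_zero, eval_natCast,
        eval_pow, eval_C, eval_one, Yp_eval]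
      obtain ⟨Z, hZ0, hZ⟩ : ∃ Z : ℝ, 0 ≤ Z ∧
          ((((2 * Real.cos (θ k) : ℝ) : ℂ) - c0) / r0) ^ (2 * M) = Z :=
        ⟨((2 * Real.cos (θ k) - c0) / r0) ^ (2 * M), (even_two_mul M).pow_nonneg _, by push_cast; rfl⟩
      have e1 : ‖(2 / 3 : ℂ) + Z‖ = 2 / 3 + Z := by
        rw [show (2 / 3 : ℂ) + Z = ((2 / 3 + Z : ℝ) : ℂ) by push_cast; rfl, Complex.norm_real,
          Real.norm_of_nonneg (by positivity)]
      have e2 : ‖(1 : ℂ) + Z‖ = 1 + Z := by
        rw [show (1 : ℂ) + Z = ((1 + Z : ℝ) : ℂ) by push_cast; rfl, Complex.norm_real,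
          Real.norm_of_nonneg (by positivity)]
      rw [hZ, norm_div, norm_mul, norm_mul, norm_mul, e1, e2, Complex.norm_natCast]
      refine div_le_one_of_le₀ ?_ (by positivity)
      have hK' : (1 : ℝ) ≤ K := by exact_mod_cast (by omega : 1 ≤ K)
      gcongr
      · exact le_mul_of_one_le_left (norm_nonneg _) hK'
      · norm_num
    · simp only [η, Sum.elim_inr, hder, Nn, eval_add, eval_mul, eval_natCast, eval_pow, eval_C, eval_one,
        hYp, hY2, add_neg_cancel, mul_zero, zero_add]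
      have h1 := (ratio_le (K := K) (by omega) (hne j)).trans
        (one_div_le_one_div_of_le (div_pos r0_pos (by positivity)) (hlow j))
      rw [mul_div_mul_comm, norm_mul]
      have h2 : ‖((2 / 3 : ℂ) + -1) / (((2 * M : ℕ) : ℂ) * Y j ^ (2 * M - 1) * (1 / (r0 : ℂ)))‖ ≤ r0 / M := by
        rw [norm_div, norm_mul, norm_mul, norm_pow, (Y_facts hM (hY2 j)).1, Complex.norm_natCast, norm_div,
          Complex.norm_real, Real.norm_of_nonneg r0_pos.le, show (2 / 3 : ℂ) + -1 = -(1 / 3) by norm_num]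
        have := r0_pos
        simp only [norm_neg, norm_div, norm_one, Complex.norm_ofNat, one_pow, mul_one]
        push_cast
        rw [div_le_div_iff₀ (by positivity) (by positivity)]
        field_simp
        norm_num
      refine (mul_le_mul h1 h2 (norm_nonneg _) (by have := r0_pos; positivity)).trans (le_of_eq ?_)
      have := r0_pos
      field_simp
  · have hx : (x : ℂ) ≠ 0 := by exact_mod_cast h0.ne'
    have hy : (yy x : ℂ) = x + 1 / x := by simp [yy]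
    have h := rep_nat hM hK1 η hinj (by simp) hr h0 hd
    have hC := evalC hx d.natAbs
    have hS := evalS hx d.natAbs
    rw [← hy] at hC hS
    rw [← Chebyshev.C_natAbs ℂ d]
    simp only [Function.comp_apply]
    rw [E.sum_comp fun b => (Nn M K).eval (η b) / (Om M K).derivative.eval (η b) *
      (Chebyshev.C ℂ d.natAbs).eval (η b) / ((yy x : ℂ) - η b), psi, if_neg (not_lt.2 h0.le)]
    push_cast
    obtain ⟨n, rfl | rfl⟩ := d.eq_nat_or_neg
    · rw [if_neg (by omega)]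
      simp only [Int.natAbs_natCast, zpow_neg, zpow_natCast, one_div, inv_pow, Nat.abs_cast] at *
      linear_combination h - hC / 2 + 3 / 4 * hS
    · rcases Nat.eq_zero_or_pos n with rfl | hn
      · simp only [Nat.cast_zero, neg_zero, lt_irrefl, if_false, Int.natAbs_zero, zpow_zero, one_div,
          pow_zero, abs_zero] at *
        linear_combination h - hC / 2 + 3 / 4 * hS
      · rw [if_pos (by omega)]
        simp only [Int.natAbs_neg, Int.natAbs_natCast, neg_neg, zpow_neg, zpow_natCast, one_div, inv_pow,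
          abs_neg, Nat.abs_cast] at *
        linear_combination h - hC / 2 - 3 / 4 * hS

end Crest.Agent.R6
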