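import Crest.Agent.R6.Energy4
import Crest.Agent.R6.OneBody
import Crest.Agent.R6.PsiDet
import Crest.Agent.R6.Rep
import Crest.Agent.R6.Andreief

/-! Pointwise bound of the integrand and the real upper bound.
Take nodes with `M = N²`; `ε i = -1/2`, `δ i = 0` if `x i < 0`, else `ε i = e (x i)`,
`δ i = (3/4)(1/x - x)` (`|δ i| ≤ |y i|`; also `1 ≤ |y i|`).  Apply `psi_det_bound`
(`n' = 29N`, `g = 3N`) with `B` := target divided by the positive factors of `detPsi_eq` and
`ker_col_bound`.  For `S, T`: if some `i ∉ S` has `x i < 0` the product vanishes; else use `energy4`,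
`oneS`, `oneP`, `cert.hW`, `oneSig`; with `|T| = |Sᶜ| - 3N`:
`|S| l + |Sᶜ|(l - lw) + |T| lw = 32N l - 3N lw`; finish with `cert.total`;
`(35N + 4N²+1)^(32N) 2^(O(N)) exp(O(N)) = exp(o(N²))`. -/

set_option autoImplicit false

namespace Crest.Agent.R6
open Finset Filter Polynomial

namespace Pt

theorem evalC {x : ℂ} (hx : x ≠ 0) (d : ℤ) :
    (Chebyshev.C ℂ d).eval (x + 1 / x) = x ^ d + x ^ (-d) := by
  induction d using Polynomial.Chebyshev.induct' with
  | zero => simp; norm_num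
  | one => simp
  | add_two n ih1 ih2 =>
    rw [Chebyshev.C_add_two, eval_sub, eval_mul, eval_X, ih1, ih2]
    simp only [neg_add, zpow_add₀ hx, zpow_neg, zpow_one, zpow_ofNat]
    have : x ^ (n : ℤ) ≠ 0 := zpow_ne_zero _ hx
    field_simp
    ring
  | neg n ih => rw [Chebyshev.C_neg, ih, neg_neg, add_comm]

noncomputable def ep {M : ℕ} (nd : Nodes M) (x : ℝ) : ℝ := if x < 0 then -(1 / 2) else nd.e x

noncomputable def de (x : ℝ) : ℝ := if x < 0 then 0 else 3 / 4 * (1 / x - x)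

theorem rep {M : ℕ} (nd : Nodes M) {x : ℝ} (h2 : x < 1) (h0 : x ≠ 0) {d : ℤ} (hd : d.natAbs ≤ M) :
    (psi d x : ℂ) = (ep nd x : ℂ) * (Chebyshev.C ℂ d).eval (yy x : ℂ) +
      (de x : ℂ) * (∑ b, nd.τ b * (Chebyshev.C ℂ d).eval (nd.η b) / ((yy x : ℂ) - nd.η b) +
          if d < 0 then 2 * (Chebyshev.S ℂ (-d - 1)).eval (yy x : ℂ) else 0) := by
  rcases lt_or_gt_of_ne h0 with h | h
  · have e : ((yy x : ℝ) : ℂ) = (x : ℂ) + 1 / (x : ℂ) := by
      unfold yy
      push_cast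
      ring
    have hx : (x : ℂ) ≠ 0 := by exact_mod_cast h0
    rw [ep, de, psi, if_pos h, if_pos h, if_pos h]
    conv_rhs => rw [e, evalC hx]
    push_cast
    ring
  · rw [ep, de, if_neg (not_lt.2 h.le), if_neg (not_lt.2 h.le)]
    exact nd.rep x h h2 d hd

theorem ep_le {M : ℕ} (nd : Nodes M) {x : ℝ} (h2 : x < 1) (h0 : x ≠ 0) : |ep nd x| ≤ 1 := by
  rcases lt_or_gt_of_ne h0 with h | h
  · rw [ep, if_pos h, abs_neg, abs_of_pos (by norm_num)]
    norm_num
  · rw [ep, if_neg (not_lt.2 h.le)]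
    exact nd.e1 x h h2

theorem ep_le' {M : ℕ} (nd : Nodes M) {x : ℝ} (h2 : x < 1) (h : 0 < x) :
    |ep nd x| ≤ max (x ^ M) (|(yy x - c0) / r0| ^ M) := by
  rw [ep, if_neg (not_lt.2 h.le)]
  exact nd.e2 x h h2

theorem de_le {x : ℝ} (h2 : x < 1) (h : 0 < x) : |de x| ≤ |yy x| := by
  have h1 : 1 < 1 / x := by
    rw [lt_div_iff₀ h]
    linarith
  rw [de, if_neg (not_lt.2 h.le), abs_of_pos (by linarith), yy, abs_of_pos (by linarith)]
  linarith

end Pt
open Pt

theorem pointwise (cert : Cert) {ε : ℝ} (hε : 0 < ε) : ∀ᶠ N : ℕ in atTop,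
    ∀ x s : Fin (32 * N) → ℝ, GoodX x → GoodS s →
      |detPsi N x| * |detKer x s| * |detCol N s|
        ≤ Real.exp (-(2004 - ε) * (N : ℝ) ^ 2) * ∏ i, |x i - 1 / 3| ^ (-(1 / 2) : ℝ) := by
  obtain ⟨c1, h1⟩ := oneS cert
  obtain ⟨c2, h2⟩ := oneP cert
  obtain ⟨c3, h3⟩ := oneSig cert
  set K0 : ℝ := |c1| + |c2| + |c3| + Real.log 40 + 2 with hK0
  filter_upwards [energy4 cert (half_pos hε), h1, E4.ev_log (200 * K0) (half_pos hε),
    eventually_ge_atTop 29] with N hE h1 hev hN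
  intro x s hx hs
  have hN1 : 1 ≤ N := by omega
  have hNr : (29 : ℝ) ≤ N := by exact_mod_cast hN
  obtain ⟨nd⟩ := nodes_exist (M := N ^ 2) (Nat.one_le_pow _ _ hN1)
  have hyy : ∀ i, 2 < |yy (x i)| := fun i => by
    obtain ⟨h1, h2, h3, -⟩ := hx.2 i
    exact abs_yy h1 h2 h3
  have hly : ∀ i, 0 ≤ Real.log |yy (x i)| := fun i => Real.log_nonneg (by linarith [hyy i])
  set CD : ℝ := En (ptC x s) (chC (32 * N)) / 2
    + En (fun k => ((2 * s k : ℝ) : ℂ)) (fun _ => 1) / 2 with hCD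
  set lq : ℝ := Real.log (40 * (N : ℝ) ^ 2) with hlq
  set E : ℝ := -(2004 - ε) * (N : ℝ) ^ 2 - (∑ i, Real.log |x i - 1 / 3|) / 2
    - ∑ i, N * V1 (yy (x i)) - ∑ i, (Real.log 2 + Real.log |yy (x i)|) - ∑ k, N * V2 (2 * s k)
    - 16 * N * Real.log 2 - CD - 32 * N * lq with hEdef
  have key := psi_det_bound (n := 32 * N) (n' := 29 * N) (g := 3 * N) (by ring) (by omega)
    (fun i => ((yy (x i) : ℝ) : ℂ)) (fun i => (ep nd (x i) : ℂ)) (fun i => (de (x i) : ℂ))
    nd.η nd.τ (ptAB_inj nd hx) (Real.exp_pos E).le (by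
      intro S T hST
      by_cases hpos : ∀ i, i ∉ S → 0 < x i
      swap
      · push Not at hpos
        obtain ⟨i, hi, hxi⟩ := hpos
        have hneg : x i < 0 := lt_of_le_of_ne hxi (hx.2 i).2.2.1
        have : ∏ i ∈ Sᶜ, ‖(de (x i) : ℂ)‖ = 0 :=
          Finset.prod_eq_zero (Finset.mem_compl.2 hi) (by simp [de, hneg])
        rw [this]
        simp [(Real.exp_pos E).le]
      have hE' := hE nd x s hx hs S T hST hpos
      set a : Fin (32 * N) → ℝ := fun i =>
        N * (cert.A.U (yy (x i) : ℝ) + cert.C.U (yy (x i) : ℝ) + V1 (yy (x i)))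
          + 2 * Real.log |yy (x i)| - lm ((yy (x i) : ℝ) - 2) with ha
      have p1 : ∏ i ∈ S, ‖(ep nd (x i) : ℂ)‖ ≤ Real.exp (∑ i ∈ S, (N * cert.l + c1 - a i)) := by
        rw [Real.exp_sum]
        refine Finset.prod_le_prod (fun i _ => norm_nonneg _) fun i _ => ?_
        obtain ⟨b1, b2, b3, -⟩ := hx.2 i
        rw [Complex.norm_real, Real.norm_eq_abs, Real.exp_sub, le_div_iff₀ (Real.exp_pos _)]
        exact h1 (x i) _ b1 b2 b3 (ep_le nd b2 b3) (ep_le' nd b2)
      have p2 : ∏ i ∈ Sᶜ, ‖(de (x i) : ℂ)‖ ≤ Real.exp (∑ i ∈ Sᶜ, Real.log |yy (x i)|) := by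
        rw [Real.exp_sum]
        refine Finset.prod_le_prod (fun i _ => norm_nonneg _) fun i hi => ?_
        rw [Complex.norm_real, Real.norm_eq_abs, Real.exp_log (by linarith [hyy i])]
        exact de_le (hx.2 i).2.1 (hpos i (Finset.mem_compl.1 hi))
      have p3 : ∏ b ∈ T, ‖nd.τ b‖ ≤ 1 :=
        Finset.prod_le_one (fun b _ => norm_nonneg _) fun b _ => nd.tau b
      have p4 : (2 : ℝ) ^ (3 * N + 1) = Real.exp ((3 * N + 1) * Real.log 2) := by
        rw [← Real.exp_log (show (0 : ℝ) < 2 ^ (3 * N + 1) by positivity), Real.log_pow]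
        push_cast
        rfl
      have p5 : 2 ^ (3 * N + 1) * (∏ i ∈ S, ‖(ep nd (x i) : ℂ)‖) * (∏ i ∈ Sᶜ, ‖(de (x i) : ℂ)‖) *
          (∏ b ∈ T, ‖nd.τ b‖) ≤ Real.exp ((3 * N + 1) * Real.log 2) *
            Real.exp (∑ i ∈ S, (N * cert.l + c1 - a i)) *
            Real.exp (∑ i ∈ Sᶜ, Real.log |yy (x i)|) * 1 := by
        rw [p4]
        gcongr
      refine (mul_le_mul_of_nonneg_right p5 (Real.exp_pos _).le).trans ?_
      rw [mul_one, ← Real.exp_add, ← Real.exp_add, ← Real.exp_add, Real.exp_le_exp]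
      have hcard : (S.card : ℝ) + T.card = 29 * N := by exact_mod_cast hST
      have hcard' : (S.card : ℝ) + (Sᶜ.card : ℝ) = 32 * N := by
        have := Finset.card_add_card_compl S
        rw [Fintype.card_fin] at this
        exact_mod_cast this
      have hS0 : (0 : ℝ) ≤ S.card := Nat.cast_nonneg _
      have hT0 : (0 : ℝ) ≤ T.card := Nat.cast_nonneg _
      have hS0' : (0 : ℝ) ≤ (Sᶜ.card : ℝ) := Nat.cast_nonneg _
      have q2 : ∑ i ∈ Sᶜ, (N * (cert.B.U (yy (x i) : ℝ) + cert.C.U (yy (x i) : ℝ) + V1 (yy (x i)))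
          + 2 * Real.log |yy (x i)| - lm ((yy (x i) : ℝ) - 2))
          ≤ ∑ i ∈ Sᶜ, (N * (cert.l - cert.lw) + c2) := by
        refine Finset.sum_le_sum fun i hi => h2 N hN1 _ ?_
        have hxi := hpos i (Finset.mem_compl.1 hi)
        have hy0 : 0 < yy (x i) := by
          unfold yy
          positivity
        have := hyy i
        rwa [abs_of_pos hy0] at this
      have q3 : ∑ b ∈ T, N * (cert.A.U (nd.η b) - cert.B.U (nd.η b)) ≤ ∑ b ∈ T, N * cert.lw :=
        Finset.sum_le_sum fun b _ => mul_le_mul_of_nonneg_left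
          (cert.hW _ ((nd.loc b).imp (fun h => ⟨h.1, h.2.le⟩) And.left)) (by linarith)
      have q4 : ∑ k, (N * (cert.D.U (2 * s k : ℝ) - cert.C.U (2 * s k : ℝ) + V2 (2 * s k))
          - lm ((2 * s k : ℝ) - 2)) ≤ ∑ k : Fin (32 * N), (N * cert.ls + c3) :=
        Finset.sum_le_sum fun k _ => h3 N hN1 _ (by linarith [(hs.2 k).1]) (by linarith [(hs.2 k).2])
      have q5 : 0 ≤ ∑ i ∈ S, Real.log |yy (x i)| := Finset.sum_nonneg fun i _ => hly i
      have sp1 := Finset.sum_add_sum_compl S fun i => Real.log |yy (x i)|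
      have sp2 := Finset.sum_add_sum_compl S fun i => (N : ℝ) * V1 (yy (x i))
      have ht := mul_le_mul_of_nonneg_left cert.total (sq_nonneg (N : ℝ))
      have hT : (T.card : ℝ) * (N * cert.lw) = (Sᶜ.card - 3 * N) * (N * cert.lw) := by
        congr 1
        linarith
      have hSl : (S.card : ℝ) * (N * cert.l) = (32 * N - Sᶜ.card) * (N * cert.l) := by
        congr 1
        linarith
      have hlN : 0 ≤ Real.log N := Real.log_natCast_nonneg N
      have hl2 : 0 ≤ Real.log 2 := Real.log_nonneg (by norm_num)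
      have hl40 : Real.log 2 ≤ Real.log 40 := Real.log_le_log (by norm_num) (by norm_num)
      have hlq' : lq = Real.log 40 + 2 * Real.log N := by
        rw [hlq, Real.log_mul (by norm_num) (by positivity), Real.log_pow]
        norm_num
      have a1 := abs_nonneg c1
      have a2 := abs_nonneg c2
      have a3 := abs_nonneg c3
      have hK : 0 ≤ K0 := by rw [hK0]; linarith
      have hKL : K0 ≤ K0 * (1 + Real.log N) := by nlinarith
      have hL' : lq ≤ K0 * (1 + Real.log N) := by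
        have : 2 * Real.log N ≤ K0 * Real.log N := mul_le_mul_of_nonneg_right (by linarith) hlN
        nlinarith
      set W : ℝ := K0 * (1 + Real.log N) with hW
      have hW0 : 0 ≤ W := hK.trans hKL
      have t1 : (S.card : ℝ) * c1 ≤ S.card * W :=
        mul_le_mul_of_nonneg_left (by linarith [le_abs_self c1]) hS0
      have t2 : (Sᶜ.card : ℝ) * c2 ≤ Sᶜ.card * W :=
        mul_le_mul_of_nonneg_left (by linarith [le_abs_self c2]) hS0'
      have t2' : (S.card : ℝ) * W + Sᶜ.card * W = 32 * N * W := by rw [← add_mul, hcard']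
      have t3 : (N : ℝ) * c3 ≤ N * W :=
        mul_le_mul_of_nonneg_left (by linarith [le_abs_self c3]) (by linarith)
      have t4 : (N : ℝ) * Real.log 2 ≤ N * W := mul_le_mul_of_nonneg_left (by linarith) (by linarith)
      have t5 : (N : ℝ) * lq ≤ N * W := mul_le_mul_of_nonneg_left hL' (by linarith)
      have t6 : Real.log 2 ≤ N * Real.log 2 := by nlinarith
      have t7 : (N : ℝ) * (200 * W) ≤ N * (ε / 2 * N) :=
        mul_le_mul_of_nonneg_left (by rw [hW]; linarith) (by linarith)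
      have t8 : 0 ≤ (N : ℝ) * W := mul_nonneg (by linarith) hW0
      change _ + (En (ptAB x nd.η) (chA S T) / 2 + En (ptAB x nd.η) (chB S T) / 2) ≤ E
      rw [hEdef, hCD]
      simp only [ha, mul_add, mul_sub, Finset.sum_add_distrib, Finset.sum_sub_distrib,
        Finset.sum_const, nsmul_eq_mul, Finset.card_univ, Fintype.card_fin, Nat.cast_mul,
        Nat.cast_ofNat, ← Finset.mul_sum _ _ (2 : ℝ)] at hE' q2 q3 q4 ht ⊢
      clear hE h1 h2 h3 p1 p2 p3 p4 p5
      linarith)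
  have hmat : (Matrix.of fun r i : Fin (32 * N) =>
      ((psi (((r : ℕ) : ℤ) - 3 * N) (x i) : ℝ) : ℂ)) = Matrix.of fun r i : Fin (32 * N) =>
        (ep nd (x i) : ℂ) * (Chebyshev.C ℂ (((r : ℕ) : ℤ) - (3 * N : ℕ))).eval ((yy (x i) : ℝ) : ℂ) +
          (de (x i) : ℂ) * (∑ b, nd.τ b * (Chebyshev.C ℂ (((r : ℕ) : ℤ) - (3 * N : ℕ))).eval (nd.η b) /
            (((yy (x i) : ℝ) : ℂ) - nd.η b) +
            if ((r : ℕ) : ℤ) - (3 * N : ℕ) < 0 then
              2 * (Chebyshev.S ℂ (-(((r : ℕ) : ℤ) - (3 * N : ℕ)) - 1)).eval ((yy (x i) : ℝ) : ℂ)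
            else 0) := by
    ext r i
    simp only [Matrix.of_apply]
    have e : ((3 * N : ℕ) : ℤ) = 3 * N := by push_cast; ring
    rw [e]
    refine rep nd (hx.2 i).2.1 (hx.2 i).2.2.1 ?_
    have := r.2
    have h29 : 29 * N ≤ N ^ 2 := by nlinarith
    omega
  rw [← hmat] at key
  have hm : ((32 * N + nd.m + 3 * N : ℕ) : ℝ) ^ (32 * N) ≤ Real.exp (32 * N * lq) := by
    have b1 : ((32 * N + nd.m + 3 * N : ℕ) : ℝ) ≤ 40 * (N : ℝ) ^ 2 := by
      have b2 := nd.card
      have b3 : 32 * N + nd.m + 3 * N ≤ 40 * N ^ 2 := by nlinarith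
      exact_mod_cast b3
    refine (pow_le_pow_left₀ (Nat.cast_nonneg _) b1 _).trans (le_of_eq ?_)
    rw [hlq, ← Real.exp_log (show (0 : ℝ) < (40 * (N : ℝ) ^ 2) ^ (32 * N) by positivity),
      Real.log_pow]
    push_cast
    rfl
  have k1 : |detPsi N x| ≤ Real.exp (∑ i, N * V1 (yy (x i))) *
      (Real.exp (32 * N * lq) * Real.exp E) := by
    rw [detPsi_eq hx, Real.exp_sum]
    refine mul_le_mul_of_nonneg_left (key.trans ?_) (Finset.prod_nonneg fun i _ => (Real.exp_pos _).le)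
    exact mul_le_mul_of_nonneg_right hm (Real.exp_pos _).le
  have k2 := ker_col_bound hx hs
  have e1 : ∏ i, 2 * |yy (x i)| = Real.exp (∑ i, (Real.log 2 + Real.log |yy (x i)|)) := by
    rw [Real.exp_sum]
    refine Finset.prod_congr rfl fun i _ => ?_
    rw [Real.exp_add, Real.exp_log (by norm_num), Real.exp_log (by linarith [hyy i])]
  have e2 : (2 : ℝ) ^ (16 * N) = Real.exp (16 * N * Real.log 2) := by
    rw [← Real.exp_log (show (0 : ℝ) < 2 ^ (16 * N) by positivity), Real.log_pow]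
    push_cast
    rfl
  have e3 : ∏ i, |x i - 1 / 3| ^ (-(1 / 2) : ℝ) =
      Real.exp (-(∑ i, Real.log |x i - 1 / 3|) / 2) := by
    rw [neg_div, Finset.sum_div, ← Finset.sum_neg_distrib, Real.exp_sum]
    refine Finset.prod_congr rfl fun i _ => ?_
    rw [Real.rpow_def_of_pos (abs_pos.2 (sub_ne_zero.2 (hx.2 i).2.2.2))]
    congr 1
    ring
  rw [e1, e2, ← Real.exp_sum, ← hCD] at k2
  rw [mul_assoc, e3]
  refine (mul_le_mul k1 k2 (by positivity) (by positivity)).trans (le_of_eq ?_)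
  simp only [← Real.exp_add]
  congr 1
  rw [hEdef]
  ring

theorem real_upper (cert : Cert) {ε : ℝ} (hε : 0 < ε) : ∀ᶠ N : ℕ in atTop,
    |(EmatR N).det| ≤ Real.exp (-(2004 - ε) * (N : ℝ) ^ 2) := by
  filter_upwards [pointwise cert (half_pos hε), E4.ev_log (32 * Real.log 4) (half_pos hε),
    eventually_ge_atTop 1] with N h hev hN
  refine (double_bound hN (Real.exp_pos _).le h).trans ?_
  have e2 : (4 : ℝ) ^ (32 * N) = Real.exp (32 * N * Real.log 4) := by
    rw [← Real.exp_log (show (0 : ℝ) < 4 ^ (32 * N) by positivity), Real.log_pow]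
    push_cast
    rfl
  rw [e2, ← Real.exp_add, Real.exp_le_exp]
  have hlN : 0 ≤ Real.log N := Real.log_natCast_nonneg N
  have hl4 : 0 ≤ Real.log 4 := Real.log_nonneg (by norm_num)
  have hN0 : (0 : ℝ) ≤ N := Nat.cast_nonneg N
  have h1 : 32 * Real.log 4 ≤ ε / 2 * N := by nlinarith
  nlinarith

end Crest.Agent.R6
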