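import Crest.Agent.R6.Arith
import Crest.Agent.R6.Ident
import Crest.Agent.R6.Point
import Crest.Agent.R6.CertEx

set_option autoImplicit false

namespace Crest.Agent.R6
open Filter

theorem irrational_Gc : Irrational Gc := by
  rintro ⟨γ, hγ⟩
  obtain ⟨cert⟩ := cert_exists
  have h1 := arith_lower γ (ε := 1 / 20) (by norm_num)
  have h2 := real_upper cert (ε := 1 / 20) (by norm_num)
  have h3 := det_ne_zero γ
  have h4 := (h1.and (h2.and (h3.and (eventually_ge_atTop 1))))
  obtain ⟨N0, hN0⟩ := eventually_atTop.1 h4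
  obtain ⟨N, hN, hp⟩ := Nat.exists_infinite_primes N0
  obtain ⟨a1, a2, a3, a4⟩ := hN0 N hN
  have hne := a3 hp
  have a1 := a1 hne
  rw [det_Emat_eq hγ a4] at a1
  have hpos : 0 < |(EmatR N).det| := by
    rw [← det_Emat_eq hγ a4]
    exact abs_pos.2 (by exact_mod_cast hne)
  have a5 : Real.log |(EmatR N).det| ≤ -(2004 - 1 / 20) * (N : ℝ) ^ 2 := by
    have := Real.log_le_log hpos a2
    rwa [Real.log_exp] at this
  have hl := Real.log_two_lt_d9
  have hN2 : (1 : ℝ) ≤ (N : ℝ) ^ 2 := one_le_pow₀ (by exact_mod_cast a4)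
  nlinarith

end Crest.Agent.R6
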