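import Crest.Agent.R6.Cong

/-! Odd primes `p > 22N`. Use `detval_fun` with
* row functionals (`f = (P,D) = ∑ u_r (Prow, Drow)`): `φ'_l(f) = p²-residue = coeff (P(1-t²)^h) (l+2p) - (3/4) coeff D (l+p)`
  for `l < 44N - p`, and `coeff D l` for `13N ≤ l < 39N - p`  (index type `ℕ ⊕ ℕ` or one `Finset (ℕ ⊕ ℕ)`),
* column functionals: the coefficients of `s^k` of `c = ∑ v_j col j`, `k ∈ [5N, 44N-p) ∪ [p, 39N)`.

Facts (`Phi_cong`, small values `s 0 0 = s 1 0 = s 1 1 = 0, s 2 0 = s 0 1 = 1, s 2 1 = -1,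
z 0 0 = 0, z 1 0 = z 0 1 = 1, z 1 1 = -1`; `deg P ≤ 44N < 2p`, `deg D ≤ 44N-1`):
* `p² Φ(f, l) ≡ φ'_l` (`l < p`), which is `0` when `l ≥ 44N - p`;
* `p² Φ(f, l+p) ≡ coeff D l /4 - φ'_l` (uses `taylor`: coeff `l` of `P(1-t²)^h` ≡ coeff `l` of `D`,
  `l < p`, `l < 39N`); `coeff D l = 0` for `l ≤ 13 N`;
* good column `44N - p ≤ k < p`: `p Φ(f,k) ≡ -∑_{i<k} (1/(i+1)) · pΨ_{k-i}`, with
  `Ψ_κ = ∑_{m ≥ κ} (P_m Wp(m-κ) - (3/4) D_m/(m-κ+1))` and `pΨ_κ ≡ φ'_{κ-1}` (`V_lucas` with `l1 = 0`);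
  unfold `s`, `z` down the diagonal, the boundary values `s(u,0)`, `u ≤ p`, `s(0,u)`, `u<p`,
  `z(u,0)`, `u < p` are `p`-integral.
A column vector killed by the column functionals is `good part + p·(integer polynomial)`. -/

set_option autoImplicit false

namespace Crest.Agent.R6
open Polynomial Finset

variable {p : ℕ} [Fact p.Prime]

open ValA

/-- unfolding along the diagonal. -/
theorem s_diag (u k : ℕ) : s (u + k) k = s u 0 - ∑ i ∈ range k, Wp (u + i) / (i + 1) := by
  induction k with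
  | zero => simp
  | succ k ih =>
    rw [← add_assoc, s, ih, sum_range_succ]
    ring

theorem z_diag (u k : ℕ) :
    z (u + k) k = z u 0 - ∑ i ∈ range k, (1 : ℚ) / ((u + i + 1) * (i + 1)) := by
  induction k with
  | zero => simp
  | succ k ih =>
    rw [← add_assoc, z, ih, sum_range_succ]
    push_cast
    ring

/-- the functional `φ'_l`. -/
noncomputable def phi' (p : ℕ) (P D : ℤ[X]) (l : ℕ) : ℚ :=
  ((P * (1 - X ^ 2) ^ (p / 2)).coeff (l + 2 * p) : ℚ) - 3 / 4 * (D.coeff (l + p) : ℚ)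

namespace OB

theorem three_le (hp : p ≠ 2) : 3 ≤ p := by
  have := (Fact.out : p.Prime).two_le
  omega

theorem odd (hp : p ≠ 2) : p % 2 = 1 := ((Fact.out : p.Prime).eq_two_or_odd).resolve_left hp

theorem pair_range (f : ℕ → ℚ) (P : ℤ[X]) (n : ℕ) (h : ∀ m, n < m → P.coeff m = 0) :
    pair f P = ∑ m ∈ range (n + 1), (P.coeff m : ℚ) * f m :=
  pair_eq_range f P (Nat.lt_succ_of_le (natDegree_le_iff_coeff_eq_zero.2 h))

theorem coeff_mul_pair (P Q : ℤ[X]) (n : ℕ) :
    ((P * Q).coeff n : ℚ) = pair (fun m => if m ≤ n then (Q.coeff (n - m) : ℚ) else 0) P := by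
  induction P using Polynomial.induction_on' with
  | add P P' h h' => rw [add_mul, coeff_add, pair_add, Int.cast_add, h, h']
  | monomial m a =>
    rw [pair_monomial, ← C_mul_X_pow_eq_monomial, mul_assoc, coeff_C_mul, coeff_X_pow_mul']
    split_ifs <;> simp

theorem coeff_pair (P : ℤ[X]) (n : ℕ) : (P.coeff n : ℚ) = pair (fun m => if m = n then 1 else 0) P := by
  induction P using Polynomial.induction_on' with
  | add P P' h h' => rw [coeff_add, pair_add, Int.cast_add, h, h']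
  | monomial m a =>
    rw [pair_monomial, coeff_monomial]
    split_ifs <;> simp

theorem cg_pair {f g : ℕ → ℚ} {P : ℤ[X]} (h : ∀ m, P.coeff m ≠ 0 → Cg p (f m) (g m)) :
    Cg p (pair f P) (pair g P) :=
  Cg.sum _ fun m hm => Cg.mul_left _ (padicNorm.of_int _) (h m (mem_support_iff.1 hm))

theorem norm_pair {f : ℕ → ℚ} {P : ℤ[X]} {B : ℚ} (hB : 0 ≤ B)
    (h : ∀ m, P.coeff m ≠ 0 → padicNorm p (P.coeff m * f m) ≤ B) : padicNorm p (pair f P) ≤ B :=
  padicNorm.sum_le' (fun m hm => h m (mem_support_iff.1 hm)) hB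

theorem deg_omega (hp : p ≠ 2) {P : ℤ[X]} {H m : ℕ} (hP : P.natDegree ≤ H) (hm : H + p ≤ m) :
    (P * (1 - X ^ 2) ^ (p / 2)).coeff m = 0 := by
  have h1 : (1 - X ^ 2 : ℤ[X]).natDegree ≤ 2 := by compute_degree
  have h2 := natDegree_mul_le_of_le hP (natDegree_pow_le_of_le (p / 2) h1)
  have h3 := odd hp
  exact coeff_eq_zero_of_natDegree_lt (by omega)

theorem phi'_zero (hp : p ≠ 2) {P D : ℤ[X]} {H l : ℕ} (hP : P.natDegree ≤ H) (hD : D.natDegree ≤ H - 1)
    (h : H ≤ l + p) : phi' p P D l = 0 := by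
  have := three_le hp
  rw [phi', deg_omega hp hP (by omega), coeff_eq_zero_of_natDegree_lt (by omega)]
  simp

theorem Phi_sec (hp : p ≠ 2) {P D : ℤ[X]} {H l : ℕ} (hP : P.natDegree ≤ H) (hD : D.natDegree ≤ H - 1)
    (hlH : H ≤ l + 2 * p) (j : ℕ) : Phi 0 (sec p l (P * (1 - X ^ 2) ^ (p / 2))) (sec p l D) j =
      ((P * (1 - X ^ 2) ^ (p / 2)).coeff l : ℚ) * s 0 j + ((P * (1 - X ^ 2) ^ (p / 2)).coeff (l + p) : ℚ) * s 1 j +
        ((P * (1 - X ^ 2) ^ (p / 2)).coeff (l + 2 * p) : ℚ) * s 2 j -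
        3 / 4 * ((D.coeff l : ℚ) * z 0 j + (D.coeff (l + p) : ℚ) * z 1 j) := by
  have h3 := three_le hp
  have h0 : 0 < p := by omega
  rw [Phi, pair_range _ _ 2 fun m hm => by
      rw [coeff_sec h0]
      exact deg_omega hp hP (by nlinarith),
    pair_range _ _ 1 fun m hm => by
      rw [coeff_sec h0]
      have : p * 2 ≤ p * m := Nat.mul_le_mul_left p hm
      exact coeff_eq_zero_of_natDegree_lt (by omega)]
  simp [sum_range_succ, coeff_sec h0, mul_comm p 2]

theorem norm_le_of_cg {x : ℚ} {e : ℕ} (h : Cg p ((p : ℚ) ^ (e + 1) * x) 0) : padicNorm p x ≤ (p : ℚ) ^ e := by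
  have h0 : (0 : ℚ) < p := zero_lt_one.trans_le one_le_p
  have := cg_zero_iff'.1 h
  rw [padicNorm.mul, pn_pow, padicNorm.padicNorm_p_of_prime, inv_pow, inv_mul_le_iff₀ (by positivity), pow_succ,
    mul_inv_cancel_right₀ h0.ne'] at this
  exact this

theorem norm_inv_one {k : ℕ} (hk : k < p) : padicNorm p (1 / (k : ℚ)) ≤ 1 := by
  have := norm_inv_le (p := p) (le_refl k)
  rwa [Nat.log_of_lt hk, pow_zero] at this

theorem cg_p_div {n : ℕ} (h0 : n ≠ 0) (hn : n < 2 * p) : Cg p (p * (1 / (n : ℚ))) (if n = p then 1 else 0) := by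
  split_ifs with h
  · rw [h, mul_one_div_cancel (zero_lt_one.trans_le (one_le_p (p := p))).ne']
    exact Cg.refl _
  · refine cg_p_mul (le_of_eq ?_)
    rw [padicNorm.div, padicNorm.one, (padicNorm.nat_eq_one_iff n).2, div_one]
    rintro ⟨c, rfl⟩
    rcases c with _ | _ | c
    · simp at h0
    · simp at h
    · rw [mul_add, mul_add] at hn
      omega

end OB

open OB

/-- column `l < p`, when only the sections of index `≤ 2` resp. `≤ 1` occur. -/
theorem Phi_low (hp : p ≠ 2) {γ : ℚ} (hγ : padicNorm p γ ≤ 1) {P D : ℤ[X]} {H l : ℕ}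
    (hP : P.natDegree ≤ H) (hD : D.natDegree ≤ H - 1) (hH : H + 2 * p < p * p) (hl : l < p)
    (hlH : H ≤ l + 2 * p) :
    Cg p ((p : ℚ) ^ 2 * Phi γ P D l) (phi' p P D l) := by
  have h3 := three_le hp
  have := Phi_cong hp hγ (P := P) (D := D) (by omega) (by omega) (j' := 0) hl (by omega)
  rw [Phi_sec hp hP hD hlH] at this
  simpa [s, s0, s1, z, V, w, phi'] using this

/-- column `l + p`. -/
theorem Phi_high (hp : p ≠ 2) {γ : ℚ} (hγ : padicNorm p γ ≤ 1) {P D : ℤ[X]} {H l : ℕ}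
    (hP : P.natDegree ≤ H) (hD : D.natDegree ≤ H - 1) (hH : H + 2 * p < p * p) (hl : l < p)
    (hlH : H ≤ l + 2 * p) (htay : (D.coeff l : ℚ) = pair (fun m => be m l) P) :
    Cg p ((p : ℚ) ^ 2 * Phi γ P D (l + p)) ((D.coeff l : ℚ) / 4 - phi' p P D l) := by
  have h3 := three_le hp
  have h1 := Phi_cong hp hγ (P := P) (D := D) (by omega) (by omega) (j' := 1) hl (by omega)
  rw [Phi_sec hp hP hD hlH, mul_one] at h1
  have h2 : Cg p ((P * (1 - X ^ 2) ^ (p / 2)).coeff l : ℚ) (D.coeff l) := by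
    rw [htay, coeff_mul_pair]
    refine cg_pair fun m _ => ?_
    unfold be
    by_cases hm : m ≤ l
    · have := coeff_omega hp (l - m)
      simpa [hm, show l - m < 2 * p by omega] using this
    · simpa [hm] using Cg.refl _
  refine h1.trans ?_
  have h4 := h2.sub (Cg.refl (3 / 4 * (D.coeff l : ℚ) + phi' p P D l))
  convert h4 using 1
  · simp [s, s0, s1, z, V, w, Wp, phi']
    ring
  · ring

/-- good columns. -/
theorem Phi_good (hp : p ≠ 2) {γ : ℚ} (hγ : padicNorm p γ ≤ 1) {P D : ℤ[X]} {H k : ℕ}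
    (hP : P.natDegree ≤ H) (hD : D.natDegree ≤ H - 1) (hH : H < 2 * p) (hk : k < p)
    (hkH : H ≤ k + p) (hgood : ∀ l, l + p < H → Cg p (phi' p P D l) 0) :
    padicNorm p (Phi γ P D k) ≤ 1 := by
  have h3 := three_le hp
  have ho := odd hp
  let F : ℕ → ℕ → ℚ := fun κ m => if κ ≤ m then Wp (m - κ) else 0
  let G : ℕ → ℕ → ℚ := fun κ m => if κ ≤ m then 1 / ((m - κ + 1 : ℕ) : ℚ) else 0
  have hi1 : ∀ i ∈ range k, padicNorm p (1 / ((i : ℚ) + 1)) ≤ 1 := fun i hi => by
    have := norm_inv_one (p := p) (k := i + 1) (by have := mem_range.1 hi; omega)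
    push_cast at this
    exact this
  have hΨ : ∀ κ, 1 ≤ κ → padicNorm p (pair (F κ) P - 3 / 4 * pair (G κ) D) ≤ 1 := by
    intro κ hκ
    have a1 : Cg p (p * pair (F κ) P) ((P * (1 - X ^ 2) ^ (p / 2)).coeff (κ - 1 + 2 * p) : ℚ) := by
      rw [← pair_fun_mul, coeff_mul_pair]
      refine cg_pair fun m hm => ?_
      have b1 := (le_natDegree_of_ne_zero hm).trans hP
      rw [if_pos (by omega)]
      refine Cg.trans ?_ (coeff_omega hp _).symm
      simp only [F, Wp]
      split_ifs with c1 c2 c3 c3 c3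
      · have := V_lucas hp (l0 := (m - κ) / 2) (l1 := 0) (by omega) (by omega)
        rw [show (κ - 1 + 2 * p - m) / 2 = p - 1 - (m - κ) / 2 by omega]
        simpa [V, w] using this
      · omega
      · omega
      · simpa using Cg.refl _
      · omega
      · simpa using Cg.refl _
    have a2 : Cg p (p * pair (G κ) D) (D.coeff (κ - 1 + p) : ℚ) := by
      rw [← pair_fun_mul, coeff_pair]
      refine cg_pair fun m hm => ?_
      have b1 := (le_natDegree_of_ne_zero hm).trans hD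
      simp only [G]
      by_cases c1 : κ ≤ m
      · rw [if_pos c1]
        convert cg_p_div (p := p) (n := m - κ + 1) (by omega) (by omega) using 2
        exact ⟨fun _ => by omega, fun _ => by omega⟩
      · rw [if_neg c1, if_neg (by omega), mul_zero]
        exact Cg.refl _
    have a3 : Cg p (phi' p P D (κ - 1)) 0 := by
      by_cases c : κ - 1 + p < H
      · exact hgood _ c
      · rw [phi'_zero hp hP hD (by omega)]
        exact Cg.refl _
    have a4 := (a1.sub (a2.mul_left _ (pn_34 hp))).trans a3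
    have a5 := norm_le_of_cg (p := p) (e := 0) (x := pair (F κ) P - 3 / 4 * pair (G κ) D)
      (by convert a4 using 1; ring)
    rwa [pow_zero] at a5
  have e : Phi γ P D k = (pair (fun m => (s m k + ∑ i ∈ range k, 1 / ((i : ℚ) + 1) * F (k - i) m) + γ * al m k) P -
      3 / 4 * pair (fun m => z m k + ∑ i ∈ range k, 1 / ((i : ℚ) + 1) * G (k - i) m) D) -
      ∑ i ∈ range k, 1 / ((i : ℚ) + 1) * (pair (F (k - i)) P - 3 / 4 * pair (G (k - i)) D) := by
    simp only [Phi, pair_fun_add, pair_fun_sum, pair_fun_mul, mul_sub, sum_sub_distrib, mul_add, mul_sum,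
      mul_left_comm (3 / 4 : ℚ)]
    ring
  rw [e]
  refine pn_sub_le (pn_sub_le (padicNorm_pair_le p _ _ _ zero_le_one fun m hm => pn_add_le ?_ ?_)
    ((pn_mul_le (pn_34 hp) (padicNorm_pair_le p _ _ _ zero_le_one fun m hm => ?_)).trans (one_mul _).le))
    (padicNorm.sum_le' (fun i hi => (pn_mul_le (hi1 i hi) (hΨ _ (by have := mem_range.1 hi; omega))).trans
      (one_mul _).le) zero_le_one)
  · have b1 := (le_natDegree_of_ne_zero hm).trans hP
    by_cases c : k ≤ m
    · obtain ⟨u, rfl⟩ : ∃ u, m = u + k := ⟨m - k, by omega⟩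
      have e1 : ∑ i ∈ range k, 1 / ((i : ℚ) + 1) * F (k - i) (u + k) = ∑ i ∈ range k, Wp (u + i) / (i + 1) :=
        sum_congr rfl fun i hi => by
          have := mem_range.1 hi
          simp only [F]
          rw [if_pos (by omega), show u + k - (k - i) = u + i by omega]
          ring
      rw [s_diag, e1, sub_add_cancel]
      exact norm_s_le_one hp (by omega) (by omega)
    · refine pn_add_le (norm_s_le_one hp (by omega) hk) (padicNorm.sum_le' (fun i hi =>
        (pn_mul_le (hi1 i hi) ?_).trans (one_mul _).le) zero_le_one)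
      simp only [F]
      split_ifs
      · have := norm_Wp_le hp (m - (k - i))
        rwa [Nat.log_of_lt (by omega), pow_zero] at this
      · simp
  · exact (pn_mul_le hγ (norm_al_le hp m k)).trans (one_mul _).le
  · have b1 := (le_natDegree_of_ne_zero hm).trans hD
    have b2 : ∀ a b, a < p → b < p → padicNorm p (z a b) ≤ 1 := fun a b ha hb => by
      have := norm_z_le (p := p) (m := a) (k := b) (B := p - 1) (by omega) (by omega)
      rwa [Nat.log_of_lt (by omega), mul_zero, pow_zero] at this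
    by_cases c : k ≤ m
    · obtain ⟨u, rfl⟩ : ∃ u, m = u + k := ⟨m - k, by omega⟩
      have e2 : ∑ i ∈ range k, 1 / ((i : ℚ) + 1) * G (k - i) (u + k) =
          ∑ i ∈ range k, (1 : ℚ) / ((u + i + 1) * (i + 1)) :=
        sum_congr rfl fun i hi => by
          have := mem_range.1 hi
          simp only [G]
          rw [if_pos (by omega), show u + k - (k - i) = u + i by omega]
          push_cast
          rw [one_div_mul_one_div, mul_comm]
      rw [z_diag, e2, sub_add_cancel]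
      exact b2 _ _ (by omega) (by omega)
    · refine pn_add_le (b2 _ _ (by omega) hk) (padicNorm.sum_le' (fun i hi =>
        (pn_mul_le (hi1 i hi) ?_).trans (one_mul _).le) zero_le_one)
      simp only [G]
      split_ifs
      · exact norm_inv_one (by have := mem_range.1 hi; omega)
      · simp

namespace OB

/-- integer combination of polynomials -/
noncomputable def cmb {n : ℕ} (u : Fin n → ℤ) (P : Fin n → ℤ[X]) : ℤ[X] := ∑ i, C (u i) * P i

theorem cmb_coeff {n : ℕ} (u : Fin n → ℤ) (P : Fin n → ℤ[X]) (m : ℕ) :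
    ((cmb u P).coeff m : ℚ) = ∑ i, (u i : ℚ) * (P i).coeff m := by
  simp [cmb, finset_sum_coeff]

theorem cmb_deg {n B : ℕ} (u : Fin n → ℤ) {P : Fin n → ℤ[X]} (h : ∀ i, (P i).natDegree ≤ B) :
    (cmb u P).natDegree ≤ B :=
  natDegree_sum_le_of_forall_le _ _ fun i _ => (natDegree_C_mul_le _ _).trans (h i)

theorem cmb_pair {n : ℕ} (f : ℕ → ℚ) (u : Fin n → ℤ) (P : Fin n → ℤ[X]) :
    pair f (cmb u P) = ∑ i, (u i : ℚ) * pair f (P i) := by
  simp only [cmb, pair_sum, pair_C_mul]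

theorem cmb_phi' (p : ℕ) {n : ℕ} (u : Fin n → ℤ) (P D : Fin n → ℤ[X]) (l : ℕ) :
    phi' p (cmb u P) (cmb u D) l = ∑ i, (u i : ℚ) * phi' p (P i) (D i) l := by
  have : cmb u P * (1 - X ^ 2) ^ (p / 2) = cmb u fun i => P i * (1 - X ^ 2) ^ (p / 2) := by
    simp only [cmb, sum_mul, mul_assoc]
  simp only [phi', this, cmb_coeff, mul_sub, sum_sub_distrib, mul_sum, mul_left_comm (3 / 4 : ℚ)]

theorem cmb_bil (γ : ℚ) {n : ℕ} (u v : Fin n → ℤ) (P D c : Fin n → ℤ[X]) :
    ∑ i, ∑ j, (u i : ℚ) * pair (Phi γ (P i) (D i)) (c j) * v j = pair (Phi γ (cmb u P) (cmb u D)) (cmb v c) := by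
  rw [cmb_pair, sum_comm]
  refine sum_congr rfl fun j _ => ?_
  rw [show Phi γ (cmb u P) (cmb u D) = fun k => ∑ i, (u i : ℚ) * Phi γ (P i) (D i) k from
    funext (Phi_sum γ univ u P D), pair_fun_sum, mul_sum]
  exact sum_congr rfl fun i _ => by rw [pair_fun_mul]; ring

end OB

theorem det_odd_big (hp : p ≠ 2) {γ : ℚ} (hγ : padicNorm p γ ≤ 1) {N : ℕ} (hN : 1 ≤ N)
    (hpN : 44 * N < 2 * p) :
    padicNorm p (Emat γ N).det ≤ (p : ℚ) ^
      (min (32 * N) ((44 * N - p) + (26 * N - p)) + min (32 * N) (2 * (39 * N - p))) := by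
  have h0 : (0 : ℚ) < p := zero_lt_one.trans_le one_le_p
  have hH : 44 * N + 2 * p < p * p := by nlinarith
  let P : Fin (32 * N) → ℤ[X] := fun r => Prow N (((r : ℕ) : ℤ) - 3 * N)
  let D : Fin (32 * N) → ℤ[X] := fun r => Drow N (((r : ℕ) : ℤ) - 3 * N)
  let c : Fin (32 * N) → ℤ[X] := fun j => col N j
  have hP : ∀ u, (cmb u P).natDegree ≤ 44 * N := fun u =>
    cmb_deg u fun r => natDegree_Prow_le (by have := r.2; omega)
  have hD : ∀ u, (cmb u D).natDegree ≤ 44 * N - 1 := fun u =>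
    cmb_deg u fun r => natDegree_Drow_le hN (by have := r.2; omega)
  have hc : ∀ v k, (cmb v c).coeff k ≠ 0 → 5 * N ≤ k ∧ k < 39 * N := fun v k hk => by
    have h1 : ((cmb v c).coeff k : ℚ) ≠ 0 := by exact_mod_cast hk
    rw [cmb_coeff] at h1
    obtain ⟨j, -, hj⟩ := exists_ne_zero_of_sum_ne_zero h1
    have h2 := coeff_col_ne_zero (N := N) (j := j) (k := k) fun h => hj (by simp only [c, h]; simp)
    have := j.2
    omega
  have hbil : ∀ u v : Fin (32 * N) → ℤ, ∑ i, ∑ j, (u i : ℚ) * Emat γ N i j * v j =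
      pair (Phi γ (cmb u P) (cmb u D)) (cmb v c) := fun u v => cmb_bil γ u v P D c
  have h2 : ∀ u k, k < 39 * N → padicNorm p (Phi γ (cmb u P) (cmb u D) k) ≤ (p : ℚ) ^ 2 := fun u k hk => by
    refine (norm_Phi_le hp (v := 0) (by simpa using hγ) (hP u) ((hD u).trans (Nat.sub_le _ _))
      (by omega : k ≤ 44 * N)).trans (pow_le_pow_right₀ one_le_p ?_)
    have : Nat.log p (44 * N) < 2 := Nat.log_lt_of_lt_pow (by omega) (by rw [sq]; omega)
    omega
  let t : Finset (ℕ ⊕ ℕ) := (range (44 * N - p)).disjSum (Ico (13 * N) (39 * N - p))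
  let t' : Finset (ℕ ⊕ ℕ) := (Ico (5 * N) (44 * N - p)).disjSum (Ico p (39 * N))
  let φ : Fin (32 * N) → ℕ ⊕ ℕ → ℚ := fun i => Sum.elim (phi' p (P i) (D i)) fun l => (D i).coeff l
  let ψ : Fin (32 * N) → ℕ ⊕ ℕ → ℚ := fun j b => (c j).coeff (b.elim id id)
  have g1 : ∀ u : Fin (32 * N) → ℤ, (∀ a ∈ t, padicNorm p (∑ i, (u i : ℚ) * φ i a) < 1) →
      ∀ l, Cg p (phi' p (cmb u P) (cmb u D) l) 0 := fun u hu l => by
    by_cases h : l < 44 * N - p
    · rw [cmb_phi']
      exact cg_zero_iff.2 (hu (.inl l) (inl_mem_disjSum.2 (mem_range.2 h)))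
    · rw [phi'_zero hp (hP u) (hD u) (by omega)]
      exact Cg.refl _
  have g2 : ∀ u : Fin (32 * N) → ℤ, (∀ a ∈ t, padicNorm p (∑ i, (u i : ℚ) * φ i a) < 1) →
      ∀ k, k < 39 * N → padicNorm p (Phi γ (cmb u P) (cmb u D) k) ≤ p := fun u hu k hk => by
    refine (norm_le_of_cg (e := 1) ?_).trans (pow_one _).le
    by_cases h : k < p
    · exact (Phi_low hp hγ (hP u) (hD u) hH h (by omega)).trans (g1 u hu k)
    · obtain ⟨l, rfl⟩ : ∃ l, k = l + p := ⟨k - p, by omega⟩
      have a1 : Cg p ((cmb u D).coeff l : ℚ) 0 := by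
        rw [cmb_coeff]
        by_cases h' : l < 13 * N
        · rw [sum_eq_zero fun i _ => by
            rw [coeff_Drow_eq_zero (by have := i.2; omega), Int.cast_zero, mul_zero]]
          exact Cg.refl _
        · exact cg_zero_iff.2 (hu (.inr l) (inr_mem_disjSum.2 (mem_Ico.2 ⟨by omega, by omega⟩)))
      have a2 := (a1.mul_left (1 / 4) (by rw [padicNorm.div, pn_four hp]; simp)).sub (g1 u hu l)
      refine (Phi_high hp hγ (hP u) (hD u) hH (by omega) (by omega) ?_).trans ?_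
      · rw [cmb_coeff, cmb_pair]
        exact sum_congr rfl fun i _ => by rw [taylor hN (by have := i.2; omega) (by omega)]
      · convert a2 using 1 <;> ring
  have g3 : ∀ v : Fin (32 * N) → ℤ, (∀ b ∈ t', padicNorm p (∑ j, (v j : ℚ) * ψ j b) < 1) →
      ∀ k, (cmb v c).coeff k ≠ 0 → (44 * N ≤ k + p ∧ k < p) ∨ padicNorm p ((cmb v c).coeff k) ≤ (p : ℚ)⁻¹ := by
    intro v hv k hk
    obtain ⟨a1, a2⟩ := hc v k hk
    rw [← cg_zero_iff', cg_zero_iff, cmb_coeff]
    by_cases h : k < 44 * N - p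
    · exact Or.inr (hv (.inl k) (inl_mem_disjSum.2 (mem_Ico.2 ⟨a1, h⟩)))
    · by_cases h' : k < p
      · exact Or.inl ⟨by omega, h'⟩
      · exact Or.inr (hv (.inr k) (inr_mem_disjSum.2 (mem_Ico.2 ⟨by omega, a2⟩)))
  have key := detval_fun p (Emat γ N) t t' φ ψ (fun i a _ => ?_) (fun j b _ => padicNorm.of_int _)
    (fun u v => ?_) (fun u v hu => ?_) (fun u v hv => ?_) fun u v hu hv => ?_
  · simp only [t, t', card_disjSum, card_range, Nat.card_Ico] at key
    convert key using 4 <;> omega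
  · rcases a with l | l
    · exact pn_sub_le (padicNorm.of_int _) ((pn_mul_le (pn_34 hp) (padicNorm.of_int _)).trans (one_mul _).le)
    · exact padicNorm.of_int _
  · rw [hbil]
    exact padicNorm_pair_le p _ _ _ (by positivity) fun k hk => h2 u k (hc v k hk).2
  · rw [hbil]
    exact padicNorm_pair_le p _ _ _ h0.le fun k hk => g2 u hu k (hc v k hk).2
  · rw [hbil]
    refine norm_pair h0.le fun k hk => ?_
    rcases g3 v hv k hk with ⟨a1, a2⟩ | a
    · refine (pn_mul_le (padicNorm.of_int _) (norm_le_of_cg (e := 1) ?_)).trans (by simp)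
      have := Phi_low hp hγ (hP u) (hD u) hH a2 (by omega)
      rwa [phi'_zero hp (hP u) (hD u) a1] at this
    · exact (pn_mul_le a (h2 u k (hc v k hk).2)).trans (le_of_eq (by field_simp))
  · rw [hbil]
    refine norm_pair zero_le_one fun k hk => ?_
    rcases g3 v hv k hk with ⟨a1, a2⟩ | a
    · exact (pn_mul_le (padicNorm.of_int _) (Phi_good hp hγ (hP u) (hD u) hpN a2 a1 fun l _ => g1 u hu l)).trans
        (one_mul _).le
    · exact (pn_mul_le a (g2 u hu k (hc v k hk).2)).trans (inv_mul_cancel₀ h0.ne').le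

end Crest.Agent.R6
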