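import Crest.Agent.R6.OddBig

/-! Odd primes `33N ≤ 2p ≤ 44N`, and the assembled odd-prime bound.
Use `detval_row` with the functionals `χ_k(f) = p² Φ(f,k)`, `k ∈ [5N,39N) \ [max(44N-2p,5N), 13N)`:
for `l ∈ [max(44N-2p,5N), 13N)` one has `χ_l ≡ φ'_l ≡ -χ_{l+p}` (`Phi_low`, `Phi_high`,
`coeff D l = 0`), and `l + p ∈ [13N, 39N)`. -/

set_option autoImplicit false

namespace Crest.Agent.R6
open Polynomial Finset

variable {p : ℕ} [Fact p.Prime]

omit [Fact p.Prime] in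
theorem OddMid.log_le {N : ℕ} (hpp : 44 * N < p * p) : Nat.log p (44 * N) ≤ 1 :=
  Nat.le_of_lt_succ (Nat.log_lt_of_lt_pow' (by norm_num) (by rwa [pow_two]))

theorem OddMid.norm_sq (x : ℚ) : padicNorm p ((p : ℚ) ^ 2 * x) = padicNorm p x / (p : ℚ) ^ 2 := by
  rw [padicNorm.mul, pow_two, padicNorm.mul, padicNorm.padicNorm_p_of_prime]
  ring

theorem det_odd_mid (hp : p ≠ 2) {γ : ℚ} (hγ : padicNorm p γ ≤ 1) {N : ℕ} (hN : 1 ≤ N)
    (h1 : 33 * N ≤ 2 * p) (h2 : 2 * p ≤ 44 * N) :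
    padicNorm p (Emat γ N).det ≤ (p : ℚ) ^
      (32 * N + min (32 * N) (34 * N - (13 * N - max (44 * N - 2 * p) (5 * N)))) := by
  classical
  have hp1 : (1 : ℚ) ≤ p := by exact_mod_cast (Fact.out : p.Prime).one_lt.le
  have hp0 : (0 : ℚ) < p := one_pos.trans_le hp1
  have h17 : 17 ≤ p := by omega
  have hH : 44 * N + 2 * p < p * p := by nlinarith
  have hd : ∀ i : Fin (32 * N), (((i : ℕ) : ℤ) - 3 * N).natAbs ≤ 42 * N := fun i => by have := i.2; omega
  have hΦ : ∀ {P D : ℤ[X]} {k : ℕ}, P.natDegree ≤ 44 * N → D.natDegree ≤ 44 * N - 1 → k ≤ 44 * N →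
      padicNorm p (Phi γ P D k) ≤ (p : ℚ) ^ 2 := fun hP hD hk =>
    (norm_Phi_le hp (v := 0) (by simpa using hγ) hP (hD.trans (Nat.sub_le _ _)) hk).trans
      (pow_le_pow_right₀ hp1 (by have := OddMid.log_le (p := p) (N := N) (by omega); omega))
  obtain ⟨lo, hlo⟩ : ∃ lo, lo = max (44 * N - 2 * p) (5 * N) := ⟨_, rfl⟩
  have hcard : (Ico (5 * N) (39 * N) \ Ico lo (13 * N)).card = 34 * N - (13 * N - lo) := by
    rw [card_sdiff_of_subset (Ico_subset_Ico (by omega) (by omega)), Nat.card_Ico, Nat.card_Ico]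
    omega
  rw [← hlo, ← hcard]
  refine detval_row p (Emat γ N) _ (fun i k => (p : ℚ) ^ 2 *
    Phi γ (Prow N (((i : ℕ) : ℤ) - 3 * N)) (Drow N (((i : ℕ) : ℤ) - 3 * N)) k) (fun i a ha => ?_) (fun i j => ?_)
    (fun u j hu => ?_)
  · rw [OddMid.norm_sq, div_le_one (by positivity)]
    have := (mem_Ico.1 (mem_sdiff.1 ha).1).2
    exact hΦ (natDegree_Prow_le (hd i)) (natDegree_Drow_le hN (hd i)) (by omega)
  · refine padicNorm_pair_le p _ _ _ (by positivity) fun k hk => ?_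
    have h3 := (coeff_col_ne_zero hk).2
    have := j.2
    exact hΦ (natDegree_Prow_le (hd i)) (natDegree_Drow_le hN (hd i)) (by omega)
  obtain ⟨P, hP⟩ : ∃ P, P = ∑ i : Fin (32 * N), C (u i) * Prow N (((i : ℕ) : ℤ) - 3 * N) := ⟨_, rfl⟩
  obtain ⟨D, hD⟩ : ∃ D, D = ∑ i : Fin (32 * N), C (u i) * Drow N (((i : ℕ) : ℤ) - 3 * N) := ⟨_, rfl⟩
  have dP : P.natDegree ≤ 44 * N := hP ▸ natDegree_sum_le_of_forall_le _ _ fun i _ =>
    (natDegree_C_mul_le _ _).trans (natDegree_Prow_le (hd i))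
  have dD : D.natDegree ≤ 44 * N - 1 := hD ▸ natDegree_sum_le_of_forall_le _ _ fun i _ =>
    (natDegree_C_mul_le _ _).trans (natDegree_Drow_le hN (hd i))
  have eΦ : ∀ k, Phi γ P D k = ∑ i : Fin (32 * N), (u i : ℚ) *
      Phi γ (Prow N (((i : ℕ) : ℤ) - 3 * N)) (Drow N (((i : ℕ) : ℤ) - 3 * N)) k := fun k => by
    rw [hP, hD, Phi_sum]
  have e1 : ∑ i, (u i : ℚ) * Emat γ N i j = pair (Phi γ P D) (col N j) := by
    rw [funext eΦ, pair_fun_sum]
    exact sum_congr rfl fun i _ => (pair_fun_mul _ _ _).symm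
  have hu' : ∀ a ∈ Ico (5 * N) (39 * N) \ Ico lo (13 * N), Cg p ((p : ℚ) ^ 2 * Phi γ P D a) 0 := fun a ha => by
    rw [cg_zero_iff, eΦ, mul_sum]
    simpa only [mul_left_comm] using hu a ha
  rw [e1]
  refine padicNorm_pair_le p _ _ _ hp0.le fun k hk => ?_
  have h3 := coeff_col_ne_zero hk
  have h4 := j.2
  have key : Cg p ((p : ℚ) ^ 2 * Phi γ P D k) 0 := by
    by_cases hk' : k ∈ Ico lo (13 * N)
    · rw [mem_Ico] at hk'
      have c0 : D.coeff k = 0 := by
        rw [hD, finsetSum_coeff]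
        exact sum_eq_zero fun i _ => by
          rw [coeff_C_mul, coeff_Drow_eq_zero (by have := i.2; omega), mul_zero]
      have c1 : (D.coeff k : ℚ) = pair (fun m => be m k) P := by
        rw [hD, hP, finsetSum_coeff, pair_sum, Int.cast_sum]
        exact sum_congr rfl fun i _ => by
          rw [coeff_C_mul, pair_C_mul, Int.cast_mul, taylor hN (hd i) (by omega)]
      have a1 := Phi_low hp hγ dP dD hH (l := k) (by omega) (by omega)
      have a2 := Phi_high hp hγ dP dD hH (l := k) (by omega) (by omega) c1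
      have a3 := hu' (k + p) (mem_sdiff.2 ⟨mem_Ico.2 (by omega), fun h => by rw [mem_Ico] at h; omega⟩)
      rw [c0, Int.cast_zero, zero_div, zero_sub] at a2
      simpa using a1.trans (by simpa using (a2.symm.trans a3).neg)
    · exact hu' k (mem_sdiff.2 ⟨mem_Ico.2 (by omega), hk'⟩)
  rw [cg_zero_iff', OddMid.norm_sq, div_le_iff₀ (by positivity)] at key
  refine key.trans (le_of_eq ?_)
  field_simp

/-- all odd primes with `p² > 44N` not dividing the denominator of `γ`. -/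
theorem det_odd (hp : p ≠ 2) {γ : ℚ} (hγ : padicNorm p γ ≤ 1) {N : ℕ} (hN : 1 ≤ N)
    (hpp : 44 * N < p * p) : padicNorm p (Emat γ N).det ≤ (p : ℚ) ^ eN N p := by
  unfold eN
  split_ifs with h1 h2
  · exact det_odd_big hp hγ hN h1
  · exact det_odd_mid hp hγ hN h2 (by omega)
  · refine (det_crude hp (v := 0) (by simpa using hγ) hN).trans
      (pow_le_pow_right₀ (by exact_mod_cast (Fact.out : p.Prime).one_lt.le) ?_)
    have := OddMid.log_le hpp
    nlinarith

end Crest.Agent.R6
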