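import Crest.Agent.R6.Defs2

/-! Auxiliary facts for the construction of the nodes: partial fractions, Chebyshev identities. -/

set_option autoImplicit false

namespace Crest.Agent.R6.RepX
open Polynomial Finset

local notation "CC" => Chebyshev.C ℂ
local notation "SC" => Chebyshev.S ℂ

/-- partial fractions -/
theorem pf {ι : Type} [Fintype ι] (v : ι → ℂ) (hv : Function.Injective v) (Ω P : ℂ[X])
    (hΩ : Ω.natDegree ≤ Fintype.card ι) (hr : ∀ i, Ω.eval (v i) = 0)
    (hP : P.natDegree < Fintype.card ι) {y : ℂ} (hy : Ω.eval y ≠ 0) :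
    P.eval y / Ω.eval y = ∑ i, P.eval (v i) / Ω.derivative.eval (v i) / (y - v i) := by
  classical
  set c := Ω.coeff (Fintype.card ι) with hc
  have hn : (Lagrange.nodal univ v).natDegree = Fintype.card ι := Lagrange.natDegree_nodal
  have h1 : Ω = C c * Lagrange.nodal univ v := by
    rw [← sub_eq_zero]
    refine eq_zero_of_degree_lt_of_eval_index_eq_zero univ hv.injOn ?_ fun i hi => ?_
    · rw [degree_lt_iff_coeff_zero]
      intro m hm
      rw [coeff_sub, coeff_C_mul]
      rcases hm.eq_or_lt with h | h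
      · have : (Lagrange.nodal univ v).coeff m = 1 := by
          rw [← h, card_univ, ← hn]; exact Lagrange.nodal_monic
        rw [this, ← h, card_univ, mul_one, sub_self]
      · rw [coeff_eq_zero_of_natDegree_lt (hΩ.trans_lt h), coeff_eq_zero_of_natDegree_lt (hn ▸ h)]
        simp
    · rw [eval_sub, eval_mul, hr, Lagrange.eval_nodal_at_node hi]; simp
  have hyv : ∀ i ∈ (univ : Finset ι), y ≠ v i := fun i _ h => hy (h ▸ hr i)
  have h2 := Lagrange.eval_interpolate_not_at_node (s := univ) (v := v) (fun i => P.eval (v i)) hyv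
  rw [← Lagrange.eq_interpolate hv.injOn (degree_le_natDegree.trans_lt (by exact_mod_cast hP))] at h2
  have h3 : Ω.eval y = c * (Lagrange.nodal univ v).eval y := by
    conv_lhs => rw [h1, eval_mul, eval_C]
  have h4 : ∀ i, Ω.derivative.eval (v i) = c * (Lagrange.nodal univ v).derivative.eval (v i) := fun i => by
    conv_lhs => rw [h1, derivative_C_mul, eval_mul, eval_C]
  rw [h3] at hy
  rw [h2, h3, mul_div_mul_comm_of_ne, sum_div]
  · refine sum_congr rfl fun i hi => ?_
    rw [h4, Lagrange.nodalWeight_eq_eval_derivative_nodal hi]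
    ring
  · exact right_ne_zero_of_mul hy
where
  mul_div_mul_comm_of_ne {a b c : ℂ} (ha : a ≠ 0) : a * b / (c * a) = b / c := by
    rw [mul_comm c, mul_div_mul_left _ _ ha]

theorem degS (n : ℕ) : (SC n).natDegree ≤ n := by
  induction n using Nat.twoStepInduction with
  | zero => simp
  | one => simp
  | more n h1 h2 =>
    push_cast at h2 ⊢
    rw [Chebyshev.S_add_two]
    refine (natDegree_sub_le _ _).trans (max_le (natDegree_mul_le.trans ?_) (by omega))
    have := natDegree_X_le (R := ℂ)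
    omega

theorem degC (n : ℕ) : (CC n).natDegree ≤ n := by
  induction n using Nat.twoStepInduction with
  | zero => simp
  | one => simp
  | more n h1 h2 =>
    push_cast at h2 ⊢
    rw [Chebyshev.C_add_two]
    refine (natDegree_sub_le _ _).trans (max_le (natDegree_mul_le.trans ?_) (by omega))
    have := natDegree_X_le (R := ℂ)
    omega

theorem CS (K : ℤ) (d : ℕ) : CC d * SC (K - 1) - SC (d - 1) * CC K = 2 * SC (K - d - 1) := by
  induction d using Nat.twoStepInduction with
  | zero => simp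
  | one =>
    have h1 := Chebyshev.C_eq_S_sub_X_mul_S ℂ K
    have h2 := Chebyshev.S_sub_two ℂ K
    simp only [Nat.cast_one, Chebyshev.C_one, sub_self, Chebyshev.S_zero]
    rw [show K - 1 - 1 = K - 2 by ring]
    linear_combination -h1 - 2 * h2
  | more n h1 h2 =>
    push_cast at h2 ⊢
    have a1 := Chebyshev.C_add_two ℂ n
    have a2 := Chebyshev.S_add_one ℂ n
    have a3 := Chebyshev.S_sub_two ℂ (K - n - 1)
    rw [show (n : ℤ) + 2 - 1 = n + 1 by ring, show K - (n + 2) - 1 = K - n - 1 - 2 by ring]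
    rw [show (n : ℤ) + 1 - 1 = n by ring, show K - (n + 1) - 1 = K - n - 1 - 1 by ring] at h2
    linear_combination X * h2 - h1 + SC (K - 1) * a1 - CC K * a2 - 2 * a3

theorem derC (n : ℕ) : derivative (CC n) = (n : ℂ[X]) * SC (n - 1) := by
  induction n using Nat.twoStepInduction with
  | zero => simp
  | one => simp
  | more n h1 h2 =>
    push_cast at h2 ⊢
    have a1 := Chebyshev.C_eq_S_sub_X_mul_S ℂ (n + 1)
    have a2 := Chebyshev.S_add_one ℂ n
    rw [show (n : ℤ) + 1 - 1 = n by ring] at h2 a1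
    rw [Chebyshev.C_add_two, derivative_sub, derivative_mul, derivative_X, h1, h2,
      show (n : ℤ) + 2 - 1 = n + 1 by ring]
    linear_combination a1 - (n : ℂ[X]) * a2

theorem evalC {x : ℂ} (hx : x ≠ 0) (n : ℕ) : (CC n).eval (x + 1 / x) = x ^ n + (1 / x) ^ n := by
  induction n using Nat.twoStepInduction with
  | zero => simp; norm_num
  | one => simp
  | more n h1 h2 =>
    push_cast at h2 ⊢
    rw [Chebyshev.C_add_two, eval_sub, eval_mul, eval_X, h1, h2]
    have : x * (1 / x) = 1 := by field_simp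
    linear_combination (x ^ n + (1 / x) ^ n) * this

theorem evalS {x : ℂ} (hx : x ≠ 0) (n : ℕ) :
    (1 / x - x) * (SC (n - 1)).eval (x + 1 / x) = (1 / x) ^ n - x ^ n := by
  induction n using Nat.twoStepInduction with
  | zero => simp
  | one => simp
  | more n h1 h2 =>
    push_cast at h2 ⊢
    rw [show (n : ℤ) + 1 - 1 = n by ring] at h2
    rw [show (n : ℤ) + 2 - 1 = n + 1 by ring, Chebyshev.S_add_one, eval_sub, eval_mul, eval_X]
    have : x * (1 / x) = 1 := by field_simp
    linear_combination (x + 1 / x) * h2 - h1 + ((1 / x) ^ n - x ^ n) * this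

theorem sin_mul_le (n : ℕ) (t : ℝ) : |Real.sin (n * t)| ≤ n * |Real.sin t| := by
  induction n with
  | zero => simp
  | succ n ih =>
    push_cast
    rw [add_mul, one_mul, Real.sin_add]
    refine (abs_add_le _ _).trans ?_
    rw [abs_mul, abs_mul]
    nlinarith [Real.abs_cos_le_one t, Real.abs_cos_le_one (n * t), abs_nonneg (Real.sin t),
      abs_nonneg (Real.sin (n * t)), abs_nonneg (Real.cos t), abs_nonneg (Real.cos (n * t))]

theorem cos_lip (n : ℕ) (a b : ℝ) :
    |Real.cos (n * a) - Real.cos (n * b)| ≤ (n : ℝ) ^ 2 * |Real.cos a - Real.cos b| := by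
  rw [Real.cos_sub_cos, Real.cos_sub_cos, show (n * a + n * b) / 2 = n * ((a + b) / 2) by ring,
    show (n * a - n * b) / 2 = n * ((a - b) / 2) by ring]
  simp only [abs_mul, abs_neg, abs_two]
  have := mul_le_mul (sin_mul_le n ((a + b) / 2)) (sin_mul_le n ((a - b) / 2)) (abs_nonneg _)
    (by positivity)
  nlinarith

theorem exists_K (M : ℕ) : ∃ K : ℕ, 2 * M ≤ K ∧ K ≤ 2 * M + 1 ∧
    3 / 10 ≤ |Real.cos (K * Real.arccos (4 / 5))| := by
  set φ := Real.arccos (4 / 5) with hφ
  have hs : Real.sin φ = 3 / 5 := by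
    rw [hφ, Real.sin_arccos, show (1 : ℝ) - (4 / 5) ^ 2 = (3 / 5) ^ 2 by norm_num,
      Real.sqrt_sq (by norm_num)]
  by_contra h
  push Not at h
  have h1 := h (2 * M) le_rfl (by omega)
  have h2 := h (2 * M + 1) (by omega) le_rfl
  have h3 := Real.sin_sub (((2 * M + 1 : ℕ) : ℝ) * φ) (((2 * M : ℕ) : ℝ) * φ)
  rw [show ((2 * M + 1 : ℕ) : ℝ) * φ - ((2 * M : ℕ) : ℝ) * φ = φ by push_cast; ring, hs] at h3
  have h4 := abs_sub (Real.sin (((2 * M + 1 : ℕ) : ℝ) * φ) * Real.cos (((2 * M : ℕ) : ℝ) * φ))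
    (Real.cos (((2 * M + 1 : ℕ) : ℝ) * φ) * Real.sin (((2 * M : ℕ) : ℝ) * φ))
  rw [← h3, abs_mul, abs_mul, abs_of_pos (by norm_num)] at h4
  nlinarith [Real.abs_sin_le_one (((2 * M + 1 : ℕ) : ℝ) * φ), Real.abs_sin_le_one (((2 * M : ℕ) : ℝ) * φ),
    abs_nonneg (Real.cos (((2 * M : ℕ) : ℝ) * φ)), abs_nonneg (Real.cos (((2 * M + 1 : ℕ) : ℝ) * φ))]

theorem exists_theta (K : ℕ) : ∃ θ : Fin K → ℝ, (Function.Injective fun k => Real.cos (θ k)) ∧
    ∀ k, Real.cos (K * θ k) = 0 := by
  refine ⟨fun k => (2 * k + 1) * Real.pi / (2 * K), fun k l h => ?_, fun k => ?_⟩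
  · have hK : (0 : ℝ) < K := by exact_mod_cast k.pos
    have hm : ∀ k : Fin K, (2 * k + 1) * Real.pi / (2 * K) ∈ Set.Icc 0 Real.pi := fun k => by
      refine ⟨by positivity, ?_⟩
      rw [div_le_iff₀ (by positivity)]
      have : ((k : ℕ) : ℝ) + 1 ≤ K := by exact_mod_cast k.2
      nlinarith [Real.pi_pos]
    have h1 := Real.injOn_cos (hm k) (hm l) h
    field_simp at h1
    exact Fin.ext (by exact_mod_cast (by linarith : ((k : ℕ) : ℝ) = (l : ℕ)))
  · have hK : (K : ℝ) ≠ 0 := by exact_mod_cast k.pos.ne'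
    exact Real.cos_eq_zero_iff.2 ⟨k, by push_cast; field_simp⟩

theorem exists_Y {J : ℕ} (hJ : J ≠ 0) : ∃ Y : Fin J → ℂ, Function.Injective Y ∧ ∀ j, Y j ^ J = -1 := by
  have h := Complex.isPrimitiveRoot_exp (2 * J) (by omega)
  set ζ := Complex.exp (2 * Real.pi * Complex.I / (2 * J : ℕ))
  have h2 : ζ ^ J = -1 :=
    (h.pow (by omega) (by ring : 2 * J = J * 2)).eq_neg_one_of_two_right
  refine ⟨fun j => ζ ^ (2 * j + 1 : ℕ), fun j k hjk => ?_, fun j => ?_⟩
  · have := h.pow_inj (by have := j.2; omega) (by have := k.2; omega) hjk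
    exact Fin.ext (by omega)
  · rw [← pow_mul, mul_comm, pow_mul, h2]
    exact Odd.neg_one_pow ⟨j, rfl⟩

theorem Y_facts {M : ℕ} (hM : 1 ≤ M) {Y : ℂ} (h : Y ^ (2 * M) = -1) : ‖Y‖ = 1 ∧ 1 ≤ M * |Y.im| := by
  have h1 : ‖Y‖ = 1 := by
    have := congrArg norm h
    rw [norm_pow, norm_neg, norm_one] at this
    exact (pow_eq_one_iff_of_nonneg (norm_nonneg _) (by omega)).1 this
  refine ⟨h1, ?_⟩
  have h2 : ‖Y ^ 2 - 1‖ = 2 * |Y.im| := by
    have e : Y ^ 2 - 1 = Y * (((2 * Y.im : ℝ) : ℂ) * Complex.I) := by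
      rw [← Complex.sub_conj, mul_sub, Complex.mul_conj, Complex.normSq_eq_norm_sq, h1]
      push_cast; ring
    rw [e, norm_mul, norm_mul, h1, Complex.norm_real, Complex.norm_I, Real.norm_eq_abs, abs_mul, abs_two]
    ring
  have h3 := geom_sum_mul (Y ^ 2) M
  rw [← pow_mul, h] at h3
  have h4 := congrArg norm h3
  rw [norm_mul, h2, show (-1 - 1 : ℂ) = -2 by ring, norm_neg, Complex.norm_two] at h4
  have h5 : ‖∑ i ∈ range M, (Y ^ 2) ^ i‖ ≤ M := by
    refine (norm_sum_le _ _).trans (le_of_eq ?_)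
    simp [norm_pow, h1]
  nlinarith [abs_nonneg Y.im]

theorem ratio_le {K : ℕ} (hK : 1 ≤ K) {η : ℂ} (hη : η.im ≠ 0) :
    ‖(SC (K - 1)).eval η / (CC K).eval η‖ ≤ 1 / |η.im| := by
  by_cases h0 : (CC K).eval η = 0
  · rw [h0, div_zero, norm_zero]; positivity
  obtain ⟨θ, h1, h2⟩ := exists_theta K
  have hK' : (0 : ℝ) < K := by exact_mod_cast hK
  rw [pf (fun k => ((2 * Real.cos (θ k) : ℝ) : ℂ)) (fun k l h => h1 (by
      have := Complex.ofReal_injective h
      simpa using this)) (CC K) (SC (K - 1)) (by simpa using degC K)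
    (fun k => by
      push_cast
      rw [Chebyshev.C_two_mul_complex_cos]
      exact_mod_cast (by rw [h2 k, mul_zero] : 2 * Real.cos (K * θ k) = 0))
    (by
      have := degS (K - 1)
      rw [Nat.cast_sub hK] at this
      rw [Fintype.card_fin]
      push_cast at this
      omega) h0]
  refine (norm_sum_le _ _).trans ((sum_le_card_nsmul _ _ (1 / K / |η.im|) fun k _ => ?_).trans ?_)
  · rw [norm_div]
    gcongr
    · rw [derC, eval_mul, eval_natCast, norm_div, norm_mul, Complex.norm_natCast]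
      refine div_le_of_le_mul₀ (by positivity) (by positivity) (le_of_eq ?_)
      field_simp
    · simpa using Complex.abs_im_le_norm (η - ((2 * Real.cos (θ k) : ℝ) : ℂ))
  · rw [card_univ, Fintype.card_fin, nsmul_eq_mul]
    exact le_of_eq (by field_simp)

end Crest.Agent.R6.RepX
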