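import Crest.Agent.R6.Defs2
import Crest.Agent.R6.Taylor

/-! Wallis integrals in the variable `x = tan(θ/2)` (`tt x = sin θ`, `2dx/(1+x²) = dθ`) and the two
base sums.
`∑ V l/(2l+1) = ∫_0^1 artanh(t) 2/(1+x²) dx = ∫_0^1 2 log((1+x)/(1-x))/(1+x²) dx
 = -2∫_0^1 log u/(1+u²) du = 2G` (`u = (1-x)/(1+x)`);
`∑ V l/(2l+2) = ∫_0^1 -log(1-t²)/(2t) · 2/(1+x²) dx = ∫_0^1 (log(1+x²) - log(1-x²))/x dx
 = ∑ 1/(2k+1)² = (3/4) ζ(2)`. -/

set_option autoImplicit false

namespace Crest.Agent.R6
open MeasureTheory Filter Topology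

namespace SerX
open Set

theorem I_eq (k : ℕ) : ∫ x in Ioo (0 : ℝ) 1, tt x ^ k * (2 / (1 + x ^ 2)) =
    ∫ θ in (0 : ℝ)..Real.pi / 2, Real.sin θ ^ k := by
  have h := intervalIntegral.integral_comp_mul_deriv (a := 0) (b := 1) (f := fun x => 2 * Real.arctan x)
    (f' := fun x => 2 * (1 / (1 + x ^ 2))) (g := fun θ => Real.sin θ ^ k)
    (fun x _ => (Real.hasDerivAt_arctan x).const_mul 2)
    (Continuous.continuousOn (continuous_const.mul (continuous_const.div (by fun_prop) fun x => by positivity)))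
    (by fun_prop)
  simp only [Real.arctan_zero, Real.arctan_one, mul_zero] at h
  rw [show 2 * (Real.pi / 4) = Real.pi / 2 by ring] at h
  rw [← h, intervalIntegral.integral_of_le zero_le_one, integral_Ioc_eq_integral_Ioo]
  refine setIntegral_congr_fun measurableSet_Ioo fun x _ => ?_
  have h1 : Real.sin (2 * Real.arctan x) = tt x := by
    have h2 : Real.sqrt (1 + x ^ 2) * Real.sqrt (1 + x ^ 2) = 1 + x ^ 2 := Real.mul_self_sqrt (by positivity)
    rw [Real.sin_two_mul, Real.sin_arctan, Real.cos_arctan, tt, mul_assoc, div_mul_div_comm, h2]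
    ring
  simp only [Function.comp, h1, mul_one_div]

theorem J_succ (n : ℕ) : ∫ θ in (0 : ℝ)..Real.pi / 2, Real.sin θ ^ (n + 2) =
    (n + 1) / (n + 2) * ∫ θ in (0 : ℝ)..Real.pi / 2, Real.sin θ ^ n := by
  rw [integral_sin_pow]
  simp

theorem cont_I (k : ℕ) : Continuous fun x : ℝ => tt x ^ k * (2 / (1 + x ^ 2)) := by
  unfold tt
  exact ((Continuous.div (by fun_prop) (by fun_prop) fun x => by positivity).pow k).mul
    (continuous_const.div (by fun_prop) fun x => by positivity)

theorem intOn {f : ℝ → ℝ} (hf : Continuous f) : IntegrableOn f (Ioo 0 1) :=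
  (hf.continuousOn.integrableOn_Icc (a := 0) (b := 1)).mono_set Ioo_subset_Icc_self

theorem swap {F : ℕ → ℝ → ℝ} {g : ℝ → ℝ} {a : ℕ → ℝ} (ε : ℕ → ℝ) (hε : ∀ i, |ε i| = 1)
    (hi : ∀ i, IntegrableOn (F i) (Ioo 0 1))
    (h0 : ∀ i, ∀ x ∈ Ioo (0 : ℝ) 1, 0 ≤ F i x) (ha : ∀ i, ∫ x in Ioo (0 : ℝ) 1, F i x = a i) (hs : Summable a)
    (hg : ∀ x ∈ Ioo (0 : ℝ) 1, HasSum (fun i => ε i * F i x) (g x)) :
    HasSum (fun i => ε i * a i) (∫ x in Ioo (0 : ℝ) 1, g x) := by
  have h1 := hasSum_integral_of_summable_integral_norm (μ := volume.restrict (Ioo (0 : ℝ) 1))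
    (F := fun i x => ε i * F i x) (fun i => (hi i).const_mul _) (hs.congr fun i => by
      rw [← ha i]
      refine setIntegral_congr_fun measurableSet_Ioo fun x hx => ?_
      simp only [Real.norm_eq_abs, abs_mul, hε, one_mul, abs_of_nonneg (h0 i x hx)])
  simp only [integral_const_mul, ha] at h1
  rwa [setIntegral_congr_fun measurableSet_Ioo fun x hx => (hg x hx).tsum_eq] at h1

theorem swap1 {F : ℕ → ℝ → ℝ} {g : ℝ → ℝ} {a : ℕ → ℝ} (hi : ∀ i, IntegrableOn (F i) (Ioo 0 1))
    (h0 : ∀ i, ∀ x ∈ Ioo (0 : ℝ) 1, 0 ≤ F i x) (ha : ∀ i, ∫ x in Ioo (0 : ℝ) 1, F i x = a i) (hs : Summable a)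
    (hg : ∀ x ∈ Ioo (0 : ℝ) 1, HasSum (fun i => F i x) (g x)) :
    HasSum a (∫ x in Ioo (0 : ℝ) 1, g x) := by
  simpa using swap (fun _ => 1) (by simp) hi h0 ha hs (by simpa using hg)

theorem tt_mem {x : ℝ} (hx : x ∈ Ioo (0 : ℝ) 1) : 0 < tt x ∧ tt x < 1 := by
  have h1 := hx.1
  refine ⟨by unfold tt; positivity, ?_⟩
  rw [tt, div_lt_one (by positivity)]
  nlinarith [sq_pos_of_pos (sub_pos.2 hx.2)]

theorem sum_sq : Summable fun i : ℕ => (1 : ℝ) / ((i + 1 : ℝ) ^ 2) := by
  have := (summable_nat_add_iff 1).2 (Real.summable_one_div_nat_pow.2 one_lt_two)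
  simpa using this

theorem sum_odd : HasSum (fun k : ℕ => (1 : ℝ) / ((2 * k + 1 : ℝ) ^ 2)) (3 / 4 * zeta2) := by
  have h1 : Summable fun k : ℕ => (1 : ℝ) / ((2 * k + 1 : ℝ) ^ 2) :=
    Summable.of_nonneg_of_le (fun k => by positivity) (fun k => by
      have : (0 : ℝ) ≤ k := k.cast_nonneg
      gcongr
      linarith) sum_sq
  have h2 := sum_sq.hasSum.mul_left (1 / 4)
  have h3 := HasSum.even_add_odd (f := fun i : ℕ => (1 : ℝ) / ((i + 1 : ℝ) ^ 2))
    (h1.hasSum.congr_fun (by intro k; push_cast; rfl)) (h2.congr_fun (by intro k; push_cast; field_simp; ring))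
  have h4 := h3.unique sum_sq.hasSum
  have h5 : ∑' k : ℕ, (1 : ℝ) / ((2 * k + 1 : ℝ) ^ 2) = 3 / 4 * zeta2 := by
    unfold zeta2
    linarith
  exact h5 ▸ h1.hasSum

theorem int_log (n : ℕ) : IntegrableOn (fun u : ℝ => u ^ n * -Real.log u) (Ioo 0 1) ∧
    ∫ u in Ioo (0 : ℝ) 1, u ^ n * -Real.log u = 1 / ((n : ℝ) + 1) ^ 2 := by
  have hi : IntervalIntegrable (fun u : ℝ => u ^ n * -Real.log u) volume 0 1 :=
    intervalIntegral.intervalIntegrable_log'.neg.continuousOn_mul (by fun_prop)
  refine ⟨(intervalIntegrable_iff_integrableOn_Ioo_of_le zero_le_one).1 hi, ?_⟩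
  have hn : (n : ℝ) + 1 ≠ 0 := by positivity
  rw [← integral_Ioc_eq_integral_Ioo, ← intervalIntegral.integral_of_le zero_le_one,
    intervalIntegral.integral_eq_sub_of_hasDerivAt_of_le zero_le_one
      (f := fun u => u ^ (n + 1) / (n + 1) ^ 2 - u ^ n * (u * Real.log u) / (n + 1))
      (Continuous.continuousOn (by have := Real.continuous_mul_log; fun_prop)) (fun x hx => ?_) hi]
  · simp
  · have h1 := ((hasDerivAt_pow (n + 1) x).div_const (((n : ℝ) + 1) ^ 2)).sub
      (((hasDerivAt_pow (n + 1) x).mul (Real.hasDerivAt_log hx.1.ne')).div_const ((n : ℝ) + 1))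
    have hx0 := hx.1.ne'
    convert! h1 using 1
    · funext u
      simp only [Pi.sub_apply, Pi.mul_apply]
      ring
    · push_cast
      field_simp
      ring

theorem catalan : ∫ u in Ioo (0 : ℝ) 1, -Real.log u / (1 + u ^ 2) = Gc := by
  have h := swap (F := fun j u => u ^ (2 * j) * -Real.log u) (g := fun u => -Real.log u / (1 + u ^ 2))
    (a := fun j => 1 / ((2 * j + 1 : ℝ) ^ 2)) (fun j => (-1) ^ j) (by simp) (fun j => (int_log _).1)
    (fun j x hx => mul_nonneg (pow_nonneg hx.1.le _) (neg_nonneg.2 (Real.log_nonpos hx.1.le hx.2.le)))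
    (fun j => by rw [(int_log _).2]; push_cast; rfl) sum_odd.summable fun x hx => by
      have h1 : |(-x ^ 2)| < 1 := by
        rw [abs_neg, abs_of_nonneg (sq_nonneg x)]
        nlinarith [hx.1, hx.2]
      have h2 := (hasSum_geometric_of_abs_lt_one h1).mul_right (-Real.log x)
      convert! h2 using 1
      · funext j
        rw [neg_pow (x ^ 2), ← pow_mul, mul_assoc]
      · rw [sub_neg_eq_add, div_eq_inv_mul]
  rw [← h.tsum_eq, Gc]
  simp only [mul_one_div]

theorem subst : ∫ x in Ioo (0 : ℝ) 1, (Real.log (1 + x) - Real.log (1 - x)) / (1 + x ^ 2) = Gc := by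
  have him : (fun x : ℝ => (1 - x) / (1 + x)) '' Ioo 0 1 = Ioo 0 1 := by
    have h1 : ∀ x ∈ Ioo (0 : ℝ) 1, (1 - x) / (1 + x) ∈ Ioo (0 : ℝ) 1 := fun x hx =>
      ⟨div_pos (sub_pos.2 hx.2) (by linarith [hx.1]), by rw [div_lt_one (by linarith [hx.1])]; linarith [hx.1]⟩
    refine Subset.antisymm (image_subset_iff.2 h1) fun x hx => ⟨_, h1 x hx, ?_⟩
    have : 1 + x ≠ 0 := by linarith [hx.1]
    simp only
    field_simp
    ring
  have h := integral_image_eq_integral_abs_deriv_smul (s := Ioo (0 : ℝ) 1) (f := fun x : ℝ => (1 - x) / (1 + x))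
    (f' := fun x => -2 / (1 + x) ^ 2) measurableSet_Ioo (fun x hx => ?_) (fun x hx y hy hxy => ?_)
    (fun u => -Real.log u / (1 + u ^ 2))
  · rw [him, catalan] at h
    rw [h]
    refine setIntegral_congr_fun measurableSet_Ioo fun x hx => ?_
    have h1 : 0 < 1 + x := by linarith [hx.1]
    have h2 : 0 < 1 - x := sub_pos.2 hx.2
    simp only [smul_eq_mul]
    rw [Real.log_div h2.ne' h1.ne', neg_div, abs_neg, abs_of_pos (by positivity)]
    field_simp
    ring
  · have h1 : 1 + x ≠ 0 := by linarith [hx.1]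
    have h2 := (((hasDerivAt_id x).const_sub 1).div ((hasDerivAt_id x).const_add 1) h1).hasDerivWithinAt
      (s := Ioo (0 : ℝ) 1)
    convert! h2 using 1
    simp only [id]
    ring
  · have h1 : 1 + x ≠ 0 := by linarith [hx.1]
    have h2 : 1 + y ≠ 0 := by linarith [hy.1]
    simp only at hxy
    rw [div_eq_div_iff h1 h2] at hxy
    linarith

end SerX
open SerX

theorem V_integral (l : ℕ) :
    ∫ x in Set.Ioo (0 : ℝ) 1, tt x ^ (2 * l + 1) * (2 / (1 + x ^ 2)) = (V l : ℝ) := by
  rw [I_eq]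
  induction l with
  | zero => simp [V, w]
  | succ l ih =>
    rw [show 2 * (l + 1) + 1 = 2 * l + 1 + 2 by ring, J_succ, ih]
    have h : (2 * l + 3 : ℝ) * V (l + 1) = (2 * l + 2) * V l := by exact_mod_cast V_succ l
    push_cast
    field_simp
    linarith

/-- crude decay of all Wallis integrals. -/
theorem wallis_le (k : ℕ) :
    ∫ x in Set.Ioo (0 : ℝ) 1, tt x ^ k * (2 / (1 + x ^ 2)) ≤ 2 / Real.sqrt (k + 1) := by
  rw [I_eq]
  induction k using Nat.twoStepInduction with
  | zero =>
    have := Real.pi_le_four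
    simp only [pow_zero, intervalIntegral.integral_const, sub_zero, smul_eq_mul, mul_one, Nat.cast_zero, zero_add,
      Real.sqrt_one, div_one]
    linarith
  | one =>
    have h1 : Real.sqrt (1 + 1) ≤ 2 := Real.sqrt_le_iff.2 (by norm_num)
    simp only [pow_one, integral_sin, Real.cos_zero, Real.cos_pi_div_two, sub_zero, Nat.cast_one]
    exact (one_le_div (by positivity)).2 h1
  | more n ih _ =>
    have hn : (0 : ℝ) ≤ n := n.cast_nonneg
    rw [J_succ]
    refine (mul_le_mul_of_nonneg_left ih (by positivity)).trans ?_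
    push_cast
    rw [div_mul_div_comm, div_le_div_iff₀ (by positivity) (by positivity)]
    have h1 : (n + 1) * Real.sqrt (n + 2 + 1) ≤ (n + 2) * Real.sqrt (n + 1) := by
      refine le_of_pow_le_pow_left₀ two_ne_zero (by positivity) ?_
      rw [mul_pow, mul_pow, Real.sq_sqrt (by positivity), Real.sq_sqrt (by positivity)]
      nlinarith
    linarith

theorem V_le (l : ℕ) : (V l : ℝ) ≤ 2 / Real.sqrt (2 * l + 2) := by
  rw [← V_integral]
  refine (wallis_le _).trans (le_of_eq ?_)
  push_cast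
  ring_nf

theorem SerX.sumV : Summable fun l : ℕ => (V l : ℝ) / (2 * l + 1) := by
  have h1 : Summable fun l : ℕ => (2 : ℝ) * (1 / ((l + 1 : ℕ) : ℝ) ^ (3 / 2 : ℝ)) :=
    ((summable_nat_add_iff 1).2 (Real.summable_one_div_nat_rpow.2 (by norm_num))).mul_left 2
  refine Summable.of_nonneg_of_le (fun l => ?_) (fun l => ?_) h1
  · have : (0 : ℝ) ≤ V l := by
      have := w_pos l
      unfold V
      positivity
    positivity
  · have hl : (0 : ℝ) ≤ l := l.cast_nonneg
    push_cast
    rw [show (3 / 2 : ℝ) = 1 / 2 + 1 by norm_num, Real.rpow_add (by positivity), Real.rpow_one, ← Real.sqrt_eq_rpow,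
      mul_one_div, ← div_div]
    refine div_le_div₀ (by positivity) ((V_le l).trans ?_) (by positivity) (by linarith)
    exact div_le_div_of_nonneg_left zero_le_two (by positivity) (Real.sqrt_le_sqrt (by linarith))

theorem hasSum_base1 : HasSum (fun l : ℕ => (V l : ℝ) / (2 * l + 1)) (2 * Gc) := by
  have h := swap1 (F := fun l x => tt x ^ (2 * l + 1) * (2 / (1 + x ^ 2)) / (2 * l + 1))
    (g := fun x => 2 * ((Real.log (1 + x) - Real.log (1 - x)) / (1 + x ^ 2)))
    (fun l => intOn ((cont_I _).div_const _)) (fun l x hx => by have := (tt_mem hx).1; positivity)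
    (fun l => by rw [integral_div, V_integral]) SerX.sumV fun x hx => by
      have h1 := tt_mem hx
      have h2 := (Real.hasSum_log_sub_log_of_abs_lt_one (x := tt x) (by rw [abs_of_pos h1.1]; exact h1.2)).div_const
        (1 + x ^ 2)
      have h3 : 0 < 1 + x := by linarith [hx.1]
      have h4 : 0 < 1 - x := sub_pos.2 hx.2
      convert! h2 using 1
      · funext l
        ring
      · rw [show 1 + tt x = (1 + x) ^ 2 / (1 + x ^ 2) by unfold tt; field_simp; ring,
          show 1 - tt x = (1 - x) ^ 2 / (1 + x ^ 2) by unfold tt; field_simp; ring,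
          Real.log_div (by positivity) (by positivity), Real.log_div (by positivity) (by positivity),
          Real.log_pow, Real.log_pow]
        push_cast
        ring
  rwa [integral_const_mul, subst] at h

theorem hasSum_base0 : HasSum (fun l : ℕ => (V l : ℝ) / (2 * l + 2)) (3 / 4 * zeta2) := by
  have h := swap1 (F := fun l x => tt x ^ (2 * l + 1) * (2 / (1 + x ^ 2)) / (2 * l + 2))
    (g := fun x => (Real.log (1 + x ^ 2) - Real.log (1 - x ^ 2)) / x)
    (fun l => intOn ((cont_I _).div_const _)) (fun l x hx => by have := (tt_mem hx).1; positivity)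
    (fun l => by rw [integral_div, V_integral])
    (Summable.of_nonneg_of_le (fun l => by have := w_pos l; unfold V; positivity) (fun l => by
      have := w_pos l
      have h1 : (0 : ℝ) ≤ V l := by unfold V; positivity
      gcongr
      norm_num) SerX.sumV) fun x hx => by
      have h1 := tt_mem hx
      have h2 := (Real.hasSum_pow_div_log_of_abs_lt_one (x := tt x ^ 2) (by
        rw [abs_of_pos (pow_pos h1.1 2)]; nlinarith [h1.1, h1.2])).div_const (2 * x)
      have h3 := hx.1
      have h4 : 0 < 1 - x ^ 2 := by nlinarith [hx.1, hx.2]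
      convert! h2 using 1
      · funext l
        have e : tt x = 2 * x / (1 + x ^ 2) := rfl
        rw [← pow_mul, show 2 * (l + 1) = 2 * l + 1 + 1 by ring, pow_succ _ (2 * l + 1)]
        generalize tt x ^ (2 * l + 1) = T
        rw [e]
        field_simp
      · rw [show 1 - tt x ^ 2 = ((1 - x ^ 2) / (1 + x ^ 2)) ^ 2 by unfold tt; field_simp; ring, Real.log_pow,
          Real.log_div h4.ne' (by positivity)]
        push_cast
        field_simp
        ring
  have h' := swap1 (F := fun k x => x ^ (4 * k + 1) * (2 / (2 * k + 1)))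
    (g := fun x => (Real.log (1 + x ^ 2) - Real.log (1 - x ^ 2)) / x) (a := fun k => 1 / ((2 * k + 1 : ℝ) ^ 2))
    (fun l => intOn (by fun_prop)) (fun l x hx => by have := hx.1; positivity)
    (fun k => by
      rw [integral_mul_const, ← integral_Ioc_eq_integral_Ioo, ← intervalIntegral.integral_of_le zero_le_one,
        integral_pow]
      push_cast
      field_simp
      ring) sum_odd.summable fun x hx => by
      have h2 := (Real.hasSum_log_sub_log_of_abs_lt_one (x := x ^ 2) (by
        rw [abs_of_nonneg (sq_nonneg x)]; nlinarith [hx.1, hx.2])).div_const x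
      have h3 := hx.1.ne'
      convert! h2 using 1
      funext k
      field_simp
      ring
  rwa [h'.unique sum_odd] at h

end Crest.Agent.R6
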