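import Crest.Agent.R6.SerBase

/-! Closed forms of the series.  Diagonal: `SS (m+1) (k+1) = SS m k - Wp m/(k+1)`.
General telescoping recurrence (from `(n+2) Wp (n+2) = (n+1) Wp n`, `Wp n → 0`):
`(k-m) SS m k + (m+1-k) SS (m+2) k = Wp m + Wp (m+1)`;
base `SS 1 0 = 2G`, `SS 0 0 = (3/4)ζ(2)`. -/

set_option autoImplicit false

namespace Crest.Agent.R6
open Finset Filter Topology

namespace Ser

theorem Wp_even (l : ℕ) : Wp (2 * l) = 0 := by
  unfold Wp
  rw [if_neg (by omega)]

theorem Wp_odd (l : ℕ) : Wp (2 * l + 1) = V l := by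
  unfold Wp
  rw [if_pos (by omega), show (2 * l + 1) / 2 = l by omega]

theorem V_pos (l : ℕ) : 0 < V l := by
  unfold V
  have := w_pos l
  positivity

theorem V_mul_w (l : ℕ) : (2 * l + 1 : ℚ) * w l * V l = 1 := by
  unfold V
  have := w_pos l
  field_simp

theorem Wp_nonneg (n : ℕ) : (0 : ℝ) ≤ Wp n := by
  have : 0 ≤ Wp n := by
    unfold Wp
    split_ifs
    · exact (V_pos _).le
    · exact le_rfl
  exact_mod_cast this

theorem Wp_le (n : ℕ) : (Wp n : ℝ) ≤ 2 / Real.sqrt (n + 1) := by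
  obtain ⟨l, rfl | rfl⟩ := Nat.even_or_odd' n
  · rw [Wp_even]
    push_cast
    positivity
  · rw [Wp_odd]
    have := V_le l
    push_cast
    rwa [show (2 * (l : ℝ) + 1 + 1) = 2 * l + 2 by ring]

theorem Wp_rec (n : ℕ) : (n + 2 : ℚ) * Wp (n + 2) = (n + 1) * Wp n := by
  obtain ⟨l, rfl | rfl⟩ := Nat.even_or_odd' n
  · rw [show 2 * l + 2 = 2 * (l + 1) by ring, Wp_even, Wp_even]
    simp
  · rw [show 2 * l + 1 + 2 = 2 * (l + 1) + 1 by ring, Wp_odd, Wp_odd]
    have := V_succ l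
    push_cast
    linarith

theorem Wp_tendsto (m : ℕ) : Tendsto (fun n : ℕ => (Wp (m + n) : ℝ)) atTop (𝓝 0) := by
  have h1 : Tendsto (fun n : ℕ => 2 / Real.sqrt ((n : ℝ) + 1)) atTop (𝓝 0) := by
    refine Tendsto.div_atTop tendsto_const_nhds ?_
    exact Real.tendsto_sqrt_atTop.comp
      (tendsto_atTop_add_const_right _ _ tendsto_natCast_atTop_atTop)
  have h2 : Tendsto (fun n : ℕ => (Wp n : ℝ)) atTop (𝓝 0) :=
    squeeze_zero Wp_nonneg Wp_le h1
  have h3 : Tendsto (fun n : ℕ => m + n) atTop atTop := by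
    simpa only [add_comm] using tendsto_add_atTop_nat m
  exact h2.comp h3

theorem summable_aux : Summable fun i : ℕ => (1 : ℝ) / ((i : ℝ) + 1) ^ (3 / 2 : ℝ) := by
  have h := (summable_nat_add_iff 1).2
    (Real.summable_one_div_nat_rpow.2 (show (1 : ℝ) < 3 / 2 by norm_num))
  simpa only [Nat.cast_add, Nat.cast_one] using h

end Ser
open Ser

theorem summable_SS (m k : ℕ) : Summable fun i : ℕ => (Wp (m + i) : ℝ) / (k + i + 1) := by
  refine Summable.of_nonneg_of_le (fun i => div_nonneg (Wp_nonneg _) (by positivity)) (fun i => ?_)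
    (summable_aux.mul_left 2)
  have hi : (0 : ℝ) < (i : ℝ) + 1 := by positivity
  have h1 : (Wp (m + i) : ℝ) ≤ 2 / Real.sqrt ((i : ℝ) + 1) := by
    refine (Wp_le _).trans (div_le_div_of_nonneg_left (by norm_num) (Real.sqrt_pos.2 hi) ?_)
    refine Real.sqrt_le_sqrt ?_
    push_cast
    have : (0 : ℝ) ≤ m := Nat.cast_nonneg m
    linarith
  have h2 : ((i : ℝ) + 1) ^ (3 / 2 : ℝ) = Real.sqrt ((i : ℝ) + 1) * ((i : ℝ) + 1) := by
    rw [Real.sqrt_eq_rpow, show (3 / 2 : ℝ) = 1 / 2 + 1 by norm_num, Real.rpow_add hi, Real.rpow_one]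
  have hk : (i : ℝ) + 1 ≤ k + i + 1 := by
    have : (0 : ℝ) ≤ k := Nat.cast_nonneg k
    linarith
  calc (Wp (m + i) : ℝ) / (k + i + 1) ≤ (2 / Real.sqrt ((i : ℝ) + 1)) / ((i : ℝ) + 1) :=
        div_le_div₀ (by positivity) h1 hi hk
    _ = 2 * (1 / ((i : ℝ) + 1) ^ (3 / 2 : ℝ)) := by
        rw [h2, div_div]
        ring

theorem summable_ZZ (m k : ℕ) : Summable fun i : ℕ => (1 : ℝ) / ((m + i + 1) * (k + i + 1)) := by
  have h := (summable_nat_add_iff 1).2
    (Real.summable_one_div_nat_pow.2 (show 1 < 2 by norm_num))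
  refine Summable.of_nonneg_of_le (fun i => by positivity) (fun i => ?_) h
  push_cast
  have hm : (0 : ℝ) ≤ m := Nat.cast_nonneg m
  have hk : (0 : ℝ) ≤ k := Nat.cast_nonneg k
  have hi : (0 : ℝ) ≤ i := Nat.cast_nonneg i
  refine one_div_le_one_div_of_le (by positivity) ?_
  rw [sq]
  exact mul_le_mul (by linarith) (by linarith) (by positivity) (by positivity)

namespace Ser

theorem SS_diag (m k : ℕ) : SS (m + 1) (k + 1) = SS m k - (Wp m : ℝ) / (k + 1) := by
  unfold SS
  rw [(summable_SS m k).tsum_eq_zero_add]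
  simp only [Nat.cast_zero, add_zero, Nat.cast_add, Nat.cast_one]
  rw [add_sub_cancel_left]
  refine tsum_congr fun i => ?_
  rw [show m + 1 + i = m + (i + 1) by ring]
  congr 1
  ring

theorem SS_rec (m k : ℕ) :
    ((k : ℝ) - m) * SS m k + ((m : ℝ) + 1 - k) * SS (m + 2) k = Wp m + Wp (m + 1) := by
  have h1 := ((summable_SS m k).hasSum.mul_left ((k : ℝ) - m)).add
    ((summable_SS (m + 2) k).hasSum.mul_left ((m : ℝ) + 1 - k))
  have h2 : (fun i : ℕ => ((k : ℝ) - m) * ((Wp (m + i) : ℝ) / (k + i + 1)) +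
      ((m : ℝ) + 1 - k) * ((Wp (m + 2 + i) : ℝ) / (k + i + 1))) =
      fun i : ℕ => (Wp (m + i) : ℝ) - Wp (m + i + 2) := by
    funext i
    have h3 : ((m + i : ℕ) + 2 : ℝ) * Wp (m + i + 2) = ((m + i : ℕ) + 1 : ℝ) * Wp (m + i) := by
      exact_mod_cast Wp_rec (m + i)
    rw [show m + 2 + i = m + i + 2 by ring]
    push_cast at h3
    have hd : (k : ℝ) + i + 1 ≠ 0 := by positivity
    field_simp
    linarith
  rw [h2] at h1
  have h4 : ∀ n : ℕ, ∑ i ∈ range n, ((Wp (m + i) : ℝ) - Wp (m + i + 2)) =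
      (Wp m + Wp (m + 1) : ℝ) - Wp (m + n) - Wp (m + 1 + n) := by
    intro n
    induction n with
    | zero => simp
    | succ n ih =>
      rw [sum_range_succ, ih, show m + (n + 1) = m + 1 + n by ring,
        show m + 1 + (n + 1) = m + n + 2 by ring]
      ring
  have h5 : Tendsto (fun n : ℕ => ∑ i ∈ range n, ((Wp (m + i) : ℝ) - Wp (m + i + 2))) atTop
      (𝓝 ((Wp m + Wp (m + 1) : ℝ) - 0 - 0)) := by
    simp only [h4]
    exact (tendsto_const_nhds.sub (Wp_tendsto m)).sub (Wp_tendsto (m + 1))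
  have h6 := tendsto_nhds_unique h1.tendsto_sum_nat h5
  unfold SS
  linarith

theorem SS_00 : SS 0 0 = 3 / 4 * zeta2 := by
  have h : HasSum (fun i : ℕ => (Wp (0 + i) : ℝ) / ((0 : ℕ) + i + 1)) (0 + 3 / 4 * zeta2) := by
    refine HasSum.even_add_odd ?_ ?_
    · simp only [zero_add, Wp_even, Rat.cast_zero, zero_div]
      exact hasSum_zero
    · convert hasSum_base0 using 2 with l
      rw [zero_add, Wp_odd]
      push_cast
      congr 1
      ring
  rw [zero_add] at h
  exact h.tsum_eq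

theorem SS_10 : SS 1 0 = 2 * Gc := by
  have h : HasSum (fun i : ℕ => (Wp (1 + i) : ℝ) / ((0 : ℕ) + i + 1)) (2 * Gc + 0) := by
    refine HasSum.even_add_odd ?_ ?_
    · convert hasSum_base1 using 2 with l
      rw [add_comm 1, Wp_odd]
      push_cast
      congr 1
      ring
    · have : ∀ l : ℕ, Wp (1 + (2 * l + 1)) = 0 := fun l => by
        rw [show 1 + (2 * l + 1) = 2 * (l + 1) by ring, Wp_even]
      simp only [this, Rat.cast_zero, zero_div]
      exact hasSum_zero
  rw [add_zero] at h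
  exact h.tsum_eq

theorem Wp_zero : Wp 0 = 0 := Wp_even 0

theorem V_zero : V 0 = 1 := by simp [V, w]

theorem Wp_one : Wp 1 = 1 := (Wp_odd 0).trans V_zero

theorem SS_01 : SS 0 1 = 1 := by
  have := SS_rec 0 1
  simpa [Wp_zero, Wp_one] using this

theorem SS_20 : SS 2 0 = 1 := by
  have := SS_rec 0 0
  simpa [Wp_zero, Wp_one] using this

theorem SS_0_rec (k : ℕ) : ((k : ℝ) + 2) * SS 0 (k + 2) = (k + 1) * SS 0 k + 1 / (k + 2) := by
  have h1 := SS_rec 0 (k + 2)
  have h2 := SS_diag 1 (k + 1)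
  have h3 := SS_diag 0 k
  simp only [Wp_zero, Wp_one, zero_add, Rat.cast_zero, Rat.cast_one, zero_div, sub_zero,
    Nat.cast_add, Nat.cast_one, Nat.cast_ofNat, Nat.cast_zero] at h1 h2 h3
  rw [show 1 + 1 = 2 from rfl, show k + 1 + 1 = k + 2 from rfl, h3] at h2
  rw [h2] at h1
  have hd : (k : ℝ) + 2 ≠ 0 := by positivity
  have h4 : (1 : ℝ) / (k + 1 + 1) = 1 / (k + 2) := by ring
  rw [h4] at h1
  have h5 : ((k : ℝ) + 2) * (1 / (k + 2)) = 1 := by field_simp
  linarith

theorem SS_rec_0 (m : ℕ) :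
    ((m : ℝ) + 2) * SS (m + 3) 0 = (m + 1) * SS (m + 1) 0 + Wp (m + 1) + Wp (m + 2) := by
  have h1 := SS_rec (m + 1) 0
  push_cast at h1
  rw [show m + 1 + 2 = m + 3 from rfl, show m + 1 + 1 = m + 2 from rfl] at h1
  linarith

theorem s0_even (e : ℕ) : s0 (2 * e) = w e * ∑ l ∈ range e, V l / (2 * l + 2) := by
  unfold s0
  rw [if_pos (by omega), show 2 * e / 2 = e by omega]

theorem s0_odd (e : ℕ) : s0 (2 * e + 1) = V e * ∑ k ∈ range (e + 1), w k / (2 * k + 1) := by
  unfold s0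
  rw [if_neg (by omega), show (2 * e + 1) / 2 = e by omega]

theorem s1_even (e : ℕ) : s1 (2 * e) = w e * ∑ l ∈ range e, V l ^ 2 := by
  unfold s1
  rw [if_pos (by omega), show 2 * e / 2 = e by omega]

theorem s1_odd (e : ℕ) : s1 (2 * e + 1) = V e * ∑ l ∈ range (e + 1), (1 : ℚ) / (2 * l + 1) := by
  unfold s1
  rw [if_neg (by omega), show (2 * e + 1) / 2 = e by omega]

theorem SS_0_even (e : ℕ) : SS 0 (2 * e) = (s0 (2 * e) : ℝ) + 3 / 4 * zeta2 * (w e : ℝ) := by
  induction e with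
  | zero => simp [SS_00, s0, w]
  | succ e ih =>
    have h1 := SS_0_rec (2 * e)
    have h2 : (2 * e + 2 : ℚ) * s0 (2 * (e + 1)) = (2 * e + 1) * s0 (2 * e) + 1 / (2 * e + 2) := by
      rw [s0_even, s0_even, sum_range_succ, ← mul_assoc, w_succ, mul_add, mul_assoc (2 * e + 1 : ℚ),
        ← mul_div_assoc, V_mul_w]
    have h2' : (2 * e + 2 : ℝ) * s0 (2 * (e + 1)) = (2 * e + 1) * s0 (2 * e) + 1 / (2 * e + 2) := by
      have h := congrArg (Rat.cast : ℚ → ℝ) h2
      push_cast at h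
      exact h
    have h3 : (2 * e + 2 : ℝ) * w (e + 1) = (2 * e + 1) * w e := by exact_mod_cast w_succ e
    push_cast at h1
    rw [ih] at h1
    have hd : (2 * e + 2 : ℝ) ≠ 0 := by positivity
    refine mul_left_cancel₀ hd ?_
    rw [show 2 * (e + 1) = 2 * e + 2 by ring] at *
    rw [h1]
    linear_combination -h2' - 3 / 4 * zeta2 * h3

theorem SS_0_odd (e : ℕ) : SS 0 (2 * e + 1) = (s0 (2 * e + 1) : ℝ) := by
  induction e with
  | zero => simp [SS_01, s0, w, V_zero]
  | succ e ih =>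
    have h1 := SS_0_rec (2 * e + 1)
    have h2 : (2 * e + 3 : ℚ) * s0 (2 * (e + 1) + 1) =
        (2 * e + 2) * s0 (2 * e + 1) + 1 / (2 * e + 3) := by
      rw [s0_odd, s0_odd, sum_range_succ _ (e + 1), mul_add, mul_add, ← mul_assoc, V_succ, mul_assoc]
      congr 1
      have := V_mul_w (e + 1)
      push_cast at this ⊢
      have hd : (2 * e + 3 : ℚ) ≠ 0 := by positivity
      rw [show (2 * ((e : ℚ) + 1) + 1) = 2 * e + 3 by ring] at *
      field_simp
      linarith
    have h2' : (2 * e + 3 : ℝ) * s0 (2 * (e + 1) + 1) =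
        (2 * e + 2) * s0 (2 * e + 1) + 1 / (2 * e + 3) := by
      have h := congrArg (Rat.cast : ℚ → ℝ) h2
      push_cast at h
      exact h
    push_cast at h1
    rw [ih, show (2 * (e : ℝ) + 1 + 2) = 2 * e + 3 by ring] at h1
    have hd : (2 * e + 3 : ℝ) ≠ 0 := by positivity
    refine mul_left_cancel₀ hd ?_
    rw [show 2 * (e + 1) + 1 = 2 * e + 1 + 2 by ring] at *
    rw [h1]
    linear_combination -h2'

theorem SS_even_0 (e : ℕ) : SS (2 * e + 1) 0 = (s1 (2 * e) : ℝ) + Gc * (2 * w e : ℝ) := by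
  induction e with
  | zero => simp [SS_10, s1, w, mul_comm]
  | succ e ih =>
    have h1 := SS_rec_0 (2 * e)
    have h2 : (2 * e + 2 : ℚ) * s1 (2 * (e + 1)) = (2 * e + 1) * s1 (2 * e) + V e := by
      rw [s1_even, s1_even, sum_range_succ, ← mul_assoc, w_succ, mul_add, mul_assoc (2 * e + 1 : ℚ),
        sq (V e), ← mul_assoc _ (V e), V_mul_w, one_mul]
    have h2' : (2 * e + 2 : ℝ) * s1 (2 * (e + 1)) = (2 * e + 1) * s1 (2 * e) + V e := by
      exact_mod_cast h2
    have h3 : (2 * e + 2 : ℝ) * w (e + 1) = (2 * e + 1) * w e := by exact_mod_cast w_succ e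
    rw [Wp_odd, show 2 * e + 2 = 2 * (e + 1) by ring, Wp_even, ih] at h1
    push_cast at h1
    have hd : (2 * e + 2 : ℝ) ≠ 0 := by positivity
    refine mul_left_cancel₀ hd ?_
    rw [show 2 * (e + 1) + 1 = 2 * e + 3 by ring, h1]
    linear_combination -h2' - 2 * Gc * h3

theorem SS_odd_0 (e : ℕ) : SS (2 * e + 1 + 1) 0 = (s1 (2 * e + 1) : ℝ) := by
  induction e with
  | zero => simp [SS_20, s1, V_zero]
  | succ e ih =>
    have h1 := SS_rec_0 (2 * e + 1)
    have h2 : (2 * e + 3 : ℚ) * s1 (2 * (e + 1) + 1) = (2 * e + 2) * s1 (2 * e + 1) + V (e + 1) := by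
      rw [s1_odd, s1_odd, sum_range_succ _ (e + 1), mul_add, mul_add, ← mul_assoc, V_succ, mul_assoc]
      congr 1
      push_cast
      have hd : (2 * e + 3 : ℚ) ≠ 0 := by positivity
      rw [show (2 * ((e : ℚ) + 1) + 1) = 2 * e + 3 by ring]
      field_simp
    have h2' : (2 * e + 3 : ℝ) * s1 (2 * (e + 1) + 1) =
        (2 * e + 2) * s1 (2 * e + 1) + V (e + 1) := by
      exact_mod_cast h2
    rw [ih, show 2 * e + 1 + 1 = 2 * (e + 1) by ring, show 2 * e + 1 + 2 = 2 * (e + 1) + 1 by ring,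
      Wp_odd, Wp_even] at h1
    push_cast at h1
    have hd : (2 * e + 3 : ℝ) ≠ 0 := by positivity
    refine mul_left_cancel₀ hd ?_
    rw [show 2 * (e + 1) + 1 + 1 = 2 * e + 1 + 3 by ring]
    linear_combination h1 - h2'

theorem ZZ_diag (m k : ℕ) : ZZ (m + 1) (k + 1) = ZZ m k - 1 / (((m : ℝ) + 1) * (k + 1)) := by
  unfold ZZ
  rw [(summable_ZZ m k).tsum_eq_zero_add]
  simp only [Nat.cast_zero, add_zero, Nat.cast_add, Nat.cast_one]
  rw [add_sub_cancel_left]
  refine tsum_congr fun i => ?_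
  congr 1
  ring

theorem ZZ_comm (m k : ℕ) : ZZ m k = ZZ k m := by
  unfold ZZ
  exact tsum_congr fun i => by rw [mul_comm]

theorem hasSum_tel (j : ℕ) :
    HasSum (fun i : ℕ => (1 : ℝ) / (j + i + 1) - 1 / (j + i + 2)) (1 / (j + 1)) := by
  have hs : Summable fun i : ℕ => (1 : ℝ) / (j + i + 1) - 1 / (j + i + 2) := by
    refine (summable_ZZ j (j + 1)).congr fun i => ?_
    push_cast
    have h1 : (j : ℝ) + i + 1 ≠ 0 := by positivity
    have h2 : (j : ℝ) + i + 2 ≠ 0 := by positivity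
    rw [show (j : ℝ) + 1 + i + 1 = j + i + 2 by ring]
    field_simp
    ring
  refine hs.hasSum_iff_tendsto_nat.2 ?_
  have h4 : ∀ n : ℕ, ∑ i ∈ range n, ((1 : ℝ) / (j + i + 1) - 1 / (j + i + 2)) =
      1 / (j + 1) - 1 / ((n : ℝ) + (j + 1)) := by
    intro n
    induction n with
    | zero => simp
    | succ n ih =>
      rw [sum_range_succ, ih]
      push_cast
      rw [show (j : ℝ) + n + 1 = n + (j + 1) by ring, show (j : ℝ) + n + 2 = n + 1 + (j + 1) by ring]
      ring
  simp only [h4]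
  have h5 : Tendsto (fun n : ℕ => 1 / ((n : ℝ) + (j + 1))) atTop (𝓝 0) :=
    Tendsto.div_atTop tendsto_const_nhds
      (tendsto_atTop_add_const_right _ _ tendsto_natCast_atTop_atTop)
  simpa only [sub_zero] using (tendsto_const_nhds (x := (1 : ℝ) / (j + 1))).sub h5

theorem hasSum_harm (j : ℕ) :
    HasSum (fun i : ℕ => (1 : ℝ) / (i + 1) - 1 / (j + i + 1)) (harmonic j : ℝ) := by
  induction j with
  | zero => simp
  | succ j ih =>
    have h := ih.add (hasSum_tel j)
    rw [harmonic_succ]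
    push_cast
    convert h using 1
    · funext i
      rw [show (j : ℝ) + 1 + i + 1 = j + i + 2 by ring]
      ring
    · rw [one_div]

theorem ZZ_0 (j : ℕ) : ZZ 0 (j + 1) = (harmonic (j + 1) : ℝ) / (j + 1) := by
  have h := (hasSum_harm (j + 1)).div_const ((j : ℝ) + 1)
  rw [← h.tsum_eq]
  unfold ZZ
  refine tsum_congr fun i => ?_
  push_cast
  have h1 : (j : ℝ) + 1 ≠ 0 := by positivity
  have h2 : (i : ℝ) + 1 ≠ 0 := by positivity
  have h3 : (j : ℝ) + 1 + i + 1 ≠ 0 := by positivity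
  rw [zero_add]
  field_simp
  ring

end Ser

theorem SS_eq (m k : ℕ) :
    SS m k = (s m k : ℝ) + Gc * (al m k : ℝ) + 3 / 4 * zeta2 * (be m k : ℝ) := by
  induction m generalizing k with
  | zero =>
    have h1 : al 0 k = 0 := by simp [al]
    rw [h1, show s 0 k = s0 k by simp [s]]
    obtain ⟨e, rfl | rfl⟩ := Nat.even_or_odd' k
    · have h2 : be 0 (2 * e) = w e := by
        unfold be
        rw [if_pos (by omega), show (2 * e - 0) / 2 = e by omega]
      rw [h2, SS_0_even]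
      simp
    · have h2 : be 0 (2 * e + 1) = 0 := by
        unfold be
        rw [if_neg (by omega)]
      rw [h2, SS_0_odd]
      simp
  | succ m ih =>
    cases k with
    | zero =>
      have h1 : be (m + 1) 0 = 0 := by simp [be]
      rw [h1, show s (m + 1) 0 = s1 m by simp [s]]
      obtain ⟨e, rfl | rfl⟩ := Nat.even_or_odd' m
      · have h2 : al (2 * e + 1) 0 = 2 * w e := by
          unfold al
          rw [if_pos (by omega), show (2 * e + 1 - 0 - 1) / 2 = e by omega]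
        rw [h2, SS_even_0]
        simp
      · have h2 : al (2 * e + 1 + 1) 0 = 0 := by
          unfold al
          rw [if_neg (by omega)]
        rw [h2, SS_odd_0]
        simp
    | succ k =>
      have h1 : al (m + 1) (k + 1) = al m k := by
        unfold al
        simp only [Nat.add_lt_add_iff_right, Nat.add_sub_add_right]
      have h2 : be (m + 1) (k + 1) = be m k := by
        unfold be
        simp only [Nat.add_le_add_iff_right, Nat.add_sub_add_right]
      rw [SS_diag, ih, h1, h2, show s (m + 1) (k + 1) = s m k - Wp m / (k + 1) by simp [s]]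
      push_cast
      ring

theorem ZZ_eq (m k : ℕ) : ZZ m k = (z m k : ℝ) + if m = k then zeta2 else 0 := by
  induction m generalizing k with
  | zero =>
    cases k with
    | zero =>
      simp only [z, harmonic_zero, Nat.cast_zero, div_zero, Rat.cast_zero, if_true, zero_add]
      unfold ZZ zeta2
      refine tsum_congr fun i => ?_
      simp [sq]
    | succ k =>
      rw [ZZ_0, if_neg (by omega), show z 0 (k + 1) = harmonic (k + 1) / ((k + 1 : ℕ) : ℚ) by simp [z]]
      push_cast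
      ring
  | succ m ih =>
    cases k with
    | zero =>
      rw [ZZ_comm, ZZ_0, if_neg (by omega),
        show z (m + 1) 0 = harmonic (m + 1) / (m + 1) by simp [z]]
      push_cast
      ring
    | succ k =>
      rw [ZZ_diag, ih, show z (m + 1) (k + 1) = z m k - 1 / ((m + 1) * (k + 1)) by simp [z]]
      simp only [Nat.add_right_cancel_iff]
      push_cast
      ring

end Crest.Agent.R6
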