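import Crest.Agent.R6.Taylor
import Crest.Agent.R6.DetVal

/-! Crude valuation bounds at odd primes. -/

set_option autoImplicit false

namespace Crest.Agent.R6
open Polynomial Finset

variable {p : ℕ} [Fact p.Prime]

theorem ValA.one_le_p : (1 : ℚ) ≤ p := by exact_mod_cast (Fact.out : p.Prime).one_lt.le

theorem ValA.pn_pow (x : ℚ) (e : ℕ) : padicNorm p (x ^ e) = padicNorm p x ^ e := by
  induction e with
  | zero => simp
  | succ e ih => rw [pow_succ, padicNorm.mul, ih, pow_succ]

theorem ValA.pn_two (hp : p ≠ 2) : padicNorm p 2 = 1 :=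
  (padicNorm.nat_eq_one_iff 2).2 fun h =>
    hp ((Nat.prime_dvd_prime_iff_eq (Fact.out : p.Prime) Nat.prime_two).1 h)

theorem ValA.pn_four (hp : p ≠ 2) : padicNorm p 4 = 1 := by
  rw [show (4 : ℚ) = 2 * 2 by norm_num, padicNorm.mul, ValA.pn_two hp, one_mul]

theorem ValA.pn_34 (hp : p ≠ 2) : padicNorm p (3 / 4) ≤ 1 := by
  rw [padicNorm.div, ValA.pn_four hp, div_one]
  exact_mod_cast padicNorm.of_nat (p := p) 3

theorem ValA.pn_mul_le {x y a b : ℚ} (hx : padicNorm p x ≤ a) (hy : padicNorm p y ≤ b) :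
    padicNorm p (x * y) ≤ a * b := by
  rw [padicNorm.mul]
  exact mul_le_mul hx hy (padicNorm.nonneg _) ((padicNorm.nonneg _).trans hx)

theorem ValA.pn_add_le {x y a : ℚ} (hx : padicNorm p x ≤ a) (hy : padicNorm p y ≤ a) :
    padicNorm p (x + y) ≤ a := padicNorm.nonarchimedean.trans (max_le hx hy)

theorem ValA.pn_sub_le {x y a : ℚ} (hx : padicNorm p x ≤ a) (hy : padicNorm p y ≤ a) :
    padicNorm p (x - y) ≤ a := padicNorm.sub.trans (max_le hx hy)

theorem ValA.pow_log_mono {k B : ℕ} (h : k ≤ B) : (p : ℚ) ^ Nat.log p k ≤ (p : ℚ) ^ Nat.log p B :=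
  pow_le_pow_right₀ ValA.one_le_p (Nat.log_mono_right h)

theorem ValA.norm_inv_nat {n e : ℕ} (h : padicValNat p n ≤ e) : padicNorm p (1 / (n : ℚ)) ≤ (p : ℚ) ^ e := by
  rcases eq_or_ne n 0 with rfl | hn
  · simp
  · have hn' : (n : ℚ) ≠ 0 := by exact_mod_cast hn
    rw [padicNorm.div, padicNorm.one, padicNorm.eq_zpow_of_nonzero hn', padicValRat.of_nat, zpow_neg, one_div,
      inv_inv, zpow_natCast]
    exact pow_le_pow_right₀ ValA.one_le_p h

open ValA

theorem norm_w_le (hp : p ≠ 2) (e : ℕ) : padicNorm p (w e) ≤ 1 := by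
  rw [w, padicNorm.div, pn_pow, pn_four hp, one_pow, div_one]
  exact padicNorm.of_nat _

/-- `v_p((2l+1) C(2l,l)) ≤ log_p (2l+1)` (e.g. `(2l+1)C(2l,l) = (l+1) C(2l+1,l)`,
`Nat.factorization_choose` / `Nat.add_one_mul_choose..`, or it divides `lcm(1..2l+1)`). -/
theorem norm_V_le (hp : p ≠ 2) (l : ℕ) : padicNorm p (V l) ≤ (p : ℚ) ^ Nat.log p (2 * l + 1) := by
  have hp' : p.Prime := Fact.out
  have e : V l = 4 ^ l * (1 / (((2 * l + 1) * l.centralBinom : ℕ) : ℚ)) := by
    have : (l.centralBinom : ℚ) ≠ 0 := by exact_mod_cast l.centralBinom_ne_zero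
    unfold V w
    push_cast
    field_simp
  rw [e, padicNorm.mul, pn_pow, pn_four hp, one_pow, one_mul]
  refine norm_inv_nat ?_
  rw [← Nat.factorization_def _ hp', Nat.factorization_mul (by omega) l.centralBinom_ne_zero, Finsupp.add_apply,
    Nat.factorization_eq_card_pow_dvd_of_lt hp' (by omega) (Nat.lt_pow_succ_log_self hp'.one_lt _),
    Nat.centralBinom_eq_two_mul_choose, two_mul l,
    Nat.factorization_choose' hp' (Nat.lt_succ_of_le (Nat.log_mono_right (Nat.le_succ (l + l)))),
    ← card_union_of_disjoint]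
  · refine (card_le_card (union_subset (filter_subset _ _) (filter_subset _ _))).trans ?_
    simp
  · refine disjoint_filter.2 fun i _ h1 h2 => ?_
    have hq : 0 < p ^ i := pow_pos hp'.pos i
    generalize p ^ i = q at *
    have h3 := Nat.mod_lt l hq
    have h4 : q ∣ l % q + l % q + 1 := by
      rw [← Nat.div_add_mod l q, show q * (l / q) + l % q + (q * (l / q) + l % q) + 1 =
        q * (l / q + l / q) + (l % q + l % q + 1) by ring] at h1
      exact (Nat.dvd_add_right (dvd_mul_right _ _)).1 h1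
    obtain ⟨c, hc⟩ := h4
    rcases c with _ | _ | _ | c
    · omega
    · omega
    · omega
    · rw [mul_add, mul_add, mul_add] at hc
      omega

theorem norm_Wp_le (hp : p ≠ 2) (m : ℕ) : padicNorm p (Wp m) ≤ (p : ℚ) ^ Nat.log p m := by
  unfold Wp
  split_ifs with h
  · have := norm_V_le hp (m / 2)
    rwa [show 2 * (m / 2) + 1 = m by omega] at this
  · simp

/-- any prime. -/
theorem norm_inv_le {k B : ℕ} (hk : k ≤ B) :
    padicNorm p (1 / (k : ℚ)) ≤ (p : ℚ) ^ Nat.log p B := by
  exact norm_inv_nat ((padicValNat_le_nat_log k).trans (Nat.log_mono_right hk))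

theorem norm_al_le (hp : p ≠ 2) (m k : ℕ) : padicNorm p (al m k) ≤ 1 := by
  unfold al
  split_ifs
  · rw [padicNorm.mul, pn_two hp, one_mul]
    exact norm_w_le hp _
  · simp

theorem norm_be_le (hp : p ≠ 2) (m k : ℕ) : padicNorm p (be m k) ≤ 1 := by
  unfold be
  split_ifs
  · exact norm_w_le hp _
  · simp

theorem ValA.norm_V_le' (hp : p ≠ 2) {l B : ℕ} (h : 2 * l + 1 ≤ B) : padicNorm p (V l) ≤ (p : ℚ) ^ Nat.log p B :=
  (norm_V_le hp l).trans (pow_log_mono h)

theorem ValA.pn_div_le {x a : ℚ} {k B : ℕ} (hx : padicNorm p x ≤ a) (hk : k ≤ B) {y : ℚ} (hy : y = k) :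
    padicNorm p (x / y) ≤ a * (p : ℚ) ^ Nat.log p B := by
  rw [hy, div_eq_mul_one_div]
  exact pn_mul_le hx (norm_inv_le hk)

theorem ValA.norm_s_le' (hp : p ≠ 2) {m k B : ℕ} (hm : m ≤ B + 1) (hk : k ≤ B) :
    padicNorm p (s m k) ≤ (p : ℚ) ^ (2 * Nat.log p B) := by
  rw [two_mul, pow_add]
  induction k generalizing m with
  | zero =>
    rcases m with _ | m
    · simpa [s, s0] using mul_self_nonneg _
    · rw [s, s1]
      split_ifs with h
      · refine (pn_mul_le (norm_w_le hp _) (padicNorm.sum_le' (fun l hl => ?_) (by positivity))).trans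
          (one_mul _).le
        have := mem_range.1 hl
        rw [sq]
        exact pn_mul_le (norm_V_le' hp (by omega)) (norm_V_le' hp (by omega))
      · refine pn_mul_le (norm_V_le' hp (by omega)) (padicNorm.sum_le' (fun l hl => ?_) (by positivity))
        have := mem_range.1 hl
        have := norm_inv_le (p := p) (show 2 * l + 1 ≤ B by omega)
        push_cast at this
        exact this
  | succ k ih =>
    rcases m with _ | m
    · rw [s, s0]
      split_ifs with h
      · refine (pn_mul_le (norm_w_le hp _) (padicNorm.sum_le' (fun l hl => ?_) (by positivity))).trans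
          (one_mul _).le
        have := mem_range.1 hl
        exact pn_div_le (k := 2 * l + 2) (norm_V_le' hp (by omega)) (by omega) (by push_cast; rfl)
      · refine pn_mul_le (norm_V_le' hp (by omega)) (padicNorm.sum_le' (fun l hl => ?_) (by positivity))
        have := mem_range.1 hl
        exact (pn_div_le (k := 2 * l + 1) (norm_w_le hp _) (by omega) (by push_cast; rfl)).trans (one_mul _).le
    · rw [s]
      exact pn_sub_le (ih (by omega) (by omega)) (pn_div_le (k := k + 1)
        ((norm_Wp_le hp m).trans (pow_log_mono (by omega))) hk (by push_cast; rfl))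

theorem ValA.norm_harm {k B : ℕ} (hk : k ≤ B) : padicNorm p (harmonic k) ≤ (p : ℚ) ^ Nat.log p B :=
  padicNorm.sum_le' (fun i hi => by
    rw [inv_eq_one_div]
    exact norm_inv_le ((mem_range.1 hi).trans_le hk)) (by positivity)

theorem norm_s_le (hp : p ≠ 2) {m k B : ℕ} (hm : m ≤ B) (hk : k ≤ B) :
    padicNorm p (s m k) ≤ (p : ℚ) ^ (2 * Nat.log p B) := by
  exact norm_s_le' hp (by omega) hk

/-- any prime. -/
theorem norm_z_le {m k B : ℕ} (hm : m ≤ B) (hk : k ≤ B) :
    padicNorm p (z m k) ≤ (p : ℚ) ^ (2 * Nat.log p B) := by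
  rw [two_mul, pow_add]
  induction k generalizing m with
  | zero =>
    rcases m with _ | m
    · simpa [z] using mul_self_nonneg _
    · rw [z]
      exact pn_div_le (norm_harm hm) hm (by push_cast; rfl)
  | succ k ih =>
    rcases m with _ | m
    · rw [z]
      exact pn_div_le (norm_harm hk) hk rfl
    · rw [z, ← div_div]
      refine pn_sub_le (ih (by omega) (by omega)) (pn_div_le (k := k + 1) ?_ hk (by push_cast; rfl))
      have := norm_inv_le (p := p) hm
      push_cast at this
      exact this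

/-- sharper integrality used for the level-one values. -/
theorem norm_s_le_one (hp : p ≠ 2) {m k : ℕ} (hm : m ≤ p) (hk : k < p) :
    padicNorm p (s m k) ≤ 1 := by
  have := norm_s_le' hp (m := m) (k := k) (B := p - 1) (by omega) (by omega)
  rwa [Nat.log_of_lt (by omega), mul_zero, pow_zero] at this

theorem norm_Phi_le (hp : p ≠ 2) {γ : ℚ} {v : ℕ} (hγ : padicNorm p γ ≤ (p : ℚ) ^ v)
    {P D : ℤ[X]} {k B : ℕ} (hP : P.natDegree ≤ B) (hD : D.natDegree ≤ B) (hk : k ≤ B) :
    padicNorm p (Phi γ P D k) ≤ (p : ℚ) ^ (2 * Nat.log p B + v) := by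
  have h1 : (p : ℚ) ^ (2 * Nat.log p B) ≤ (p : ℚ) ^ (2 * Nat.log p B + v) :=
    pow_le_pow_right₀ one_le_p (by omega)
  have h2 : (p : ℚ) ^ v ≤ (p : ℚ) ^ (2 * Nat.log p B + v) := pow_le_pow_right₀ one_le_p (by omega)
  refine pn_sub_le (padicNorm_pair_le p _ _ _ (by positivity) fun m hm => pn_add_le ?_ ?_) ?_
  · exact (norm_s_le hp ((le_natDegree_of_ne_zero hm).trans hP) hk).trans h1
  · exact (pn_mul_le hγ (norm_al_le hp m k)).trans ((mul_one _).trans_le h2)
  · exact (pn_mul_le (pn_34 hp) (padicNorm_pair_le p _ _ _ (by positivity) fun m hm =>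
      (norm_z_le ((le_natDegree_of_ne_zero hm).trans hD) hk).trans h1)).trans (one_mul _).le

theorem det_crude (hp : p ≠ 2) {γ : ℚ} {v : ℕ} (hγ : padicNorm p γ ≤ (p : ℚ) ^ v) {N : ℕ}
    (hN : 1 ≤ N) :
    padicNorm p (Emat γ N).det ≤ (p : ℚ) ^ (32 * N * (2 * Nat.log p (44 * N) + v)) := by
  have := detval_basic p (Emat γ N) (fun _ => ((2 * Nat.log p (44 * N) + v : ℕ) : ℤ)) (fun _ => 0) fun i j => by
    rw [add_zero, zpow_natCast]
    have hi := i.2
    have hj := j.2
    refine padicNorm_pair_le p _ _ _ (by positivity) fun k hk => norm_Phi_le hp hγ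
      (natDegree_Prow_le (by omega)) ((natDegree_Drow_le hN (by omega)).trans (Nat.sub_le _ _)) ?_
    have := (coeff_col_ne_zero hk).2
    omega
  rwa [sum_const_zero, add_zero, sum_const, card_univ, Fintype.card_fin, nsmul_eq_mul, ← Nat.cast_mul,
    zpow_natCast] at this

end Crest.Agent.R6
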